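import Vale.Agent.P146L.Defs

/-! Algebra of Parisi matrices. -/

set_option linter.all false

namespace Vale.Agent.P146L

open MeasureTheory ProbabilityTheory Real Finset Filter Topology Vale.Agent.P146M Vale.Agent.P146

noncomputable section

/-- eigenvalue of a Parisi matrix -/
def lam (k j : ℕ) (A : ℕ → ℂ) (Ad : ℂ) : ℂ :=
  Ad - (1 / (k : ℂ)) * ∑ l ∈ Ioo j k, A l - ((j : ℂ) + 1) / k * A j

theorem alg_Ioo {j k : ℕ} (h : j + 1 < k) {α : Type*} [AddCommMonoid α] (f : ℕ → α) :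
    ∑ l ∈ Ioo j k, f l = f (j + 1) + ∑ l ∈ Ioo (j + 1) k, f l := by
  have e : Ioo j k = insert (j + 1) (Ioo (j + 1) k) := by
    ext l
    simp only [mem_Ioo, mem_insert]
    omega
  rw [e, sum_insert (by simp)]

theorem alg_lam (q : ℕ → ℝ) (T : ℕ → ℂ) (n : ℕ) : ∀ j k : ℕ, k = j + 1 + n →
    lam k j (QT k q T) (QTd k q T) = lam k j (fun l => q l) 1 * lam k j T (T (k + 1)) := by
  induction n with
  | zero =>
    intro j k hk
    have e : Ioo j k = ∅ := by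
      ext l
      simp only [mem_Ioo, notMem_empty, iff_false]
      omega
    have hk' : k = j + 1 := hk
    have h0 : (k : ℂ) = j + 1 := by rw [hk']; push_cast; ring
    have h1 : ((j : ℂ) + 1) ≠ 0 := by exact_mod_cast j.succ_ne_zero
    have h2 : ∑ l ∈ range k, (q l : ℂ) * T l = ∑ l ∈ range j, (q l : ℂ) * T l + q j * T j := by
      rw [hk', sum_range_succ]
    simp only [lam, QT, QTd, e, sum_empty, h2, h0]
    field_simp
    ring
  | succ n ih =>
    intro j k hk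
    have h1 := ih (j + 1) k (by omega)
    have h2 : j + 1 < k := by omega
    simp only [lam] at h1 ⊢
    rw [alg_Ioo h2, alg_Ioo h2, alg_Ioo h2]
    have e1 : QT k q T j = q j * (T (k + 1) - (1 / (k : ℂ)) *
        (T (j + 1) + ∑ l ∈ Ioo (j + 1) k, T l)) + T j * (1 - (1 / (k : ℂ)) *
        (q (j + 1) + ∑ l ∈ Ioo (j + 1) k, (q l : ℂ)) - ((j : ℂ) + 2) / k * q j) -
        (1 / (k : ℂ)) * ∑ l ∈ range j, q l * T l := by
      rw [QT, alg_Ioo h2, alg_Ioo h2]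
    have e2 : QT k q T (j + 1) = q (j + 1) * (T (k + 1) - (1 / (k : ℂ)) *
        ∑ l ∈ Ioo (j + 1) k, T l) + T (j + 1) * (1 - (1 / (k : ℂ)) *
        (∑ l ∈ Ioo (j + 1) k, (q l : ℂ)) - ((j : ℂ) + 1 + 2) / k * q (j + 1)) -
        (1 / (k : ℂ)) * (∑ l ∈ range j, q l * T l + q j * T j) := by
      rw [QT, sum_range_succ]
      push_cast
      rfl
    push_cast at h1
    rw [e2] at h1
    rw [e1, e2]
    linear_combination h1

/-- Multiplicativity (checked numerically). Induct downwards on `j`, or expand the double sums;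
`lam k j A Ad - lam k (j + 1) A Ad = (j + 1) / k * (A (j + 1) - A j)` for `j + 1 < k`. -/
theorem lam_QT {k j : ℕ} (hj : j < k) (q : ℕ → ℝ) (T : ℕ → ℂ) :
    lam k j (QT k q T) (QTd k q T) = lam k j (fun l => q l) 1 * lam k j T (T (k + 1)) :=
  alg_lam q T (k - (j + 1)) j k (by omega)

theorem alg_id {k j : ℕ} (hj : j < k) (q : ℕ → ℝ) (T : ℕ → ℂ) (ω b : ℂ) :
    (ω - b * lam k j (fun l => q l) 1) * ((ω - b * lam k j (fun l => q l) 1) * T j -
      b * ((j : ℂ) / k * q j * T j - (1 / (k : ℂ)) * ∑ l ∈ range j, q l * T l) -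
      (ω * T j - q j - b * QT k q T j)) =
    q j * ω + b * q j * lam k j (fun l => ω * T l - q l - b * QT k q T l)
      (ω * T (k + 1) - 1 - b * QTd k q T) := by
  have h1 := lam_QT hj q T
  have h2 : lam k j (fun l => ω * T l - q l - b * QT k q T l)
      (ω * T (k + 1) - 1 - b * QTd k q T) = ω * lam k j T (T (k + 1)) -
      lam k j (fun l => q l) 1 - b * lam k j (QT k q T) (QTd k q T) := by
    simp only [lam, sum_sub_distrib, ← mul_sum]
    ring
  have h3 : QT k q T j = q j * lam k j T (T (k + 1)) + lam k j (fun l => q l) 1 * T j +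
      ((j : ℂ) / k * q j * T j - (1 / (k : ℂ)) * ∑ l ∈ range j, q l * T l) := by
    simp only [lam, QT]
    ring
  rw [h2, h1, h3]
  ring

theorem alg_lam_le {k j : ℕ} (hj : j < k) {E : ℕ → ℂ} {Ed : ℂ} {c : ℝ} (h1 : ‖E j‖ ≤ c)
    (h2 : ‖Ed‖ ≤ c) (h3 : (1 / (k : ℝ)) * ∑ l ∈ range k, ‖E l‖ ≤ c) : ‖lam k j E Ed‖ ≤ 3 * c := by
  have hk : (0 : ℝ) < k := by exact_mod_cast (Nat.zero_le j).trans_lt hj
  have a1 : ‖(1 / (k : ℂ)) * ∑ l ∈ Ioo j k, E l‖ ≤ c := by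
    rw [norm_mul, norm_div, norm_one, Complex.norm_natCast]
    refine le_trans (mul_le_mul_of_nonneg_left ((norm_sum_le _ _).trans ?_) (by positivity)) h3
    refine sum_le_sum_of_subset_of_nonneg (fun l hl => ?_) fun _ _ _ => norm_nonneg _
    exact mem_range.2 (mem_Ioo.1 hl).2
  have a2 : ‖((j : ℂ) + 1) / k * E j‖ ≤ c := by
    have e : ((j : ℂ) + 1) = ((j + 1 : ℕ) : ℂ) := by push_cast; rfl
    rw [norm_mul, norm_div, e, Complex.norm_natCast, Complex.norm_natCast]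
    have h4 : ((j + 1 : ℕ) : ℝ) / k ≤ 1 := (div_le_one hk).2 (by exact_mod_cast hj)
    exact (mul_le_of_le_one_left (norm_nonneg _) h4).trans h1
  have a3 := norm_sub_le (Ed - (1 / (k : ℂ)) * ∑ l ∈ Ioo j k, E l) (((j : ℂ) + 1) / k * E j)
  have a4 := norm_sub_le Ed ((1 / (k : ℂ)) * ∑ l ∈ Ioo j k, E l)
  rw [lam]
  linarith

theorem alg_chi {k j : ℕ} (hj : j < k) {q : ℕ → ℝ} (hq : ∀ l < k, 0 ≤ q l ∧ q l ≤ 1)
    (hm : ∀ l ≤ j, q l ≤ q j) : ∃ χ : ℝ, lam k j (fun l => q l) 1 = χ ∧ 0 ≤ χ ∧ χ ≤ 1 ∧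
      0 ≤ 1 - (1 / (k : ℝ)) * ∑ l ∈ range k, q l - χ ∧
      1 - (1 / (k : ℝ)) * ∑ l ∈ range k, q l - χ ≤ zt k j * q j := by
  have hk : (0 : ℝ) < k := by exact_mod_cast (Nat.zero_le j).trans_lt hj
  have e : ∑ l ∈ range k, q l = ∑ l ∈ range (j + 1), q l + ∑ l ∈ Ioo j k, q l := by
    rw [← sum_union]
    · congr 1
      ext l
      simp only [mem_range, mem_union, mem_Ioo]
      omega
    · rw [disjoint_left]
      intro l h1 h2
      rw [mem_range] at h1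
      rw [mem_Ioo] at h2
      omega
  have a1 : 0 ≤ ∑ l ∈ Ioo j k, q l := sum_nonneg fun l hl => (hq l (mem_Ioo.1 hl).2).1
  have a2 : ∑ l ∈ Ioo j k, q l ≤ (k : ℝ) - (j + 1) := by
    have h1 := sum_le_card_nsmul (Ioo j k) q 1 fun l hl => (hq l (mem_Ioo.1 hl).2).2
    rw [Nat.card_Ioo, nsmul_eq_mul, mul_one, Nat.sub_sub, Nat.cast_sub hj] at h1
    exact_mod_cast h1
  have a3 : 0 ≤ ∑ l ∈ range (j + 1), q l :=
    sum_nonneg fun l hl => (hq l (by rw [mem_range] at hl; omega)).1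
  have a4 : ∑ l ∈ range (j + 1), q l ≤ ((j : ℝ) + 1) * q j := by
    have h1 := sum_le_card_nsmul (range (j + 1)) q (q j) fun l hl =>
      hm l (by rw [mem_range] at hl; omega)
    rw [card_range, nsmul_eq_mul] at h1
    exact_mod_cast h1
  have a5 : ((j : ℝ) + 1) * q j ≤ (j : ℝ) + 1 :=
    mul_le_of_le_one_right (by positivity) (hq j hj).2
  have a6 : 0 ≤ ((j : ℝ) + 1) * q j := mul_nonneg (by positivity) (hq j hj).1
  refine ⟨(k - (∑ l ∈ Ioo j k, q l + ((j : ℝ) + 1) * q j)) / k, ?_, ?_, ?_, ?_, ?_⟩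
  · have h0 : (k : ℂ) ≠ 0 := by exact_mod_cast hk.ne'
    rw [lam]
    push_cast
    field_simp
    ring
  · exact div_nonneg (by linarith) hk.le
  · exact (div_le_one hk).2 (by linarith)
  · have e2 : 1 - (1 / (k : ℝ)) * ∑ l ∈ range k, q l -
        (k - (∑ l ∈ Ioo j k, q l + ((j : ℝ) + 1) * q j)) / k =
        (((j : ℝ) + 1) * q j - ∑ l ∈ range (j + 1), q l) / k := by
      rw [e]
      field_simp
      ring
    rw [e2]
    exact div_nonneg (by linarith) hk.le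
  · have e2 : 1 - (1 / (k : ℝ)) * ∑ l ∈ range k, q l -
        (k - (∑ l ∈ Ioo j k, q l + ((j : ℝ) + 1) * q j)) / k =
        (((j : ℝ) + 1) * q j - ∑ l ∈ range (j + 1), q l) / k := by
      rw [e]
      field_simp
      ring
    rw [e2, zt, div_mul_eq_mul_div]
    exact div_le_div_of_nonneg_right (by linarith) hk.le

theorem alg_R {k j : ℕ} (hj : j < k) {q : ℕ → ℝ} {T : ℕ → ℂ} {Bd : ℝ}
    (hq : ∀ l < k, 0 ≤ q l ∧ q l ≤ 1) (hm : ∀ l ≤ j, q l ≤ q j) (hT : ∀ l < k, ‖T l‖ ≤ Bd) :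
    ‖(j : ℂ) / k * q j * T j - (1 / (k : ℂ)) * ∑ l ∈ range j, q l * T l‖ ≤
      2 * (zt k j * q j * Bd) := by
  have hk : (0 : ℝ) < k := by exact_mod_cast (Nat.zero_le j).trans_lt hj
  have hB : 0 ≤ Bd := (norm_nonneg _).trans (hT j hj)
  have hqj := (hq j hj).1
  have a0 : (j : ℝ) / k * (q j * Bd) ≤ zt k j * q j * Bd := by
    rw [mul_assoc]
    exact mul_le_mul_of_nonneg_right (div_le_div_of_nonneg_right (by linarith) hk.le)
      (mul_nonneg hqj hB)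
  have a1 : ‖(j : ℂ) / k * q j * T j‖ ≤ (j : ℝ) / k * (q j * Bd) := by
    rw [norm_mul, norm_mul, norm_div, Complex.norm_natCast, Complex.norm_natCast,
      Complex.norm_real, Real.norm_of_nonneg hqj, mul_assoc]
    exact mul_le_mul_of_nonneg_left (mul_le_mul_of_nonneg_left (hT j hj) hqj) (by positivity)
  have a2 : ‖(1 / (k : ℂ)) * ∑ l ∈ range j, q l * T l‖ ≤ (j : ℝ) / k * (q j * Bd) := by
    have h1 : ‖∑ l ∈ range j, q l * T l‖ ≤ ∑ l ∈ range j, q j * Bd := by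
      refine norm_sum_le_of_le _ fun l hl => ?_
      have hl' := mem_range.1 hl
      rw [norm_mul, Complex.norm_real, Real.norm_of_nonneg (hq l (by omega)).1]
      exact mul_le_mul (hm l hl'.le) (hT l (by omega)) (norm_nonneg _) hqj
    rw [sum_const, card_range, nsmul_eq_mul] at h1
    rw [norm_mul, norm_div, norm_one, Complex.norm_natCast]
    calc 1 / (k : ℝ) * ‖∑ l ∈ range j, q l * T l‖ ≤ 1 / (k : ℝ) * (j * (q j * Bd)) :=
          mul_le_mul_of_nonneg_left h1 (by positivity)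
      _ = _ := by ring
  have a3 := norm_sub_le ((j : ℂ) / k * q j * T j) ((1 / (k : ℂ)) * ∑ l ∈ range j, q l * T l)
  linarith

theorem alg_D {β b δ χ χ0 : ℝ} (hβ : 0 < β) (hδ : 0 < δ) (h0 : 0 ≤ χ) (h1 : χ ≤ 1)
    (h2 : 0 ≤ χ0 - χ) (h3 : χ0 - χ ≤ 4 * δ) (h4 : |1 - β * χ0| ≤ δ) (h5 : b ≤ β)
    (h6 : β - b ≤ β * δ) : ‖om δ - b * χ‖ ≤ (3 + 5 * β) * δ := by
  refine (Complex.norm_le_abs_re_add_abs_im _).trans ?_
  have e1 : (om δ - b * χ).re = 1 + δ - b * χ := by simp [om]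
  have e2 : (om δ - b * χ).im = δ := by simp [om]
  rw [e1, e2, abs_of_pos hδ]
  have a1 := abs_le.1 h4
  have a2 : 0 ≤ β * (χ0 - χ) := mul_nonneg hβ.le h2
  have a3 : β * (χ0 - χ) ≤ β * (4 * δ) := mul_le_mul_of_nonneg_left h3 hβ.le
  have a4 : 0 ≤ (β - b) * χ := mul_nonneg (by linarith) h0
  have a5 : (β - b) * χ ≤ β - b := mul_le_of_le_one_right (by linarith) h1
  have a6 : 0 < β * δ := mul_pos hβ hδ
  have a7 : |1 + δ - b * χ| ≤ (2 + 5 * β) * δ := by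
    rw [abs_le]
    constructor <;> nlinarith
  linarith

/-- With `χ = lam k j q 1`, `D = ω - b χ`, `E l = ω T l - q l - b QT l`, `Ed` likewise:
`D * lam T = χ + lam E` and `QT j = q j * lam T + χ T j + (j / k) q j T j - (1 / k) ∑_{l<j} q l T l`,
so `D (D T j - b ((j / k) q j T j - (1 / k) ∑_{l<j} q l T l) - E j) = q j ω + b q j lam E`.
`χ` is real, `0 ≤ χ ≤ 1`, `0 ≤ χ0 - χ ≤ (j + 1) / k * q j ≤ 4 δ`, so `δ ≤ |D| ≤ (3 + 5 β) δ`.
Take norms: `s ≤ K δ ((K + 8 β) δ Bd + c) + 6 β s c` with `K = 3 + 5 β`, `δ ≤ s`. -/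
theorem alg_bound (β : ℝ) (hβ : 0 < β) : ∃ c, 0 < c ∧ ∀ (k j : ℕ) (q : ℕ → ℝ) (T : ℕ → ℂ)
    (b m s Bd : ℝ), j < k → 0 < m → m ≤ 1 → 0 < s → s ≤ q j → q j ≤ 2 * s →
    (∀ l < k, 0 ≤ q l ∧ q l ≤ 1) → (∀ l ≤ j, q l ≤ q j) → zt k j ≤ 2 * m →
    |1 - β * (1 - (1 / (k : ℝ)) * ∑ l ∈ range k, q l)| ≤ m * s → 0 ≤ b → b ≤ β →
    β - b ≤ β * (m * s) → (∀ l < k, ‖T l‖ ≤ Bd) →
    ‖om (m * s) * T j - q j - b * QT k q T j‖ ≤ c →
    ‖om (m * s) * T (k + 1) - 1 - b * QTd k q T‖ ≤ c →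
    (1 / (k : ℝ)) * ∑ l ∈ range k, ‖om (m * s) * T l - q l - b * QT k q T l‖ ≤ c →
    c ≤ m * (m * s) * Bd := by
  obtain ⟨K, hK⟩ : ∃ K, K = 3 + 5 * β := ⟨_, rfl⟩
  have hK0 : 0 < K := by rw [hK]; positivity
  have hL : 0 < K * (K + 8 * β) + (K + 6 * β) := by positivity
  obtain ⟨c, hc⟩ : ∃ c, c = 1 / (K * (K + 8 * β) + (K + 6 * β)) := ⟨_, rfl⟩
  have hc0 : 0 < c := by rw [hc]; positivity
  have hc1 : (K * (K + 8 * β) + (K + 6 * β)) * c = 1 := by rw [hc]; field_simp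
  refine ⟨c, hc0, fun k j q T b m s Bd hj hm hm1 hs hs1 hs2 hq hqm hz hχ0 hb0 hb hb' hT e1 e2 e3 =>
    ?_⟩
  have hδ : 0 < m * s := mul_pos hm hs
  have hδs : m * s ≤ s := mul_le_of_le_one_left hs.le hm1
  have hB : 0 ≤ Bd := (norm_nonneg _).trans (hT j hj)
  have hqj := (hq j hj).1
  have hzq : zt k j * q j ≤ 4 * (m * s) := by
    have h1 := mul_le_mul hz hs2 hqj (by positivity)
    linarith
  obtain ⟨χ, hχ, c0, c1, c2, c3⟩ := alg_chi hj hq hqm
  have hD := alg_D hβ hδ c0 c1 c2 (c3.trans hzq) hχ0 hb hb'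
  rw [← hK] at hD
  have hR := (alg_R hj hq hqm hT).trans (mul_le_mul_of_nonneg_left
    (mul_le_mul_of_nonneg_right hzq hB) zero_le_two)
  have hE := alg_lam_le (E := fun l => om (m * s) * T l - q l - b * QT k q T l) hj e1 e2 e3
  have hid := alg_id hj q T (om (m * s)) b
  rw [hχ] at hid
  generalize lam k j (fun l => om (m * s) * T l - q l - b * QT k q T l)
    (om (m * s) * T (k + 1) - 1 - b * QTd k q T) = Λ at hid hE
  generalize (j : ℂ) / k * q j * T j - (1 / (k : ℂ)) * ∑ l ∈ range j, q l * T l = R at hid hR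
  generalize om (m * s) * T j - q j - b * QT k q T j = E at hid e1
  generalize hDD : om (m * s) - b * χ = D at hid hD
  have n1 : s ≤ ‖(q j : ℂ) * om (m * s)‖ := by
    rw [norm_mul, Complex.norm_real, Real.norm_of_nonneg hqj]
    have h1 : 1 ≤ ‖om (m * s)‖ := by
      refine le_trans ?_ (Complex.re_le_norm _)
      simp only [om]
      linarith
    exact hs1.trans (le_mul_of_one_le_right hqj h1)
  have n2 : ‖(b : ℂ) * q j * Λ‖ ≤ β * (2 * s) * (3 * c) := by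
    rw [norm_mul, norm_mul, Complex.norm_real, Complex.norm_real, Real.norm_of_nonneg hb0,
      Real.norm_of_nonneg hqj]
    exact mul_le_mul (mul_le_mul hb hs2 hqj hβ.le) hE (norm_nonneg _) (by positivity)
  have n3 : ‖D * T j - b * R - E‖ ≤ K * (m * s) * Bd + β * (2 * (4 * (m * s) * Bd)) + c := by
    refine (norm_sub_le _ _).trans (add_le_add ((norm_sub_le _ _).trans (add_le_add ?_ ?_)) e1)
    · rw [norm_mul]
      exact mul_le_mul hD (hT j hj) (norm_nonneg _) (by positivity)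
    · rw [norm_mul, Complex.norm_real, Real.norm_of_nonneg hb0]
      exact mul_le_mul hb hR (norm_nonneg _) hβ.le
  have n4 : ‖D * (D * T j - b * R - E)‖ ≤
      K * (m * s) * (K * (m * s) * Bd + β * (2 * (4 * (m * s) * Bd)) + c) := by
    rw [norm_mul]
    exact mul_le_mul hD n3 (norm_nonneg _) (by positivity)
  have n5 : ‖(q j : ℂ) * om (m * s)‖ ≤ ‖D * (D * T j - b * R - E)‖ + ‖(b : ℂ) * q j * Λ‖ := by
    rw [hid]
    have h1 := norm_sub_le ((q j : ℂ) * om (m * s) + b * q j * Λ) (b * q j * Λ)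
    rwa [add_sub_cancel_right] at h1
  have n6 : K * (m * s) * c ≤ K * s * c :=
    mul_le_mul_of_nonneg_right (mul_le_mul_of_nonneg_left hδs hK0.le) hc0.le
  have n7 : s * 1 ≤ s * (K * (K + 8 * β) * (m * (m * s) * Bd) + (K + 6 * β) * c) := by
    linarith
  have n8 := le_of_mul_le_mul_left n7 hs
  have n9 : K * (K + 8 * β) * c ≤ K * (K + 8 * β) * (m * (m * s) * Bd) := by linarith
  exact le_of_mul_le_mul_left n9 (by positivity)

end

end Vale.Agent.P146L
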