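import Vale.Agent.P146L.Defs

/-! Static inequality: lower bounds for the potential. -/

set_option linter.all false

namespace Vale.Agent.P146L

open MeasureTheory ProbabilityTheory Real Finset Filter Topology Vale.Agent.P146M Vale.Agent.P146

noncomputable section

theorem St3a_aff {X c h h' y ys hm k : ℝ} (hX : 0 ≤ X) (hB : 0 ≤ X + hm * (k + ys * c / y))
    (y0 : 0 < y) (h0 : 0 ≤ h) (h1 : h ≤ hm) (l : h ≤ h') (r : h' * y ≤ h * ys) (hk : 0 ≤ k) :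
    0 ≤ X + h' * c + k * h := by
  rcases le_total 0 c with hc | hc
  · have := mul_nonneg (h0.trans l) hc
    have := mul_nonneg hk h0
    linarith
  have h2 : h * ys / y * c ≤ h' * c := mul_le_mul_of_nonpos_right ((le_div_iff₀ y0).2 r) hc
  have h3 : h * ys / y * c = h * (ys * c / y) := by ring
  rcases le_total 0 (k + ys * c / y) with h4 | h4
  · have := mul_nonneg h0 h4
    nlinarith
  · have := mul_le_mul_of_nonpos_right h1 h4
    nlinarith

theorem St3a_out {s Y y h h' : ℝ} (hY : 0 < Y) (hy : Y < y ^ 2) (r : h' ≤ h) (hs : s ≤ 3)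
    (e : 6 - 4 * s = 2 * Y * (1 - h)) : (3 - s) * (1 - h) + s * (1 - s) / y ^ 2 ≤ Pot s Y y h' := by
  have h1 : 0 < y ^ 2 - Y := sub_pos.2 hy
  have h2 : Pot s Y y h' = (3 - s) * (1 - h') + s * (1 - s) / y ^ 2
      + 2 * Y * (h - h') / (y ^ 2 - Y) := by
    have h3 : Y - y ^ 2 ≠ 0 := by linarith
    unfold Pot
    rw [e]
    field_simp
    ring
  have h4 : 0 ≤ 2 * Y * (h - h') / (y ^ 2 - Y) := by
    have := sub_nonneg.2 r
    positivity
  have h5 := mul_le_mul_of_nonneg_left (sub_le_sub_left r 1) (sub_nonneg.2 hs)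
  linarith

/-! `Pot` is affine in its last argument, so only the end points `h' = h` and `h' = h * ys / y`
matter; then the difference is affine in `h`, so only `h = 0` and the largest `h` matter. This
leaves three polynomial inequalities in `y` after clearing denominators (margins: 0.027 for the
first lemma, 0.045 for the second, relative to `Pot`). Subdivide the range of `y` if needed. -/

theorem pot_in1 {y h h' : ℝ} (y0 : 0 < y) (y1 : y < 3 / 2) (h0 : 0 ≤ h) (h1 : h ≤ 0.48)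
    (l : h ≤ h') (r : h' * y ≤ h * (3 / 2)) :
    3.3 - 0.7 * h ≤ Pot (1 / 4) ((3 / 2) ^ 2) y h' := by
  have hD : 0 < 9 / 4 - y ^ 2 := by nlinarith
  have hD' : 9 - y ^ 2 * 4 ≠ 0 := by linarith
  have hD'' : 9 - 4 * y ^ 2 ≠ 0 := by linarith
  have h2 := St3a_aff (X := (8.8 * y ^ 4 - 14.8 * y ^ 2 + 6.75) / (16 * y ^ 2 * (9 / 4 - y ^ 2)))
    (c := 2 * y ^ 2 / (9 / 4 - y ^ 2) - 3 / 4) (k := 0.7)
    (div_nonneg (by nlinarith [sq_nonneg (y ^ 2 - 0.84)]) (by positivity)) (by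
      have e : (8.8 * y ^ 4 - 14.8 * y ^ 2 + 6.75) / (16 * y ^ 2 * (9 / 4 - y ^ 2))
          + 0.48 * (0.7 + 3 / 2 * (2 * y ^ 2 / (9 / 4 - y ^ 2) - 3 / 4) / y)
          = (3.424 * y ^ 4 + 31.68 * y ^ 3 - 2.704 * y ^ 2 - 19.44 * y + 6.75)
            / (16 * y ^ 2 * (9 / 4 - y ^ 2)) := by
        field_simp
        ring
      rw [e]
      refine div_nonneg ?_ (by positivity)
      nlinarith [mul_nonneg y0.le (sq_nonneg (y - 0.46)), sq_nonneg (y - 0.49), sq_nonneg (y ^ 2)])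
    y0 h0 h1 l r (by norm_num)
  have e : Pot (1 / 4) ((3 / 2) ^ 2) y h'
      = (8.8 * y ^ 4 - 14.8 * y ^ 2 + 6.75) / (16 * y ^ 2 * (9 / 4 - y ^ 2))
        + h' * (2 * y ^ 2 / (9 / 4 - y ^ 2) - 3 / 4) + 3.3 := by
    have e1 : ((3 / 2) ^ 2 : ℝ) = 9 / 4 := by norm_num
    rw [Pot, e1]
    field_simp
    ring
  linarith

theorem pot_in2 {y h h' : ℝ} (y0 : 0 < y) (y1 : y < 5 / 4) (h0 : 0 ≤ h) (h1 : h ≤ 0.81)
    (l : h ≤ h') (r : h' * y ≤ h * (5 / 4)) :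
    4.75 - 1.1 * h ≤ Pot (1 / 4) ((5 / 4) ^ 2) y h' := by
  have hD : 0 < 25 / 16 - y ^ 2 := by nlinarith
  have hD' : 25 - y ^ 2 * 16 ≠ 0 := by linarith
  have h2 := St3a_aff (X := (32 * y ^ 4 - 23 * y ^ 2 + 4.6875) / (16 * y ^ 2 * (25 / 16 - y ^ 2)))
    (c := 2 * y ^ 2 / (25 / 16 - y ^ 2) - 3 / 4) (k := 1.1)
    (div_nonneg (by nlinarith [sq_nonneg (y ^ 2 - 0.36)]) (by positivity)) (by
      have e : (32 * y ^ 4 - 23 * y ^ 2 + 4.6875) / (16 * y ^ 2 * (25 / 16 - y ^ 2))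
          + 0.81 * (1.1 + 5 / 4 * (2 * y ^ 2 / (25 / 16 - y ^ 2) - 3 / 4) / y)
          = (17.744 * y ^ 4 + 44.55 * y ^ 3 - 0.725 * y ^ 2 - 18.984375 * y + 4.6875)
            / (16 * y ^ 2 * (25 / 16 - y ^ 2)) := by
        field_simp
        ring
      rw [e]
      refine div_nonneg ?_ (by positivity)
      nlinarith [mul_nonneg y0.le (sq_nonneg (y - 0.35)), sq_nonneg (y - 0.35),
        sq_nonneg (y ^ 2 - 0.1225)])
    y0 h0 h1 l r (by norm_num)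
  have e : Pot (1 / 4) ((5 / 4) ^ 2) y h'
      = (32 * y ^ 4 - 23 * y ^ 2 + 4.6875) / (16 * y ^ 2 * (25 / 16 - y ^ 2))
        + h' * (2 * y ^ 2 / (25 / 16 - y ^ 2) - 3 / 4) + 4.75 := by
    have e1 : ((5 / 4) ^ 2 : ℝ) = 25 / 16 := by norm_num
    rw [Pot, e1]
    field_simp
    ring
  linarith

/-! Outside: with `s = 3 / 2 - Y * (1 - h) / 2` one has `6 - 4 * s = 2 * Y * (1 - h)`, the first term
of `Pot` is `2 * (1 - h') + 2 * Y * (h - h') / (y ^ 2 - Y) ≥ 2 * (1 - h')`, hence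
`Pot ≥ (3 - s) * (1 - h) - max 0 (s * (s - 1)) / Y`. -/

theorem pot_out1 {y h h' : ℝ} (y1 : 3 / 2 < y) (h0 : 0 ≤ h) (h1 : h ≤ 0.48) (r : h' ≤ h) :
    (21 / 8 - 9 * h / 8) * (1 - h) ≤ Pot (3 / 8 + 9 * h / 8) ((3 / 2) ^ 2) y h' := by
  have h2 := St3a_out (s := 3 / 8 + 9 * h / 8) (Y := (3 / 2) ^ 2) (y := y) (by norm_num)
    (by nlinarith) r (by linarith) (by ring)
  have h3 : 0 ≤ (3 / 8 + 9 * h / 8) * (1 - (3 / 8 + 9 * h / 8)) / y ^ 2 :=
    div_nonneg (mul_nonneg (by linarith) (by linarith)) (sq_nonneg y)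
  have h4 : (21 / 8 - 9 * h / 8) * (1 - h) = (3 - (3 / 8 + 9 * h / 8)) * (1 - h) := by ring
  linarith

theorem pot_out2 {y h h' : ℝ} (y1 : 5 / 4 < y) (h0 : 0 ≤ h) (h1 : h ≤ 0.81) (r : h' ≤ h) :
    2.2 - 2.75 * h ≤ Pot (23 / 32 + 25 * h / 32) ((5 / 4) ^ 2) y h' := by
  have hy : (5 / 4 : ℝ) ^ 2 < y ^ 2 := by nlinarith
  have h2 := St3a_out (s := 23 / 32 + 25 * h / 32) (Y := (5 / 4) ^ 2) (y := y) (by norm_num)
    hy r (by linarith) (by ring)
  refine le_trans ?_ h2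
  rcases le_total 0 ((23 / 32 + 25 * h / 32) * (1 - (23 / 32 + 25 * h / 32))) with h3 | h3
  · have := div_nonneg h3 (sq_nonneg y)
    nlinarith [sq_nonneg (h - 0.2)]
  · have h4 : (23 / 32 + 25 * h / 32) * (1 - (23 / 32 + 25 * h / 32)) / (5 / 4) ^ 2
        ≤ (23 / 32 + 25 * h / 32) * (1 - (23 / 32 + 25 * h / 32)) / y ^ 2 := by
      rw [div_eq_mul_inv, div_eq_mul_inv _ (y ^ 2)]
      exact mul_le_mul_of_nonpos_left (inv_anti₀ (by norm_num) hy.le) h3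
    have h5 : (23 / 32 + 25 * h / 32) * (1 - (23 / 32 + 25 * h / 32)) / (5 / 4) ^ 2
        = (207 - 350 * h - 625 * h ^ 2) / 1600 := by ring
    nlinarith [sq_nonneg (h - 0.68)]

end

end Vale.Agent.P146L
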