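import Vale.Agent.P146L.Defs

/-! Static inequality: the final two variable inequalities. -/

set_option linter.all false

namespace Vale.Agent.P146L

open MeasureTheory ProbabilityTheory Real Finset Filter Topology Vale.Agent.P146M Vale.Agent.P146

noncomputable section

theorem St3b_quad {P h Li Lo Co A : ℝ} (hA : 0 < A) (h1 : A ≤ Li - 1 - P / 200)
    (h2 : (P + P / 200) ^ 2 ≤ A * ((Li - 2) * P - (Li - Lo) * Co - P / 200)) :
    P ^ 3 / 200 ≤ val P h Li Lo Co := by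
  have e : A * (val P h Li Lo Co - P ^ 3 / 200) = (A * (P - h) - (P + P / 200) * h) ^ 2
      + (A * ((Li - 2) * P - (Li - Lo) * Co - P / 200) - (P + P / 200) ^ 2) * h ^ 2
      + A * ((Li - 1 - P / 200 - A) * (P - h) ^ 2) := by
    unfold val
    ring
  have h3 := mul_nonneg (sub_nonneg.2 h2) (sq_nonneg h)
  have h4 := mul_nonneg hA.le (mul_nonneg (sub_nonneg.2 h1) (sq_nonneg (P - h)))
  have h5 := sq_nonneg (A * (P - h) - (P + P / 200) * h)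
  exact sub_nonneg.1 (nonneg_of_mul_nonneg_right (by linarith) hA)

theorem St3b_le {h H d P : ℝ} (hd : 0 < d) (h1 : h * d ≤ P) (h2 : P ≤ H * d) : h ≤ H :=
  le_of_mul_le_mul_right (h1.trans h2) hd

/-! The true margins are at least `0.12 * P ^ 3` (first two) and `0.23 * P ^ 3` (last two); only
`P ^ 3 / 200` is asked. For `fin1a` with `d = P - h`: the coefficient is at least `2.29`,
`2 * h * P * d ≤ 1.25 * d ^ 2 + 0.8 * h ^ 2 * P ^ 2` and `P ^ 3 ≤ 2 * P * (d ^ 2 + h ^ 2)`.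
For the others bound the coefficients on subintervals of `P` and `h` (first extract an explicit
linear upper bound for `h` in terms of `P` from the constraint). -/

theorem fin1a {P h : ℝ} (P0 : 0 ≤ P) (P1 : P ≤ 0.35) (h0 : 0 ≤ h) (h1 : h ≤ 0.09) :
    P ^ 3 / 200 ≤ val P h ((21 / 8 - 9 * h / 8) * (1 - h)) ((21 / 8 - 9 * h / 8) * (1 - h)) 0 := by
  have hL : 2.29 ≤ (21 / 8 - 9 * h / 8) * (1 - h) := by nlinarith
  unfold val
  generalize (21 / 8 - 9 * h / 8) * (1 - h) = L at hL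
  have h2 := mul_nonneg (sub_nonneg.2 hL) (sq_nonneg (P - h))
  have h3 := mul_nonneg (sub_nonneg.2 hL) (mul_nonneg (sq_nonneg h) P0)
  have h4 := sq_nonneg (P - h - 0.8 * h * P)
  have h5 := mul_nonneg P0 (sq_nonneg (P - 2 * h))
  have h6 := mul_nonneg (sub_nonneg.2 P1) (mul_nonneg (sq_nonneg h) P0)
  have h7 := mul_nonneg (sub_nonneg.2 P1) (sq_nonneg (P - h))
  nlinarith [sq_nonneg (P - h)]

theorem fin1b {P h : ℝ} (P0 : 0 ≤ P) (P1 : P ≤ 0.35) (h0 : 0.09 ≤ h)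
    (h1 : h * (1 + P - 16 / 81 * (1 + P) ^ 2) ≤ P) :
    h ≤ 0.48 ∧ P ^ 3 / 200 ≤ val P h (3.3 - 0.7 * h) ((21 / 8 - 9 * h / 8) * (1 - h))
      ((2 * (1 + P) ^ 2 + (1 + P - 5 / 4) ^ 2) / 25) := by
  have hH : h ≤ 0.008 + 1.09 * P := St3b_le (by nlinarith) h1 (by
    nlinarith [mul_nonneg (sub_nonneg.2 P1) (sq_nonneg P), sq_nonneg (P - 0.1)])
  have P2 : 0.075 ≤ P := by linarith
  refine ⟨by linarith, St3b_quad (A := 2.02) (by norm_num) (by linarith) ?_⟩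
  have hC : 0 ≤ (2 * (1 + P) ^ 2 + (1 + P - 5 / 4) ^ 2) / 25 := by positivity
  have h2 := mul_nonneg (sq_nonneg (h - 0.09)) hC
  have h3 := mul_nonneg (sub_nonneg.2 hH) hC
  have h4 := mul_nonneg (sub_nonneg.2 hH) P0
  have h5 := mul_nonneg (sub_nonneg.2 P1) (sub_nonneg.2 P2)
  have h6 := mul_nonneg h5 P0
  have h7 := mul_nonneg h5 (sub_nonneg.2 P1)
  have h8 : (h - 0.09) ^ 2 * ((2 * (1 + P) ^ 2 + (1 + P - 5 / 4) ^ 2) / 25) ≤
      0.09 * ((2 * (1 + P) ^ 2 + (1 + P - 5 / 4) ^ 2) / 25) :=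
    mul_le_mul_of_nonneg_right (by nlinarith) hC
  nlinarith

theorem fin2a {P h : ℝ} (P0 : 0.35 ≤ P) (P1 : P ≤ 0.55) (h0 : 0 ≤ h)
    (h1 : h * (1 + P - (1.002 * (2 * (1 + P) + 1 / 4) - (1 + P)) / 3) ≤ P) :
    h ≤ 0.81 ∧ P ^ 3 / 200 ≤ val P h (4.75 - 1.1 * h) (2.2 - 2.75 * h)
      (4 / 81 * (2 * (1 + P) ^ 2 + (1 + P - 9 / 16) ^ 2)) := by
  have hH : h ≤ 0.175 + 0.75 * P := St3b_le (by linarith) h1 (by nlinarith [sq_nonneg (P - 0.45)])
  refine ⟨by linarith, St3b_quad (A := 3.1) (by norm_num) (by linarith) ?_⟩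
  have hC : 0 ≤ 4 / 81 * (2 * (1 + P) ^ 2 + (1 + P - 9 / 16) ^ 2) := by positivity
  have h3 := mul_nonneg (sub_nonneg.2 hH) hC
  have h4 := mul_nonneg (sub_nonneg.2 hH) (by linarith : 0 ≤ P)
  have h5 := mul_nonneg (sub_nonneg.2 P1) (sub_nonneg.2 P0)
  have h6 := mul_nonneg h5 (sub_nonneg.2 P0)
  have h7 := mul_nonneg h5 (sub_nonneg.2 P1)
  nlinarith

theorem fin2b {P h : ℝ} (P0 : 0.55 ≤ P) (P1 : P ≤ 1.001) (h0 : 0 ≤ h)
    (h1 : h * (1 + P - (1.002 * (2 * (1 + P) + 1 / 4) - (1 + P)) / 3) ≤ P) :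
    h ≤ 0.81 ∧ P ^ 3 / 200 ≤ val P h (4.75 - 1.1 * h) (2.2 - 2.75 * h)
      (2 / 7 * (1.002 * (2 * (1 + P) + 1) - 2 * (1 + P))) := by
  have hH : h ≤ 0.325 + 0.5 * P := St3b_le (by linarith) h1 (by nlinarith [sq_nonneg (P - 0.75)])
  have hH' : h ≤ 0.81 := St3b_le (by linarith) h1 (by linarith)
  refine ⟨hH', St3b_quad (A := 2.85) (by norm_num) (by linarith) ?_⟩
  have hC : 0 ≤ 2 / 7 * (1.002 * (2 * (1 + P) + 1) - 2 * (1 + P)) := by linarith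
  have h3 := mul_nonneg (sub_nonneg.2 hH) hC
  have h4 := mul_nonneg (sub_nonneg.2 hH) (by linarith : 0 ≤ P)
  have h5 := mul_nonneg (sub_nonneg.2 P1) (sub_nonneg.2 P0)
  nlinarith

end

end Vale.Agent.P146L
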