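import Vale.Agent.P146L.St2
import Vale.Agent.P146L.St3a
import Vale.Agent.P146L.St3b

/-! The static inequality. -/

set_option linter.all false

namespace Vale.Agent.P146L

open MeasureTheory ProbabilityTheory Real Finset Filter Topology Vale.Agent.P146M Vale.Agent.P146

noncomputable section

variable {ψ u a : ℝ → ℝ} {A : ℝ}

theorem St4_mu (h : SH ψ u a A) : Measurable u :=
  (continuous_iff_continuousAt.2 fun y => (h.d1 y).continuousAt).measurable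

theorem St4_ma (h : SH ψ u a A) : Measurable a := by
  rw [show a = deriv u from funext fun y => (h.d1 y).deriv.symm]
  exact measurable_deriv u

theorem St4_one {y : ℝ} (hy : 0 < y) : 1 ≤ (1 + y) ^ 4 := one_le_pow₀ (by linarith)

theorem St4_pow (h : SH ψ u a A) {k : ℕ} (hk : k ≤ 4) : Integrable (fun y => y ^ k) (rho ψ) :=
  h.int (by fun_prop) (C := 1) fun y hy => by
    rw [one_mul, abs_of_nonneg (by positivity)]
    exact (pow_le_pow_left₀ hy.le (by linarith) k).trans (pow_le_pow_right₀ (by linarith) hk)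

theorem St4_bdd (h : SH ψ u a A) {f : ℝ → ℝ} (hf : Measurable f) {C : ℝ} (hb : ∀ y, |f y| ≤ C) :
    Integrable f (rho ψ) :=
  h.int hf (C := C) fun y hy =>
    (hb y).trans (le_mul_of_one_le_right ((abs_nonneg _).trans (hb y)) (St4_one hy))

theorem St4_yu (h : SH ψ u a A) : Integrable (fun y => y * u y) (rho ψ) :=
  h.int (measurable_id.mul (St4_mu h)) (C := A) fun y hy => by
    have a1 : y ≤ (1 + y) ^ 4 := le_trans (by linarith) (le_self_pow₀ (by linarith) (by norm_num))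
    rw [abs_mul, abs_of_pos hy, mul_comm]
    exact mul_le_mul (h.u_le y) a1 hy.le ((abs_nonneg _).trans (h.u_le y))

theorem St4_uu (h : SH ψ u a A) : Integrable (fun y => u y ^ 2) (rho ψ) :=
  St4_bdd h ((St4_mu h).pow_const 2) (C := A ^ 2) fun y => by
    rw [abs_pow]; exact pow_le_pow_left₀ (abs_nonneg _) (h.u_le y) 2

theorem St4_a (h : SH ψ u a A) : Integrable a (rho ψ) :=
  St4_bdd h (St4_ma h) (C := A) fun y => by rw [abs_of_nonneg (h.a_nn y)]; exact h.a_le y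

theorem St4_aa (h : SH ψ u a A) : Integrable (fun y => a y ^ 2) (rho ψ) :=
  St4_bdd h ((St4_ma h).pow_const 2) (C := A ^ 2) fun y => by
    rw [abs_of_nonneg (sq_nonneg _)]; exact pow_le_pow_left₀ (h.a_nn y) (h.a_le y) 2

theorem St4_lin {μ : Measure ℝ} {f g k : ℝ → ℝ} (hf : Integrable f μ) (hg : Integrable g μ)
    (hk : Integrable k μ) (b c : ℝ) : Integrable (fun y => f y + b * g y + c * k y) μ ∧
    ∫ y, (f y + b * g y + c * k y) ∂μ = ∫ y, f y ∂μ + b * ∫ y, g y ∂μ + c * ∫ y, k y ∂μ := by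
  have h1 : Integrable (fun y => f y + b * g y) μ := hf.add (hg.const_mul b)
  refine ⟨h1.add (hk.const_mul c), ?_⟩
  rw [integral_add h1 (hk.const_mul c), integral_add hf (hg.const_mul b), integral_const_mul,
    integral_const_mul]

theorem St4_poly (h : SH ψ u a A) (c0 c1 c2 c3 c4 : ℝ) :
    Integrable (fun y => c0 + c1 * y + c2 * y ^ 2 + c3 * y ^ 3 + c4 * y ^ 4) (rho ψ) ∧
    ∫ y, (c0 + c1 * y + c2 * y ^ 2 + c3 * y ^ 3 + c4 * y ^ 4) ∂rho ψ =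
      c0 + c1 * Es ψ (fun y => y) + c2 * Es ψ (fun y => y ^ 2) + c3 * Es ψ (fun y => y ^ 3) +
        c4 * Es ψ (fun y => y ^ 4) := by
  have := h.prob
  have i1 : Integrable (fun y => y) (rho ψ) := by simpa using St4_pow h (k := 1) (by norm_num)
  have a1 := St4_lin (integrable_const c0) i1 (St4_pow h (k := 2) (by norm_num)) c1 c2
  have a2 := St4_lin a1.1 (St4_pow h (k := 3) (by norm_num)) (St4_pow h (k := 4) le_rfl) c3 c4
  refine ⟨a2.1, ?_⟩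
  rw [a2.2, a1.2]
  simp [Es]

theorem St4_up (h : SH ψ u a A) {g : ℝ → ℝ} (c0 c1 c2 c3 c4 : ℝ) (g0 : ∀ y, 0 ≤ g y)
    (g1 : ∀ y, 0 < y → g y ≤ c0 + c1 * y + c2 * y ^ 2 + c3 * y ^ 3 + c4 * y ^ 4) :
    Es ψ g ≤ c0 + c1 * Es ψ (fun y => y) + c2 * Es ψ (fun y => y ^ 2) + c3 * Es ψ (fun y => y ^ 3) +
        c4 * Es ψ (fun y => y ^ 4) := by
  rw [← (St4_poly h c0 c1 c2 c3 c4).2]
  exact integral_mono_of_nonneg (Eventually.of_forall g0) (St4_poly h c0 c1 c2 c3 c4).1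
    (h.ae_pos.mono g1)

theorem St4_in (h : SH ψ u a A) {ys hh y : ℝ} (hu : u ys = hh * ys) (y0 : 0 < y) (y1 : y ≤ ys) :
    hh * y ≤ u y ∧ u y ≤ hh * ys := by
  obtain ⟨-, a2, a3, -⟩ := h.mono y0.le y1
  rw [hu] at a2 a3
  exact ⟨le_of_mul_le_mul_right (by linarith) (y0.trans_le y1), a2⟩

theorem St4_out (h : SH ψ u a A) {ys hh y : ℝ} (hu : u ys = hh * ys) (y0 : 0 < ys) (y1 : ys ≤ y) :
    hh * ys ≤ u y ∧ u y ≤ hh * y := by
  obtain ⟨-, a2, a3, -⟩ := h.mono y0.le y1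
  rw [hu] at a2 a3
  exact ⟨a2, le_of_mul_le_mul_right (by linarith) y0⟩

theorem St4_hh (h : SH ψ u a A) {ys hh : ℝ} (hu : u ys = hh * ys) (y0 : 0 < ys) : 0 ≤ hh :=
  nonneg_of_mul_nonneg_left (hu ▸ (h.mono y0.le le_rfl).1) y0

theorem St4_low (h : SH ψ u a A) {ys hh : ℝ} (hu : u ys = hh * ys) (y0 : 0 < ys) (c1 c2 c3 c4 : ℝ)
    (g0 : ∀ y, 0 < y → 0 ≤ c1 * y + c2 * y ^ 2 + c3 * y ^ 3 + c4 * y ^ 4)
    (g1 : ∀ y, ys ≤ y → y * (y - ys) ≤ c1 * y + c2 * y ^ 2 + c3 * y ^ 3 + c4 * y ^ 4) :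
    hh * (Es ψ (fun y => y ^ 2) - (c1 * Es ψ (fun y => y) + c2 * Es ψ (fun y => y ^ 2) +
      c3 * Es ψ (fun y => y ^ 3) + c4 * Es ψ (fun y => y ^ 4))) ≤ Es ψ fun y => y * u y := by
  have h0 := St4_hh h hu y0
  obtain ⟨i, e⟩ := St4_poly h 0 (-hh * c1) (hh * (1 - c2)) (-hh * c3) (-hh * c4)
  have := integral_mono_ae i (St4_yu h) (h.ae_pos.mono fun y hy => by
    rcases le_total y ys with k | k
    · have a1 := mul_le_mul_of_nonneg_left (St4_in h hu hy k).1 hy.le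
      have a2 := mul_nonneg h0 (g0 y hy)
      simp only
      linarith
    · have a1 := mul_le_mul_of_nonneg_left (St4_out h hu y0 k).1 hy.le
      have a2 := mul_le_mul_of_nonneg_left (g1 y k) h0
      simp only
      linarith)
  rw [e] at this
  exact le_trans (le_of_eq (by ring)) this

theorem St4_max {y c q : ℝ} (q0 : 0 ≤ q) (q1 : c ≤ y → (y - c) ^ 2 ≤ q) : max (y - c) 0 ^ 2 ≤ q := by
  rcases le_total c y with k | k
  · rw [max_eq_left (by linarith)]; exact q1 k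
  · rw [max_eq_right (by linarith)]; simpa using q0

/-- Key step. Let `f = u - hh * y`, `F = E f ^ 2 = U - 2 * hh * P + hh ^ 2 * N`,
`S = E (a - hh) ^ 2 = F + (K - U) + 2 * hh * U - hh ^ 2 * P`. The two Dirichlet bounds give
`S ≥ Li * F - (Li - Lo) * Fout`, and `Fout ≤ hh ^ 2 * Co` because `|f y| ≤ hh * (y - ys)` for
`y ≥ ys`. Then use `U ≥ P ^ 2 - ε` (the coefficient of `U` is `Li - 1 - 2 * hh ≥ 0`). -/
theorem SH.key (h : SH ψ u a A) {ys hh Li Lo Co si so ε P : ℝ} (hy : 0 < ys)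
    (hu : u ys = hh * ys) (hP : P = Es ψ fun y => y * u y) (hε : 0 ≤ ε)
    (hK : Es ψ (fun y => a y ^ 2) ≤ Es ψ (fun y => u y ^ 2) + ε)
    (hU : P ^ 2 ≤ Es ψ (fun y => u y ^ 2) + ε) (hL : Lo ≤ Li) (hL' : 0 ≤ Li - 1 - 2 * hh)
    (hi : ∀ y, 0 < y → y < ys → Li ≤ Pot si (ys ^ 2) y (u y / y))
    (ho : ∀ y, ys < y → Lo ≤ Pot so (ys ^ 2) y (u y / y))
    (hC : Li = Lo ∨ Es ψ (fun y => max (y - ys) 0 ^ 2) ≤ Co) :
    val P hh Li Lo Co ≤ Li * ε := by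
  have := h.prob
  have h0 := St4_hh h hu hy
  obtain ⟨m1, m2, -⟩ := h.mom rfl hP rfl rfl
  obtain ⟨iF, eF⟩ := St4_lin (St4_uu h) (St4_yu h) (St4_pow h (k := 2) (by norm_num))
    (-2 * hh) (hh ^ 2)
  obtain ⟨iS, eS⟩ := St4_lin (St4_aa h) (St4_a h) (integrable_const (1 : ℝ)) (-2 * hh) (hh ^ 2)
  have fF : (fun y => u y ^ 2 + -2 * hh * (y * u y) + hh ^ 2 * y ^ 2) =
      fun y => (u y - hh * y) ^ 2 := funext fun y => by ring
  have fS : (fun y => a y ^ 2 + -2 * hh * a y + hh ^ 2 * 1) = fun y => (a y - hh) ^ 2 :=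
    funext fun y => by ring
  rw [fF] at iF eF
  rw [fS] at iS eS
  have sub : Set.Ioo 0 ys ⊆ (Set.Ioi ys)ᶜ := fun y k => not_lt.2 k.2.le
  have s1 := integral_add_compl (measurableSet_Ioi (a := ys)) iF
  have s2 := integral_add_compl (measurableSet_Ioi (a := ys)) iS
  have s3 : ∫ y in (Set.Ioi ys)ᶜ, (u y - hh * y) ^ 2 ∂rho ψ =
      ∫ y in Set.Ioo 0 ys, (u y - hh * y) ^ 2 ∂rho ψ :=
    setIntegral_eq_of_subset_of_ae_diff_eq_zero measurableSet_Ioi.compl.nullMeasurableSet sub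
      (h.ae_pos.mono fun y y0 k => by
        have : y = ys := le_antisymm (not_lt.1 k.1) (not_lt.1 fun k' => k.2 ⟨y0, k'⟩)
        rw [this, hu, sub_self, sq, zero_mul])
  have s4 : ∫ y in Set.Ioo 0 ys, (a y - hh) ^ 2 ∂rho ψ ≤
      ∫ y in (Set.Ioi ys)ᶜ, (a y - hh) ^ 2 ∂rho ψ :=
    setIntegral_mono_set iS.integrableOn (Eventually.of_forall fun y => sq_nonneg _)
      (Eventually.of_forall sub)
  have d1 := h.dir_in hy hu hi
  have d2 := h.dir_out hy hu ho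
  have s5 : (Li - Lo) * ∫ y in Set.Ioi ys, (u y - hh * y) ^ 2 ∂rho ψ ≤ (Li - Lo) * Co * hh ^ 2 := by
    rcases hC with e | e
    · simp [e]
    have im : Integrable (fun y => max (y - ys) 0 ^ 2) (rho ψ) :=
      (St4_pow h (k := 2) (by norm_num)).mono' (by fun_prop) (h.ae_pos.mono fun y y0 => by
        rw [Real.norm_of_nonneg (sq_nonneg _)]
        exact St4_max (sq_nonneg _) fun k => pow_le_pow_left₀ (by linarith) (by linarith) 2)
    have b1 : ∫ y in Set.Ioi ys, (u y - hh * y) ^ 2 ∂rho ψ ≤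
        ∫ y in Set.Ioi ys, hh ^ 2 * max (y - ys) 0 ^ 2 ∂rho ψ :=
      setIntegral_mono_on iF.integrableOn (im.const_mul _).integrableOn measurableSet_Ioi
        fun y k => by
          obtain ⟨a1, a2⟩ := St4_out h hu hy (le_of_lt k)
          have k' : 0 ≤ y - ys := sub_nonneg.2 (le_of_lt k)
          rw [max_eq_left k', ← mul_pow]
          exact sq_le_sq' (by linarith) (by nlinarith [mul_nonneg h0 k'])
    have b2 := setIntegral_le_integral (s := Set.Ioi ys) (im.const_mul (hh ^ 2))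
      (Eventually.of_forall fun y => by positivity)
    rw [integral_const_mul (μ := rho ψ)] at b2
    have b3 := mul_le_mul_of_nonneg_left e (sq_nonneg hh)
    rw [mul_assoc]
    refine mul_le_mul_of_nonneg_left ?_ (sub_nonneg.2 hL)
    unfold Es at b3
    linarith
  have q1 := mul_le_mul_of_nonneg_left hU hL'
  have q2 := mul_nonneg h0 hε
  rw [integral_const, probReal_univ, one_smul] at eS
  unfold Es at *
  rw [← hP, m1] at eF
  rw [m2] at eS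
  have s6 := congrArg (Li * ·) (s1.trans eF)
  rw [s3] at s6
  simp only at s6
  unfold val
  nlinarith

theorem St4_p1 {y : ℝ} (y1 : 3 / 2 ≤ y) :
    y * (y - 3 / 2) ≤ 0 * y + 0 * y ^ 2 + 0 * y ^ 3 + 16 / 243 * y ^ 4 := by
  have : 0 ≤ y * ((y - 9 / 4) ^ 2 * (y + 9 / 2)) := by
    have : 0 ≤ y := by linarith
    positivity
  nlinarith

theorem St4_p2 (y : ℝ) :
    max (y - 3 / 2) 0 ^ 2 ≤ 1 / 16 + 0 * y + -1 / 10 * y ^ 2 + 0 * y ^ 3 + 1 / 25 * y ^ 4 :=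
  St4_max (by nlinarith [sq_nonneg (y ^ 2 - 5 / 4)]) fun k => by
    have := pow_le_pow_left₀ (show 0 ≤ y - 3 / 2 by linarith)
      (show y - 3 / 2 ≤ (y ^ 2 - 5 / 4) / 5 by nlinarith [sq_nonneg (y - 5 / 2)]) 2
    exact this.trans_eq (by ring)

theorem St4_p3 (y : ℝ) :
    max (y - 5 / 4) 0 ^ 2 ≤ 1 / 64 + 0 * y + -1 / 18 * y ^ 2 + 0 * y ^ 3 + 4 / 81 * y ^ 4 :=
  St4_max (by nlinarith [sq_nonneg (y ^ 2 - 9 / 16)]) fun k => by
    have := pow_le_pow_left₀ (show 0 ≤ y - 5 / 4 by linarith)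
      (show y - 5 / 4 ≤ 2 / 9 * (y ^ 2 - 9 / 16) by nlinarith [sq_nonneg (y - 9 / 4)]) 2
    exact this.trans_eq (by ring)

theorem St4_p4 {y : ℝ} (y0 : 0 < y) :
    max (y - 5 / 4) 0 ^ 2 ≤ 0 + 2 / 7 * y + -4 / 7 * y ^ 2 + 2 / 7 * y ^ 3 + 0 * y ^ 4 :=
  St4_max (by nlinarith [mul_nonneg y0.le (sq_nonneg (y - 1))]) fun k => by
    nlinarith [mul_nonneg (sub_nonneg.2 k) (sq_nonneg (y - 5 / 4 - 0.9)),
      sq_nonneg (y - 5 / 4 - 1.225)]

theorem St4_case1 (h : SH ψ u a A) {ε P : ℝ} (hε : 0 ≤ ε) (hP : P = Es ψ fun y => y * u y)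
    (hK : Es ψ (fun y => a y ^ 2) ≤ Es ψ (fun y => u y ^ 2) + ε)
    (hU : P ^ 2 ≤ Es ψ (fun y => u y ^ 2) + ε) (p : P ≤ 0.35) : P ^ 3 / 200 ≤ 5 * ε := by
  obtain ⟨m1, -, m3, m4, -, m6, -⟩ := h.mom rfl hP rfl rfl
  have P0 : 0 ≤ P := m3.trans m4
  obtain ⟨hh, hu⟩ : ∃ hh, u (3 / 2) = hh * (3 / 2) := ⟨u (3 / 2) / (3 / 2), by ring⟩
  have hy : (0 : ℝ) < 3 / 2 := by norm_num
  have h0 := St4_hh h hu hy
  have hi : hh ≤ 0.48 → ∀ y, 0 < y → y < 3 / 2 →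
      3.3 - 0.7 * hh ≤ Pot (1 / 4) ((3 / 2) ^ 2) y (u y / y) := fun h1 y y0 y1 =>
    pot_in1 y0 y1 h0 h1 ((le_div_iff₀ y0).2 (St4_in h hu y0 y1.le).1)
      (by rw [div_mul_cancel₀ _ y0.ne']; exact (St4_in h hu y0 y1.le).2)
  have ho : hh ≤ 0.48 → ∀ y, 3 / 2 < y → (21 / 8 - 9 * hh / 8) * (1 - hh) ≤
      Pot (3 / 8 + 9 * hh / 8) ((3 / 2) ^ 2) y (u y / y) := fun h1 y y1 =>
    pot_out1 y1 h0 h1 ((div_le_iff₀ (hy.trans y1)).2 (St4_out h hu hy y1.le).2)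
  rcases le_total hh 0.09 with q | q
  · have k1 : (21 / 8 - 9 * hh / 8) * (1 - hh) ≤ 3.3 - 0.7 * hh := by nlinarith
    have k2 := h.key (Co := 0) hy hu hP hε hK hU le_rfl (by nlinarith)
      (fun y y0 y1 => k1.trans (hi (by linarith) y y0 y1)) (ho (by linarith)) (Or.inl rfl)
    exact (fin1a P0 p h0 q).trans (k2.trans (mul_le_mul_of_nonneg_right (by linarith) hε))
  · have l1 := St4_low h hu hy 0 0 0 (16 / 243) (fun y y0 => by positivity) fun y => St4_p1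
    have u1 := St4_up h _ _ _ _ _ (fun y => sq_nonneg _) fun y _ => St4_p2 y
    rw [m1] at m6 l1 u1
    rw [← hP] at l1
    obtain ⟨h1, f1⟩ := fin1b P0 p q (le_trans (mul_le_mul_of_nonneg_left (by linarith) h0) l1)
    have k2 := h.key (Co := (2 * (1 + P) ^ 2 + (1 + P - 5 / 4) ^ 2) / 25) hy hu hP hε hK hU
      (by nlinarith) (by linarith) (hi h1) (ho h1) (Or.inr (u1.trans (by linarith)))
    exact f1.trans (k2.trans (mul_le_mul_of_nonneg_right (by linarith) hε))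

theorem St4_case2 (h : SH ψ u a A) {ε P : ℝ} (hε : 0 ≤ ε) (hP : P = Es ψ fun y => y * u y)
    (hK : Es ψ (fun y => a y ^ 2) ≤ Es ψ (fun y => u y ^ 2) + ε)
    (hU : P ^ 2 ≤ Es ψ (fun y => u y ^ 2) + ε) (p : 0.35 ≤ P) (P1 : P ≤ 1.001)
    (mm : Es ψ (fun y => y) ≤ 1.002) : P ^ 3 / 200 ≤ 5 * ε := by
  obtain ⟨m1, -, -, -, -, m6, m7, -⟩ := h.mom rfl hP rfl rfl
  have Nm := mul_le_mul_of_nonneg_left mm (show 0 ≤ 1 + P by linarith)
  obtain ⟨hh, hu⟩ : ∃ hh, u (5 / 4) = hh * (5 / 4) := ⟨u (5 / 4) / (5 / 4), by ring⟩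
  have hy : (0 : ℝ) < 5 / 4 := by norm_num
  have h0 := St4_hh h hu hy
  have hi : hh ≤ 0.81 → ∀ y, 0 < y → y < 5 / 4 →
      4.75 - 1.1 * hh ≤ Pot (1 / 4) ((5 / 4) ^ 2) y (u y / y) := fun h1 y y0 y1 =>
    pot_in2 y0 y1 h0 h1 ((le_div_iff₀ y0).2 (St4_in h hu y0 y1.le).1)
      (by rw [div_mul_cancel₀ _ y0.ne']; exact (St4_in h hu y0 y1.le).2)
  have ho : hh ≤ 0.81 → ∀ y, 5 / 4 < y → 2.2 - 2.75 * hh ≤
      Pot (23 / 32 + 25 * hh / 32) ((5 / 4) ^ 2) y (u y / y) := fun h1 y y1 =>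
    pot_out2 y1 h0 h1 ((div_le_iff₀ (hy.trans y1)).2 (St4_out h hu hy y1.le).2)
  have l1 := St4_low h hu hy (1 / 12) (-1 / 3) (1 / 3) 0
    (fun y y0 => by nlinarith [mul_nonneg y0.le (sq_nonneg (y - 1 / 2))]) fun y y1 => by
      nlinarith [mul_nonneg (hy.le.trans y1) (sq_nonneg (y - 2))]
  have u1 := St4_up h _ _ _ _ _ (fun y => sq_nonneg _) fun y _ => St4_p3 y
  have u2 := St4_up h _ _ _ _ _ (fun y => sq_nonneg _) fun y => St4_p4
  rw [m1] at m6 m7 l1 u1 u2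
  rw [← hP] at l1
  have l2 := le_trans (mul_le_mul_of_nonneg_left (show 1 + P - (1.002 * (2 * (1 + P) + 1 / 4) -
    (1 + P)) / 3 ≤ _ by linarith) h0) l1
  rcases le_total P 0.55 with q | q
  · obtain ⟨h1, f1⟩ := fin2a p q h0 l2
    have k2 := h.key (Co := 4 / 81 * (2 * (1 + P) ^ 2 + (1 + P - 9 / 16) ^ 2)) hy hu hP hε hK hU
      (by linarith) (by linarith) (hi h1) (ho h1) (Or.inr (u1.trans (by linarith)))
    exact f1.trans (k2.trans (mul_le_mul_of_nonneg_right (by linarith) hε))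
  · obtain ⟨h1, f1⟩ := fin2b q P1 h0 l2
    have k2 := h.key (Co := 2 / 7 * (1.002 * (2 * (1 + P) + 1) - 2 * (1 + P))) hy hu hP hε hK hU
      (by linarith) (by linarith) (hi h1) (ho h1) (Or.inr (u2.trans (by linarith)))
    exact f1.trans (k2.trans (mul_le_mul_of_nonneg_right (by linarith) hε))

/-- Suppose `2000 * ε < min 1 (U ^ 3)`; then `ε < 1 / 2000`, `ε ≤ U / 2000`, so `P ≤ 1.001`
(`P ^ 2 ≤ U + ε ≤ P + ε`) and `m ≤ 1.002` (`U * m ^ 2 ≤ P ^ 2`). For `ys = 3 / 2` (if `P ≤ 0.35`) or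
`ys = 5 / 4` (otherwise) put `hh = u ys / ys`. Since `y * u y ≥ hh * (y ^ 2 - y * max (y - ys) 0)`
one gets `hh * (N - X) ≤ P` with `y * max (y - 3 / 2) 0 ≤ 16 / 243 * y ^ 4`,
`y * max (y - 5 / 4) 0 ≤ y * (y - 1 / 2) ^ 2 / 3`. For `Co`:
`max (y - 3 / 2) 0 ^ 2 ≤ (y ^ 2 - 5 / 4) ^ 2 / 25`,
`max (y - 5 / 4) 0 ^ 2 ≤ 4 / 81 * (y ^ 2 - 9 / 16) ^ 2`,
`max (y - 5 / 4) 0 ^ 2 ≤ 2 / 7 * y * (y - 1) ^ 2`, and the moment bounds of `SH.mom`.
For `hh ≤ 0.09` in the first case use `Li = Lo`. Conclusion `U ^ 3 ≤ P ^ 3 ≤ 200 * 4.75 * ε`. -/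
theorem SH.static (h : SH ψ u a A) {ε : ℝ} (hε : 0 ≤ ε)
    (hK : Es ψ (fun y => a y ^ 2) ≤ Es ψ (fun y => u y ^ 2) + ε)
    (hP : Es ψ (fun y => y * u y) ^ 2 ≤ Es ψ (fun y => u y ^ 2) + ε) :
    min 1 (Es ψ (fun y => u y ^ 2) ^ 3) ≤ 2000 * ε := by
  by_contra hc
  obtain ⟨c1, c2⟩ := lt_min_iff.1 (not_le.1 hc)
  obtain ⟨-, -, m3, m4, m5, -, -, m8⟩ := h.mom rfl rfl rfl rfl
  have k1 := St4_case1 h hε rfl hK hP
  have k2 := St4_case2 h hε rfl hK hP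
  clear hc hK
  generalize Es ψ (fun y => y * u y) = P at *
  generalize Es ψ (fun y => u y ^ 2) = U at *
  generalize Es ψ (fun y => y) = m at *
  have U0 : 0 < U := by
    rcases m3.eq_or_lt with e | e
    · rw [← e] at c2; linarith
    · exact e
  have e1 : 2000 * ε ≤ U := by
    rcases le_total U 1 with k | k
    · exact c2.le.trans (pow_le_of_le_one m3 k (by norm_num))
    · linarith
  have P1 : P ≤ 1.001 := by nlinarith
  have mm : m ≤ 1.002 := by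
    have : U * m ^ 2 ≤ U * 1.002 ^ 2 := by linarith
    exact le_of_sq_le_sq (le_of_mul_le_mul_left this U0) (by norm_num)
  have U3 : U ^ 3 ≤ P ^ 3 := pow_le_pow_left₀ m3 m4 3
  rcases le_total P 0.35 with p | p
  · linarith [k1 p]
  · linarith [k2 p P1 mm]

end

end Vale.Agent.P146L
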