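import Vale.Agent.P146L.SO
import Vale.Agent.P146L.St4

/-! No long gap near the bottom. -/

set_option linter.all false

namespace Vale.Agent.P146L

open MeasureTheory ProbabilityTheory Real Finset Filter Topology Vale.Agent.P146M Vale.Agent.P146

noncomputable section

variable {ζ v B μ : ℝ} {Φ : ℝ → ℝ}

theorem b6_zero (h : Gd B B μ Φ) : D1 Φ 0 = 0 := by
  have := h.odd1 0
  rw [neg_zero] at this
  linarith

theorem sh_of_gd (h : Gd B B μ Φ) (hμ : 0 ≤ μ) (hζ : 0 < ζ) (hζ1 : ζ ≤ 1) (hv : 0 ≤ v) :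
    SH (fun y => ζ * Φ (√v * y)) (fun y => ζ * √v * D1 Φ (√v * y))
      (fun y => ζ * v * D2 Φ (√v * y)) (1 + v) := by
  have hs := Real.sqrt_nonneg v
  have hq := Real.mul_self_sqrt hv
  have hl : ∀ y : ℝ, HasDerivAt (fun y => √v * y) (√v) y := fun y => by
    simpa using (hasDerivAt_id y).const_mul (√v)
  refine ⟨fun y => ?_, fun y => ?_, ?_, fun y => ?_, fun y => ?_, fun y => ?_, ?_⟩
  · refine (((h.d0 (√v * y)).hasDerivAt.comp y (hl y)).const_mul ζ).congr_deriv ?_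
    ring
  · refine (((h.d1 (√v * y)).hasDerivAt.comp y (hl y)).const_mul (ζ * √v)).congr_deriv ?_
    linear_combination ζ * D2 Φ (√v * y) * hq
  · show ζ * √v * D1 Φ (√v * 0) = 0
    rw [mul_zero, b6_zero h, mul_zero]
  · exact mul_nonneg (mul_nonneg hζ.le hv) (h.a_nn _)
  · have h1 : ζ * v ≤ 1 * v := mul_le_mul_of_nonneg_right hζ1 hv
    have h2 := mul_le_mul_of_nonneg_left (abs_le.1 (h.a_le (√v * y))).2 (mul_nonneg hζ.le hv)
    show ζ * v * D2 Φ (√v * y) ≤ 1 + v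
    linarith
  · have h1 : ζ * √v ≤ 1 * √v := mul_le_mul_of_nonneg_right hζ1 hs
    have h2 := mul_le_mul_of_nonneg_left (h.b0 (√v * y)) (mul_nonneg hζ.le hs)
    show |ζ * √v * D1 Φ (√v * y)| ≤ 1 + v
    rw [abs_mul, abs_of_nonneg (mul_nonneg hζ.le hs)]
    nlinarith [sq_nonneg (√v - 1)]
  · intro x hx y hy hxy
    have h1 := (h.mono le_rfl le_rfl hμ).anti (mul_nonneg hs hx) (mul_nonneg hs hy)
      (mul_le_mul_of_nonneg_left hxy hs)
    simp only [zero_mul, add_zero] at h1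
    exact mul_le_mul_of_nonneg_left h1 (mul_nonneg hζ.le hv)

theorem b6_gauss {G : ℝ → ℝ} (hG : ∀ x, G (-x) = G x) :
    ∫ z, G z ∂γ1 = 2 * (√(2 * π))⁻¹ * ∫ y in Set.Ioi (0 : ℝ), exp (-y ^ 2 / 2) * G y := by
  rw [integral_gaussianReal_eq_integral_smul one_ne_zero, mul_comm 2, mul_assoc,
    ← integral_comp_abs, ← integral_const_mul]
  refine integral_congr_ae (ae_of_all _ fun x => ?_)
  have e : G |x| = G x := by
    rcases abs_cases x with h | h <;> rw [h.1]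
    exact hG x
  simp only [gaussianPDFReal, smul_eq_mul, sq_abs, e, NNReal.coe_one, mul_one, sub_zero, mul_assoc]

/-- for even `F` both sides are the ratio of the integrals of `F (√v y) w y` and `w y`, over the
half line or the line -/
theorem Es_Kst (h : Lp Φ) (he : ∀ x, Φ (-x) = Φ x) (hζ : 0 < ζ) {F : ℝ → ℝ} (hF : Measurable F)
    (hFe : ∀ x, F (-x) = F x) :
    Es (fun y => ζ * Φ (√v * y)) (fun y => F (√v * y)) = Kst ζ v Φ F 0 := by
  have hc : 2 * (√(2 * π))⁻¹ ≠ 0 := by positivity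
  have h1 := exp_stp hζ h v 0
  simp only [zero_add] at h1
  rw [b6_gauss fun x => by rw [mul_neg, he]] at h1
  rw [Kst_eq hζ h hF]
  simp only [zero_add, mul_sub, exp_sub, div_mul_eq_mul_div]
  rw [integral_div, b6_gauss fun x => by rw [mul_neg, he, hFe], h1, mul_div_mul_left _ _ hc]
  unfold Es rho
  rw [integral_tilted]
  simp only [smul_eq_mul, exp_add, div_mul_eq_mul_div, mul_assoc]
  rw [integral_div]

theorem b6_abs {ν : Measure ℝ} [IsProbabilityMeasure ν] (h1 : Integrable (fun x => |x|) ν)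
    (h2 : Integrable (fun x => x ^ 2) ν) {D : ℝ} (hD : 0 ≤ D) (h : ∫ x, x ^ 2 ∂ν ≤ D ^ 2) :
    ∫ x, |x| ∂ν ≤ D := by
  obtain ⟨m, hm⟩ : ∃ m, m = ∫ x, |x| ∂ν := ⟨_, rfl⟩
  have h3 : ∫ x, 2 * m * |x| ∂ν ≤ ∫ x, (x ^ 2 + m ^ 2) ∂ν :=
    integral_mono (h1.const_mul _) (h2.add (integrable_const _)) fun x => by
      nlinarith [sq_nonneg (|x| - m), sq_abs x]
  rw [integral_const_mul, integral_add h2 (integrable_const _), integral_const, probReal_univ,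
    one_smul, ← hm] at h3
  rw [← hm]
  exact (abs_le_of_sq_le_sq' (by nlinarith) hD).2

theorem b6_move {ν : Measure ℝ} [IsProbabilityMeasure ν] (h1 : Integrable (fun x => |x|) ν)
    {g : ℝ → ℝ} (hg : Integrable g ν) {D L : ℝ} (hL : 0 ≤ L) (h : ∫ x, |x| ∂ν ≤ D)
    (hl : ∀ x, |g x - g 0| ≤ L * |x - 0|) : |∫ x, g x ∂ν - g 0| ≤ L * D := by
  have e : ∫ x, g x ∂ν - g 0 = ∫ x, (g x - g 0) ∂ν := by
    rw [integral_sub hg (integrable_const _), integral_const, probReal_univ, one_smul]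
  rw [e]
  refine (abs_integral_le_integral_abs).trans ((integral_mono (hg.sub (integrable_const _)).abs
    (h1.const_mul L) fun x => by simpa using hl x).trans ?_)
  rw [integral_const_mul]
  exact mul_le_mul_of_nonneg_left h hL

theorem b6_real {β T D E U : ℝ} (hβ : 0 < β) (hζ : 0 < ζ) (hζ1 : ζ ≤ 1) (hv : 0 ≤ v) (hvT : v ≤ T)
    (hT : 1 ≤ T) (hβT : β ^ 2 ≤ T) (hD : 0 ≤ D) (hDE : D ≤ E)
    (hU : ζ ^ 2 * v * (v / β ^ 2 - 4 * D) ≤ U) (h : min 1 (U ^ 3) ≤ 2000 * (ζ ^ 2 * E)) :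
    ζ ^ 4 * v ^ 6 ≤ 16000 * T ^ 6 * E := by
  have hE : 0 ≤ E := hD.trans hDE
  have hT0 : 0 < T := by linarith
  have z4 : ζ ^ 4 * v ^ 6 ≤ v ^ 6 :=
    mul_le_of_le_one_left (by positivity) (pow_le_one₀ hζ.le hζ1)
  have hTE : 0 ≤ T ^ 6 * E := by positivity
  rcases min_le_iff.1 h with h | h
  · have z2 : ζ ^ 2 * E ≤ E := mul_le_of_le_one_left hE (pow_le_one₀ hζ.le hζ1)
    have h1 : v ^ 6 ≤ T ^ 6 := pow_le_pow_left₀ hv hvT 6
    have h2 : T ^ 6 * 1 ≤ T ^ 6 * (2000 * E) :=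
      mul_le_mul_of_nonneg_left (by linarith) (by positivity)
    linarith
  rcases le_total (8 * D) (v / β ^ 2) with h1 | h1
  · have h2 : ζ ^ 2 * v * (v / β ^ 2 / 2) ≤ U :=
      (mul_le_mul_of_nonneg_left (by linarith) (by positivity)).trans hU
    have h3 := (pow_le_pow_left₀ (by positivity) h2 3).trans h
    have e : (ζ ^ 2 * v * (v / β ^ 2 / 2)) ^ 3 = ζ ^ 2 * (ζ ^ 4 * v ^ 6 / (8 * (β ^ 2) ^ 3)) := by
      field_simp
      norm_num
    rw [e, mul_left_comm] at h3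
    have h4 := le_of_mul_le_mul_left h3 (by positivity)
    rw [div_le_iff₀ (by positivity)] at h4
    have h5 : (β ^ 2) ^ 3 ≤ T ^ 6 :=
      (pow_le_pow_left₀ (by positivity) hβT 3).trans (pow_le_pow_right₀ hT (by norm_num))
    have h6 := mul_le_mul_of_nonneg_right h5 hE
    linarith
  · rw [div_le_iff₀ (by positivity)] at h1
    have h2 : v ≤ 8 * E * T := h1.trans (by gcongr)
    have h3 : v ^ 5 * v ≤ T ^ 5 * (8 * E * T) := by gcongr
    have e1 : v ^ 6 = v ^ 5 * v := by ring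
    have e2 : T ^ 5 * (8 * E * T) = 8 * (T ^ 6 * E) := by ring
    linarith

theorem b6_eps {β T D Q L X Y : ℝ} (hζ : 0 < ζ) (hv : 0 ≤ v) (hvT : v ≤ T) (hD : 0 ≤ D)
    (hQ : 0 ≤ Q) (hL : 0 ≤ L) (hX : v / β ^ 2 - 4 * D ≤ X) (hY : Y ≤ 1 / β ^ 2 + Q + L * D) :
    ζ ^ 2 * v ^ 2 * Y ≤ ζ ^ 2 * v * X + ζ ^ 2 * (T ^ 2 * Q + (T ^ 2 * L + 4 * T) * D) := by
  have h1 : v ^ 2 * Y ≤ v ^ 2 * (1 / β ^ 2 + Q + L * D) := by gcongr
  have h2 : v * (v / β ^ 2 - 4 * D) ≤ v * X := by gcongr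
  have h3 : v ^ 2 * (Q + L * D) ≤ T ^ 2 * (Q + L * D) := by gcongr
  have h4 : v * D ≤ T * D := by gcongr
  have e : v ^ 2 * (1 / β ^ 2) = v * (v / β ^ 2) := by ring
  have h5 : v ^ 2 * Y ≤ v * X + (T ^ 2 * Q + (T ^ 2 * L + 4 * T) * D) := by linarith
  have h6 := mul_le_mul_of_nonneg_left h5 (sq_nonneg ζ)
  linarith

theorem b6_static (h : Gd B B ζ Φ) (h' : Gd B B ζ (stp ζ v Φ)) (hζ : 0 < ζ) (hζ1 : ζ ≤ 1)
    (hv : 0 ≤ v) {ε : ℝ} (hε : 0 ≤ ε)
    (h1 : ζ ^ 2 * v ^ 2 * Kst ζ v Φ (fun y => D2 Φ y ^ 2) 0 ≤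
      ζ ^ 2 * v * Kst ζ v Φ (fun y => D1 Φ y ^ 2) 0 + ε)
    (h2 : ζ ^ 2 * v ^ 2 * D2 (stp ζ v Φ) 0 ^ 2 ≤
      ζ ^ 2 * v * Kst ζ v Φ (fun y => D1 Φ y ^ 2) 0 + ε) :
    min 1 ((ζ ^ 2 * v * Kst ζ v Φ (fun y => D1 Φ y ^ 2) 0) ^ 3) ≤ 2000 * ε := by
  have S := sh_of_gd h hζ.le hζ hζ1 hv
  have m1 := h.toLp.gr1.1
  have m2 := h.gr2.1
  have eU : Es (fun y => ζ * Φ (√v * y)) (fun y => (ζ * √v * D1 Φ (√v * y)) ^ 2) =
      ζ ^ 2 * v * Kst ζ v Φ (fun y => D1 Φ y ^ 2) 0 := by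
    rw [Es_Kst h.toLp h.even hζ (F := fun x => (ζ * √v * D1 Φ x) ^ 2)
      ((m1.const_mul _).pow_const 2) fun x => by rw [h.odd1, mul_neg, neg_sq]]
    simp only [Kst, mul_pow, Real.sq_sqrt hv]
    exact integral_const_mul _ _
  have eA : Es (fun y => ζ * Φ (√v * y)) (fun y => (ζ * v * D2 Φ (√v * y)) ^ 2) =
      ζ ^ 2 * v ^ 2 * Kst ζ v Φ (fun y => D2 Φ y ^ 2) 0 := by
    rw [Es_Kst h.toLp h.even hζ (F := fun x => (ζ * v * D2 Φ x) ^ 2)
      ((m2.const_mul _).pow_const 2) fun x => by rw [h.even2]]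
    simp only [Kst, mul_pow]
    exact integral_const_mul _ _
  have ea : Es (fun y => ζ * Φ (√v * y)) (fun y => ζ * v * D2 Φ (√v * y)) =
      ζ * v * Kst ζ v Φ (D2 Φ) 0 := by
    rw [Es_Kst h.toLp h.even hζ (F := fun x => ζ * v * D2 Φ x) (m2.const_mul _)
      fun x => by rw [h.even2]]
    exact integral_const_mul _ _
  have e0 : Kst ζ v Φ (D1 Φ) 0 = 0 := by
    rw [← D1_stp hζ h.toLp]
    exact b6_zero h'
  have e2 : D2 (stp ζ v Φ) 0 = _ := (D2_stp hζ h.toLp h.d1 h.gr2 v 0).deriv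
  have eP := (S.mom rfl rfl rfl rfl).2.1
  rw [ea, eU] at eP
  have eP' : Es (fun y => ζ * Φ (√v * y)) (fun y => y * (ζ * √v * D1 Φ (√v * y))) =
      ζ * v * D2 (stp ζ v Φ) 0 := by
    rw [e2, e0]
    linarith
  rw [← eU]
  refine S.static hε ?_ ?_
  · rw [eA, eU]
    exact h1
  · rw [eP', eU, mul_pow, mul_pow]
    exact h2

/-- No long gap near the bottom. -/
theorem no_gap (β : ℝ) (hβ : 0 < β) : ∃ C, 1 ≤ C ∧ ∀ (k : ℕ) (r : ℕ → ℝ), IsMz β k r → ∀ l,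
    1 ≤ l → l + 1 < k → zt k l ^ 4 * vv r l ^ 6 ≤ C * (√(r l) + 1 / k) := by
  obtain ⟨T, hT⟩ : ∃ T, T = β ^ 2 + 1 := ⟨_, rfl⟩
  have hT1 : 1 ≤ T := by nlinarith [sq_nonneg β]
  obtain ⟨B, hB, HB⟩ := chain_gd T
  obtain ⟨C1, hC1, H1⟩ := chain_sq T
  obtain ⟨C2, hC2, H2⟩ := so β hβ
  obtain ⟨W, hW⟩ : ∃ W, W = T ^ 2 * (2 * B + 2) + 4 * T := ⟨_, rfl⟩
  have hW1 : 1 ≤ W := by
    have : 0 ≤ T ^ 2 * (2 * B + 2) := by positivity
    linarith
  have hTC : 0 ≤ T ^ 2 * C2 := by positivity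
  have hWC : 1 ≤ W * C1 := one_le_mul_of_one_le_of_one_le hW1 hC1
  refine ⟨16000 * T ^ 6 * (T ^ 2 * C2 + W * C1), one_le_mul_of_one_le_of_one_le
    (one_le_mul_of_one_le_of_one_le (by norm_num) (one_le_pow₀ hT1)) (by linarith),
    fun k r hr l hl1 hl2 => ?_⟩
  have hl : l < k := by omega
  have hk : 0 < k := by omega
  have hrk : r k ≤ T := (hr.top k le_rfl).trans_le hT.ge
  have hv := vv_nonneg hr.adm l
  have hr0 : 0 ≤ r l := hr.adm.1.ge.trans (hr.adm.2 (Nat.zero_le l))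
  have hvr : vv r l ≤ r (l + 1) := by unfold vv; linarith
  have hvT : vv r l ≤ T := hvr.trans ((hr.adm.2 hl2.le).trans hrk)
  have hζ := zt_pos hk l
  have hζ1 := zt_le hl
  have g1 := HB k r l hr.adm hrk hl (vv r l) hv le_rfl
  have g0 := HB k r l hr.adm hrk hl 0 le_rfl hv
  rw [Pg_end hl] at g1
  rw [Pg_zero hl] at g0
  have := muL_prob hk r hl.le
  have i1 := Gr.id.abs.intL hk r hl.le
  have hD : 0 ≤ C1 * √(r l) := by positivity
  have hm : ∫ x, |x| ∂muL k r l ≤ C1 * √(r l) := by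
    refine b6_abs i1 ((Gr.id.pow 2).intL hk r hl.le) hD ?_
    have h1 := H1 k r l hr.adm hrk hl 0 le_rfl hv
    rw [Eg_zero hl r (Gr.id.pow 2), add_zero] at h1
    rw [mul_pow, Real.sq_sqrt hr0]
    exact h1.trans (mul_le_mul_of_nonneg_right (by nlinarith) hr0)
  have u2 := g1.toLp.gr1.pow 2
  have a2 := g1.gr2.pow 2
  have m1 := b6_move i1 ((u2.K hζ g1.toLp (vv r l)).intL hk r hl.le) (L := 2 + 2) (by norm_num) hm
    fun x => Kst_lip hζ hζ1 g1.toLp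
      (f' := fun y => 2 * D1 (Ph k r (l + 1)) y * D2 (Ph k r (l + 1)) y)
      (fun y => ((g1.d1 y).hasDerivAt.fun_pow 2).congr_deriv (by simp))
      (fun y => by rw [abs_pow]; exact pow_le_one₀ (abs_nonneg _) (g1.b0 y))
      (fun y => by
        rw [abs_mul, abs_mul, abs_two, mul_assoc]
        exact mul_le_of_le_one_right zero_le_two (mul_le_one₀ (g1.b0 y) (abs_nonneg _) (g1.a_le y)))
      _ x 0
  have m2 := b6_move i1 ((a2.K hζ g1.toLp (vv r l)).intL hk r hl.le) (L := 2 * B + 2)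
    (by positivity) hm fun x => Kst_lip hζ hζ1 g1.toLp
      (f' := fun y => 2 * D2 (Ph k r (l + 1)) y * D3 (Ph k r (l + 1)) y)
      (fun y => ((g1.d2 y).hasDerivAt.fun_pow 2).congr_deriv (by simp))
      (fun y => by rw [abs_pow]; exact pow_le_one₀ (abs_nonneg _) (g1.a_le y))
      (fun y => by
        rw [abs_mul, abs_mul, abs_two, mul_assoc]
        exact mul_le_mul_of_nonneg_left
          ((mul_le_of_le_one_left (abs_nonneg _) (g1.a_le y)).trans (g1.b1 y)) zero_le_two)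
      _ x 0
  have m3 := b6_move i1 ((g0.gr2.pow 2).intL hk r hl.le) (L := 2 * B + 2) (by positivity) hm
    fun x => by
      have k1 := g0.lip2 x 0
      have k2 := abs_add_le (D2 (Ph k r l) x) (D2 (Ph k r l) 0)
      have k3 := g0.a_le x
      have k4 := g0.a_le 0
      have k5 := abs_nonneg (x - 0)
      rw [sq_sub_sq, abs_mul]
      exact (mul_le_mul (by linarith) k1 (abs_nonneg _) zero_le_two).trans (by linarith)
  have e1 : ∫ x, Kst (zt k l) (vv r l) (Ph k r (l + 1)) (fun y => D1 (Ph k r (l + 1)) y ^ 2) x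
      ∂muL k r l = Gam k r (l + 1) := (EL_succ hl r u2).symm
  have e2 : ∫ x, Kst (zt k l) (vv r l) (Ph k r (l + 1)) (fun y => D2 (Ph k r (l + 1)) y ^ 2) x
      ∂muL k r l = Nn k r (l + 1) := (EL_succ hl r a2).symm
  have e3 : ∫ x, D2 (Ph k r l) x ^ 2 ∂muL k r l = Nn k r l := rfl
  rw [e1] at m1
  rw [e2] at m2
  rw [e3] at m3
  have hG : vv r l / β ^ 2 ≤ Gam k r (l + 1) := by
    rw [div_le_iff₀ (by positivity), mul_comm, ← hr.fo hβ hk hl2]
    exact hvr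
  have hX : vv r l / β ^ 2 - 4 * (C1 * √(r l)) ≤
      Kst (zt k l) (vv r l) (Ph k r (l + 1)) (fun y => D1 (Ph k r (l + 1)) y ^ 2) 0 := by
    linarith [(abs_le.1 m1).2]
  have n1 := H2 k r hr l hl1 hl
  have n2 := H2 k r hr (l + 1) (by omega) hl2
  have hQ : 0 ≤ C2 / k := by positivity
  have hE : C1 * √(r l) ≤ T ^ 2 * (C2 / k) + W * (C1 * √(r l)) := by
    have k1 : 0 ≤ T ^ 2 * (C2 / k) := by positivity
    have k2 := le_mul_of_one_le_left hD hW1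
    linarith
  have st := b6_static g1 (Ph_succ hl r ▸ g0) hζ hζ1 hv
    (ε := zt k l ^ 2 * (T ^ 2 * (C2 / k) + W * (C1 * √(r l)))) (by positivity)
    (hW ▸ b6_eps hζ hv hvT hD hQ (by positivity) hX (by linarith [(abs_le.1 m2).1]))
    (hW ▸ b6_eps hζ hv hvT hD hQ (by positivity) hX (by
      rw [← Ph_succ hl r]
      linarith [(abs_le.1 m3).1]))
  refine (b6_real hβ hζ hζ1 hv hvT hT1 (by linarith) hD hE
    (mul_le_mul_of_nonneg_left hX (by positivity)) st).trans ?_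
  rw [mul_assoc (16000 * T ^ 6)]
  refine mul_le_mul_of_nonneg_left ?_ (by positivity)
  have k1 : 0 ≤ T ^ 2 * C2 * √(r l) := by positivity
  have k2 : 0 ≤ W * C1 * (1 / k) := by positivity
  have k3 : T ^ 2 * (C2 / k) = T ^ 2 * C2 * (1 / k) := by ring
  linarith

end

end Vale.Agent.P146L
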