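import Vale.Agent.P146L.K4

/-! The single spin chain: basic facts. -/

namespace Vale.Agent.P146L

open MeasureTheory ProbabilityTheory Real Finset Filter Topology Vale.Agent.P146M Vale.Agent.P146

noncomputable section

variable {k l : ℕ} {r : ℕ → ℝ} {f : ℝ → ℝ}

theorem zt_pos (hk : 0 < k) (l : ℕ) : 0 < zt k l := by
  unfold zt
  positivity

theorem zt_le (hl : l < k) : zt k l ≤ 1 :=
  div_le_one_of_le₀ (by exact_mod_cast hl) (Nat.cast_nonneg _)

theorem vv_nonneg (hr : AdmR r) (l : ℕ) : 0 ≤ vv r l := sub_nonneg.2 (hr.2 (Nat.le_succ l))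

theorem Ch1_ζ (hl : l < k) (v : ℕ → ℝ) : (RS k v).ζ l = zt k l := min_eq_right (zt_le hl)

theorem Ch1_T (hl : l < k) (v : ℕ → ℝ) (Φ : ℝ → ℝ) : (RS k v).T l Φ = stp (zt k l) (v l) Φ := by
  funext x
  unfold Sys.T stp
  rw [Ch1_ζ hl]
  rfl

theorem Ch1_step (hl : l < k) (v : ℕ → ℝ) (Φ : ℝ → ℝ) (x : ℝ) :
    (RS k v).stepM l Φ x = Km (zt k l) (v l) Φ x := by
  unfold Km Sys.stepM Sys.T
  rw [Ch1_ζ hl]
  rfl

theorem Ch1_gen (hk : 0 < k) (v : ℕ → ℝ) {H : ℝ → ℝ} (hH : Lp H) {n j : ℕ} (h : j + n ≤ k) :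
    Lp ((RS k v).X n j H) ∧ D1 ((RS k v).X n j H) = (RS k v).P n j H (D1 H) := by
  induction n generalizing j with
  | zero => exact ⟨hH, (Sys.P_zero hH.gr1.1 j).symm⟩
  | succ n ih =>
    obtain ⟨h1, h2⟩ := ih (j := j + 1) (by omega)
    have h3 : (RS k v).X (n + 1) j H = stp (zt k j) (v j) ((RS k v).X n (j + 1) H) :=
      Ch1_T (by omega) v _
    rw [h3, D1_stp (zt_pos hk j) h1, h2]
    refine ⟨h1.stp (zt_pos hk j) _, funext fun x => ?_⟩
    rw [Sys.P_succ (rs_ok hk v) (hH.lin 0 0) hH.gr1, Ch1_step (by omega)]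
    rfl

theorem Ch1_congr {v w : ℕ → ℝ} (H : ℝ → ℝ) {n j : ℕ} (h : j + n ≤ k)
    (hv : ∀ i, i < j + n → v i = w i) :
    (RS k v).X n j H = (RS k w).X n j H ∧ (RS k v).m n j H = (RS k w).m n j H := by
  induction n generalizing j with
  | zero => exact ⟨rfl, rfl⟩
  | succ n ih =>
    obtain ⟨h1, h2⟩ := ih (j := j + 1) (by omega) fun i hi => hv i (by omega)
    refine ⟨?_, funext fun s => ?_⟩
    · show (RS k v).T j _ = (RS k w).T j _
      rw [Ch1_T (by omega), Ch1_T (by omega), h1, hv j (by omega)]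
    · show ((RS k v).stepM j _ s).bind _ = ((RS k w).stepM j _ s).bind _
      rw [Ch1_step (by omega), Ch1_step (by omega), h1, h2, hv j (by omega)]

theorem Ph_top (k : ℕ) (r : ℕ → ℝ) : Ph k r k = lc := by
  unfold Ph
  rw [Nat.sub_self]
  rfl

theorem Ph_succ (hl : l < k) (r : ℕ → ℝ) :
    Ph k r l = stp (zt k l) (vv r l) (Ph k r (l + 1)) := by
  unfold Ph
  rw [show k - l = k - (l + 1) + 1 by omega]
  exact Ch1_T hl _ _

theorem lp_Ph (hk : 0 < k) (r : ℕ → ℝ) (hl : l ≤ k) : Lp (Ph k r l) :=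
  (Ch1_gen hk _ gd_lc.toLp (by omega)).1

theorem muL_prob (hk : 0 < k) (r : ℕ → ℝ) (hl : l ≤ k) : IsProbabilityMeasure (muL k r l) :=
  Sys.m_prob (rs_ok hk _) ((lp_Ph hk r hl).lin 0 0) _ _ _

theorem Gr.intL (hf : Gr f) (hk : 0 < k) (r : ℕ → ℝ) (hl : l ≤ k) : Integrable f (muL k r l) :=
  Sys.Ex.integrable_m (rs_ok hk _) ((lp_Ph hk r hl).lin 0 0) hf _ _ _

theorem EL_zero (hf : Measurable f) (k : ℕ) (r : ℕ → ℝ) : EL k r 0 f = f 0 :=
  integral_dirac' f 0 hf.stronglyMeasurable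

/-- Hint: `Sys.P_add` with `l + 1` and `Sys.P_succ`, `Sys.P_zero`. -/
theorem EL_succ (hl : l < k) (r : ℕ → ℝ) (hf : Gr f) :
    EL k r (l + 1) f = EL k r l (Kst (zt k l) (vv r l) (Ph k r (l + 1)) f) := by
  have hk : 0 < k := by omega
  have h1 : (RS k (vv r)).Lin (Ph k r (l + 1)) := (lp_Ph hk r hl).lin 0 0
  have h2 : (RS k (vv r)).X 1 l (Ph k r (l + 1)) = Ph k r l :=
    (Ch1_T hl _ _).trans (Ph_succ hl r).symm
  have h3 : (RS k (vv r)).P 1 l (Ph k r (l + 1)) f = Kst (zt k l) (vv r l) (Ph k r (l + 1)) f := by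
    funext x
    rw [Sys.P_succ (rs_ok hk _) h1 hf 0, Ch1_step hl, Sys.P_zero hf.1]
    rfl
  have h4 := Sys.P_add (rs_ok hk _) h1 hf l 1 0 0
  rw [zero_add, h2, h3] at h4
  exact h4

theorem lp_Pg (hl : l < k) (r : ℕ → ℝ) (x : ℝ) : Lp (Pg k r l x) :=
  (lp_Ph (by omega) r hl).stp (zt_pos (by omega) l) _

theorem Pg_zero (hl : l < k) (r : ℕ → ℝ) : Pg k r l 0 = Ph k r l := by
  rw [Pg, sub_zero, Ph_succ hl]

theorem Pg_end (hl : l < k) (r : ℕ → ℝ) : Pg k r l (vv r l) = Ph k r (l + 1) := by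
  rw [Pg, sub_self, stp_zero (zt_pos (by omega) l)]

theorem Eg_zero (hl : l < k) (r : ℕ → ℝ) (hf : Gr f) : Eg k r l 0 f = EL k r l f := by
  rw [Eg, Kst_zero (zt_pos (by omega) l) (lp_Pg hl r 0) hf.1]

theorem Eg_end (hl : l < k) (r : ℕ → ℝ) (hf : Gr f) :
    Eg k r l (vv r l) f = EL k r (l + 1) f := by
  rw [Eg, Pg_end hl, EL_succ hl r hf]

/-- The derivative of the recursion is the tilted mean of `sinh / cosh` (downward induction with
`D1_stp`, `Sys.P_succ`, `D1_lc`). -/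
theorem D1_Ph (hk : 0 < k) (r : ℕ → ℝ) (hl : l ≤ k) :
    D1 (Ph k r l) = (RS k (vv r)).P (k - l) l lc fun x => sinh x / cosh x := by
  rw [← D1_lc]
  exact (Ch1_gen hk _ gd_lc.toLp (by omega)).2

/-- The two chains differ only at the top level. -/
theorem pS_Gam (hr : AdmR r) (hl : l < k) : pS k νB xB r l = Gam k r l := by
  have hk : 0 < k := by omega
  obtain ⟨a, ha⟩ := Nat.exists_eq_add_of_lt hl
  set w : ℕ → ℝ := fun j => wS Unit k r j () with hw
  have hL := gd_lc.toLp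
  have hvw : ∀ i, i < l + a → vv r i = w i := fun i hi => (if_pos (by omega)).symm
  have hz : zt k (l + a) = 1 := by
    rw [zt, ha, Nat.cast_succ, div_self (by positivity)]
  have h1 : Ph k r l = fun x => (RS k w).X (k - l) l lc x + vv r (l + a) / 2 := by
    have e1 : (RS k (vv r)).X 1 (l + a) lc = fun x => lc x + vv r (l + a) / 2 := by
      refine (Ch1_T (by omega) _ _).trans ?_
      rw [hz]
      exact stp_lc (vv_nonneg hr _)
    have e2 : (RS k w).X 1 (l + a) lc = lc := by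
      refine (Ch1_T (by omega) _ _).trans ?_
      rw [hz, show w (l + a) = 0 from if_neg (by omega)]
      exact stp_zero one_pos _
    rw [Ph, show k - l = a + 1 by omega, Sys.X_add, Sys.X_add, e1, e2,
      Sys.X_add_const (rs_ok hk _) (hL.lin 0 0), (Ch1_congr lc (by omega) hvw).1]
  obtain ⟨h2, h3⟩ := Ch1_gen hk w hL (show l + (k - l) ≤ k by omega)
  have h4 := Sys.integral_pr_mul (rs_ok hk w) (hL.lin 0 0) hL.gr1 hL.gr1 l (k - l) 0 0
  rw [zero_add, ← h3, D1_lc] at h4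
  refine (pS_eq hk r hl.le).trans (h4.trans ?_)
  rw [Gam, EL, muL, h1, Sys.m_add_const (rs_ok hk _) (h2.lin 0 0),
    (Ch1_congr _ (by omega) fun i hi => hvw i (by omega)).2]
  simp only [D1, deriv_add_const', sq]
  rfl

/-- linear stability of tilted expectations -/
theorem P_lip {S Ω : Type*} [MeasurableSpace S] [MeasurableSpace Ω] {Y : Sys S Ω} (hY : Y.OK)
    (h1 : ∀ i, Y.ζ i ≤ 1) {H0 H1 g : S → ℝ} (hH0 : Y.Lin H0) (hH1 : Y.Lin H1) (hg : Measurable g)
    {d b : ℝ} (hd : ∀ s, |H1 s - H0 s| ≤ d) (hb : ∀ s, |g s| ≤ b) (n j : ℕ) (s : S) :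
    |Y.P n j H1 g s - Y.P n j H0 g s| ≤ b * d := by
  have hm : Measurable fun s => H1 s - H0 s := hH1.1.sub hH0.1
  have hd0 : 0 ≤ d := (abs_nonneg _).trans (hd s)
  obtain ⟨C, hC0, hC⟩ := hH0.bd hY
  have hlin : ∀ t ∈ Set.Ioo (-1 : ℝ) 2, ∀ s, |H0 s + t * (H1 s - H0 s)| ≤
      (C + 2 * d) * (1 + Y.ν s) := fun t ht s => by
    have e1 := abs_add_le (H0 s) (t * (H1 s - H0 s))
    have e2 : |t| * |H1 s - H0 s| ≤ 2 * d :=
      mul_le_mul (abs_le.2 ⟨by linarith [ht.1], ht.2.le⟩) (hd s) (abs_nonneg _) zero_le_two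
    rw [abs_mul] at e1
    nlinarith [hC s, hY.ν_nonneg s]
  have hF : Y.LFam (Set.Ioo (-1) 2) (fun t s => H0 s + t * (H1 s - H0 s))
      fun _ s => H1 s - H0 s := by
    refine ⟨Sys.Fam.mk' hY (fun t _ => hH0.1.add (hm.const_mul t)) (fun _ _ => hm)
      (fun t _ s => ?_) ⟨C + 2 * d + 1, by positivity, fun t ht s => (hlin t ht s).trans ?_⟩
      ⟨d, hd0, fun t _ s => (hd s).trans (le_mul_of_one_le_right hd0
        (one_le_exp (mul_nonneg hd0 (hY.ν_nonneg s))))⟩, _, hlin⟩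
    · simpa using ((hasDerivAt_id t).mul_const (H1 s - H0 s)).const_add (H0 s)
    · have e1 := add_one_le_exp ((C + 2 * d + 1) * Y.ν s)
      have e2 := hY.ν_nonneg s
      exact mul_le_mul (by linarith) (by nlinarith) (by linarith) (by positivity)
  have hG := Sys.P_fam hY isOpen_Ioo hF (Sys.Fam.const hY (Sys.Ex.of_bdd hY hg b hb)) n j
  have key : ∀ {H u : S → ℝ} {c : ℝ}, Y.Lin H → (∀ s, |u s| ≤ c) →
      √(Y.P n j H (fun s => u s ^ 2) s) ≤ c := fun {H u c} hH hu => by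
    have := Sys.m_prob hY hH n j s
    refine sqrt_le_iff.2 ⟨(abs_nonneg _).trans (hu s), (le_abs_self _).trans ?_⟩
    have e := norm_integral_le_of_norm_le_const (μ := Y.m n j H s) (f := fun s => u s ^ 2)
      (C := c ^ 2) (Eventually.of_forall fun x => by
        rw [norm_pow]
        exact pow_le_pow_left₀ (norm_nonneg _) (hu x) 2)
    rwa [probReal_univ, mul_one] at e
  have h := norm_image_sub_le_of_norm_deriv_le_segment_01' (C := b * d)
    (fun t ht => (hG.der t ⟨by linarith [ht.1], by linarith [ht.2]⟩ s).hasDerivWithinAt)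
    (fun t ht => by
      have e := hF.lin_at (show t ∈ Set.Ioo (-1 : ℝ) 2 from ⟨by linarith [ht.1], by linarith [ht.2]⟩)
      simp only [Sys.P, integral_zero, zero_add]
      exact (Sys.abs_D_le hY h1 e (Sys.Ex.of_bdd hY hg b hb) (Sys.Ex.of_bdd hY hm d hd) n j s).trans
        (mul_le_mul (key e hb) (key e hd) (sqrt_nonneg _) ((abs_nonneg _).trans (hb s))))
  simpa using h

end

end Vale.Agent.P146L
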