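import Vale.Agent.P146L.K1

/-! The tilted Gaussian step preserves even functions decreasing on the half line; the base case. -/

set_option linter.all false

namespace Vale.Agent.P146L

open MeasureTheory ProbabilityTheory Real Finset Filter Topology Vale.Agent.P146M Vale.Agent.P146

noncomputable section

variable {ζ v : ℝ} {Φ f : ℝ → ℝ}

theorem K4_neg (g : ℝ → ℝ) : ∫ w, g (-w) ∂γ1 = ∫ w, g w ∂γ1 := by
  have h : γ1.map (MeasurableEquiv.neg ℝ) = γ1 := by
    simpa using gaussianReal_map_neg (μ := 0) (v := 1)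
  conv_rhs => rw [← h, integral_map_equiv]
  rfl

theorem K4_mlr {p p' F : ℝ → ℝ} {μ : Measure ℝ} (hp : Integrable p μ) (hp' : Integrable p' μ)
    (hF : Integrable (fun z => F z * p z) μ) (hF' : Integrable (fun z => F z * p' z) μ)
    (h : ∀ z z', (F z - F z') * (p' z * p z' - p' z' * p z) ≤ 0) :
    (∫ z, F z * p' z ∂μ) * ∫ z, p z ∂μ ≤ (∫ z, F z * p z ∂μ) * ∫ z, p' z ∂μ := by
  have key : ∀ a b c d : ℝ, ∫ z, (a * (F z * p' z) - b * (F z * p z) - c * p' z + d * p z) ∂μ =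
      a * (∫ z, F z * p' z ∂μ) - b * (∫ z, F z * p z ∂μ) - c * (∫ z, p' z ∂μ) +
        d * ∫ z, p z ∂μ := fun a b c d => by
    have i1 : Integrable (fun z => a * (F z * p' z) - b * (F z * p z)) μ :=
      (hF'.const_mul a).sub (hF.const_mul b)
    have i2 : Integrable (fun z => a * (F z * p' z) - b * (F z * p z) - c * p' z) μ :=
      i1.sub (hp'.const_mul c)
    rw [integral_add i2 (hp.const_mul d), integral_sub i1 (hp'.const_mul c),
      integral_sub (hF'.const_mul a) (hF.const_mul b)]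
    simp only [integral_const_mul]
  have h1 : ∀ z', p z' * (∫ z, F z * p' z ∂μ) - p' z' * (∫ z, F z * p z ∂μ) -
      F z' * p z' * (∫ z, p' z ∂μ) + F z' * p' z' * (∫ z, p z ∂μ) ≤ 0 := fun z' => by
    rw [← key]
    exact integral_nonpos fun z => (h z z').trans_eq' (by ring)
  have h2 : ∫ z, ((∫ z, p z ∂μ) * (F z * p' z) - (∫ z, p' z ∂μ) * (F z * p z) -
      (∫ z, F z * p z ∂μ) * p' z + (∫ z, F z * p' z ∂μ) * p z) ∂μ ≤ 0 :=
    integral_nonpos fun z => (h1 z).trans_eq' (by ring)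
  rw [key] at h2
  linarith

theorem K4_cosh {a a' z z' : ℝ} (ha : 0 ≤ a) (haa : a ≤ a') (hz : |z'| ≤ |z|) :
    cosh (a' * z') * cosh (a * z) ≤ cosh (a' * z) * cosh (a * z') := by
  have e : ∀ c w : ℝ, 0 ≤ c → cosh (c * w) = cosh (c * |w|) := fun c w hc => by
    rw [← cosh_abs, abs_mul, abs_of_nonneg hc]
  rw [e a' z' (ha.trans haa), e a z ha, e a' z (ha.trans haa), e a z' ha]
  have h0 := abs_nonneg z'
  generalize |z'| = y' at *
  generalize |z| = y at *
  have p1 : 0 ≤ (a' - a) * (y - y') := mul_nonneg (sub_nonneg.2 haa) (sub_nonneg.2 hz)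
  have p2 : 0 ≤ (a' + a) * (y - y') := mul_nonneg (by linarith) (sub_nonneg.2 hz)
  have p3 : 0 ≤ (a' - a) * (y + y') := mul_nonneg (sub_nonneg.2 haa) (by linarith)
  have p4 : 0 ≤ a' * y' + a * y :=
    add_nonneg (mul_nonneg (ha.trans haa) h0) (mul_nonneg ha (h0.trans hz))
  have h1 : cosh (a' * y' + a * y) ≤ cosh (a' * y + a * y') :=
    cosh_le_cosh.2 (by rw [abs_of_nonneg p4]; exact le_trans (by linarith) (le_abs_self _))
  have h2 : cosh (a' * y' - a * y) ≤ cosh (a' * y - a * y') :=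
    cosh_le_cosh.2 (le_trans (abs_le.2 ⟨by linarith, by linarith⟩) (le_abs_self _))
  rw [cosh_add, cosh_add] at h1
  rw [cosh_sub, cosh_sub] at h2
  linarith

theorem K4_int (h : Lp Φ) (ζ s a : ℝ) : Integrable (fun w => exp (ζ * Φ (s * w) + a * w)) γ1 := by
  have hm := h.d0.continuous.measurable
  refine int_exp_lin (by fun_prop) (C := |ζ| * (|Φ 0| + |s|) + |a|) fun w => ?_
  have h1 := h.lip (s * w) 0
  rw [sub_zero, abs_mul] at h1
  have h2 : |Φ (s * w)| ≤ |Φ 0| + |s| * |w| := by linarith [abs_sub_abs_le_abs_sub (Φ (s * w)) (Φ 0)]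
  refine (abs_add_le _ _).trans ?_
  rw [abs_mul, abs_mul]
  have h3 := mul_le_mul_of_nonneg_left h2 (abs_nonneg ζ)
  have h4 : 0 ≤ |ζ| * |s| := by positivity
  have h5 : 0 ≤ |ζ| * |Φ 0| * |w| := by positivity
  nlinarith [abs_nonneg a]

theorem K4_cosh_eq (ζ s a w : ℝ) : exp (ζ * Φ (s * w)) * cosh (a * w) =
    (exp (ζ * Φ (s * w) + a * w) + exp (ζ * Φ (s * w) + -a * w)) / 2 := by
  rw [cosh_eq, exp_add, exp_add, neg_mul]
  ring

theorem K4_int' (h : Lp Φ) (ζ s a : ℝ) :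
    Integrable (fun w => exp (ζ * Φ (s * w)) * cosh (a * w)) γ1 := by
  simp only [K4_cosh_eq]
  exact ((K4_int h ζ s a).add (K4_int h ζ s (-a))).div_const 2

theorem K4_shift (h : Lp Φ) (he : ∀ x, Φ (-x) = Φ x) (hf : Measurable f) {C : ℝ}
    (hC : ∀ y, |f y| ≤ C) (hfe : ∀ x, f (-x) = f x) {s : ℝ} (hs : 0 < s) (ζ x : ℝ) :
    ∫ z, exp (ζ * Φ (x + s * z)) * f (x + s * z) ∂γ1 = exp (-(x / s) ^ 2 / 2) *
      ∫ w, f (s * w) * (exp (ζ * Φ (s * w)) * cosh (x / s * w)) ∂γ1 := by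
  have i : ∀ a, Integrable (fun w => f (s * w) * exp (ζ * Φ (s * w) + a * w)) γ1 := fun a =>
    (K4_int h ζ s a).bdd_mul (c := C) (Measurable.aestronglyMeasurable (by fun_prop))
      (ae_of_all _ fun w => hC _)
  have e1 : ∫ w, f (s * w) * exp (ζ * Φ (s * w) + -(x / s) * w) ∂γ1 =
      ∫ w, f (s * w) * exp (ζ * Φ (s * w) + x / s * w) ∂γ1 := by
    rw [← K4_neg]
    simp only [mul_neg, neg_mul, neg_neg, he, hfe]
  have e2 : ∫ w, f (s * w) * (exp (ζ * Φ (s * w)) * cosh (x / s * w)) ∂γ1 =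
      ∫ w, f (s * w) * exp (ζ * Φ (s * w) + x / s * w) ∂γ1 := by
    simp only [K4_cosh_eq, ← mul_div_assoc, mul_add]
    rw [integral_div, integral_add (i _) (i _), e1]
    ring
  rw [e2, cm _ (-(x / s)), ← integral_const_mul]
  refine integral_congr_ae (ae_of_all _ fun w => ?_)
  have e3 : x + s * (w + -(x / s)) = s * w := by
    field_simp
    ring
  have e4 : -(-(x / s) * w) - (-(x / s)) ^ 2 / 2 = x / s * w + -(x / s) ^ 2 / 2 := by ring
  simp only [e3, e4, exp_add]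
  ring

theorem K4_ratio (hζ : 0 < ζ) (h : Lp Φ) (he : ∀ x, Φ (-x) = Φ x) (hf : Measurable f) {C : ℝ}
    (hC : ∀ y, |f y| ≤ C) (hfe : ∀ x, f (-x) = f x) (hs : 0 < √v) (x : ℝ) :
    0 < ∫ w, exp (ζ * Φ (√v * w)) * cosh (x / √v * w) ∂γ1 ∧ Kst ζ v Φ f x =
      (∫ w, f (√v * w) * (exp (ζ * Φ (√v * w)) * cosh (x / √v * w)) ∂γ1) /
        ∫ w, exp (ζ * Φ (√v * w)) * cosh (x / √v * w) ∂γ1 := by
  have e1 := K4_shift h he hf hC hfe hs ζ x
  have e2 := K4_shift h he (f := fun _ => 1) measurable_const (C := 1) (by simp) (fun _ => rfl) hs ζ x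
  simp only [mul_one, one_mul, ← exp_stp hζ h] at e2
  have h0 : 0 < ∫ w, exp (ζ * Φ (√v * w)) * cosh (x / √v * w) ∂γ1 :=
    (mul_pos_iff_of_pos_left (exp_pos _)).1 (e2 ▸ exp_pos _)
  refine ⟨h0, ?_⟩
  rw [Kst_eq hζ h hf]
  simp only [mul_sub, exp_sub, div_mul_eq_mul_div (exp _)]
  rw [integral_div, e1, e2, mul_div_mul_left _ _ (exp_pos _).ne']

/-- Monotone likelihood ratio. For `v > 0`, by the shift formula `cm` (or `gaussianPDFReal`),
`Kst ζ v Φ f x = (∫ f w c_x) / ∫ w c_x` where `w z = exp (ζ * Φ (√v * z))`, integrals against `γ1`,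
`c_x z = exp (x * z / √v)`, and by evenness `c_x` may be replaced by `cosh (x * z / √v)`.
For `0 ≤ x ≤ x'` integrate over `(z, z')` the product
`(f z - f z') * (c_x' z * c_x z' - c_x' z' * c_x z) * w z * w z' ≤ 0`: for `|z| ≥ |z'|`,
`2 * cosh A * cosh B = cosh (A + B) + cosh (A - B)`, `cosh_le_cosh` with
`(x' z - x z') ^ 2 - (x' z' - x z) ^ 2 = (x' ^ 2 - x ^ 2) * (z ^ 2 - z' ^ 2)`, and the same for the
sums after replacing `z, z'` by their absolute values. For `v ≤ 0` use `√v = 0`. -/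
theorem K_anti (hζ : 0 < ζ) (h : Lp Φ) (he : ∀ x, Φ (-x) = Φ x) (hf : Measurable f) {C : ℝ}
    (hC : ∀ y, |f y| ≤ C) (hfe : ∀ x, f (-x) = f x) (ha : AntitoneOn f (Set.Ici 0)) (v : ℝ) :
    AntitoneOn (Kst ζ v Φ f) (Set.Ici 0) := by
  rcases (sqrt_nonneg v).eq_or_lt with hs | hs
  · have e : Kst ζ v Φ f = Kst ζ 0 Φ f := by
      have : R1 ζ v = R1 ζ 0 := by simp only [R1, ← hs, sqrt_zero]
      unfold Kst Km
      rw [this]
    rwa [e, Kst_zero hζ h hf]
  intro x hx x' hx' hxx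
  obtain ⟨p1, e1⟩ := K4_ratio hζ h he hf hC hfe hs x
  obtain ⟨p2, e2⟩ := K4_ratio hζ h he hf hC hfe hs x'
  have i : ∀ a, Integrable (fun w => f (√v * w) * (exp (ζ * Φ (√v * w)) * cosh (a * w))) γ1 :=
    fun a => (K4_int' h ζ √v a).bdd_mul (c := C) (Measurable.aestronglyMeasurable (by fun_prop))
      (ae_of_all _ fun w => hC _)
  have hab : ∀ y, f y = f |y| := fun y => by
    rcases abs_choice y with h | h <;> rw [h]
    exact (hfe y).symm
  have hm : ∀ z z' : ℝ, |z'| ≤ |z| → f (√v * z) ≤ f (√v * z') := fun z z' hz => by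
    rw [hab (√v * z), hab (√v * z')]
    refine ha (Set.mem_Ici.2 (abs_nonneg _)) (Set.mem_Ici.2 (abs_nonneg _)) ?_
    rw [abs_mul, abs_mul]
    exact mul_le_mul_of_nonneg_left hz (abs_nonneg _)
  have ha0 : 0 ≤ x / √v := div_nonneg hx hs.le
  have haa : x / √v ≤ x' / √v := div_le_div_of_nonneg_right hxx hs.le
  rw [e1, e2, div_le_div_iff₀ p2 p1]
  refine K4_mlr (F := fun w => f (√v * w)) (K4_int' h ζ √v _) (K4_int' h ζ √v _) (i _) (i _)
    fun z z' => ?_
  have hw : 0 < exp (ζ * Φ (√v * z)) * exp (ζ * Φ (√v * z')) := by positivity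
  rcases le_total |z'| |z| with hz | hz
  · refine mul_nonpos_of_nonpos_of_nonneg (sub_nonpos.2 (hm z z' hz)) ?_
    have := mul_nonneg hw.le (sub_nonneg.2 (K4_cosh ha0 haa hz))
    linarith
  · refine mul_nonpos_of_nonneg_of_nonpos (sub_nonneg.2 (hm z' z hz)) ?_
    have := mul_nonneg hw.le (sub_nonneg.2 (K4_cosh ha0 haa hz))
    linarith

theorem K4_d0 (x : ℝ) : HasDerivAt lc (sinh x / cosh x) x :=
  (hasDerivAt_cosh x).log (cosh_pos x).ne'

theorem K4_d1 (x : ℝ) : HasDerivAt (fun x => sinh x / cosh x) (1 - (sinh x / cosh x) ^ 2) x := by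
  refine ((hasDerivAt_sinh x).fun_div (hasDerivAt_cosh x) (cosh_pos x).ne').congr_deriv ?_
  have := (cosh_pos x).ne'
  field_simp

theorem K4_d2 (x : ℝ) : HasDerivAt (fun x => 1 - (sinh x / cosh x) ^ 2)
    (-2 * (sinh x / cosh x * (1 - (sinh x / cosh x) ^ 2))) x := by
  refine (((K4_d1 x).fun_pow 2).const_sub 1).congr_deriv ?_
  simp only [Nat.cast_ofNat, Nat.add_one_sub_one, pow_one]
  ring

theorem K4_d3 (x : ℝ) : HasDerivAt (fun x => -2 * (sinh x / cosh x * (1 - (sinh x / cosh x) ^ 2)))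
    (-2 * (1 - (sinh x / cosh x) ^ 2) ^ 2 +
      4 * ((sinh x / cosh x) ^ 2 * (1 - (sinh x / cosh x) ^ 2))) x := by
  refine (((K4_d1 x).fun_mul (K4_d2 x)).const_mul (-2)).congr_deriv ?_
  ring

theorem K4_sq (x : ℝ) : (sinh x / cosh x) ^ 2 ≤ 1 := by
  rw [div_pow, div_le_one (pow_pos (cosh_pos x) 2), cosh_sq]
  linarith

theorem D1_lc : D1 lc = fun x => sinh x / cosh x := funext fun x => (K4_d0 x).deriv

theorem D2_lc : D2 lc = fun x => 1 - (sinh x / cosh x) ^ 2 := by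
  rw [D2, D1_lc]
  exact funext fun x => (K4_d1 x).deriv

theorem K4_D3 : D3 lc = fun x => -2 * (sinh x / cosh x * (1 - (sinh x / cosh x) ^ 2)) := by
  rw [D3, D2_lc]
  exact funext fun x => (K4_d2 x).deriv

theorem K4_D4 : D4 lc = fun x => -2 * (1 - (sinh x / cosh x) ^ 2) ^ 2 +
    4 * ((sinh x / cosh x) ^ 2 * (1 - (sinh x / cosh x) ^ 2)) := by
  rw [D4, K4_D3]
  exact funext fun x => (K4_d3 x).deriv

/-- with `u = sinh / cosh`: `u' = 1 - u ^ 2 = a`, `a' = -2 u a`, `a'' = -2 a ^ 2 + 4 u ^ 2 a` -/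
theorem gd_lc : Gd 2 4 1 lc where
  d0 x := (K4_d0 x).differentiableAt
  b0 x := by
    rw [D1_lc]
    exact sq_le_one_iff_abs_le_one _ |>.1 (K4_sq x)
  d1 := D1_lc ▸ fun x => (K4_d1 x).differentiableAt
  d2 := D2_lc ▸ fun x => (K4_d2 x).differentiableAt
  d3 := K4_D3 ▸ fun x => (K4_d3 x).differentiableAt
  even x := by rw [lc, lc, cosh_neg]
  a_nn x := by
    rw [D2_lc]
    exact sub_nonneg.2 (K4_sq x)
  au x := by
    rw [D2_lc, D1_lc]
    simp
  b1 x := by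
    simp only [K4_D3]
    have h1 := abs_le.1 (sq_le_one_iff_abs_le_one _ |>.1 (K4_sq x))
    have h2 := K4_sq x
    generalize sinh x / cosh x = u at *
    exact abs_le.2 ⟨by nlinarith [sq_nonneg u], by nlinarith [sq_nonneg u]⟩
  b2 x := by
    simp only [K4_D4]
    have h2 := K4_sq x
    have h3 := sq_nonneg (sinh x / cosh x)
    generalize (sinh x / cosh x) ^ 2 = u at *
    exact abs_le.2 ⟨by nlinarith, by nlinarith⟩
  anti x _ y _ _ := by
    rw [D2_lc, D1_lc]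
    simp

/-- `∫ cosh (x + √v * z) = exp (v / 2) * cosh x` -/
theorem stp_lc (hv : 0 ≤ v) : stp 1 v lc = fun x => lc x + v / 2 := by
  funext x
  have e : ∀ t : ℝ, ∫ z, exp (t * z) ∂γ1 = exp (t ^ 2 / 2) := fun t => by
    have := congrFun (mgf_fun_id_gaussianReal (μ := 0) (v := 1)) t
    simpa [mgf] using this
  have i : ∀ t : ℝ, Integrable (fun z => exp (t * z)) γ1 := fun t =>
    integrable_exp_mul_gaussianReal t
  have e1 : ∀ z, exp (1 * lc (x + √v * z)) =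
      exp x / 2 * exp (√v * z) + exp (-x) / 2 * exp (-√v * z) := fun z => by
    rw [one_mul, lc, exp_log (cosh_pos _), cosh_eq, neg_add, exp_add, exp_add, neg_mul]
    ring
  have e2 : ∫ z, exp (1 * lc (x + √v * z)) ∂γ1 = cosh x * exp (v / 2) := by
    simp only [e1]
    rw [integral_add ((i _).const_mul _) ((i _).const_mul _), integral_const_mul,
      integral_const_mul, e, e, neg_sq, sq_sqrt hv, cosh_eq]
    ring
  rw [stp, e2, log_mul (cosh_pos x).ne' (exp_pos _).ne', log_exp, inv_one, one_mul, lc]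

theorem th_sq_le (x : ℝ) : (sinh x / cosh x) ^ 2 ≤ x ^ 2 := by
  have := gd_lc.lip1 x 0
  rw [D1_lc] at this
  exact sq_le_sq.2 (by simpa using this)

end

end Vale.Agent.P146L
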