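import Vale.Agent.P146L.K2
import Vale.Agent.P146L.K4

/-! The class Gd is preserved by the step. -/

set_option linter.all false

namespace Vale.Agent.P146L

open MeasureTheory ProbabilityTheory Real Finset Filter Topology Vale.Agent.P146M Vale.Agent.P146

noncomputable section

section aux

variable {ζ B1 B2 μ : ℝ} {Φ f g : ℝ → ℝ}

theorem k3_add (hζ : 0 < ζ) (h : Lp Φ) (hf : Gr f) (hg : Gr g) (v x : ℝ) :
    Kst ζ v Φ (fun y => f y + g y) x = Kst ζ v Φ f x + Kst ζ v Φ g x :=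
  integral_add (hf.int hζ h v x) (hg.int hζ h v x)

theorem k3_mul (ζ v : ℝ) (Φ f : ℝ → ℝ) (c x : ℝ) :
    Kst ζ v Φ (fun y => c * f y) x = c * Kst ζ v Φ f x := integral_const_mul _ _

theorem k3_const (hζ : 0 < ζ) (h : Lp Φ) (v c x : ℝ) : Kst ζ v Φ (fun _ => c) x = c := by
  haveI := Km_prob hζ h v x
  simp [Kst]

theorem k3_mono (hζ : 0 < ζ) (h : Lp Φ) (hf : Gr f) (hg : Gr g) (hle : ∀ y, f y ≤ g y) (v x : ℝ) :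
    Kst ζ v Φ f x ≤ Kst ζ v Φ g x := integral_mono (hf.int hζ h v x) (hg.int hζ h v x) hle

theorem k3_abs (hζ : 0 < ζ) (h : Lp Φ) (hg : Gr g) (hle : ∀ y, |f y| ≤ g y) (v x : ℝ) :
    |Kst ζ v Φ f x| ≤ Kst ζ v Φ g x :=
  norm_integral_le_of_norm_le (f := f) (hg.int hζ h v x) (Eventually.of_forall hle)

theorem k3_lin (hζ : 0 < ζ) (h : Lp Φ) {f1 f2 f3 f4 f5 : ℝ → ℝ} (h1 : Gr f1) (h2 : Gr f2)
    (h3 : Gr f3) (h4 : Gr f4) (h5 : Gr f5) (c0 c1 c2 c3 c4 c5 v x : ℝ)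
    (hf : ∀ y, f y = c0 + c1 * f1 y + c2 * f2 y + c3 * f3 y + c4 * f4 y + c5 * f5 y) :
    Kst ζ v Φ f x = c0 + c1 * Kst ζ v Φ f1 x + c2 * Kst ζ v Φ f2 x + c3 * Kst ζ v Φ f3 x +
      c4 * Kst ζ v Φ f4 x + c5 * Kst ζ v Φ f5 x := by
  have a0 := Gr.const c0
  have a1 := (Gr.const c1).mul h1
  have a2 := (Gr.const c2).mul h2
  have a3 := (Gr.const c3).mul h3
  have a4 := (Gr.const c4).mul h4
  have a5 := (Gr.const c5).mul h5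
  rw [funext hf, k3_add hζ h ((((a0.add a1).add a2).add a3).add a4) a5,
    k3_add hζ h (((a0.add a1).add a2).add a3) a4, k3_add hζ h ((a0.add a1).add a2) a3,
    k3_add hζ h (a0.add a1) a2, k3_add hζ h a0 a1, k3_const hζ h, k3_mul, k3_mul, k3_mul, k3_mul,
    k3_mul]

theorem k3_du (h : Gd B1 B2 μ Φ) (hζ : 0 < ζ) (v x : ℝ) :
    HasDerivAt (Kst ζ v Φ (D1 Φ)) (Kst ζ v Φ (D2 Φ) x +
      ζ * (Kst ζ v Φ (fun y => D1 Φ y ^ 2) x - Kst ζ v Φ (D1 Φ) x ^ 2)) x := by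
  rw [← D1_stp hζ h.toLp v]
  rw [show D1 (stp ζ v Φ) x = Kst ζ v Φ (D1 Φ) x by rw [D1_stp hζ h.toLp v]]
  exact D2_stp hζ h.toLp h.d1 h.gr2 v x

theorem k3_da (h : Gd B1 B2 μ Φ) (hζ : 0 < ζ) (v x : ℝ) :
    HasDerivAt (Kst ζ v Φ (D2 Φ)) (Kst ζ v Φ (D3 Φ) x + ζ * (Kst ζ v Φ
      (fun y => D2 Φ y * D1 Φ y) x - Kst ζ v Φ (D2 Φ) x * Kst ζ v Φ (D1 Φ) x)) x :=
  Kst_deriv hζ h.toLp (fun y => (h.d2 y).hasDerivAt) h.gr2 h.gr3 v x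

theorem k3_dp (h : Gd B1 B2 μ Φ) (hζ : 0 < ζ) (v x : ℝ) (n : ℕ) :
    HasDerivAt (Kst ζ v Φ fun y => D1 Φ y ^ (n + 1))
      ((n + 1) * Kst ζ v Φ (fun y => D2 Φ y * D1 Φ y ^ n) x + ζ * (Kst ζ v Φ
        (fun y => D1 Φ y ^ (n + 1 + 1)) x -
          Kst ζ v Φ (fun y => D1 Φ y ^ (n + 1)) x * Kst ζ v Φ (D1 Φ) x)) x := by
  have g1 := h.toLp.gr1
  have h1 := Kst_deriv hζ h.toLp (f := fun y => D1 Φ y ^ (n + 1))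
    (f' := fun y => (n + 1) * (D2 Φ y * D1 Φ y ^ n))
    (fun y => ((h.d1 y).hasDerivAt.fun_pow (n + 1)).congr_deriv (by
      rw [Nat.add_sub_cancel]; push_cast; ring)) (g1.pow _)
    ((Gr.const _).mul (h.gr2.mul (g1.pow n))) v x
  rw [k3_mul] at h1
  simp only [← pow_succ] at h1
  exact h1

theorem k3_d3 (h : Gd B1 B2 μ Φ) (hζ : 0 < ζ) (v x : ℝ) :
    HasDerivAt (D2 (stp ζ v Φ)) (Kst ζ v Φ (D3 Φ) x + 3 * ζ * (Kst ζ v Φ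
      (fun y => D2 Φ y * D1 Φ y) x - Kst ζ v Φ (D2 Φ) x * Kst ζ v Φ (D1 Φ) x) +
      ζ ^ 2 * (Kst ζ v Φ (fun y => D1 Φ y ^ 3) x -
        3 * (Kst ζ v Φ (fun y => D1 Φ y ^ 2) x * Kst ζ v Φ (D1 Φ) x) +
        2 * Kst ζ v Φ (D1 Φ) x ^ 3)) x := by
  have e2 : D2 (stp ζ v Φ) = _ := funext fun x => (D2_stp hζ h.toLp h.d1 h.gr2 v x).deriv
  rw [e2]
  have h2 := k3_dp h hζ v x 1
  simp only [pow_one] at h2
  refine ((k3_da h hζ v x).fun_add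
    ((h2.fun_sub ((k3_du h hζ v x).fun_pow 2)).const_mul ζ)).congr_deriv ?_
  push_cast
  ring

theorem k3_d4 (h : Gd B1 B2 μ Φ) (hζ : 0 < ζ) (v x : ℝ) :
    HasDerivAt (D3 (stp ζ v Φ)) (Kst ζ v Φ (D4 Φ) x + 4 * ζ * (Kst ζ v Φ
      (fun y => D3 Φ y * D1 Φ y) x - Kst ζ v Φ (D3 Φ) x * Kst ζ v Φ (D1 Φ) x) +
      3 * ζ * (Kst ζ v Φ (fun y => D2 Φ y ^ 2) x - Kst ζ v Φ (D2 Φ) x ^ 2) +
      6 * ζ ^ 2 * Kst ζ v Φ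
        (fun y => (D2 Φ y - Kst ζ v Φ (D2 Φ) x) * (D1 Φ y - Kst ζ v Φ (D1 Φ) x) ^ 2) x +
      ζ ^ 3 * (Kst ζ v Φ (fun y => (D1 Φ y - Kst ζ v Φ (D1 Φ) x) ^ 4) x -
        3 * (Kst ζ v Φ (fun y => D1 Φ y ^ 2) x - Kst ζ v Φ (D1 Φ) x ^ 2) ^ 2)) x := by
  have hl := h.toLp
  have g1 := hl.gr1
  have g2 := h.gr2
  have g3 := h.gr3
  have e3 : D3 (stp ζ v Φ) = _ := funext fun x => (k3_d3 h hζ v x).deriv
  rw [e3]
  have h1 := k3_du h hζ v x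
  have h2 := k3_dp h hζ v x 1
  have h3 := k3_dp h hζ v x 2
  have h4 := k3_da h hζ v x
  have h5 := Kst_deriv hζ hl (fun y => (h.d3 y).hasDerivAt) g3 h.gr4 v x
  have h6 := Kst_deriv hζ hl (f := fun y => D2 Φ y * D1 Φ y)
    (f' := fun y => D3 Φ y * D1 Φ y + D2 Φ y ^ 2)
    (fun y => ((h.d2 y).hasDerivAt.fun_mul (h.d1 y).hasDerivAt).congr_deriv (by rw [sq]))
    (g2.mul g1) ((g3.mul g1).add (g2.pow 2)) v x
  rw [k3_add hζ hl (g3.mul g1) (g2.pow 2)] at h6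
  simp only [mul_assoc, ← sq] at h6
  simp only [pow_one] at h2
  rw [k3_lin hζ hl g2 g1 (g2.mul g1) (g1.pow 2) (g2.mul (g1.pow 2))
      (-(Kst ζ v Φ (D2 Φ) x * Kst ζ v Φ (D1 Φ) x ^ 2)) (Kst ζ v Φ (D1 Φ) x ^ 2)
      (2 * Kst ζ v Φ (D2 Φ) x * Kst ζ v Φ (D1 Φ) x) (-2 * Kst ζ v Φ (D1 Φ) x)
      (-Kst ζ v Φ (D2 Φ) x) 1 v x
      (f := fun y => (D2 Φ y - Kst ζ v Φ (D2 Φ) x) * (D1 Φ y - Kst ζ v Φ (D1 Φ) x) ^ 2)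
      (fun y => by ring),
    k3_lin hζ hl g1 (g1.pow 2) (g1.pow 3) (g1.pow 4) g1 (Kst ζ v Φ (D1 Φ) x ^ 4)
      (-4 * Kst ζ v Φ (D1 Φ) x ^ 3) (6 * Kst ζ v Φ (D1 Φ) x ^ 2) (-4 * Kst ζ v Φ (D1 Φ) x) 1 0 v x
      (f := fun y => (D1 Φ y - Kst ζ v Φ (D1 Φ) x) ^ 4) (fun y => by ring)]
  refine ((h5.fun_add ((h6.fun_sub (h4.fun_mul h1)).const_mul (3 * ζ))).fun_add
    (((h3.fun_sub ((h2.fun_mul h1).const_mul 3)).fun_add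
      ((h1.fun_pow 3).const_mul 2)).const_mul (ζ ^ 2))).congr_deriv ?_
  push_cast
  ring

theorem k3_var (hζ : 0 < ζ) (h : Lp Φ) (hf : Gr f) {L : ℝ} (v x : ℝ)
    (hL : ∀ y, |f y - f x| ≤ L * |y - x|) :
    Kst ζ v Φ (fun y => f y ^ 2) x - Kst ζ v Φ f x ^ 2 ≤
      L ^ 2 * Kst ζ v Φ (fun y => (y - x) ^ 2) x := by
  refine (K_var_le hζ h hf v x (f x)).trans ?_
  rw [← k3_mul]
  refine k3_mono hζ h ((hf.sub (Gr.const _)).pow 2)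
    ((Gr.const _).mul ((Gr.id.sub (Gr.const _)).pow 2)) (fun y => ?_) v x
  have h1 := pow_le_pow_left₀ (abs_nonneg _) (hL y) 2
  rwa [mul_pow, sq_abs, sq_abs] at h1

theorem k3_cen (h : Gd B1 B2 μ Φ) (hζ : 0 < ζ) (v x : ℝ) {L : ℝ} (hL : ∀ y, |f y| ≤ L) :
    |Kst ζ v Φ (fun y => f y * (D1 Φ y - Kst ζ v Φ (D1 Φ) x) ^ 2) x| ≤
      L * (Kst ζ v Φ (fun y => D1 Φ y ^ 2) x - Kst ζ v Φ (D1 Φ) x ^ 2) := by
  have hl := h.toLp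
  have g1 := hl.gr1
  refine (k3_abs hζ hl ((Gr.const L).mul ((g1.sub (Gr.const (Kst ζ v Φ (D1 Φ) x))).pow 2))
    (fun y => ?_) v x).trans (le_of_eq ?_)
  · rw [abs_mul, abs_sq]
    exact mul_le_mul_of_nonneg_right (hL y) (sq_nonneg _)
  · rw [k3_mul, k3_lin hζ hl g1 (g1.pow 2) g1 g1 g1 (Kst ζ v Φ (D1 Φ) x ^ 2)
      (-2 * Kst ζ v Φ (D1 Φ) x) 1 0 0 0 v x (fun y => by ring)]
    ring

theorem k3_u2 (h : Gd B1 B2 μ Φ) (hζ : 0 < ζ) (v x y : ℝ) :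
    |D1 Φ y - Kst ζ v Φ (D1 Φ) x| ≤ 2 :=
  (abs_sub _ _).trans (by linarith [h.b0 y, abs_Kst_le hζ h.toLp h.b0 v x])

theorem k3_b3 (h : Gd B1 B2 μ Φ) (hζ : 0 < ζ) (hζ1 : ζ ≤ 1) (hB1 : 1 ≤ B1) (v x : ℝ) :
    |Kst ζ v Φ (D3 Φ) x + 3 * ζ * (Kst ζ v Φ
      (fun y => D2 Φ y * D1 Φ y) x - Kst ζ v Φ (D2 Φ) x * Kst ζ v Φ (D1 Φ) x) +
      ζ ^ 2 * (Kst ζ v Φ (fun y => D1 Φ y ^ 3) x -
        3 * (Kst ζ v Φ (fun y => D1 Φ y ^ 2) x * Kst ζ v Φ (D1 Φ) x) +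
        2 * Kst ζ v Φ (D1 Φ) x ^ 3)| ≤ B1 + 8 * B1 * Kst ζ v Φ (fun y => (y - x) ^ 2) x := by
  have hl := h.toLp
  have g1 := hl.gr1
  have a1 := abs_Kst_le hζ hl h.b1 v x
  have a2 := K_cov (v := v) hζ hl h.gr2.1 g1.1 (L := B1) (L' := 1) (x := x) (fun y => h.lip2 y x)
    (fun y => by rw [one_mul]; exact h.lip1 y x)
  have a3 := k3_cen h hζ v x (k3_u2 h hζ v x)
  have a4 := k3_var hζ hl g1 (L := 1) v x (fun y => by rw [one_mul]; exact h.lip1 y x)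
  have a5 : Kst ζ v Φ (fun y => D1 Φ y ^ 3) x -
      3 * (Kst ζ v Φ (fun y => D1 Φ y ^ 2) x * Kst ζ v Φ (D1 Φ) x) + 2 * Kst ζ v Φ (D1 Φ) x ^ 3 =
      Kst ζ v Φ (fun y => (D1 Φ y - Kst ζ v Φ (D1 Φ) x) * (D1 Φ y - Kst ζ v Φ (D1 Φ) x) ^ 2) x := by
    rw [k3_lin hζ hl g1 (g1.pow 2) (g1.pow 3) g1 g1 (-Kst ζ v Φ (D1 Φ) x ^ 3)
      (3 * Kst ζ v Φ (D1 Φ) x ^ 2) (-3 * Kst ζ v Φ (D1 Φ) x) 1 0 0 v x
      (f := fun y => (D1 Φ y - Kst ζ v Φ (D1 Φ) x) * (D1 Φ y - Kst ζ v Φ (D1 Φ) x) ^ 2)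
      (fun y => by ring)]
    ring
  have a6 : 0 ≤ Kst ζ v Φ (fun y => (y - x) ^ 2) x := integral_nonneg fun y => sq_nonneg _
  rw [a5]
  have b : ∀ c t : ℝ, 0 ≤ c → c ≤ 1 → |c * t| ≤ |t| := fun c t h0 h1 => by
    rw [abs_mul, abs_of_nonneg h0]; exact mul_le_of_le_one_left (abs_nonneg t) h1
  refine ((abs_add_le _ _).trans (add_le_add (abs_add_le _ _)
    (b _ _ (sq_nonneg ζ) (pow_le_one₀ hζ.le hζ1)))).trans ?_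
  rw [mul_assoc 3, abs_mul 3, abs_of_pos (three_pos : (0 : ℝ) < 3)]
  have a7 := (b _ _ hζ.le hζ1).trans a2
  have a8 := le_mul_of_one_le_left a6 hB1
  linarith

theorem k3_b4 (h : Gd B1 B2 μ Φ) (hζ : 0 < ζ) (hζ1 : ζ ≤ 1) (hB1 : 1 ≤ B1) (hB2 : 1 ≤ B2)
    (v x : ℝ) : |Kst ζ v Φ (D4 Φ) x + 4 * ζ * (Kst ζ v Φ
      (fun y => D3 Φ y * D1 Φ y) x - Kst ζ v Φ (D3 Φ) x * Kst ζ v Φ (D1 Φ) x) +
      3 * ζ * (Kst ζ v Φ (fun y => D2 Φ y ^ 2) x - Kst ζ v Φ (D2 Φ) x ^ 2) +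
      6 * ζ ^ 2 * Kst ζ v Φ
        (fun y => (D2 Φ y - Kst ζ v Φ (D2 Φ) x) * (D1 Φ y - Kst ζ v Φ (D1 Φ) x) ^ 2) x +
      ζ ^ 3 * (Kst ζ v Φ (fun y => (D1 Φ y - Kst ζ v Φ (D1 Φ) x) ^ 4) x -
        3 * (Kst ζ v Φ (fun y => D1 Φ y ^ 2) x - Kst ζ v Φ (D1 Φ) x ^ 2) ^ 2)| ≤
      B2 + 24 * B2 * B1 ^ 2 * Kst ζ v Φ (fun y => (y - x) ^ 2) x := by
  have hl := h.toLp
  have g1 := hl.gr1
  have a1 := abs_Kst_le hζ hl h.b2 v x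
  have a2 := K_cov (v := v) hζ hl h.gr3.1 g1.1 (L := B2) (L' := 1) (x := x) (fun y => h.lip3 y x)
    (fun y => by rw [one_mul]; exact h.lip1 y x)
  have a3 := k3_cen h hζ v x (f := fun y => D2 Φ y - Kst ζ v Φ (D2 Φ) x) (L := 1) (fun y => by
    have c1 := h.a_nn y
    have c2 := (abs_le.1 (h.a_le y)).2
    have c3 := (abs_le.1 (abs_Kst_le hζ hl h.a_le v x)).2
    have c4 : 0 ≤ Kst ζ v Φ (D2 Φ) x := integral_nonneg h.a_nn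
    exact abs_le.2 ⟨by linarith, by linarith⟩)
  have a4 := k3_var hζ hl g1 (L := 1) v x (fun y => by rw [one_mul]; exact h.lip1 y x)
  have a5 := k3_var hζ hl h.gr2 v x (fun y => h.lip2 y x)
  have a5' := K_var_nonneg hζ hl h.gr2 v x
  have a6 : 0 ≤ Kst ζ v Φ (fun y => (y - x) ^ 2) x := integral_nonneg fun y => sq_nonneg _
  have a7 := k3_cen h hζ v x (f := fun y => (D1 Φ y - Kst ζ v Φ (D1 Φ) x) ^ 2) (L := 4)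
    (fun y => by
      rw [abs_pow]
      exact (pow_le_pow_left₀ (abs_nonneg _) (k3_u2 h hζ v x y) 2).trans (by norm_num))
  simp only [← pow_add] at a7
  have a8 := K_var_nonneg hζ hl g1 v x
  have a9 := (abs_le.1 (abs_Kst_le hζ hl (f := fun y => D1 Φ y ^ 2) (C := 1) (fun y => by
    rw [abs_pow]; exact pow_le_one₀ (abs_nonneg _) (h.b0 y)) v x)).2
  have a10 : Kst ζ v Φ (fun y => D1 Φ y ^ 2) x - Kst ζ v Φ (D1 Φ) x ^ 2 ≤ 1 := by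
    linarith [sq_nonneg (Kst ζ v Φ (D1 Φ) x)]
  rw [← sub_nonneg] at a8 a5'
  generalize Kst ζ v Φ (fun y => D1 Φ y ^ 2) x - Kst ζ v Φ (D1 Φ) x ^ 2 = V at *
  generalize Kst ζ v Φ (fun y => D2 Φ y ^ 2) x - Kst ζ v Φ (D2 Φ) x ^ 2 = W at *
  generalize Kst ζ v Φ (fun y => (y - x) ^ 2) x = m at *
  have b : ∀ c t : ℝ, 0 ≤ c → c ≤ 1 → |c * t| ≤ |t| := fun c t h0 h1 => by
    rw [abs_mul, abs_of_nonneg h0]; exact mul_le_of_le_one_left (abs_nonneg t) h1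
  refine ((abs_add_le _ _).trans (add_le_add ((abs_add_le _ _).trans (add_le_add
    ((abs_add_le _ _).trans (add_le_add (abs_add_le _ _) le_rfl)) le_rfl))
    ((b _ _ (pow_nonneg hζ.le 3) (pow_le_one₀ hζ.le hζ1)).trans (abs_sub _ _)))).trans ?_
  rw [mul_assoc 4, abs_mul 4, mul_assoc 3, abs_mul 3, mul_assoc 6, abs_mul 6, abs_mul 3 (V ^ 2),
    abs_of_pos (three_pos : (0 : ℝ) < 3), abs_of_pos (four_pos : (0 : ℝ) < 4),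
    abs_of_pos (by norm_num : (0 : ℝ) < 6), abs_of_nonneg (sq_nonneg V)]
  have c1 := (b _ _ hζ.le hζ1).trans a2
  have c2 := (b _ _ hζ.le hζ1).trans ((abs_of_nonneg a5').le.trans a5)
  have c3 := (b _ _ (sq_nonneg ζ) (pow_le_one₀ hζ.le hζ1)).trans a3
  have c4 : V ^ 2 ≤ V := by rw [sq]; exact mul_le_of_le_one_left a8 a10
  have hB : 1 ≤ B1 ^ 2 := one_le_pow₀ hB1
  have c5 : m ≤ B1 ^ 2 * m := le_mul_of_one_le_left a6 hB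
  have c6 : B1 ^ 2 * m ≤ B2 * (B1 ^ 2 * m) := le_mul_of_one_le_left (by positivity) hB2
  have c7 : B2 * m ≤ B2 * (B1 ^ 2 * m) := mul_le_mul_of_nonneg_left c5 (by positivity)
  linarith

end aux

/-- Write `K = Kst ζ v Φ`, `u, a, a1, a2` for `D1 Φ, …, D4 Φ`, and `'` for the derivatives of
`stp ζ v Φ`. By `D1_stp`, `D2_stp`, `Kst_deriv`:
`u' = K u`, `a' = K a + ζ Var u`, `a1' = K a1 + 3 ζ Cov (a, u) + ζ ^ 2 κ3 (u, u, u)`,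
`a2' = K a2 + 4 ζ Cov (a1, u) + 3 ζ Var a + 6 ζ ^ 2 κ3 (a, u, u) + ζ ^ 3 κ4 (u)`
with `κ3 (f, u, u) = K ((f - K f) (u - K u) ^ 2)`, `κ4 = K (u - K u) ^ 4 - 3 (Var u) ^ 2`.
With `m2 = K (y - x) ^ 2 ≤ C v` (`K_mom`): `K_cov` bounds the covariances, `Var u ≤ m2`
(`K_var_le`), `|u - K u| ≤ 2`, `|a - K a| ≤ 1`. Monotonicity: `a' + ζ u' ^ 2 = K (a + ζ u ^ 2)`,
`Gd.mono` and `K_anti`. -/
theorem Gd.step (T : ℝ) : ∃ c, 0 ≤ c ∧ ∀ (B1 B2 μ ζ v : ℝ) (Φ : ℝ → ℝ), 1 ≤ B1 → 1 ≤ B2 →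
    Gd B1 B2 μ Φ → 0 < ζ → ζ ≤ μ → ζ ≤ 1 → 0 ≤ v → v ≤ T →
    Gd (B1 * (1 + c * v)) (B2 * (1 + c * B1 ^ 2 * v)) ζ (stp ζ v Φ) := by
  obtain ⟨C, hC, hmom⟩ := K_mom T
  refine ⟨24 * C, by positivity, ?_⟩
  intro B1 B2 μ ζ v Φ hB1 hB2 h hζ hμ hζ1 hv hT
  have hl : Lp Φ := h.toLp
  have g1 := hl.gr1
  have g2 := h.gr2
  have e1 := D1_stp hζ hl v
  have e2 : D2 (stp ζ v Φ) = _ := funext fun x => (D2_stp hζ hl h.d1 g2 v x).deriv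
  have e3 : D3 (stp ζ v Φ) = _ := funext fun x => (k3_d3 h hζ v x).deriv
  refine ⟨hl.stp hζ v, fun x => (D2_stp hζ hl h.d1 g2 v x).differentiableAt,
    fun x => (k3_d3 h hζ v x).differentiableAt, fun x => (k3_d4 h hζ v x).differentiableAt,
    stp_even h.even ζ v, fun x => ?_, fun x => ?_, fun x => ?_, fun x => ?_, ?_⟩
  · rw [e2]
    have h1 : 0 ≤ Kst ζ v Φ (D2 Φ) x := integral_nonneg h.a_nn
    have h2 := K_var_nonneg hζ hl g1 v x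
    exact add_nonneg h1 (mul_nonneg hζ.le (sub_nonneg.2 h2))
  · rw [e1, e2]
    have h2 := K_var_nonneg hζ hl g1 v x
    have h3 := (abs_le.1 (abs_Kst_le hζ hl (f := fun y => D2 Φ y + D1 Φ y ^ 2) (C := 1)
      (fun y => abs_le.2 ⟨by linarith [h.a_nn y, sq_nonneg (D1 Φ y)], h.au y⟩) v x)).2
    rw [k3_add hζ hl g2 (g1.pow 2)] at h3
    have h4 := mul_le_mul_of_nonneg_right hζ1 (sub_nonneg.2 h2)
    linarith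
  · have hm := (hmom ζ v Φ x hζ hζ1 hv hT hl).2.1
    have hb := k3_b3 h hζ hζ1 hB1 v x
    rw [e3]
    refine hb.trans ?_
    have h1 := mul_le_mul_of_nonneg_left hm (show 0 ≤ 8 * B1 by positivity)
    have h2 : 0 ≤ B1 * (C * v) := by positivity
    linarith
  · have hm := (hmom ζ v Φ x hζ hζ1 hv hT hl).2.1
    have hb := k3_b4 h hζ hζ1 hB1 hB2 v x
    change |deriv (D3 (stp ζ v Φ)) x| ≤ _
    rw [(k3_d4 h hζ v x).deriv]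
    refine hb.trans ?_
    have h1 := mul_le_mul_of_nonneg_left hm (show 0 ≤ 24 * B2 * B1 ^ 2 by positivity)
    linarith
  · have h1 : (fun x => D2 (stp ζ v Φ) x + ζ * D1 (stp ζ v Φ) x ^ 2) =
        Kst ζ v Φ fun y => D2 Φ y + ζ * D1 Φ y ^ 2 := by
      funext x
      rw [e1, e2, k3_add hζ hl g2 ((Gr.const ζ).mul (g1.pow 2)), k3_mul]
      ring
    rw [h1]
    refine K_anti hζ hl h.even (g2.add ((Gr.const ζ).mul (g1.pow 2))).1 (C := 1) (fun y => ?_)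
      (fun y => by rw [h.even2, h.odd1, neg_sq]) (h.mono le_rfl le_rfl hμ).anti v
    have a1 := h.a_nn y
    have a2 := h.au y
    have a3 := mul_le_mul_of_nonneg_right hζ1 (sq_nonneg (D1 Φ y))
    have a4 := mul_nonneg hζ.le (sq_nonneg (D1 Φ y))
    exact abs_le.2 ⟨by linarith, by linarith⟩

end

end Vale.Agent.P146L
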