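import Vale.Agent.P146L.Ch1
import Vale.Agent.P146L.K3

/-! The single spin chain: uniform bounds. -/

set_option linter.all false

namespace Vale.Agent.P146L

open MeasureTheory ProbabilityTheory Real Finset Filter Topology Vale.Agent.P146M Vale.Agent.P146

noncomputable section

variable {k l : ℕ} {r : ℕ → ℝ}

theorem Ch2_r (hr : AdmR r) (l : ℕ) : 0 ≤ r l := hr.1 ▸ hr.2 (Nat.zero_le l)

theorem Ch2_step {T c : ℝ} (hc : 0 ≤ c) (h : ∀ (B1 B2 μ ζ v : ℝ) (Φ : ℝ → ℝ), 1 ≤ B1 → 1 ≤ B2 →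
    Gd B1 B2 μ Φ → 0 < ζ → ζ ≤ μ → ζ ≤ 1 → 0 ≤ v → v ≤ T →
    Gd (B1 * (1 + c * v)) (B2 * (1 + c * B1 ^ 2 * v)) ζ (stp ζ v Φ)) (hr : AdmR r) (hT : r k ≤ T)
    (hl : l < k) (hg : Gd (2 * exp (c * (r k - r (l + 1))))
      (4 * exp (c * (2 * exp (c * T)) ^ 2 * (r k - r (l + 1)))) (min 1 (zt k (l + 1)))
      (Ph k r (l + 1))) {x : ℝ} (h0 : 0 ≤ x) (hx : x ≤ vv r l) :
    Gd (2 * exp (c * (r k - r l))) (4 * exp (c * (2 * exp (c * T)) ^ 2 * (r k - r l))) (zt k l)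
      (Pg k r l x) := by
  have hk : 0 < k := by omega
  have m1 : r (l + 1) ≤ r k := hr.2 hl
  have m2 := Ch2_r hr l
  have m3 := Ch2_r hr (l + 1)
  have e1 : 1 ≤ exp (c * (r k - r (l + 1))) := one_le_exp (mul_nonneg hc (by linarith))
  have e2 : 1 ≤ exp (c * (2 * exp (c * T)) ^ 2 * (r k - r (l + 1))) :=
    one_le_exp (mul_nonneg (by positivity) (by linarith))
  have hv : vv r l = r (l + 1) - r l := rfl
  have z1 : zt k l ≤ zt k (l + 1) := by
    unfold zt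
    push_cast
    gcongr
    linarith
  refine (h _ _ _ _ (vv r l - x) _ (by linarith) (by linarith) hg (zt_pos hk l)
    (le_min (zt_le hl) z1) (zt_le hl) (by linarith) (by linarith)).mono ?_ ?_ le_rfl
  · have e3 : 1 + c * (vv r l - x) ≤ exp (c * vv r l) := by
      have := add_one_le_exp (c * vv r l)
      nlinarith
    rw [show c * (r k - r l) = c * (r k - r (l + 1)) + c * vv r l by rw [hv]; ring, exp_add,
      mul_assoc]
    gcongr
  · have e4 : exp (c * (r k - r (l + 1))) ≤ exp (c * T) := exp_le_exp.2 (by gcongr; linarith)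
    have e3 : 1 + c * (2 * exp (c * (r k - r (l + 1)))) ^ 2 * (vv r l - x) ≤
        exp (c * (2 * exp (c * T)) ^ 2 * vv r l) := by
      refine le_trans ?_ (add_one_le_exp _)
      rw [add_comm]
      gcongr
      linarith
    rw [show c * (2 * exp (c * T)) ^ 2 * (r k - r l) = c * (2 * exp (c * T)) ^ 2 * (r k - r (l + 1)) +
      c * (2 * exp (c * T)) ^ 2 * vv r l by rw [hv]; ring, exp_add, mul_assoc]
    gcongr

theorem Ch2_ph {T c : ℝ} (hc : 0 ≤ c) (h : ∀ (B1 B2 μ ζ v : ℝ) (Φ : ℝ → ℝ), 1 ≤ B1 → 1 ≤ B2 →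
    Gd B1 B2 μ Φ → 0 < ζ → ζ ≤ μ → ζ ≤ 1 → 0 ≤ v → v ≤ T →
    Gd (B1 * (1 + c * v)) (B2 * (1 + c * B1 ^ 2 * v)) ζ (stp ζ v Φ)) (hr : AdmR r) (hT : r k ≤ T)
    (j : ℕ) : ∀ l, l + j = k → Gd (2 * exp (c * (r k - r l)))
      (4 * exp (c * (2 * exp (c * T)) ^ 2 * (r k - r l))) (min 1 (zt k l)) (Ph k r l) := by
  induction j with
  | zero =>
    rintro l rfl
    rw [add_zero, Ph_top, sub_self, mul_zero, mul_zero, exp_zero, mul_one, mul_one]
    exact gd_lc.mono le_rfl le_rfl (min_le_left _ _)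
  | succ j ih =>
    intro l hl
    have h1 : l < k := by omega
    rw [← Pg_zero h1]
    exact (Ch2_step hc h hr hT h1 (ih (l + 1) (by omega)) le_rfl (vv_nonneg hr l)).mono le_rfl le_rfl
      (min_le_right _ _)

theorem Ch2_gd (hr : AdmR r) (hl : l ≤ k) : ∃ B1 B2 μ, Gd B1 B2 μ (Ph k r l) := by
  obtain ⟨c, hc, h⟩ := Gd.step (r k)
  exact ⟨_, _, _, Ch2_ph hc h hr le_rfl (k - l) l (by omega)⟩

/-- Downward induction with `Gd.step`: `Ph k r l` lies in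
`Gd (2 * exp (c * (r k - r l))) (4 * exp (c * B1 ^ 2 * (r k - r l)))` with `B1 = 2 * exp (c * T)`
and exponent `zt k l` (exponent `1` for `l = k`). -/
theorem chain_gd (T : ℝ) : ∃ B, 1 ≤ B ∧ ∀ (k : ℕ) (r : ℕ → ℝ) (l : ℕ), AdmR r → r k ≤ T → l < k →
    ∀ x, 0 ≤ x → x ≤ vv r l → Gd B B (zt k l) (Pg k r l x) := by
  obtain ⟨c, hc, h⟩ := Gd.step T
  refine ⟨1 + 2 * exp (c * T) + 4 * exp (c * (2 * exp (c * T)) ^ 2 * T), by
    linarith [exp_pos (c * T), exp_pos (c * (2 * exp (c * T)) ^ 2 * T)],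
    fun k r l hr hT hl x h0 hx => ?_⟩
  have m2 := Ch2_r hr l
  have e1 : exp (c * (r k - r l)) ≤ exp (c * T) := exp_le_exp.2 (by gcongr; linarith)
  have e2 : exp (c * (2 * exp (c * T)) ^ 2 * (r k - r l)) ≤ exp (c * (2 * exp (c * T)) ^ 2 * T) :=
    exp_le_exp.2 (by gcongr; linarith)
  exact (Ch2_step hc h hr hT hl (Ch2_ph hc h hr hT (k - (l + 1)) (l + 1) (by omega)) h0 hx).mono
    (by linarith [exp_pos (c * (2 * exp (c * T)) ^ 2 * T)]) (by linarith [exp_pos (c * T)]) le_rfl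

theorem Ch2_lin (hk : 0 < k) (hl : l ≤ k) {f g : ℝ → ℝ} (hf : Gr f) (hg : Gr g) (a : ℝ) :
    EL k r l (fun y => f y + a * g y) = EL k r l f + a * EL k r l g := by
  unfold EL
  rw [integral_add (hf.intL hk r hl) ((hg.intL hk r hl).const_mul a), integral_const_mul]

theorem Ch2_const (hk : 0 < k) (hl : l ≤ k) (a : ℝ) : EL k r l (fun _ => a) = a := by
  have := muL_prob hk r hl
  simp [EL]

theorem Ch2_mono (hk : 0 < k) (hl : l ≤ k) {f g : ℝ → ℝ} (hf : Gr f) (hg : Gr g)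
    (h : ∀ y, f y ≤ g y) : EL k r l f ≤ EL k r l g :=
  integral_mono (hf.intL hk r hl) (hg.intL hk r hl) h

theorem Ch2_sq {T C : ℝ} (hC : 1 ≤ C) (h : ∀ (ζ v : ℝ) (Φ : ℝ → ℝ) (x : ℝ), 0 < ζ → ζ ≤ 1 → 0 ≤ v →
    v ≤ T → Lp Φ → Kst ζ v Φ (fun y => y ^ 2) x ≤ (1 + v) * x ^ 2 + C * v) (hr : AdmR r)
    (hl : l < k) {v : ℝ} {Φ : ℝ → ℝ} (h0 : 0 ≤ v) (hv : v ≤ T) (hΦ : Lp Φ)
    (ih : EL k r l (fun y => y ^ 2) ≤ C * r l * exp (r l)) :
    EL k r l (Kst (zt k l) v Φ fun y => y ^ 2) ≤ C * (r l + v) * exp (r l + v) := by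
  have hk : 0 < k := by omega
  have m := Ch2_r hr l
  have g2 : Gr fun y : ℝ => y ^ 2 := Gr.id.pow 2
  have h1 := Ch2_mono (r := r) hk hl.le (g2.K (zt_pos hk l) hΦ v)
    ((Gr.const (C * v)).add ((Gr.const (1 + v)).mul g2))
    fun y => (h _ v Φ y (zt_pos hk l) (zt_le hl) h0 hv hΦ).trans_eq (add_comm _ _)
  rw [Ch2_lin hk hl.le (Gr.const _) g2, Ch2_const hk hl.le] at h1
  have e1 : 1 + v ≤ exp v := by linarith [add_one_le_exp v]
  have e2 : 1 ≤ exp (r l + v) := one_le_exp (by linarith)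
  calc _ ≤ C * v + (1 + v) * (C * r l * exp (r l)) := h1.trans (by gcongr)
    _ ≤ C * v * exp (r l + v) + exp v * (C * r l * exp (r l)) := by
      have : C * v * 1 ≤ C * v * exp (r l + v) := by gcongr
      rw [mul_one] at this
      gcongr
    _ = _ := by rw [exp_add]; ring

/-- Induction with `EL_succ`, `K_sq`: `EL l (y ^ 2) ≤ C * r l * exp (r l)`. -/
theorem chain_sq (T : ℝ) : ∃ C, 1 ≤ C ∧ ∀ (k : ℕ) (r : ℕ → ℝ) (l : ℕ), AdmR r → r k ≤ T → l < k →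
    ∀ x, 0 ≤ x → x ≤ vv r l → Eg k r l x (fun y => y ^ 2) ≤ C * (r l + x) := by
  obtain ⟨C, hC, h⟩ := K_sq T
  have e0 : 1 ≤ exp |T| := one_le_exp (abs_nonneg T)
  refine ⟨C * exp |T|, one_le_mul_of_one_le_of_one_le hC e0, fun k r l hr hT hl x h0 hx => ?_⟩
  have hk : 0 < k := by omega
  have g2 : Gr fun y : ℝ => y ^ 2 := Gr.id.pow 2
  have hv : ∀ l < k, r l + vv r l ≤ T := fun l hl => by
    have : r (l + 1) ≤ r k := hr.2 hl
    unfold vv
    linarith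
  have key : ∀ l < k, EL k r l (fun y => y ^ 2) ≤ C * r l * exp (r l) := fun l => by
    induction l with
    | zero =>
      intro _
      rw [EL_zero g2.1, hr.1]
      simp
    | succ l ih =>
      intro hl
      have h1 : l < k := by omega
      have h2 := Ch2_sq hC h hr h1 (vv_nonneg hr l) (by linarith [hv l h1, Ch2_r hr l])
        (lp_Ph hk r hl.le) (ih h1)
      rwa [← EL_succ h1 r g2, show r l + vv r l = r (l + 1) by unfold vv; ring] at h2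
  have m := Ch2_r hr l
  have h3 := hv l hl
  have e1 : exp (r l + x) ≤ exp |T| := exp_le_exp.2 (by linarith [le_abs_self T])
  refine (Ch2_sq hC h hr hl h0 (by linarith) (lp_Pg hl r x) (key l hl)).trans ?_
  rw [mul_right_comm C (exp |T|)]
  gcongr

theorem Ch2_S (hr : AdmR r) (hl : l < k) :
    EL k r (l + 1) (D2 (Ph k r (l + 1))) + zt k l * Gam k r (l + 1) =
      EL k r l (D2 (Ph k r l)) + zt k l * Gam k r l := by
  have hk : 0 < k := by omega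
  obtain ⟨_, _, _, g⟩ := Ch2_gd hr (l := l + 1) hl
  obtain ⟨_, _, _, g'⟩ := Ch2_gd hr hl.le
  have z := zt_pos hk l
  unfold Gam
  rw [← Ch2_lin hk hl g.gr2 (g.toLp.gr1.pow 2), ← Ch2_lin hk hl.le g'.gr2 (g'.toLp.gr1.pow 2),
    EL_succ hl r (g.gr2.add ((Gr.const _).mul (g.toLp.gr1.pow 2)))]
  refine congrArg (EL k r l) (funext fun x => ?_)
  have h1 := (D2_stp z g.toLp g.d1 g.gr2 (vv r l) x).deriv
  rw [← D1_stp z g.toLp, ← Ph_succ hl] at h1
  rw [show D2 (Ph k r l) x = _ from h1, Kst, integral_add (g.gr2.int z g.toLp _ _)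
    (((g.toLp.gr1.pow 2).int z g.toLp _ _).const_mul _), integral_const_mul]
  unfold Kst
  ring

/-- `S l = EL l (D2 (Ph l)) + (l / k) * Gam l` satisfies `S (l + 1) = S l + Gam l / k` because
`a' + ζ u' ^ 2 = K (a + ζ u ^ 2)` (`D2_stp`, `D1_stp`), and `S k = 1` (`D1_lc`, `D2_lc`). -/
theorem chi_zero (hk : 0 < k) (hr : AdmR r) :
    D2 (Ph k r 0) 0 = 1 - (1 / (k : ℝ)) * ∑ l ∈ range k, Gam k r l := by
  have k0 : (k : ℝ) ≠ 0 := by positivity
  have key : ∀ l ≤ k, EL k r l (D2 (Ph k r l)) + l / k * Gam k r l =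
      D2 (Ph k r 0) 0 + (1 / (k : ℝ)) * ∑ l ∈ range l, Gam k r l := fun l => by
    induction l with
    | zero =>
      intro _
      rw [EL_zero (measurable_deriv _)]
      simp
    | succ l ih =>
      intro hl
      have h1 := Ch2_S hr (l := l) hl
      have h2 := ih (by omega)
      unfold zt at h1
      rw [sum_range_succ, mul_add, ← add_assoc, ← h2]
      push_cast
      rw [h1]
      ring
  have h3 := key k le_rfl
  have g : Gd 2 4 1 (Ph k r k) := Ph_top k r ▸ gd_lc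
  unfold Gam at h3
  rw [div_self k0, ← Ch2_lin hk le_rfl g.gr2 (g.toLp.gr1.pow 2), Ph_top, D2_lc, D1_lc] at h3
  simp only [one_mul, sub_add_cancel] at h3
  rw [Ch2_const hk le_rfl] at h3
  unfold Gam
  linarith

theorem Nn_zero (hk : 0 < k) (hr : AdmR r) :
    Nn k r 0 = D2 (Ph k r 0) 0 ^ 2 ∧ 0 ≤ D2 (Ph k r 0) 0 ∧ Gam k r 0 = 0 := by
  obtain ⟨_, _, _, g⟩ := Ch2_gd hr hk.le
  refine ⟨EL_zero ((measurable_deriv _).pow_const 2) k r, g.a_nn 0, ?_⟩
  have h1 := g.odd1 0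
  rw [neg_zero] at h1
  rw [Gam, EL_zero ((measurable_deriv _).pow_const 2)]
  exact pow_eq_zero_iff two_ne_zero |>.2 (by linarith)

theorem Gam_mem (hr : AdmR r) (hl : l < k) : 0 ≤ Gam k r l ∧ Gam k r l ≤ 1 := by
  have hk : 0 < k := by omega
  have g := lp_Ph hk r hl.le
  refine ⟨integral_nonneg fun x => sq_nonneg _, ?_⟩
  exact (Ch2_mono hk hl.le (g.gr1.pow 2) (Gr.const 1)
    fun y => (sq_le_one_iff_abs_le_one _).2 (g.b0 y)).trans_eq (Ch2_const hk hl.le 1)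

/-- `Ph k r (k - 1) = lc + const` by `stp_lc`; `(1 - u ^ 2) ^ 2 ≥ 1 - 2 x ^ 2` by `th_sq_le`. -/
theorem Nn_top (T : ℝ) : ∃ C, 1 ≤ C ∧ ∀ (k : ℕ) (r : ℕ → ℝ), 0 < k → AdmR r → r k ≤ T →
    1 - C * r (k - 1) ≤ Nn k r (k - 1) := by
  obtain ⟨C, hC, h⟩ := chain_sq T
  refine ⟨2 * C, by linarith, fun k r hk hr hT => ?_⟩
  have hl : k - 1 < k := by omega
  have g2 : Gr fun y : ℝ => y ^ 2 := Gr.id.pow 2
  have h1 := h k r (k - 1) hr hT hl 0 le_rfl (vv_nonneg hr _)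
  rw [Eg_zero hl r g2, add_zero] at h1
  have z : zt k (k - 1) = 1 := by
    unfold zt
    rw [Nat.cast_pred hk, sub_add_cancel, div_self (by positivity)]
  have e1 : D1 (Ph k r (k - 1)) = D1 lc := by
    rw [Ph_succ hl, z, Nat.sub_add_cancel hk, Ph_top, stp_lc (vv_nonneg hr _)]
    exact deriv_add_const' _
  have e2 : D2 (Ph k r (k - 1)) = D2 lc := congrArg deriv e1
  have h2 := Ch2_mono (r := r) hk hl.le ((Gr.const 1).add ((Gr.const (-2)).mul g2))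
    (gd_lc.gr2.pow 2) fun y => by
      rw [D2_lc]
      have := th_sq_le y
      nlinarith [sq_nonneg ((sinh y / cosh y) ^ 2)]
  rw [Ch2_lin hk hl.le (Gr.const _) g2, Ch2_const hk hl.le] at h2
  rw [Nn, e2]
  linarith

end

end Vale.Agent.P146L
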