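import Vale.Agent.P146L.Neg

/-! Concentration of Lipschitz functions under a tilted Gaussian law. -/

set_option linter.all false

namespace Vale.Agent.P146L

open MeasureTheory ProbabilityTheory Real Finset Filter Topology Vale.Agent.P146M Vale.Agent.P146

noncomputable section

variable {I : Type} [Fintype I] {f W : (I → ℝ) → ℝ} {L A : ℝ}

theorem conc_cont {E : Type} [NormedAddCommGroup E] {F : (I → ℝ) → E}
    (hf : ∀ x y, ‖F x - F y‖ ≤ L * √(∑ i, (x i - y i) ^ 2)) : Continuous F := by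
  refine continuous_iff_continuousAt.2 fun y => ?_
  rw [ContinuousAt, tendsto_iff_norm_sub_tendsto_zero]
  refine squeeze_zero (fun _ => norm_nonneg _) (fun x => hf x y) ?_
  have h : Continuous fun x : I → ℝ => L * √(∑ i, (x i - y i) ^ 2) := by fun_prop
  simpa using h.tendsto y

theorem conc_bd {E : Type} [NormedAddCommGroup E] {F : (I → ℝ) → E} (hL : 0 ≤ L)
    (hf : ∀ x y, ‖F x - F y‖ ≤ L * √(∑ i, (x i - y i) ^ 2)) (x : I → ℝ) :
    ‖F x‖ ≤ ‖F 0‖ + L * ∑ i, |x i| := by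
  have h1 := hf x 0
  have h2 : √(∑ i, (x i - (0 : I → ℝ) i) ^ 2) ≤ ∑ i, |x i| := by
    rw [Real.sqrt_le_left (sum_nonneg fun i _ => abs_nonneg _)]
    refine le_trans (le_of_eq ?_) (sum_sq_le_sq_sum_of_nonneg fun i _ => abs_nonneg (x i))
    exact sum_congr rfl fun i _ => by simp
  have h3 := mul_le_mul_of_nonneg_left h2 hL
  have h4 := norm_add_le (F x - F 0) (F 0)
  rw [sub_add_cancel] at h4
  linarith

theorem conc_int {E : Type} [NormedAddCommGroup E] [SecondCountableTopology E]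
    {F : (I → ℝ) → E} (hL : 0 ≤ L)
    (hf : ∀ x y, ‖F x - F y‖ ≤ L * √(∑ i, (x i - y i) ^ 2)) : Integrable F (γ I) := by
  refine ((integrable_const ‖F 0‖).add (gsb_int I L)).mono'
    (conc_cont hf).aestronglyMeasurable (ae_of_all _ fun x => ?_)
  have h1 := conc_bd hL hf x
  have h2 := add_one_le_exp (L * ∑ i, |x i|)
  simp only [Pi.add_apply]
  linarith

theorem conc_exp_int (hL : 0 ≤ L) (hf : ∀ x y, |f x - f y| ≤ L * √(∑ i, (x i - y i) ^ 2))
    (c d : ℝ) : Integrable (fun x => exp (c * f x + d)) (γ I) := by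
  have hc := conc_cont (F := f) hf
  refine ((gsb_int I (|c| * L)).const_mul (exp (|c| * |f 0| + d))).mono'
    (by fun_prop) (ae_of_all _ fun x => ?_)
  rw [Real.norm_eq_abs, abs_exp, ← exp_add, exp_le_exp]
  have h1 : |f x| ≤ |f 0| + L * ∑ i, |x i| := conc_bd (F := f) hL hf x
  have h2 : c * f x ≤ |c| * |f x| := by rw [← abs_mul]; exact le_abs_self _
  have h3 := mul_le_mul_of_nonneg_left h1 (abs_nonneg c)
  linarith

/-- `maurey` with `u = λ f - λ ^ 2 L ^ 2`, `v = λ f`, and Jensen (`c2_jensen`) for the second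
factor. `f` is continuous; `|f x - f 0| ≤ L ∑ |x i|` and `gsb_int` give integrability. -/
theorem mgf_le (hL : 0 ≤ L) (hf : ∀ x y, |f x - f y| ≤ L * √(∑ i, (x i - y i) ^ 2)) (c : ℝ) :
    Integrable (fun x => exp (c * (f x - ∫ y, f y ∂γ I))) (γ I) ∧
      ∫ x, exp (c * (f x - ∫ y, f y ∂γ I)) ∂γ I ≤ exp (c ^ 2 * L ^ 2) := by
  have hc := conc_cont (F := f) hf
  set m := ∫ y, f y ∂γ I with hm
  have i1 := conc_exp_int hL hf c (-(c ^ 2 * L ^ 2))
  have i2 : Integrable (fun x => exp (-(c * f x))) (γ I) := by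
    simpa using conc_exp_int hL hf (-c) 0
  have hM := maurey (I := I) (u := fun x => c * f x + -(c ^ 2 * L ^ 2)) (v := fun x => c * f x)
    (by fun_prop) (by fun_prop) fun x y => by
      have h0 : 0 ≤ ∑ i, (x i - y i) ^ 2 := sum_nonneg fun i _ => sq_nonneg _
      have h1 := mul_le_mul_of_nonneg_left (hf x y) (abs_nonneg c)
      have h2 : c * (f x - f y) ≤ |c| * |f x - f y| := by rw [← abs_mul]; exact le_abs_self _
      have h3 := sq_nonneg (√(∑ i, (x i - y i) ^ 2) / 2 - |c| * L)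
      have h4 := Real.sq_sqrt h0
      have h5 := sq_abs c
      nlinarith
  rw [← ofReal_integral_eq_lintegral_ofReal i1 (ae_of_all _ fun _ => (exp_pos _).le),
    ← ofReal_integral_eq_lintegral_ofReal i2 (ae_of_all _ fun _ => (exp_pos _).le),
    ← ENNReal.ofReal_mul (integral_nonneg fun _ => (exp_pos _).le), ENNReal.ofReal_le_one] at hM
  have hJ := c2_jensen (μ := γ I) (f := fun x => -(c * f x))
    ((conc_int (F := f) hL hf).const_mul c).neg i2
  rw [integral_neg, integral_const_mul, ← hm] at hJ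
  have e : ∀ x, exp (c * (f x - m)) =
      (exp (c ^ 2 * L ^ 2) * exp (-(c * m))) * exp (c * f x + -(c ^ 2 * L ^ 2)) := fun x => by
    rw [← exp_add, ← exp_add]; congr 1; ring
  simp only [e]
  refine ⟨i1.const_mul _, ?_⟩
  rw [integral_const_mul, mul_assoc]
  refine mul_le_of_le_one_right (exp_pos _).le (le_trans ?_ hM)
  rw [mul_comm]
  exact mul_le_mul_of_nonneg_left hJ (integral_nonneg fun _ => (exp_pos _).le)

theorem conc_W_int (hW : Measurable W) (hW0 : ∀ g, W g ≤ 0) :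
    Integrable (fun g => exp (W g)) (γ I) :=
  (integrable_const (1 : ℝ)).mono' (by fun_prop) (ae_of_all _ fun g => by
    rw [Real.norm_eq_abs, abs_exp]; exact exp_le_one_iff.2 (hW0 g))

theorem conc_tilt_int {h : (I → ℝ) → ℝ} (hW : Measurable W) (hW0 : ∀ g, W g ≤ 0)
    (hh : Integrable h (γ I)) : Integrable h ((γ I).tilted W) := by
  rw [integrable_tilted_iff (conc_W_int hW hW0)]
  refine hh.norm.mono' ((conc_W_int hW hW0).aestronglyMeasurable.smul hh.aestronglyMeasurable)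
    (ae_of_all _ fun g => ?_)
  rw [norm_smul, Real.norm_eq_abs, abs_exp]
  exact mul_le_of_le_one_left (norm_nonneg _) (exp_le_one_iff.2 (hW0 g))

theorem conc_tilt_le {h : (I → ℝ) → ℝ} (hW0 : ∀ g, W g ≤ 0)
    (hZ : exp (-A) ≤ ∫ g, exp (W g) ∂γ I) (hh : Integrable h (γ I)) (h0 : ∀ g, 0 ≤ h g) :
    ∫ g, h g ∂(γ I).tilted W ≤ exp A * ∫ g, h g ∂γ I := by
  rw [integral_tilted, ← integral_const_mul]
  have hZ0 : 0 < ∫ g, exp (W g) ∂γ I := (exp_pos _).trans_le hZ
  refine integral_mono_of_nonneg (ae_of_all _ fun g => ?_) (hh.const_mul _) (ae_of_all _ fun g => ?_)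
  · exact mul_nonneg (div_nonneg (exp_pos _).le hZ0.le) (h0 g)
  · refine mul_le_mul_of_nonneg_right ?_ (h0 g)
    rw [div_le_iff₀ hZ0]
    calc exp (W g) ≤ 1 := exp_le_one_iff.2 (hW0 g)
      _ = exp A * exp (-A) := by rw [← exp_add, add_neg_cancel, exp_zero]
      _ ≤ _ := mul_le_mul_of_nonneg_left hZ (exp_pos _).le

/-- The density of the tilted law is at most `exp A`. By Jensen,
`exp (c E_Q |f - E f|) ≤ exp A * 2 * exp (c ^ 2 L ^ 2)`; take `c = √(A + 1) / L`. -/
theorem conc_tilt (hL : 0 ≤ L) (hA : 0 ≤ A)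
    (hf : ∀ x y, |f x - f y| ≤ L * √(∑ i, (x i - y i) ^ 2)) (hW : Measurable W)
    (hW0 : ∀ g, W g ≤ 0) (hZ : exp (-A) ≤ ∫ g, exp (W g) ∂γ I) :
    ∫ g, |f g - ∫ y, f y ∂γ I| ∂(γ I).tilted W ≤ 2 * L * √(A + 1) := by
  rcases hL.eq_or_lt with h0 | hL0
  · have e : ∀ x, f x = f 0 := fun x => by
      have h1 := hf x 0
      rw [← h0, zero_mul] at h1
      exact sub_eq_zero.1 (abs_nonpos_iff.1 h1)
    have e2 : ∫ y, f y ∂γ I = f 0 := by
      rw [integral_congr_ae (ae_of_all _ e)]; simp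
    have e3 : ∀ g, |f g - ∫ y, f y ∂γ I| = 0 := fun g => by rw [e2, e g, sub_self, abs_zero]
    simp only [e3, integral_zero, ← h0]
    simp
  have hc := conc_cont (F := f) hf
  have : IsProbabilityMeasure ((γ I).tilted W) := isProbabilityMeasure_tilted (conc_W_int hW hW0)
  set m := ∫ y, f y ∂γ I with hm
  have hs : 0 < √(A + 1) := Real.sqrt_pos.2 (by linarith)
  have hs2 : √(A + 1) ^ 2 = A + 1 := Real.sq_sqrt (by linarith)
  set c := √(A + 1) / L with hcd
  have hc0 : 0 < c := div_pos hs hL0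
  have hcL : c ^ 2 * L ^ 2 = A + 1 := by rw [← hs2, hcd]; field_simp
  obtain ⟨i1, b1⟩ := mgf_le hL hf c
  obtain ⟨i2, b2⟩ := mgf_le hL hf (-c)
  rw [← hm] at i1 i2 b1 b2
  rw [neg_sq, hcL] at b2
  rw [hcL] at b1
  have hle : ∀ g, exp (c * |f g - m|) ≤ exp (c * (f g - m)) + exp (-c * (f g - m)) := fun g => by
    rcases abs_cases (f g - m) with h | h <;> rw [h.1]
    · linarith [exp_pos (-c * (f g - m))]
    · have e : c * -(f g - m) = -c * (f g - m) := by ring
      rw [e]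
      linarith [exp_pos (c * (f g - m))]
  have i3 : Integrable (fun g => exp (c * |f g - m|)) (γ I) :=
    (i1.add i2).mono' (by fun_prop) (ae_of_all _ fun g => by
      rw [Real.norm_eq_abs, abs_exp]; exact hle g)
  have b3 : ∫ g, exp (c * |f g - m|) ∂γ I ≤ 2 * exp (A + 1) := by
    have h1 := integral_mono i3 (i1.add i2) hle
    rw [integral_add' i1 i2] at h1
    linarith
  have i4 : Integrable (fun g => |f g - m|) (γ I) :=
    ((conc_int (F := f) hL hf).sub (integrable_const m)).abs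
  have hJ := c2_jensen (μ := (γ I).tilted W) (f := fun g => c * |f g - m|)
    ((conc_tilt_int hW hW0 i4).const_mul c) (conc_tilt_int hW hW0 i3)
  have b4 := conc_tilt_le hW0 hZ i3 fun _ => (exp_pos _).le
  have b5 : exp A * (2 * exp (A + 1)) ≤ exp (2 * (A + 1)) := by
    have h1 : (2 : ℝ) ≤ exp 1 := by linarith [add_one_le_exp (1 : ℝ)]
    calc exp A * (2 * exp (A + 1)) ≤ exp A * (exp 1 * exp (A + 1)) := by gcongr
      _ = exp (2 * (A + 1)) := by rw [← exp_add, ← exp_add]; congr 1; ring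
  have b6 := exp_le_exp.1 (hJ.trans (b4.trans
    ((mul_le_mul_of_nonneg_left b3 (exp_pos A).le).trans b5)))
  rw [integral_const_mul] at b6
  refine le_of_mul_le_mul_left (b6.trans (le_of_eq ?_)) hc0
  rw [hcd]
  field_simp
  exact hs2.symm

/-- complex valued version (real and imaginary parts) -/
theorem conc_tilt_c {F : (I → ℝ) → ℂ} (hL : 0 ≤ L) (hA : 0 ≤ A)
    (hf : ∀ x y, ‖F x - F y‖ ≤ L * √(∑ i, (x i - y i) ^ 2)) (hW : Measurable W)
    (hW0 : ∀ g, W g ≤ 0) (hZ : exp (-A) ≤ ∫ g, exp (W g) ∂γ I) :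
    ∫ g, ‖F g - ∫ y, F y ∂γ I‖ ∂(γ I).tilted W ≤ 4 * L * √(A + 1) := by
  have hre : ∀ x y, |(F x).re - (F y).re| ≤ L * √(∑ i, (x i - y i) ^ 2) := fun x y =>
    (Complex.abs_re_le_norm (F x - F y)).trans (hf x y)
  have him : ∀ x y, |(F x).im - (F y).im| ≤ L * √(∑ i, (x i - y i) ^ 2) := fun x y =>
    (Complex.abs_im_le_norm (F x - F y)).trans (hf x y)
  have iF := conc_int hL hf
  have b1 := conc_tilt hL hA hre hW hW0 hZ
  have b2 := conc_tilt hL hA him hW hW0 hZ
  have e1 : ∫ y, (F y).re ∂γ I = (∫ y, F y ∂γ I).re := Complex.reCLM.integral_comp_comm iF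
  have e2 : ∫ y, (F y).im ∂γ I = (∫ y, F y ∂γ I).im := Complex.imCLM.integral_comp_comm iF
  rw [e1] at b1
  rw [e2] at b2
  have i1 : Integrable (fun g => |(F g).re - (∫ y, F y ∂γ I).re|) ((γ I).tilted W) :=
    conc_tilt_int hW hW0 ((conc_int (F := fun g => (F g).re) hL hre).sub (integrable_const _)).abs
  have i2 : Integrable (fun g => |(F g).im - (∫ y, F y ∂γ I).im|) ((γ I).tilted W) :=
    conc_tilt_int hW hW0 ((conc_int (F := fun g => (F g).im) hL him).sub (integrable_const _)).abs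
  have h1 := integral_mono_of_nonneg (f := fun g => ‖F g - ∫ y, F y ∂γ I‖)
    (ae_of_all _ fun _ => norm_nonneg _) (i1.add i2)
    (ae_of_all _ fun g => Complex.norm_le_abs_re_add_abs_im (F g - ∫ y, F y ∂γ I))
  rw [integral_add' i1 i2] at h1
  linarith

end

end Vale.Agent.P146L
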