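import Vale.Agent.P146L.Defs

/-! Deterministic facts on the resolvent. -/

set_option linter.all false

namespace Vale.Agent.P146L

open MeasureTheory ProbabilityTheory Real Finset Filter Topology Vale.Agent.P146M Vale.Agent.P146

noncomputable section

variable {N : ℕ} {z : ℂ} {η : ℝ} {g : Pr N → ℝ}

/-! `Gm g` is real symmetric, so `Im ⟨x, (z - Gm g) x⟩ = Im z * |x| ^ 2` and
`|(z - Gm g) x| ≥ Im z * |x|`. This gives invertibility (`Matrix.mulVec_injective_iff_isUnit`)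
and the norm bound. -/

/-- sums over unordered pairs -/
theorem sum_Pr {α : Type*} [AddCommGroup α] (F : Fin N → Fin N → α) :
    ∑ p : Pr N, (F p.1.1 p.1.2 + F p.1.2 p.1.1) = ∑ i, ∑ j, F i j - ∑ i, F i i := by
  have h1 : ∀ G : Fin N → Fin N → α,
      ∑ p : Pr N, G p.1.1 p.1.2 = ∑ i, ∑ j, if i < j then G i j else 0 := by
    intro G
    rw [← Fintype.sum_prod_type', ← sum_filter]
    exact (sum_subtype (univ.filter fun x : Fin N × Fin N => x.1 < x.2) (fun x => by simp)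
      (fun x => G x.1 x.2)).symm
  have h2 : ∑ i, F i i = ∑ i, ∑ j, if i = j then F i j else 0 := by simp
  rw [sum_add_distrib, h1, h1 fun i j => F j i, sum_comm (f := fun i j => if i < j then F j i else 0),
    eq_sub_iff_add_eq, h2, ← sum_add_distrib, ← sum_add_distrib]
  refine sum_congr rfl fun i _ => ?_
  rw [← sum_add_distrib, ← sum_add_distrib]
  refine sum_congr rfl fun j _ => ?_
  rcases lt_trichotomy i j with h | h | h
  · simp [h, h.not_gt, h.ne]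
  · simp [h]
  · simp [h, h.not_gt, h.ne']

theorem Gm_symm (g : Pr N → ℝ) (i j : Fin N) : Gm g i j = Gm g j i := by
  unfold Gm
  rcases lt_trichotomy i j with h | h | h
  · simp [h, h.not_gt]
  · rw [h]
  · simp [h, h.not_gt]

theorem res_lt (g : Pr N → ℝ) (p : Pr N) : Gm g p.1.1 p.1.2 = (g p / √N : ℝ) := by
  unfold Gm
  rw [dif_pos p.2]

theorem res_diag (g : Pr N → ℝ) (i : Fin N) : Gm g i i = 0 := by simp [Gm]

theorem res_conj (g : Pr N → ℝ) (i j : Fin N) : (starRingEnd ℂ) (Gm g i j) = Gm g i j := by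
  unfold Gm
  split_ifs
  · exact Complex.conj_ofReal _
  · exact Complex.conj_ofReal _
  · exact map_zero _

theorem res_add (g h : Pr N → ℝ) : Gm (g + h) = Gm g + Gm h := by
  ext i j
  simp only [Gm, Matrix.add_apply, Pi.add_apply]
  split_ifs
  · push_cast; ring
  · push_cast; ring
  · simp

theorem res_sum (g : Pr N → ℝ) (X : Fin N → Fin N → ℂ) : ∑ i, ∑ j, Gm g i j * X i j =
    (∑ p, g p * (X p.1.1 p.1.2 + X p.1.2 p.1.1)) / √N := by
  have h := sum_Pr fun i j => Gm g i j * X i j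
  simp only [res_diag, zero_mul, sum_const_zero, sub_zero] at h
  rw [← h, sum_div]
  refine sum_congr rfl fun p _ => ?_
  rw [Gm_symm g p.1.2, res_lt]
  push_cast
  ring

theorem res_cs {ι : Type*} [Fintype ι] (x y : ι → ℂ) :
    ‖∑ i, x i * y i‖ ≤ √(∑ i, ‖x i‖ ^ 2) * √(∑ i, ‖y i‖ ^ 2) := by
  refine (norm_sum_le _ _).trans ?_
  simp only [norm_mul]
  exact Real.sum_mul_le_sqrt_mul_sqrt _ _ _

theorem res_form (z : ℂ) (g : Pr N → ℝ) (x : Fin N → ℂ) :
    (∑ i, (starRingEnd ℂ) (x i) * (z • 1 - Gm g).mulVec x i).im = z.im * ∑ i, ‖x i‖ ^ 2 := by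
  have h1 : (∑ i, ∑ j, (starRingEnd ℂ) (x i) * (Gm g i j * x j)).im = 0 := by
    rw [← Complex.conj_eq_iff_im]
    simp only [map_sum, map_mul, Complex.conj_conj, res_conj]
    rw [sum_comm]
    refine sum_congr rfl fun i _ => sum_congr rfl fun j _ => ?_
    rw [Gm_symm g j i]
    ring
  have h2 : ∑ i, (starRingEnd ℂ) (x i) * (z • 1 - Gm g).mulVec x i =
      z * ((∑ i, ‖x i‖ ^ 2 : ℝ) : ℂ) - ∑ i, ∑ j, (starRingEnd ℂ) (x i) * (Gm g i j * x j) := by
    rw [Matrix.sub_mulVec, Matrix.smul_mulVec, Matrix.one_mulVec, Complex.ofReal_sum, mul_sum,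
      ← sum_sub_distrib]
    refine sum_congr rfl fun i _ => ?_
    rw [← mul_sum, Complex.ofReal_pow, ← Complex.conj_mul']
    simp only [Pi.sub_apply, Pi.smul_apply, smul_eq_mul, Matrix.mulVec, dotProduct]
    ring
  rw [h2, Complex.sub_im, h1, Complex.im_mul_ofReal, sub_zero]

theorem res_low (hz : 0 < z.im) (g : Pr N → ℝ) (x : Fin N → ℂ) :
    z.im ^ 2 * ∑ i, ‖x i‖ ^ 2 ≤ ∑ i, ‖(z • 1 - Gm g).mulVec x i‖ ^ 2 := by
  have h1 := (Complex.im_le_norm _).trans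
    (res_cs (fun i => (starRingEnd ℂ) (x i)) ((z • 1 - Gm g).mulVec x))
  rw [res_form] at h1
  simp only [Complex.norm_conj] at h1
  have hS : 0 ≤ ∑ i, ‖x i‖ ^ 2 := by positivity
  have hT : 0 ≤ ∑ i, ‖(z • 1 - Gm g).mulVec x i‖ ^ 2 := by positivity
  rcases hS.eq_or_lt with h | h
  · rw [← h, mul_zero]; exact hT
  · have h2 := pow_le_pow_left₀ (by positivity) h1 2
    rw [mul_pow, mul_pow, sq_sqrt hS, sq_sqrt hT, sq (∑ i, ‖x i‖ ^ 2), ← mul_assoc, mul_comm] at h2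
    exact le_of_mul_le_mul_left h2 h

theorem Rz_mul (hz : 0 < z.im) (g : Pr N → ℝ) :
    (z • 1 - Gm g) * Rz z g = 1 ∧ Rz z g * (z • 1 - Gm g) = 1 := by
  have hinj : Function.Injective (z • 1 - Gm g).mulVec := by
    intro x y hxy
    have h1 := res_low hz g (x - y)
    rw [Matrix.mulVec_sub, hxy, sub_self] at h1
    simp only [Pi.zero_apply, norm_zero, ne_eq, OfNat.ofNat_ne_zero, not_false_eq_true, zero_pow,
      sum_const_zero] at h1
    have h2 : ∑ i, ‖(x - y) i‖ ^ 2 ≤ 0 :=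
      le_of_mul_le_mul_left (by rwa [mul_zero]) (pow_pos hz 2)
    funext i
    have h3 := (single_le_sum (f := fun i => ‖(x - y) i‖ ^ 2) (fun i _ => sq_nonneg _)
      (mem_univ i)).trans h2
    exact sub_eq_zero.1 (norm_eq_zero.1 (pow_eq_zero_iff two_ne_zero |>.1
      (le_antisymm h3 (sq_nonneg _))))
  have hu := (Matrix.isUnit_iff_isUnit_det _).1 (Matrix.mulVec_injective_iff_isUnit.1 hinj)
  exact ⟨Matrix.mul_nonsing_inv _ hu, Matrix.nonsing_inv_mul _ hu⟩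

theorem Rz_symm (hz : 0 < z.im) (g : Pr N → ℝ) (i j : Fin N) : Rz z g i j = Rz z g j i := by
  have h : (z • 1 - Gm g).transpose = z • 1 - Gm g := by
    rw [Matrix.transpose_sub, Matrix.transpose_smul, Matrix.transpose_one]
    exact congrArg _ (Matrix.ext fun i j => Gm_symm g j i)
  have h2 : (Rz z g).transpose = Rz z g := by rw [Rz, Matrix.transpose_nonsing_inv, h]
  exact congrFun (congrFun h2 j) i

theorem Rz_bil (hη : 0 < η) (hz : η ≤ z.im) (g : Pr N → ℝ) : Bil (Rz z g) η⁻¹ := by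
  intro x
  have h1 := res_low (hη.trans_le hz) g ((Rz z g).mulVec x)
  rw [Matrix.mulVec_mulVec, (Rz_mul (hη.trans_le hz) g).1, Matrix.one_mulVec] at h1
  rw [inv_pow, le_inv_mul_iff₀ (pow_pos hη 2)]
  refine le_trans (mul_le_mul_of_nonneg_right (pow_le_pow_left₀ hη.le hz 2) ?_) h1
  positivity

/-- Ward identity: apply the quadratic form identity to the columns of the resolvent -/
theorem Rz_ward (hz : 0 < z.im) (g : Pr N → ℝ) :
    z.im * ∑ i, ∑ j, ‖Rz z g i j‖ ^ 2 = -(N * (sz z g).im) := by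
  have h1 : ∀ j, z.im * ∑ i, ‖Rz z g i j‖ ^ 2 = -(Rz z g j j).im := by
    intro j
    rw [← res_form z g fun i => Rz z g i j]
    have h2 : ∀ i, (z • 1 - Gm g).mulVec (fun i => Rz z g i j) i = if i = j then 1 else 0 := by
      intro i
      exact congrFun (congrFun (Rz_mul hz g).1 i) j
    simp [h2]
  rw [sum_comm, mul_sum, sum_congr rfl fun j _ => h1 j, sum_neg_distrib, sz,
    Complex.div_natCast_im, Complex.im_sum]
  rcases Nat.eq_zero_or_pos N with rfl | hN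
  · simp
  · rw [mul_div_cancel₀ _ (by exact_mod_cast hN.ne')]

theorem Bil.bilin {R : Matrix (Fin N) (Fin N) ℂ} {κ : ℝ} (h : Bil R κ) (hκ : 0 ≤ κ)
    (x y : Fin N → ℂ) :
    ‖∑ j, ∑ a, y j * R j a * x a‖ ≤ κ * √(∑ a, ‖x a‖ ^ 2) * √(∑ j, ‖y j‖ ^ 2) := by
  have h1 : ∑ j, ∑ a, y j * R j a * x a = ∑ j, (∑ a, R j a * x a) * y j :=
    sum_congr rfl fun j _ => by
      rw [sum_mul]
      exact sum_congr rfl fun a _ => by ring
  rw [h1]
  refine (res_cs _ _).trans (mul_le_mul_of_nonneg_right ?_ (sqrt_nonneg _))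
  refine (sqrt_le_sqrt (h x)).trans (le_of_eq ?_)
  rw [sqrt_mul (sq_nonneg κ), sqrt_sq hκ]

/-- Frobenius norm of a product -/
theorem Bil.fro {R : Matrix (Fin N) (Fin N) ℂ} {κ : ℝ} (h : Bil R κ) (B : Fin N → Fin N → ℂ) :
    ∑ i, ∑ j, ‖∑ a, R j a * B a i‖ ^ 2 ≤ κ ^ 2 * ∑ i, ∑ a, ‖B a i‖ ^ 2 := by
  rw [mul_sum]
  exact sum_le_sum fun i _ => h fun a => B a i

theorem Bil.res_col {R : Matrix (Fin N) (Fin N) ℂ} {κ : ℝ} (h : Bil R κ) (j : Fin N) :
    ∑ i, ‖R i j‖ ^ 2 ≤ κ ^ 2 := by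
  have h1 := h fun a => if a = j then 1 else 0
  have h2 : ∑ a, ‖(if a = j then 1 else 0 : ℂ)‖ ^ 2 = 1 := by
    rw [sum_eq_single j (fun a _ ha => by simp [ha]) (by simp)]
    simp
  rw [h2] at h1
  simpa using h1

theorem Bil.fro_self {R : Matrix (Fin N) (Fin N) ℂ} {κ : ℝ} (h : Bil R κ) :
    ∑ i, ∑ j, ‖R i j‖ ^ 2 ≤ κ ^ 2 * N := by
  rw [sum_comm]
  refine (sum_le_sum fun j _ => h.res_col j).trans (le_of_eq ?_)
  simp [mul_comm]

theorem Bil.entry {R : Matrix (Fin N) (Fin N) ℂ} {κ : ℝ} (h : Bil R κ) (hκ : 0 ≤ κ)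
    (i j : Fin N) : ‖R i j‖ ≤ κ :=
  (pow_le_pow_iff_left₀ (norm_nonneg _) hκ two_ne_zero).1
    ((single_le_sum (f := fun i => ‖R i j‖ ^ 2) (fun i _ => sq_nonneg _) (mem_univ i)).trans
      (h.res_col j))

theorem sz_le (hη : 0 < η) (hz : η ≤ z.im) (g : Pr N → ℝ) : ‖sz z g‖ ≤ η⁻¹ := by
  have h0 : 0 ≤ η⁻¹ := inv_nonneg.2 hη.le
  rw [sz, norm_div, Complex.norm_natCast]
  refine div_le_of_le_mul₀ (Nat.cast_nonneg N) h0 ((norm_sum_le _ _).trans ?_)
  refine (sum_le_sum fun a _ => (Rz_bil hη hz g).entry h0 a a).trans (le_of_eq ?_)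
  simp [mul_comm]

theorem sz_im (hz : 0 < z.im) (g : Pr N → ℝ) : (sz z g).im ≤ 0 := by
  rcases Nat.eq_zero_or_pos N with rfl | hN
  · simp [sz]
  · have h1 := Rz_ward hz g
    have h2 : 0 ≤ z.im * ∑ i, ∑ j, ‖Rz z g i j‖ ^ 2 := by positivity
    have h3 : (0 : ℝ) < N := by exact_mod_cast hN
    exact le_of_mul_le_mul_left (by linarith) h3

/-- resolvent identity -/
theorem Rz_sub (hz : 0 < z.im) (g g' : Pr N → ℝ) :
    Rz z g - Rz z g' = Rz z g * (Gm g - Gm g') * Rz z g' := by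
  have h : Gm g - Gm g' = (z • 1 - Gm g') - (z • 1 - Gm g) := by abel
  rw [h, Matrix.mul_sub, (Rz_mul hz g).2, Matrix.sub_mul, Matrix.mul_assoc, (Rz_mul hz g').1,
    Matrix.mul_one, Matrix.one_mul]

theorem Gm_fro (g g' : Pr N → ℝ) :
    ∑ i, ∑ j, ‖Gm g i j - Gm g' i j‖ ^ 2 = 2 * (∑ p, (g p - g' p) ^ 2) / N := by
  have h := sum_Pr fun i j => ‖Gm g i j - Gm g' i j‖ ^ 2
  simp only [res_diag, sub_zero, norm_zero, ne_eq, OfNat.ofNat_ne_zero, not_false_eq_true, zero_pow,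
    sum_const_zero] at h
  rw [← h, mul_sum, sum_div]
  refine sum_congr rfl fun p _ => ?_
  rw [Gm_symm g p.1.2, Gm_symm g' p.1.2, res_lt, res_lt, ← Complex.ofReal_sub, Complex.norm_real,
    Real.norm_eq_abs, sq_abs, ← sub_div, div_pow, sq_sqrt (Nat.cast_nonneg N)]
  ring

theorem Rz_cont (hz : 0 < z.im) (i j : Fin N) : Continuous fun g : Pr N → ℝ => Rz z g i j := by
  have h0 : Continuous fun g : Pr N → ℝ => Gm g := by
    refine continuous_matrix fun a c => ?_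
    unfold Gm
    split_ifs <;> fun_prop
  have h1 : Continuous fun g : Pr N → ℝ => z • (1 : Matrix (Fin N) (Fin N) ℂ) - Gm g :=
    continuous_const.sub h0
  have h2 : ∀ g : Pr N → ℝ, (z • 1 - Gm g).det ≠ 0 := fun g =>
    (Matrix.isUnit_det_of_right_inverse (Rz_mul hz g).1).ne_zero
  simp only [Rz, Matrix.inv_def, Ring.inverse_eq_inv', Matrix.smul_apply, smul_eq_mul]
  exact (h1.matrix_det.inv₀ h2).mul (h1.matrix_adjugate.matrix_elem i j)

/-- from `Rz_sub`: the difference quotient is `(R' a i * R j c + R' a j * R i c) / √N` -/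
theorem Rz_deriv (hz : 0 < z.im) (g : Pr N → ℝ) (p : Pr N) (a c : Fin N) :
    HasDerivAt (fun t : ℝ => Rz z (g + Pi.single p t) a c)
      ((Rz z g a p.1.1 * Rz z g p.1.2 c + Rz z g a p.1.2 * Rz z g p.1.1 c) / √N) 0 := by
  have hc : Continuous fun t : ℝ => g + Pi.single p t :=
    continuous_const.add (continuous_single (A := fun _ : Pr N => ℝ) p)
  have h1 : Continuous fun t : ℝ => (Rz z (g + Pi.single p t) a p.1.1 * Rz z g p.1.2 c +
      Rz z (g + Pi.single p t) a p.1.2 * Rz z g p.1.1 c) / √N :=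
    ((((Rz_cont hz _ _).comp hc).mul continuous_const).add
      (((Rz_cont hz _ _).comp hc).mul continuous_const)).div_const _
  have h2 := (h1.tendsto 0).mono_left (nhdsWithin_le_nhds (s := {0}ᶜ))
  simp only [Pi.single_zero, add_zero] at h2
  refine hasDerivAt_iff_tendsto_slope_zero.2 (h2.congr' ?_)
  filter_upwards [self_mem_nhdsWithin] with t ht
  have ht' : (t : ℂ) ≠ 0 := Complex.ofReal_ne_zero.2 ht
  have h3 := congrFun (congrFun (Rz_sub hz (g + Pi.single p t) g) a) c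
  rw [res_add, add_sub_cancel_left, Matrix.sub_apply] at h3
  have h4 : (Rz z (g + Pi.single p t) * Gm (Pi.single p t) * Rz z g : Matrix _ _ ℂ) a c = ∑ i, ∑ j,
      Gm (Pi.single p t) i j * (Rz z (g + Pi.single p t) a i * Rz z g j c) := by
    simp only [Matrix.mul_apply, sum_mul]
    rw [sum_comm]
    exact sum_congr rfl fun i _ => sum_congr rfl fun j _ => by ring
  rw [zero_add, Pi.single_zero, add_zero, h3, h4, res_sum,
    sum_eq_single p (fun q _ hq => by simp [hq]) (by simp), Pi.single_eq_same, Complex.real_smul,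
    Complex.ofReal_inv, mul_div_assoc, inv_mul_cancel_left₀ ht']

/-- `tr (R - R') = tr ((G - G') R' R)`, Cauchy-Schwarz with `Gm_fro`, `Bil.fro`, `Bil.fro_self` -/
theorem sz_lip (hη : 0 < η) (hz : η ≤ z.im) (g g' : Pr N → ℝ) :
    ‖sz z g - sz z g'‖ ≤ 2 / (η ^ 2 * N) * √(∑ p, (g p - g' p) ^ 2) := by
  have hz0 := hη.trans_le hz
  have h1 : ∑ a, Rz z g a a - ∑ a, Rz z g' a a = ∑ x : Fin N × Fin N,
      (∑ i, Rz z g x.2 i * (Gm g i x.1 - Gm g' i x.1)) * Rz z g' x.1 x.2 := by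
    rw [← sum_sub_distrib, Fintype.sum_prod_type_right]
    refine sum_congr rfl fun a _ => ?_
    rw [← Matrix.sub_apply, Rz_sub hz0]
    rfl
  have h2 := (Rz_bil hη hz g).fro fun i j => Gm g i j - Gm g' i j
  rw [sum_comm (f := fun i a => ‖Gm g a i - Gm g' a i‖ ^ 2), Gm_fro] at h2
  have h3 := (Rz_bil hη hz g').fro_self
  have hS : 0 ≤ ∑ p, (g p - g' p) ^ 2 := by positivity
  rcases Nat.eq_zero_or_pos N with rfl | hN
  · simp [sz]
  have hN' : (0 : ℝ) < N := by exact_mod_cast hN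
  rw [sz, sz, ← sub_div, norm_div, Complex.norm_natCast, h1, div_le_iff₀ hN']
  refine (res_cs _ _).trans ?_
  rw [Fintype.sum_prod_type, Fintype.sum_prod_type]
  refine (mul_le_mul (sqrt_le_sqrt h2) (sqrt_le_sqrt h3) (sqrt_nonneg _) (sqrt_nonneg _)).trans ?_
  rw [← sqrt_mul (by positivity)]
  refine sqrt_le_iff.2 ⟨by positivity, ?_⟩
  rw [mul_pow, mul_pow, sq_sqrt hS]
  have h4 : η⁻¹ ^ 2 * (2 * (∑ p, (g p - g' p) ^ 2) / N) * (η⁻¹ ^ 2 * N) =
      2 * ((∑ p, (g p - g' p) ^ 2) / η ^ 4) := by field_simp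
  have h5 : (2 / (η ^ 2 * N)) ^ 2 * (∑ p, (g p - g' p) ^ 2) * (N : ℝ) ^ 2 =
      4 * ((∑ p, (g p - g' p) ^ 2) / η ^ 4) := by field_simp; ring
  have h6 : 0 ≤ (∑ p, (g p - g' p) ^ 2) / η ^ 4 := by positivity
  rw [h4, h5]
  linarith

/-- `B = (z - G) R B`, take traces -/
theorem tau_id (hz : 0 < z.im) (g : Pr N → ℝ) (B : Fin N → Fin N → ℝ) :
    z * tau (Rz z g) B = (∑ a, (B a a : ℂ)) / N +
      (∑ p, g p * ent (Rz z g) B p) / (N * √N) := by
  have h1 : ∀ j a, z * Rz z g j a = (if j = a then 1 else 0) + ∑ i, Gm g j i * Rz z g i a := by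
    intro j a
    have h := congrFun (congrFun (Rz_mul hz g).1 j) a
    rw [Matrix.sub_mul, Matrix.smul_mul, Matrix.one_mul, Matrix.sub_apply, Matrix.smul_apply,
      smul_eq_mul, Matrix.mul_apply, Matrix.one_apply] at h
    exact sub_eq_iff_eq_add.1 h
  have h2 : z * ∑ j, ∑ a, Rz z g j a * B a j =
      ∑ a, (B a a : ℂ) + ∑ j, ∑ i, Gm g j i * ∑ a, Rz z g i a * B a j := by
    rw [mul_sum, ← sum_add_distrib]
    refine sum_congr rfl fun j _ => ?_
    simp only [mul_sum, ← mul_assoc, h1, add_mul, sum_add_distrib, sum_mul]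
    rw [sum_comm]
    simp
  rw [tau, ← mul_div_assoc, h2, res_sum, add_div, div_div, mul_comm (N : ℂ)]
  simp only [ent, sum_add_distrib]

variable {δ : ℝ}

theorem zz_facts (h0 : 0 < δ) (h1 : δ ≤ 1 / 2) : δ ^ 2 ≤ (zz δ).im ∧ ‖zz δ‖ ≤ 3 ∧
    -(ww δ).im ≤ (zz δ).im / (2 * δ) ∧ zz δ - ww δ = om δ ∧ om δ * ww δ = 1 := by
  have hn : Complex.normSq (om δ) = 1 + 2 * δ + 2 * δ ^ 2 := by
    rw [om, Complex.normSq_mk]; ring
  have hn0 : 0 < 1 + 2 * δ + 2 * δ ^ 2 := by positivity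
  have hw : (ww δ).im = -δ / (1 + 2 * δ + 2 * δ ^ 2) := by rw [ww, Complex.inv_im, hn]; rfl
  have hz : (zz δ).im = δ * (2 * δ + 2 * δ ^ 2) / (1 + 2 * δ + 2 * δ ^ 2) := by
    rw [zz, Complex.add_im, hw]
    change δ + _ = _
    field_simp
    ring
  have a1 : 1 ≤ ‖om δ‖ := le_trans (show 1 ≤ (om δ).re by change 1 ≤ 1 + δ; linarith)
    (Complex.re_le_norm _)
  have a2 : ‖om δ‖ ≤ 2 := by
    refine (Complex.norm_le_abs_re_add_abs_im _).trans ?_
    change |1 + δ| + |δ| ≤ 2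
    rw [abs_of_pos h0, abs_of_pos (by linarith)]
    linarith
  refine ⟨?_, ?_, ?_, add_sub_cancel_right _ _, mul_inv_cancel₀ (norm_pos_iff.1 (by linarith))⟩
  · rw [hz, le_div_iff₀ hn0]
    have h2 : 0 ≤ δ ^ 2 * (1 - 2 * δ ^ 2) := mul_nonneg (sq_nonneg _) (by nlinarith)
    linarith
  · refine (norm_add_le _ _).trans ?_
    rw [ww, norm_inv]
    linarith [inv_le_one_of_one_le₀ a1]
  · rw [hz, hw, ← neg_div, neg_neg, div_div, div_le_div_iff₀ hn0 (by positivity)]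
    have h2 : 0 ≤ δ ^ 3 * (1 + 2 * δ + 2 * δ ^ 2) := by positivity
    linarith

end

end Vale.Agent.P146L
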