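import Vale.Agent.P146L.Rep
import Vale.Agent.P146L.Res

/-! Contraction of the derivatives with a matrix of bounded norm. -/

set_option linter.all false

namespace Vale.Agent.P146L

open MeasureTheory ProbabilityTheory Real Finset Filter Topology Vale.Agent.P146M Vale.Agent.P146

noncomputable section

variable {N k : ℕ} {H : SN N → ℝ} {R : Matrix (Fin N) (Fin N) ℂ} {κ : ℝ}

theorem ctr_key {S : Type*} [MeasurableSpace S] {μ : Measure S} [IsProbabilityMeasure μ]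
    (hR : Bil R κ) (hκ : 0 ≤ κ) {x y : Fin N → S → ℝ} (hx : ∀ a s, |x a s| ≤ 1)
    (hi : ∀ a j, Integrable (fun s => x a s * y j s) μ)
    (hy : ∀ j, Integrable (fun s => y j s ^ 2) μ) {V : ℝ} (hV : ∫ s, ∑ j, y j s ^ 2 ∂μ ≤ V) :
    ‖∑ j, ∑ a, R j a * ((∫ s, x a s * y j s ∂μ : ℝ) : ℂ)‖ ≤ κ * √N * √V := by
  have i1 : ∀ j a, Integrable (fun s => R j a * ((x a s * y j s : ℝ) : ℂ)) μ :=
    fun j a => (hi a j).ofReal.const_mul _
  have e : ∑ j, ∑ a, R j a * ((∫ s, x a s * y j s ∂μ : ℝ) : ℂ) =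
      ∫ s, ∑ j, ∑ a, R j a * ((x a s * y j s : ℝ) : ℂ) ∂μ := by
    rw [integral_finset_sum _ fun j _ => integrable_finset_sum _ fun a _ => i1 j a]
    refine sum_congr rfl fun j _ => ?_
    rw [integral_finset_sum _ fun a _ => i1 j a]
    refine sum_congr rfl fun a _ => ?_
    rw [integral_const_mul, integral_complex_ofReal]
  have i2 : Integrable (fun s => ∑ j, y j s ^ 2) μ := integrable_finset_sum _ fun j _ => hy j
  have n2 : ∀ s, 0 ≤ ∑ j, y j s ^ 2 := fun s => sum_nonneg fun j _ => sq_nonneg _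
  have i3 : Integrable (fun s => √(∑ j, y j s ^ 2)) μ := by
    refine ((integrable_const (1 : ℝ)).add i2).mono'
      (continuous_sqrt.comp_aestronglyMeasurable i2.1) (ae_of_all _ fun s => ?_)
    rw [Real.norm_of_nonneg (sqrt_nonneg _)]
    have h1 := sq_sqrt (n2 s)
    have h2 := sqrt_nonneg (∑ j, y j s ^ 2)
    simp only [Pi.add_apply]
    nlinarith
  have h3 : ∫ s, √(∑ j, y j s ^ 2) ∂μ ≤ √V := by
    refine le_sqrt_of_sq_le ((c2_sq_le i3 ?_).trans ?_)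
    · simpa only [sq_sqrt (n2 _)] using i2
    · simpa only [sq_sqrt (n2 _)] using hV
  rw [e]
  refine (norm_integral_le_of_norm_le (i3.const_mul (κ * √N)) (ae_of_all _ fun s => ?_)).trans ?_
  · have h1 := hR.bilin hκ (fun a => (x a s : ℂ)) fun j => (y j s : ℂ)
    have e1 : ∑ j, ∑ a, R j a * ((x a s * y j s : ℝ) : ℂ) =
        ∑ j, ∑ a, (y j s : ℂ) * R j a * (x a s : ℂ) :=
      sum_congr rfl fun j _ => sum_congr rfl fun a _ => by push_cast; ring
    rw [e1]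
    refine h1.trans ?_
    simp only [Complex.norm_real, Real.norm_eq_abs, sq_abs]
    have h2 : ∑ a, x a s ^ 2 ≤ N := by
      calc ∑ a, x a s ^ 2 ≤ ∑ _a : Fin N, (1 : ℝ) :=
            sum_le_sum fun a _ => (sq_le_one_iff_abs_le_one _).2 (hx a s)
        _ = N := by simp
    gcongr
  · rw [integral_const_mul]
    exact mul_le_mul_of_nonneg_left h3 (by positivity)

theorem ctr_exM (hk : 0 < k) (hH : (GS k (Fin N) (νN N)).Lin H) (l : ℕ) (a : Fin N) :
    (GS k (Fin N) (νN N)).Ex (Ml k H l a) :=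
  ex_PP hk hH (ex_cf hk fun σ => sg σ a) l

theorem ctr_exC (hk : 0 < k) (hH : (GS k (Fin N) (νN N)).Lin H) (l : ℕ) (i j : Fin N) :
    (GS k (Fin N) (νN N)).Ex (Cl k H l i j) :=
  ex_PP hk hH (ex_cf hk fun σ => sg σ i * sg σ j) l

theorem ctr_BB (hk : 0 < k) (hH : (GS k (Fin N) (νN N)).Lin H) {l l' : ℕ} (hl : l ≤ k + 1)
    (hl' : l' ≤ k + 1) (a c : Fin N) :
    BB k H (min l l') a c = ∫ s, Ml k H l a s * Ml k H l' c s ∂mm k (νN N) H :=
  (cross hk hH (ex_cf hk fun σ => sg σ a) (ex_cf hk fun σ => sg σ c) hl hl').symm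

theorem ctr_key' (hk : 0 < k) (hH : (GS k (Fin N) (νN N)).Lin H) (hR : Bil R κ) (hκ : 0 ≤ κ)
    (l : ℕ) {y : Fin N → SN N → ℝ} (hy : ∀ j, (GS k (Fin N) (νN N)).Ex (y j)) {V : ℝ}
    (hV : ∫ s, ∑ j, y j s ^ 2 ∂mm k (νN N) H ≤ V) :
    ‖∑ j, ∑ a, R j a * ((∫ s, Ml k H l a s * y j s ∂mm k (νN N) H : ℝ) : ℂ)‖ ≤ κ * √N * √V := by
  have := mm_prob hk hH
  exact ctr_key hR hκ (abs_Ml hk hH l)
    (fun a j => integrable_mm hk hH ((ctr_exM hk hH l a).mul (gs_ok hk) (hy j)))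
    (fun j => integrable_mm hk hH ((hy j).sq (gs_ok hk))) hV

theorem ctr_key1 (hk : 0 < k) (hH : (GS k (Fin N) (νN N)).Lin H) (hR : Bil R κ) (hκ : 0 ≤ κ)
    (l : ℕ) {y : Fin N → SN N → ℝ} (hy : ∀ j, (GS k (Fin N) (νN N)).Ex (y j))
    (hb : ∀ j s, |y j s| ≤ 1) :
    ‖∑ j, ∑ a, R j a * ((∫ s, Ml k H l a s * y j s ∂mm k (νN N) H : ℝ) : ℂ)‖ ≤ κ * N := by
  have := mm_prob hk hH
  have hV : ∫ s, ∑ j, y j s ^ 2 ∂mm k (νN N) H ≤ N := by
    have h1 := integral_mono (integrable_finset_sum univ fun j _ =>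
      integrable_mm hk hH ((hy j).sq (gs_ok hk))) (integrable_const (N : ℝ)) fun s => (by
        calc ∑ j, y j s ^ 2 ≤ ∑ _j : Fin N, (1 : ℝ) :=
            sum_le_sum fun j _ => (sq_le_one_iff_abs_le_one _).2 (hb j s)
          _ = N := by simp)
    simpa using h1
  have h2 := ctr_key' hk hH hR hκ l hy hV
  rwa [mul_assoc, mul_self_sqrt (Nat.cast_nonneg N)] at h2

/-- `tau R (BB l) = E (M R M) / N` by `cross`; `Bil.bilin` -/
theorem tau_le (hk : 0 < k) (hH : (GS k (Fin N) (νN N)).Lin H) (hR : Bil R κ) (hκ : 0 ≤ κ) {l : ℕ}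
    (hl : l ≤ k + 1) : ‖tau R (BB k H l)‖ ≤ κ := by
  have h1 := ctr_key1 hk hH hR hκ l (ctr_exM hk hH l) (abs_Ml hk hH l)
  simp only [← ctr_BB hk hH hl hl, min_self] at h1
  rw [tau, norm_div, Complex.norm_natCast]
  exact div_le_of_le_mul₀ (Nat.cast_nonneg N) hκ h1

/-- The difference is `N ^ (-2) E ∑ j a, err j * R j a * M^l1 a` with `err` as in `repl`;
`Bil.bilin` and Cauchy-Schwarz (`c2_sq_le`). -/
theorem con_one (hk : 0 < k) (hN : 0 < N) (hH : (GS k (Fin N) (νN N)).Lin H) (hR : Bil R κ)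
    (hκ : 0 ≤ κ) {l1 l2 l3 : ℕ} (h1 : l1 ≤ k + 1) (h2 : l2 ≤ k + 1) (h3 : l3 ≤ k + 1) (q : ℝ) :
    ‖(∑ i, ∑ j, ∑ a, R j a * tri k H l1 l2 l3 a i i j) / (N : ℂ) ^ 2 -
      q * tau R (BB k H (min l1 l3))‖ ≤ κ * √(vR k H (min l2 l3) q) := by
  have hY : (GS k (Fin N) (νN N)).OK := gs_ok hk
  have xM := ctr_exM hk hH
  have xC := ctr_exC hk hH
  have h4 := ctr_key' hk hH hR hκ l1 (y := fun j s => ∑ i, Ml k H l2 i s * Cl k H l3 i j s -
    N * q * Ml k H l3 j s) (fun j => (Sys.Ex.sum hY _ fun i _ => (xM l2 i).mul hY (xC l3 i j)).sub hY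
      ((xM l3 j).const_mul hY _)) (repl hk hN hH h2 h3 q)
  have e1 : ∀ j a, ∫ s, Ml k H l1 a s * (∑ i, Ml k H l2 i s * Cl k H l3 i j s -
      N * q * Ml k H l3 j s) ∂mm k (νN N) H =
      ∑ i, tri k H l1 l2 l3 a i i j - N * q * BB k H (min l1 l3) a j := by
    intro j a
    have i1 : ∀ i, Integrable (fun s => Ml k H l1 a s * Ml k H l2 i s * Cl k H l3 i j s)
        (mm k (νN N) H) := fun i =>
      integrable_mm hk hH (((xM l1 a).mul hY (xM l2 i)).mul hY (xC l3 i j))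
    have i2 : Integrable (fun s => N * q * (Ml k H l1 a s * Ml k H l3 j s)) (mm k (νN N) H) :=
      (integrable_mm hk hH ((xM l1 a).mul hY (xM l3 j))).const_mul _
    rw [ctr_BB hk hH h1 h3, ← integral_const_mul]
    simp only [tri]
    rw [← integral_finset_sum _ fun i _ => i1 i,
      ← integral_sub (integrable_finset_sum _ fun i _ => i1 i) i2]
    refine integral_congr_ae (ae_of_all _ fun s => ?_)
    simp only [mul_sub, mul_sum, mul_assoc, mul_left_comm]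
  simp only [e1] at h4
  have hN' : (0 : ℝ) < N := Nat.cast_pos.2 hN
  have hN2 : (N : ℂ) ≠ 0 := Nat.cast_ne_zero.2 hN.ne'
  have e2 : (∑ i, ∑ j, ∑ a, R j a * tri k H l1 l2 l3 a i i j) / (N : ℂ) ^ 2 -
      q * tau R (BB k H (min l1 l3)) = (∑ j, ∑ a, R j a * ((∑ i, tri k H l1 l2 l3 a i i j -
        N * q * BB k H (min l1 l3) a j : ℝ) : ℂ)) / (N : ℂ) ^ 2 := by
    have e3 : ∑ j, ∑ a, R j a * ((∑ i, tri k H l1 l2 l3 a i i j -
        N * q * BB k H (min l1 l3) a j : ℝ) : ℂ) =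
        ∑ i, ∑ j, ∑ a, R j a * tri k H l1 l2 l3 a i i j -
          N * q * ∑ j, ∑ a, R j a * BB k H (min l1 l3) a j := by
      rw [sum_comm (f := fun i j => ∑ a, R j a * (tri k H l1 l2 l3 a i i j : ℂ)), mul_sum,
        ← sum_sub_distrib]
      refine sum_congr rfl fun j _ => ?_
      rw [sum_comm (f := fun i a => R j a * (tri k H l1 l2 l3 a i i j : ℂ)), mul_sum,
        ← sum_sub_distrib]
      refine sum_congr rfl fun a _ => ?_
      rw [← mul_sum]
      push_cast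
      ring
    rw [e3, tau]
    field_simp
  rw [e2, norm_div, norm_pow, Complex.norm_natCast, div_le_iff₀ (by positivity)]
  refine h4.trans (le_of_eq ?_)
  have e4 : √((N : ℝ) ^ 3 * vR k H (min l2 l3) q) = N * √N * √(vR k H (min l2 l3) q) := by
    rw [sqrt_mul (by positivity), pow_succ, sqrt_mul (by positivity), sqrt_sq hN'.le]
  have e5 := mul_self_sqrt hN'.le
  rw [e4]
  calc κ * √N * (N * √N * √(vR k H (min l2 l3) q))
      = κ * √(vR k H (min l2 l3) q) * (N * (√N * √N)) := by ring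
    _ = _ := by rw [e5]; ring

theorem con_diag (hk : 0 < k) (hN : 0 < N) (hH : (GS k (Fin N) (νN N)).Lin H) (hR : Bil R κ)
    (hκ : 0 ≤ κ) (l1 l2 l3 : ℕ) :
    ‖(∑ j, ∑ a, R j a * tri k H l1 l2 l3 a j j j) / (N : ℂ) ^ 2‖ ≤ κ / N := by
  have h1 := ctr_key1 hk hH hR hκ l1 (y := fun j s => Ml k H l2 j s * Cl k H l3 j j s)
    (fun j => (ctr_exM hk hH l2 j).mul (gs_ok hk) (ctr_exC hk hH l3 j j)) fun j s => by
      rw [abs_mul]
      exact mul_le_one₀ (abs_Ml hk hH l2 j s) (abs_nonneg _) (abs_Cl hk hH l3 j j s)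
  have hN' : (0 : ℝ) < N := Nat.cast_pos.2 hN
  simp only [← mul_assoc] at h1
  rw [norm_div, norm_pow, Complex.norm_natCast, div_le_iff₀ (by positivity)]
  refine h1.trans (le_of_eq ?_)
  field_simp

/-- the contraction as a linear map -/
def ctrL (R : Matrix (Fin N) (Fin N) ℂ) : (Fin N → Fin N → Fin N → Fin N → ℝ) →ₗ[ℝ] ℂ where
  toFun t := (∑ p : Pr N, ent R (fun a c => t a c p.1.1 p.1.2) p) / (N : ℂ) ^ 2
  map_add' t u := by
    rw [← add_div, ← sum_add_distrib]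
    congr 1
    refine sum_congr rfl fun p _ => ?_
    simp only [ent, ← sum_add_distrib, Pi.add_apply]
    refine sum_congr rfl fun a _ => ?_
    push_cast
    ring
  map_smul' c t := by
    rw [RingHom.id_apply, Complex.real_smul, ← mul_div_assoc, mul_sum]
    congr 1
    refine sum_congr rfl fun p _ => ?_
    simp only [ent, mul_sum, Pi.smul_apply, smul_eq_mul]
    refine sum_congr rfl fun a _ => ?_
    push_cast
    ring

theorem ctr_tri (hk : 0 < k) (hN : 0 < N) (hH : (GS k (Fin N) (νN N)).Lin H) (hR : Bil R κ)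
    (hκ : 0 ≤ κ) {l1 l2 l3 m1 m2 : ℕ} (h1 : l1 ≤ k + 1) (h2 : l2 ≤ k + 1) (h3 : l3 ≤ k + 1)
    (e1 : min l1 l3 = m1) (e2 : min l2 l3 = m2) (q : ℝ) :
    ‖ctrL R (tri k H l1 l2 l3) - q * tau R (BB k H m1)‖ ≤ κ * √(vR k H m2 q) + κ / N := by
  have e : ctrL R (tri k H l1 l2 l3) =
      (∑ i, ∑ j, ∑ a, R j a * tri k H l1 l2 l3 a i i j) / (N : ℂ) ^ 2 -
        (∑ j, ∑ a, R j a * tri k H l1 l2 l3 a j j j) / (N : ℂ) ^ 2 := by
    rw [← sub_div, ← sum_Pr fun i j => ∑ a, R j a * (tri k H l1 l2 l3 a i i j : ℂ)]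
    refine congrArg (· / (N : ℂ) ^ 2) (sum_congr rfl fun p _ => ?_)
    simp only [ent, ← sum_add_distrib]
    refine sum_congr rfl fun a _ => ?_
    rw [tri_symm l1 l2 l3 a p.1.2 p.1.2 p.1.1]
  rw [e, sub_right_comm, ← e1, ← e2]
  exact norm_sub_le_of_le (con_one hk hN hH hR hκ h1 h2 h3 q) (con_diag hk hN hH hR hκ l1 l2 l3)

theorem ctr_smul {c : ℝ} (hc : 0 ≤ c) {z : ℂ} {b : ℝ} (h : ‖z‖ ≤ b) : ‖c • z‖ ≤ c * b := by
  rw [norm_smul, Real.norm_of_nonneg hc]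
  exact mul_le_mul_of_nonneg_left h hc

theorem ctr_split {r : ℕ} (hr : r < k) (v : ℕ → ℝ) :
    ∑ l ∈ range k, v l = ∑ l ∈ range r, v l + v r + ∑ l ∈ Ioo r k, v l := by
  rw [← sum_range_succ, ← sum_range_add_sum_Ico v (Nat.succ_le_of_lt hr)]
  rfl

/-- `sum_Pr` with `F i j = ∑ a, R j a * dB r a i i j` (`tri_symm`), then `con_one` term by term
(`vR_top` for the term `tri r (k+1) (k+1)`), `con_diag`; the absolute values of the coefficients
add up to `4`. -/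
theorem con_r (hk : 0 < k) (hN : 0 < N) (hH : (GS k (Fin N) (νN N)).Lin H) (hR : Bil R κ)
    (hκ : 0 ≤ κ) (q : ℕ → ℝ) {r : ℕ} (hr : r < k) :
    ‖(∑ p : Pr N, ent R (fun a c => dB k H r a c p.1.1 p.1.2) p) / (N : ℂ) ^ 2 -
      QT k q (fun l => tau R (BB k H l)) r‖ ≤ κ * (3 * √(vR k H r (q r)) +
        (1 / (k : ℝ)) * ∑ l ∈ range k, √(vR k H l (q l)) + 6 / N) := by
  have eB : dB k H r = tri k H (k + 1) r (k + 1) + tri k H r (k + 1) (k + 1) -
      (((r : ℝ) + 2) / k) • tri k H r r r -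
      (1 / (k : ℝ)) • ∑ l ∈ Ioo r k, (tri k H l r l + tri k H r l l) -
      (1 / (k : ℝ)) • ∑ l ∈ range r, tri k H r r l := by
    funext a c i j
    simp only [dB, Pi.add_apply, Pi.sub_apply, Pi.smul_apply, Finset.sum_apply, smul_eq_mul]
  have e : ctrL R (dB k H r) - QT k q (fun l => tau R (BB k H l)) r =
      (ctrL R (tri k H (k + 1) r (k + 1)) - q r * tau R (BB k H (k + 1))) +
      (ctrL R (tri k H r (k + 1) (k + 1)) - (1 : ℝ) * tau R (BB k H r)) -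
      (((r : ℝ) + 2) / k) • (ctrL R (tri k H r r r) - q r * tau R (BB k H r)) -
      (1 / (k : ℝ)) • ∑ l ∈ Ioo r k, ((ctrL R (tri k H l r l) - q r * tau R (BB k H l)) +
        (ctrL R (tri k H r l l) - q l * tau R (BB k H r))) -
      (1 / (k : ℝ)) • ∑ l ∈ range r, (ctrL R (tri k H r r l) - q l * tau R (BB k H l)) := by
    rw [eB]
    simp only [map_sub, map_add, map_smul, map_sum, QT, Complex.real_smul, sum_add_distrib,
      sum_sub_distrib, ← mul_sum, ← sum_mul]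
    push_cast
    ring
  have hk' : (0 : ℝ) < k := Nat.cast_pos.2 hk
  have hr1 : r ≤ k + 1 := by omega
  have b1 := ctr_tri hk hN hH hR hκ le_rfl hr1 le_rfl (min_self _) (min_eq_left hr1) (q r)
  have b2 := ctr_tri hk hN hH hR hκ hr1 le_rfl le_rfl (min_eq_left hr1) (min_self _) 1
  have b3 := ctr_smul (c := ((r : ℝ) + 2) / k) (by positivity)
    (ctr_tri hk hN hH hR hκ hr1 hr1 hr1 (min_self _) (min_self _) (q r))
  have b4 := ctr_smul (c := 1 / (k : ℝ)) (by positivity) (norm_sum_le_of_le (Ioo r k)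
    fun l hl => norm_add_le_of_le
      (ctr_tri hk hN hH hR hκ (l1 := l) (l3 := l) (by have := (mem_Ioo.1 hl).2; omega) hr1
        (by have := (mem_Ioo.1 hl).2; omega) (min_self _) (min_eq_left (mem_Ioo.1 hl).1.le) (q r))
      (ctr_tri hk hN hH hR hκ (l2 := l) (l3 := l) hr1 (by have := (mem_Ioo.1 hl).2; omega)
        (by have := (mem_Ioo.1 hl).2; omega) (min_eq_left (mem_Ioo.1 hl).1.le) (min_self _) (q l)))
  have b5 := ctr_smul (c := 1 / (k : ℝ)) (by positivity) (norm_sum_le_of_le (range r)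
    fun l hl => ctr_tri hk hN hH hR hκ (l3 := l) hr1 hr1 (by have := mem_range.1 hl; omega)
      (min_eq_right (mem_range.1 hl).le) (min_eq_right (mem_range.1 hl).le) (q l))
  change ‖ctrL R (dB k H r) - _‖ ≤ _
  rw [e]
  refine (norm_sub_le_of_le (norm_sub_le_of_le (norm_sub_le_of_le (norm_add_le_of_le b1 b2) b3)
    b4) b5).trans ?_
  rw [vR_top hk hN hH, sqrt_zero, ctr_split hr]
  simp only [sum_add_distrib, sum_const, card_range, Nat.card_Ioo, nsmul_eq_mul, ← mul_sum]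
  have ec : ((k - r - 1 : ℕ) : ℝ) = k - r - 1 := by
    rw [Nat.cast_sub (by omega), Nat.cast_sub hr.le, Nat.cast_one]
  rw [ec]
  have p1 : 0 ≤ κ * √(vR k H r (q r)) := by positivity
  have p2 : 0 ≤ κ / N := by positivity
  have e6 : κ * (6 / N) = 6 * (κ / N) := by ring
  rw [mul_add κ, e6]
  generalize κ / N = w at p2 ⊢
  generalize √(vR k H r (q r)) = v at p1 ⊢
  generalize ∑ l ∈ Ioo r k, √(vR k H l (q l)) = A
  generalize ∑ l ∈ range r, √(vR k H l (q l)) = B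
  have e7 : κ * v + w + (κ * 0 + w) + ((r : ℝ) + 2) / k * (κ * v + w) +
      1 / k * ((k - r - 1) * (κ * v) + (k - r - 1) * w + (κ * A + (k - r - 1) * w)) +
      1 / k * (κ * B + r * w) = κ * (2 * v + 1 / k * (B + v + A)) + 4 * w := by
    field_simp
    ring
  rw [e7]
  linarith

theorem con_d (hk : 0 < k) (hN : 0 < N) (hH : (GS k (Fin N) (νN N)).Lin H) (hR : Bil R κ)
    (hκ : 0 ≤ κ) (q : ℕ → ℝ) :
    ‖(∑ p : Pr N, ent R (fun a c => dBd k H a c p.1.1 p.1.2) p) / (N : ℂ) ^ 2 -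
      QTd k q (fun l => tau R (BB k H l))‖ ≤
        κ * ((1 / (k : ℝ)) * ∑ l ∈ range k, √(vR k H l (q l)) + 6 / N) := by
  have eB : dBd k H = tri k H (k + 1) (k + 1) (k + 1) -
      (1 / (k : ℝ)) • ∑ l ∈ range k, tri k H (k + 1) (k + 1) l := by
    funext a c i j
    simp only [dBd, Pi.sub_apply, Pi.smul_apply, Finset.sum_apply, smul_eq_mul]
  have e : ctrL R (dBd k H) - QTd k q (fun l => tau R (BB k H l)) =
      (ctrL R (tri k H (k + 1) (k + 1) (k + 1)) - (1 : ℝ) * tau R (BB k H (k + 1))) -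
      (1 / (k : ℝ)) • ∑ l ∈ range k,
        (ctrL R (tri k H (k + 1) (k + 1) l) - q l * tau R (BB k H l)) := by
    rw [eB]
    simp only [map_sub, map_smul, map_sum, QTd, Complex.real_smul, sum_sub_distrib]
    push_cast
    ring
  have hk' : (0 : ℝ) < k := Nat.cast_pos.2 hk
  have b1 := ctr_tri hk hN hH hR hκ le_rfl le_rfl le_rfl (min_self _) (min_self _) 1
  have b5 := ctr_smul (c := 1 / (k : ℝ)) (by positivity) (norm_sum_le_of_le (range k)
    fun l hl => ctr_tri hk hN hH hR hκ (l3 := l) le_rfl le_rfl (by have := mem_range.1 hl; omega)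
      (min_eq_right (by have := mem_range.1 hl; omega))
      (min_eq_right (by have := mem_range.1 hl; omega)) (q l))
  change ‖ctrL R (dBd k H) - _‖ ≤ _
  rw [e]
  refine (norm_sub_le_of_le b1 b5).trans ?_
  rw [vR_top hk hN hH, sqrt_zero]
  simp only [sum_add_distrib, sum_const, card_range, nsmul_eq_mul, ← mul_sum]
  have p2 : 0 ≤ κ / N := by positivity
  have e6 : κ * (6 / N) = 6 * (κ / N) := by ring
  rw [mul_add κ, e6]
  generalize κ / N = w at p2 ⊢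
  generalize ∑ l ∈ range k, √(vR k H l (q l)) = A
  have e7 : κ * 0 + w + 1 / k * (κ * A + k * w) = κ * (1 / k * A) + 2 * w := by
    field_simp
    ring
  linarith

theorem ctr_cs (u v : Fin N → Fin N → ℝ) :
    ∑ i, ∑ j, u i j * v i j ≤ √(∑ i, ∑ j, u i j ^ 2) * √(∑ i, ∑ j, v i j ^ 2) := by
  simp only [← Fintype.sum_prod_type']
  exact Real.sum_mul_le_sqrt_mul_sqrt _ _ _

/-- `sum_Pr`, Cauchy-Schwarz over the pairs `i ≠ j`, `Bil.fro`, `fro_le` -/
theorem con_tilt (hk : 0 < k) (hN : 0 < N) (hH : (GS k (Fin N) (νN N)).Lin H) (hR : Bil R κ)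
    (hκ : 0 ≤ κ) {l : ℕ} (hl : l ≤ k + 1) :
    ‖∑ p : Pr N, ent R (BB k H l) p * BB k H (k + 1) p.1.1 p.1.2‖ ≤ κ * (N * yF k H) := by
  have h1 : ‖∑ p : Pr N, ent R (BB k H l) p * BB k H (k + 1) p.1.1 p.1.2‖ ≤
      ∑ p : Pr N, (‖∑ a, R p.1.2 a * BB k H l a p.1.1‖ * |BB k H (k + 1) p.1.1 p.1.2| +
        ‖∑ a, R p.1.1 a * BB k H l a p.1.2‖ * |BB k H (k + 1) p.1.2 p.1.1|) := by
    refine norm_sum_le_of_le _ fun p _ => ?_
    rw [BB_symm hk hH (k + 1) p.1.2 p.1.1, ← add_mul, norm_mul, Complex.norm_real, Real.norm_eq_abs,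
      ent, sum_add_distrib]
    exact mul_le_mul_of_nonneg_right (norm_add_le _ _) (abs_nonneg _)
  rw [sum_Pr fun i j => ‖∑ a, R j a * BB k H l a i‖ * |BB k H (k + 1) i j|] at h1
  refine (h1.trans (sub_le_self _ (sum_nonneg fun i _ => by positivity))).trans
    ((ctr_cs _ _).trans ?_)
  have h2 := hR.fro fun a i => (BB k H l a i : ℂ)
  simp only [Complex.norm_real, Real.norm_eq_abs, sq_abs] at h2 ⊢
  rw [sum_comm (f := fun i a => BB k H l a i ^ 2)] at h2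
  have h3 := h2.trans (mul_le_mul_of_nonneg_left (fro_le hk hN hH hl) (sq_nonneg κ))
  have h4 := fro_le hk hN hH (le_refl (k + 1))
  have h5 : 0 ≤ N * yF k H := (sum_nonneg fun _ _ => sum_nonneg fun _ _ => sq_nonneg _).trans h4
  refine (mul_le_mul (sqrt_le_sqrt h3) (sqrt_le_sqrt h4) (sqrt_nonneg _) (sqrt_nonneg _)).trans ?_
  rw [sqrt_mul (sq_nonneg κ), sqrt_sq hκ, mul_assoc, mul_self_sqrt h5]

theorem tau_sq (hk : 0 < k) (hN : 0 < N) (hH : (GS k (Fin N) (νN N)).Lin H) {l : ℕ}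
    (hl : l ≤ k + 1) :
    ‖tau R (BB k H l)‖ ≤ √((∑ i, ∑ j, ‖R i j‖ ^ 2) / N) * √(yF k H) := by
  have hN' : (0 : ℝ) < N := Nat.cast_pos.2 hN
  have h1 : ‖∑ j, ∑ a, R j a * BB k H l a j‖ ≤ ∑ j, ∑ a, ‖R j a‖ * |BB k H l a j| :=
    norm_sum_le_of_le _ fun j _ => norm_sum_le_of_le _ fun a _ => by
      rw [norm_mul, Complex.norm_real, Real.norm_eq_abs]
  have h2 := h1.trans (ctr_cs _ _)
  simp only [sq_abs] at h2
  rw [sum_comm (f := fun j a => BB k H l a j ^ 2)] at h2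
  have h3 := h2.trans (mul_le_mul_of_nonneg_left (sqrt_le_sqrt (fro_le hk hN hH hl)) (sqrt_nonneg _))
  rw [tau, norm_div, Complex.norm_natCast, div_le_iff₀ hN']
  refine h3.trans (le_of_eq ?_)
  have h4 := mul_self_sqrt hN'.le
  have h5 := sqrt_pos.2 hN'
  rw [sqrt_div' _ hN'.le, sqrt_mul hN'.le]
  generalize √(N : ℝ) = x at h4 h5
  rw [← h4]
  field_simp

end

end Vale.Agent.P146L
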