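import Vale.Agent.P146.Final
import Vale.Agent.Lib.PrekopaLeindler

/-! Definitions for the polynomial lower bound on the variance of the SK free energy. -/

set_option linter.all false

namespace Vale.Agent.P146L

open MeasureTheory ProbabilityTheory Real Finset Vale.Agent.P146M Vale.Agent.P146

noncomputable section

/-! ### The static inequality -/

/-- hypotheses of the static inequality -/
structure SH (ψ u a : ℝ → ℝ) (A : ℝ) : Prop where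
  d0 : ∀ y, HasDerivAt ψ (u y) y
  d1 : ∀ y, HasDerivAt u (a y) y
  u0 : u 0 = 0
  a_nn : ∀ y, 0 ≤ a y
  a_le : ∀ y, a y ≤ A
  u_le : ∀ y, |u y| ≤ A
  anti : AntitoneOn a (Set.Ici 0)

/-- the law on the half line with density proportional to `exp (-y ^ 2 / 2 + ψ y)` -/
def rho (ψ : ℝ → ℝ) : Measure ℝ :=
  (volume.restrict (Set.Ioi (0 : ℝ))).tilted fun y => -y ^ 2 / 2 + ψ y

/-- expectation under `rho` -/
def Es (ψ f : ℝ → ℝ) : ℝ := ∫ y, f y ∂rho ψ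

/-- potential of the test function `y ^ (1 - s) * (Y - y ^ 2)` -/
def Pot (s Y y h : ℝ) : ℝ :=
  (6 - 4 * s - 2 * y ^ 2 * (1 - h)) / (Y - y ^ 2) + s * (1 - s) / y ^ 2 + (1 - s) * (1 - h)

/-- the final quadratic expression -/
def val (P h Li Lo Co : ℝ) : ℝ :=
  (Li - 1) * (P - h) ^ 2 - 2 * h * P * (P - h) + (Li - 2) * h ^ 2 * P - (Li - Lo) * Co * h ^ 2

/-! ### One tilted Gaussian step on the line -/

/-- constant one step system -/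
def R1 (ζ v : ℝ) : Sys ℝ ℝ where
  μ := γ1
  a _ h w := h + √v * w
  ζ _ := ζ
  ν h := |h|
  n _ w := √v * |w|

/-- law of the tilted step started at `x` -/
def Km (ζ v : ℝ) (Φ : ℝ → ℝ) (x : ℝ) : Measure ℝ := (R1 ζ v).stepM 0 Φ x

/-- expectation of the tilted step -/
def Kst (ζ v : ℝ) (Φ f : ℝ → ℝ) (x : ℝ) : ℝ := ∫ y, f y ∂Km ζ v Φ x

/-- measurable with exponential growth -/
def Gr (f : ℝ → ℝ) : Prop := Measurable f ∧ ∃ C, ∀ y, |f y| ≤ C * exp (C * |y|)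

abbrev D1 (Φ : ℝ → ℝ) : ℝ → ℝ := deriv Φ

abbrev D2 (Φ : ℝ → ℝ) : ℝ → ℝ := deriv (D1 Φ)

abbrev D3 (Φ : ℝ → ℝ) : ℝ → ℝ := deriv (D2 Φ)

abbrev D4 (Φ : ℝ → ℝ) : ℝ → ℝ := deriv (D3 Φ)

/-- differentiable with slope at most one -/
structure Lp (Φ : ℝ → ℝ) : Prop where
  d0 : Differentiable ℝ Φ
  b0 : ∀ x, |D1 Φ x| ≤ 1

/-- the class preserved by the Parisi recursion -/
structure Gd (B1 B2 μ : ℝ) (Φ : ℝ → ℝ) : Prop extends Lp Φ where
  d1 : Differentiable ℝ (D1 Φ)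
  d2 : Differentiable ℝ (D2 Φ)
  d3 : Differentiable ℝ (D3 Φ)
  even : ∀ x, Φ (-x) = Φ x
  a_nn : ∀ x, 0 ≤ D2 Φ x
  au : ∀ x, D2 Φ x + D1 Φ x ^ 2 ≤ 1
  b1 : ∀ x, |D3 Φ x| ≤ B1
  b2 : ∀ x, |D4 Φ x| ≤ B2
  anti : AntitoneOn (fun x => D2 Φ x + μ * D1 Φ x ^ 2) (Set.Ici 0)

/-! ### The single spin chain -/

def lc (x : ℝ) : ℝ := log (cosh x)

def vv (r : ℕ → ℝ) (j : ℕ) : ℝ := r (j + 1) - r j

def zt (k j : ℕ) : ℝ := ((j : ℝ) + 1) / k

/-- solution of the recursion at the level `l` -/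
def Ph (k : ℕ) (r : ℕ → ℝ) (l : ℕ) : ℝ → ℝ := (RS k (vv r)).X (k - l) l lc

/-- law of the field at the level `l` -/
def muL (k : ℕ) (r : ℕ → ℝ) (l : ℕ) : Measure ℝ := (RS k (vv r)).m l 0 (Ph k r l) 0

def EL (k : ℕ) (r : ℕ → ℝ) (l : ℕ) (f : ℝ → ℝ) : ℝ := ∫ x, f x ∂muL k r l

def Gam (k : ℕ) (r : ℕ → ℝ) (l : ℕ) : ℝ := EL k r l fun x => D1 (Ph k r l) x ^ 2

def Nn (k : ℕ) (r : ℕ → ℝ) (l : ℕ) : ℝ := EL k r l fun x => D2 (Ph k r l) x ^ 2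

/-- solution at the time `x` inside the gap `l` -/
def Pg (k : ℕ) (r : ℕ → ℝ) (l : ℕ) (x : ℝ) : ℝ → ℝ :=
  stp (zt k l) (vv r l - x) (Ph k r (l + 1))

/-- expectation at the time `x` inside the gap `l` -/
def Eg (k : ℕ) (r : ℕ → ℝ) (l : ℕ) (x : ℝ) (f : ℝ → ℝ) : ℝ :=
  EL k r l (Kst (zt k l) x (Pg k r l x) f)

def gG (k : ℕ) (r : ℕ → ℝ) (l : ℕ) (x : ℝ) : ℝ := Eg k r l x fun y => D1 (Pg k r l x) y ^ 2

def gN (k : ℕ) (r : ℕ → ℝ) (l : ℕ) (x : ℝ) : ℝ := Eg k r l x fun y => D2 (Pg k r l x) y ^ 2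

/-- minimisers of the `k` level Parisi functional -/
structure IsMz (β : ℝ) (k : ℕ) (r : ℕ → ℝ) : Prop where
  adm : AdmR r
  top : ∀ l, k ≤ l → r l = β ^ 2 + 1
  min : ∀ r', AdmR r' → (∀ l, r' l ≤ β ^ 2 + 1) → PK β k r ≤ PK β k r'

/-! ### Cascade observables for `N` spins -/

abbrev SN (N : ℕ) : Type := St (Fin N) (Cf N)

section Obs

variable {N : ℕ} (k : ℕ) (H : SN N → ℝ)

/-- magnetisation given the levels below `l` -/
def Ml (l : ℕ) (a : Fin N) : SN N → ℝ := PP k (νN N) H l fun s => sg s.1 a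

/-- correlation given the levels below `l` -/
def Cl (l : ℕ) (i j : Fin N) : SN N → ℝ := PP k (νN N) H l fun s => sg s.1 i * sg s.1 j

/-- overlap matrix of two replicas sharing the levels below `l` -/
def BB (l : ℕ) (a c : Fin N) : ℝ := ∫ p, sg p.1.1 a * sg p.2.1 c ∂pp k (νN N) H l

def tri (l1 l2 l3 : ℕ) (a c i j : Fin N) : ℝ :=
  ∫ s, Ml k H l1 a s * Ml k H l2 c s * Cl k H l3 i j s ∂mm k (νN N) H

/-- derivative of `BB r a c` in the direction of the coupling `i j` -/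
def dB (r : ℕ) (a c i j : Fin N) : ℝ :=
  tri k H (k + 1) r (k + 1) a c i j + tri k H r (k + 1) (k + 1) a c i j -
    ((r : ℝ) + 2) / k * tri k H r r r a c i j -
    (1 / (k : ℝ)) * ∑ l ∈ Ioo r k, (tri k H l r l a c i j + tri k H r l l a c i j) -
    (1 / (k : ℝ)) * ∑ l ∈ range r, tri k H r r l a c i j

/-- derivative of `BB (k + 1) a c` in the direction of the coupling `i j` -/
def dBd (a c i j : Fin N) : ℝ :=
  tri k H (k + 1) (k + 1) (k + 1) a c i j -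
    (1 / (k : ℝ)) * ∑ l ∈ range k, tri k H (k + 1) (k + 1) l a c i j

/-- fluctuation of the overlap at the level `l` around `q` -/
def vR (l : ℕ) (q : ℝ) : ℝ := ∫ p, (dot p.1.1 p.2.1 / N - q) ^ 2 ∂pp k (νN N) H l

/-- normalised squared Frobenius norm of the correlation matrix -/
def yF : ℝ := (∑ a, ∑ c, BB k H (k + 1) a c ^ 2) / N

end Obs

/-! ### The resolvent -/

section Res

variable {N : ℕ}

/-- the coupling matrix -/
def Gm (g : Pr N → ℝ) : Matrix (Fin N) (Fin N) ℂ := fun i j =>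
  if h : i < j then (g ⟨(i, j), h⟩ / √N : ℝ) else if h : j < i then (g ⟨(j, i), h⟩ / √N : ℝ) else 0

def Rz (z : ℂ) (g : Pr N → ℝ) : Matrix (Fin N) (Fin N) ℂ := (z • 1 - Gm g)⁻¹

def sz (z : ℂ) (g : Pr N → ℝ) : ℂ := (∑ a, Rz z g a a) / N

/-- operator norm bound -/
def Bil (R : Matrix (Fin N) (Fin N) ℂ) (κ : ℝ) : Prop :=
  ∀ x : Fin N → ℂ, ∑ j, ‖∑ a, R j a * x a‖ ^ 2 ≤ κ ^ 2 * ∑ a, ‖x a‖ ^ 2

/-- normalised trace of a product -/
def tau (R : Matrix (Fin N) (Fin N) ℂ) (B : Fin N → Fin N → ℝ) : ℂ :=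
  (∑ j, ∑ a, R j a * B a j) / N

/-- symmetrised entry of a product -/
def ent (R : Matrix (Fin N) (Fin N) ℂ) (B : Fin N → Fin N → ℝ) (p : Pr N) : ℂ :=
  ∑ a, (R p.1.2 a * B a p.1.1 + R p.1.1 a * B a p.1.2)

end Res

def om (δ : ℝ) : ℂ := ⟨1 + δ, δ⟩

def ww (δ : ℝ) : ℂ := (om δ)⁻¹

def zz (δ : ℝ) : ℂ := om δ + ww δ

/-- product of Parisi matrices, off diagonal entries -/
def QT (k : ℕ) (q : ℕ → ℝ) (T : ℕ → ℂ) (r : ℕ) : ℂ :=
  q r * (T (k + 1) - (1 / (k : ℂ)) * ∑ l ∈ Ioo r k, T l) +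
    T r * (1 - (1 / (k : ℂ)) * (∑ l ∈ Ioo r k, (q l : ℂ)) - ((r : ℂ) + 2) / k * q r) -
    (1 / (k : ℂ)) * ∑ l ∈ range r, q l * T l

/-- product of Parisi matrices, diagonal entry -/
def QTd (k : ℕ) (q : ℕ → ℝ) (T : ℕ → ℂ) : ℂ :=
  T (k + 1) - (1 / (k : ℂ)) * ∑ l ∈ range k, q l * T l

/-! ### The interpolation with the disorder at a negative exponent -/

section Interp

variable (k N : ℕ) (β : ℝ) (r : ℕ → ℝ) (t : ℝ)

def Hg (g : Pr N → ℝ) (s : SN N) : ℝ :=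
  √(t * β ^ 2 / N) * (∑ p, g p * xP s.1 p) + √(1 - t) * (Sp sg).Hv k (wS (Fin N) k r) s

def Fg (g : Pr N → ℝ) : ℝ := YY k (νN N) (Hg k N β r t g)

variable (M : ℝ)

/-- tilted law of the disorder -/
def Qm : Measure (Pr N → ℝ) := (γ (Pr N)).tilted fun g => -M * Fg k N β r t g

def phi : ℝ := -M⁻¹ * log (∫ g, exp (-M * Fg k N β r t g) ∂γ (Pr N))

def VV (l : ℕ) : ℝ := ∫ g, vR k (Hg k N β r t g) l (r l / β ^ 2) ∂Qm k N β r t M

def YQ : ℝ := ∫ g, yF k (Hg k N β r t g) ∂Qm k N β r t M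

def TT (z : ℂ) (l : ℕ) : ℂ := ∫ g, tau (Rz z g) (BB k (Hg k N β r t g) l) ∂Qm k N β r t M

def SS (z w : ℂ) : ℝ := ∫ g, ‖sz z g - w‖ ∂Qm k N β r t M

/-- common part of the error in the loop equations -/
def E0 (z w : ℂ) (η : ℝ) : ℝ :=
  β / η * (√((1 / (k : ℝ)) * ∑ l ∈ range k, VV k N β r t M l) + 6 / N +
    M / N * YQ k N β r t M) + SS k N β r t M z w / η + 2 / (η ^ 2 * √N)

end Interp

end

end Vale.Agent.P146L
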