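import Vale.Agent.P146L.B6

/-! Quantitative absence of an atom at zero. -/

set_option linter.all false

namespace Vale.Agent.P146L

open MeasureTheory ProbabilityTheory Real Finset Filter Topology Vale.Agent.P146M Vale.Agent.P146

noncomputable section

theorem F1_ind {C b c1 m : ℝ} {k j : ℕ} {r N : ℕ → ℝ} (hC : 1 ≤ C) (hb : 0 < b) (hm : 0 < m)
    (hm1 : m ≤ 1) (h1 : C * c1 ≤ b / 2 * √(b / 2)) (h2 : 4 * (C * c1) ≤ b) (hr : Monotone r)
    (hr0 : ∀ l, 0 ≤ r l) (hz : ∀ l, j ≤ l → m ≤ zt k l)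
    (H : ∀ l, l + 1 < k → |N (l + 1) - N l| ≤ C * vv r l ∧
      |b * vv r l - vv r l * N l| ≤ C * vv r l ^ 2 ∧
      ∀ c, 0 ≤ c → c + C * vv r l ≤ N l →
        N (l + 1) ≤ N l - (2 * zt k l * (c * √c) - C * r (l + 1)) * vv r l ∧
        b * vv r l ≤ vv r l * N l - (2 * zt k l * (c * √c) - C * r (l + 1)) * vv r l ^ 2 / 2)
    (l : ℕ) (hl : j ≤ l) (hk : l < k) (hx : r l ≤ c1 * m) :
    N l ≤ N j - m * (b / 2 * √(b / 2)) * (r l - r j) ∧
      b * (r l - r j) ≤ (r l - r j) * N j - m * (b / 2 * √(b / 2)) * (r l - r j) ^ 2 / 2 := by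
  induction l, hl using Nat.le_induction with
  | base => simp
  | succ l hl ih =>
    obtain ⟨i1, i2⟩ := ih (by omega) ((hr l.le_succ).trans hx)
    obtain ⟨g1, g2, g3⟩ := H l hk
    have hv : 0 ≤ vv r l := sub_nonneg.2 (hr l.le_succ)
    have e : r (l + 1) = r l + vv r l := by simp [vv]
    set D := m * (b / 2 * √(b / 2)) with hD
    rcases hv.eq_or_lt with h0 | h0
    · rw [← h0] at g1 e
      rw [mul_zero, abs_nonpos_iff, sub_eq_zero] at g1
      rw [g1, e, add_zero]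
      exact ⟨i1, i2⟩
    have hc1 : 0 ≤ c1 * m := (hr0 _).trans hx
    have hv1 : C * vv r l ≤ b / 4 := by
      have a1 : vv r l ≤ c1 * m := by linarith [hr0 l]
      have a2 : c1 * m ≤ c1 := mul_le_of_le_one_right (nonneg_of_mul_nonneg_left hc1 hm) hm1
      have a3 := mul_le_mul_of_nonneg_left (a1.trans a2) (by linarith : 0 ≤ C)
      linarith
    have hN : b - C * vv r l ≤ N l := by
      have a1 := (abs_le.1 g2).2
      have a2 : vv r l * (b - C * vv r l) ≤ vv r l * N l := by nlinarith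
      exact le_of_mul_le_mul_left a2 h0
    obtain ⟨g4, g5⟩ := g3 (b / 2) (by linarith) (by linarith)
    have hD' : D ≤ 2 * zt k l * (b / 2 * √(b / 2)) - C * r (l + 1) := by
      have a1 := mul_le_mul_of_nonneg_left hx (by linarith : 0 ≤ C)
      have a2 := mul_le_mul_of_nonneg_right h1 hm.le
      have a3 := mul_le_mul_of_nonneg_right (hz l hl) (by positivity : 0 ≤ b / 2 * √(b / 2))
      nlinarith
    have a1 := mul_le_mul_of_nonneg_right hD' hv
    have a2 := mul_le_mul_of_nonneg_right hD' (sq_nonneg (vv r l))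
    have a3 := mul_le_mul_of_nonneg_left i1 hv
    generalize 2 * zt k l * (b / 2 * √(b / 2)) - C * r (l + 1) = E at *
    rw [e]
    constructor <;> nlinarith

/-- Let `C` bound the constants of `gap`, `so`, `no_gap`, `Nn_top` (with `T = β ^ 2 + 1`),
`c0 = 1 / (2 β ^ 2)`, `D0 = m c0 √c0`, `x0 = c1 m` with `C c1 ≤ c0 √c0` and `2 C c1 ≤ c0`.
Suppose `r j < c m ^ 20`; `j ≥ 1` since `k m > 1`. Let `L < k` be the largest index with
`r L ≤ x0`. For `j ≤ l ≤ L` prove by induction `Nn l ≤ Nn j - D0 (r l - r j)` and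
`Gam l - Gam j ≤ (r l - r j) Nn j - D0 (r l - r j) ^ 2 / 2` (if `vv r l > 0` then
`Nn l ≥ 1 / β ^ 2 - C vv r l` by `IsMz.fo` and the second part of `gap`; if `vv r l = 0` use the
first two parts). With `IsMz.fo` and `so`: `r L - r j ≤ 2 C / (k D0)`. If `L = k - 1`, `Nn_top`
contradicts `so` because `β > 1`. Otherwise `vv r L ≥ x0 / 2` and `no_gap` gives
`m ^ 4 (c1 m / 2) ^ 6 ≤ C (√(c m ^ 20 + C' m ^ 21) + m ^ 22)`, false for small `c` (`m ≤ c`). -/
theorem no_atom (β : ℝ) (hβ : 1 < β) : ∃ c, 0 < c ∧ ∀ (m : ℝ) (k : ℕ) (r : ℕ → ℝ), 0 < m → m ≤ c →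
    1 ≤ k * m ^ 22 → IsMz β k r → ∀ j, j < k → m ≤ zt k j → c * m ^ 20 ≤ r j := by
  have hβ0 : 0 < β := by linarith
  obtain ⟨Cg, hCg, Hg⟩ := gap (β ^ 2 + 1)
  obtain ⟨Cs, hCs, Hs⟩ := so β hβ0
  obtain ⟨Cn, hCn, Hn⟩ := no_gap β hβ0
  obtain ⟨Ct, hCt, Ht⟩ := Nn_top (β ^ 2 + 1)
  set b : ℝ := 1 / β ^ 2 with hb
  have hb0 : 0 < b := by positivity
  have hb1 : b < 1 := by
    rw [hb, div_lt_one (by positivity)]
    nlinarith
  set S := b / 2 * √(b / 2) with hS
  have hS0 : 0 < S := by positivity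
  obtain ⟨c1, hc1, h1, h2, h3⟩ : ∃ c1, 0 < c1 ∧ Cg * c1 ≤ S ∧ 4 * (Cg * c1) ≤ b ∧ c1 ≤ 1 := by
    obtain ⟨x, hx, hx'⟩ := exists_pos_mul_lt (lt_min hS0 (by positivity : 0 < b / 4)) Cg
    rw [lt_min_iff] at hx'
    exact ⟨x, hx, hx'.1.le, by linarith, by nlinarith⟩
  obtain ⟨ε, hε, e1, e2, e3⟩ : ∃ ε, 0 < ε ∧ ε ≤ c1 / 2 ∧ (Ct + Cs) * ε < 1 - b ∧
      2 * Cn * ε < (c1 / 2) ^ 6 := by
    obtain ⟨x, hx, hx'⟩ := exists_pos_mul_lt (by linarith : 0 < 1 - b) (Ct + Cs)
    obtain ⟨y, hy, hy'⟩ := exists_pos_mul_lt (by positivity : 0 < (c1 / 2) ^ 6) (2 * Cn)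
    refine ⟨min (c1 / 2) (min x y), by positivity, min_le_left _ _, lt_of_le_of_lt ?_ hx',
      lt_of_le_of_lt ?_ hy'⟩
    · exact mul_le_mul_of_nonneg_left ((min_le_right _ _).trans (min_le_left _ _)) (by linarith)
    · exact mul_le_mul_of_nonneg_left ((min_le_right _ _).trans (min_le_right _ _)) (by linarith)
  set C' := 2 * Cs / S with hC'
  have hC'0 : 0 < C' := by positivity
  set c := ε ^ 2 / (1 + C') with hc
  have hc0 : 0 < c := by positivity
  have hc2 : c * (1 + C') = ε ^ 2 := div_mul_cancel₀ _ (by positivity)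
  have hε2 : ε ^ 2 ≤ ε := by nlinarith
  have hcε : c ≤ ε := by nlinarith
  clear_value c
  refine ⟨c, hc0, fun m k r hm hmc hk hr j hj hz => ?_⟩
  by_contra hcon
  push Not at hcon
  have hm1 : m < 1 := by linarith
  have hk0 : 0 < k := by omega
  have hk0' : (0 : ℝ) < k := by exact_mod_cast hk0
  have hk1 : 1 / (k : ℝ) ≤ m ^ 22 := by rw [div_le_iff₀ hk0']; linarith
  have hT : r k ≤ β ^ 2 + 1 := (hr.top k le_rfl).le
  have hr0 : ∀ l, 0 ≤ r l := fun l => hr.adm.1 ▸ hr.adm.2 l.zero_le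
  have hpw : ∀ a n : ℕ, m ^ (a + n) ≤ m ^ a := fun a n =>
    pow_le_pow_of_le_one hm.le hm1.le (by omega)
  have hz' : ∀ l, j ≤ l → m ≤ zt k l := fun l hl =>
    hz.trans (div_le_div_of_nonneg_right (by exact_mod_cast Nat.succ_le_succ hl) hk0'.le)
  have hj1 : 1 ≤ j := by
    rcases Nat.eq_zero_or_pos j with rfl | h
    · have a1 : m ^ 22 < m ^ 1 := pow_lt_pow_right_of_lt_one₀ hm hm1 (by norm_num)
      simp only [zt, Nat.cast_zero, zero_add] at hz
      rw [pow_one] at a1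
      linarith
    · exact h
  have hfo : ∀ l, l < k → Gam k r l = b * r l := fun l hl => by
    rw [hr.fo hβ0 hk0 hl, hb]
    field_simp
  have hm20 : m ^ 20 ≤ m := by simpa using hpw 1 19
  have hm20' : m ^ 20 ≤ 1 := by linarith
  have hjx : r j ≤ c1 * m :=
    hcon.le.trans (mul_le_mul (by linarith) hm20 (by positivity) hc1.le)
  classical
  set L := Nat.findGreatest (fun l => r l ≤ c1 * m) (k - 1) with hL
  have hjL : j ≤ L := Nat.le_findGreatest (by omega) hjx
  have hLk : L ≤ k - 1 := Nat.findGreatest_le _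
  have hLx : r L ≤ c1 * m := Nat.findGreatest_spec (P := fun l => r l ≤ c1 * m) (by omega) hjx
  have hI := (F1_ind (N := Nn k r) hCg hb0 hm hm1.le h1 h2 hr.adm.2 hr0 hz' (fun l hl => by
    obtain ⟨g1, g2, g3, -⟩ := Hg k r l hr.adm hT (by omega)
    have e : Gam k r (l + 1) - Gam k r l = b * vv r l := by
      rw [hfo _ hl, hfo l (by omega), vv, mul_sub]
    rw [e] at g2 g3
    exact ⟨g1, g2, g3⟩) L hjL (by omega) hLx).2
  rw [← hS] at hI
  have hd : r L - r j ≤ C' * m ^ 21 := by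
    have a0 : 0 ≤ r L - r j := sub_nonneg.2 (hr.adm.2 hjL)
    have a1 := Hs k r hr j hj1 hj
    have a2 : Cs / k ≤ Cs * m ^ 22 := by
      rw [div_eq_mul_one_div]
      exact mul_le_mul_of_nonneg_left hk1 (by linarith)
    generalize r L - r j = d at *
    rcases a0.eq_or_lt with h0 | h0
    · rw [← h0]; positivity
    have a3 := mul_le_mul_of_nonneg_left (a1.trans (add_le_add_right a2 b)) a0
    have a4 : d * m * (S * d) ≤ d * m * (2 * Cs * m ^ 21) := by linarith
    have a5 := le_of_mul_le_mul_left a4 (by positivity)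
    rw [hC', div_mul_eq_mul_div, le_div_iff₀ hS0]
    linarith
  have hrL : r L ≤ ε ^ 2 * m ^ 20 := by
    have a1 : C' * m ^ 21 ≤ C' * (c * m ^ 20) := by
      refine mul_le_mul_of_nonneg_left ?_ hC'0.le
      rw [pow_succ']
      exact mul_le_mul_of_nonneg_right hmc (by positivity)
    rw [← hc2]
    linarith
  have hm22 : m ^ 22 ≤ m := by simpa using hpw 1 21
  rcases hLk.eq_or_lt with h | h
  · have a1 := Ht k r hk0 hr.adm hT
    have a2 := Hs k r hr L (by omega) (by omega)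
    rw [← h] at a1
    have a3 : Cs / k ≤ Cs * ε := by
      rw [div_eq_mul_one_div]
      exact mul_le_mul_of_nonneg_left (by linarith) (by linarith)
    have a4 : r L ≤ ε := (hrL.trans (mul_le_of_le_one_right (by positivity) hm20')).trans hε2
    have a5 := mul_le_mul_of_nonneg_left a4 (by linarith : 0 ≤ Ct)
    linarith
  · have a1 : ¬ r (L + 1) ≤ c1 * m :=
      Nat.findGreatest_is_greatest (P := fun l => r l ≤ c1 * m) (Nat.lt_succ_self _) (by omega)
    have a2 : c1 / 2 * m ≤ vv r L := by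
      have : ε ^ 2 * m ^ 20 ≤ c1 / 2 * m := by
        exact mul_le_mul (by linarith) hm20 (by positivity) (by positivity)
      rw [vv]
      linarith
    have a3 := Hn k r hr L (by omega) (by omega)
    have a4 : m ^ 4 * (c1 / 2 * m) ^ 6 ≤ zt k L ^ 4 * vv r L ^ 6 :=
      mul_le_mul (pow_le_pow_left₀ hm.le (hz' L hjL) 4) (pow_le_pow_left₀ (by positivity) a2 6)
        (by positivity) (by positivity)
    have a5 : √(r L) ≤ ε * m ^ 10 := by
      rw [Real.sqrt_le_left (by positivity)]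
      exact hrL.trans_eq (by ring)
    have a6 : m ^ 22 ≤ ε * m ^ 10 := by
      have : m ^ 12 ≤ ε := by
        have a9 : m ^ 12 ≤ m := by simpa using hpw 1 11
        linarith
      calc m ^ 22 = m ^ 12 * m ^ 10 := by ring
        _ ≤ _ := mul_le_mul_of_nonneg_right this (by positivity)
    have a7 := mul_le_mul_of_nonneg_left (add_le_add a5 (hk1.trans a6)) (by linarith : 0 ≤ Cn)
    have a8 := mul_lt_mul_of_pos_right e3 (by positivity : 0 < m ^ 10)
    linarith

end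

end Vale.Agent.P146L
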