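import Vale.Agent.P146L.B6

/-! Marginal stability at zero overlap. -/

set_option linter.all false

namespace Vale.Agent.P146L

open MeasureTheory ProbabilityTheory Real Finset Filter Topology Vale.Agent.P146M Vale.Agent.P146

noncomputable section

theorem F2_key (β : ℝ) (hβ : 1 < β) : ∃ K, 0 ≤ K ∧ ∀ (θ : ℝ) (k : ℕ) (r : ℕ → ℝ), 0 < θ → θ ≤ 1 →
    1 ≤ k * θ ^ 15 → IsMz β k r → 0 < r (k - 1) → |1 / β ^ 2 - Nn k r 0| ≤ K * θ := by
  have hβ0 : 0 < β := by linarith
  obtain ⟨Cg, hCg, hg⟩ := gap (β ^ 2 + 1)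
  obtain ⟨Cs, hCs, hs⟩ := so β hβ0
  obtain ⟨Cn, hCn, hn⟩ := no_gap β hβ0
  set T := β ^ 2 + 1 with hT
  have hT0 : 0 < T := by positivity
  have hCg0 : 0 < Cg := by linarith
  have hCs0 : 0 < Cs := by linarith
  have hCn0 : 0 < Cn := by linarith
  refine ⟨Cs + Cg * T + Cg + T * Cs + Cg * T ^ 2 + Cg * Cn, by positivity, ?_⟩
  intro θ k r hθ hθ1 hk hM hpos
  have hk0 : (0 : ℝ) < k := by
    by_contra h
    have : (k : ℝ) * θ ^ 15 ≤ 0 := mul_nonpos_of_nonpos_of_nonneg (not_lt.1 h) (by positivity)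
    linarith
  have hkn : 0 < k := by exact_mod_cast hk0
  have hik : 1 / (k : ℝ) ≤ θ ^ 15 := by
    rw [div_le_iff₀ hk0]
    linarith
  have h15 : θ ^ 15 ≤ θ ^ 2 := pow_le_pow_of_le_one hθ.le hθ1 (by norm_num)
  have h21 : θ ^ 2 ≤ θ := by nlinarith
  have hik2 : 1 / (k : ℝ) ≤ θ ^ 2 := hik.trans h15
  have hik1 : 1 / (k : ℝ) ≤ θ := hik2.trans h21
  have hrk : r k ≤ T := (hM.top k le_rfl).le
  have hex : ∃ j, 0 < r j := ⟨k - 1, hpos⟩
  have hj0 : Nat.find hex ≠ 0 := by
    intro h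
    have := Nat.find_spec hex
    rw [h, hM.adm.1] at this
    exact lt_irrefl _ this
  obtain ⟨l, hl⟩ := Nat.exists_eq_succ_of_ne_zero hj0
  have hl1 : 0 < r (l + 1) := by
    have := Nat.find_spec hex
    rwa [hl] at this
  have hlk : l + 1 < k := by
    have := Nat.find_min' hex hpos
    omega
  have hz : ∀ i, i ≤ l → r i = 0 := fun i hi =>
    le_antisymm (not_lt.1 (Nat.find_min hex (by omega))) (Ch2_r hM.adm i)
  have hN : ∀ i, i ≤ l → Nn k r i = Nn k r 0 := by
    intro i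
    induction i with
    | zero => exact fun _ => rfl
    | succ i ih =>
      intro hi
      have h1 := (hg k r i hM.adm hrk (by omega)).1
      rw [vv, hz (i + 1) hi, hz i (by omega), sub_zero, mul_zero] at h1
      have h2 := abs_nonpos_iff.1 h1
      rw [← ih (by omega)]
      linarith
  obtain ⟨-, g2, -, g4, g5⟩ := hg k r l hM.adm hrk (by omega)
  have hv : vv r l = r (l + 1) := by rw [vv, hz l le_rfl, sub_zero]
  have hvT : vv r l ≤ T := by
    rw [hv]
    exact (hM.adm.2 hlk.le).trans hrk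
  have hv0 : 0 < vv r l := by rwa [hv]
  have hG : Gam k r (l + 1) - Gam k r l = vv r l * (1 / β ^ 2) := by
    rw [vv, hM.fo hβ0 hkn hlk, hM.fo hβ0 hkn (l := l) (by omega)]
    field_simp
  have hs1 : Nn k r (l + 1) ≤ 1 / β ^ 2 + Cs * (1 / k) := by
    have := hs k r hM (l + 1) (by omega) hlk
    rwa [div_eq_mul_one_div Cs] at this
  rw [hG] at g2
  rw [hG] at g5
  rw [← hN l le_rfl]
  set v := vv r l with hvdef
  set b := 1 / β ^ 2 with hb
  set N := Nn k r l with hNdef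
  set N' := Nn k r (l + 1) with hN'def
  set ι := 1 / (k : ℝ) with hι
  have hι0 : 0 < ι := by positivity
  have e1 : 0 ≤ Cg * θ := by positivity
  have e2 : 0 ≤ T * Cs * θ := by positivity
  have e3 : 0 ≤ Cg * T ^ 2 * θ := by positivity
  have e4 : 0 ≤ Cg * Cn * θ := by positivity
  have e5 : 0 ≤ Cs * θ := by positivity
  have e6 : 0 ≤ Cg * T * θ := by positivity
  have up : N ≤ b + Cs * θ + Cg * T * θ := by
    have a1 : Cs * ι ≤ Cs * θ := mul_le_mul_of_nonneg_left hik1 hCs0.le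
    rcases Nat.eq_zero_or_pos l with h0 | h0
    · have hzt : zt k l = ι := by
        rw [h0, zt, hι]
        simp
      rw [hzt] at g4
      have a2 : Cg * ι * v ≤ Cg * θ * T :=
        mul_le_mul (mul_le_mul_of_nonneg_left hik1 hCg0.le) hvT hv0.le e1
      linarith only [a1, a2, g4, hs1]
    · have := hs k r hM l h0 (by omega)
      rw [div_eq_mul_one_div Cs] at this
      linarith
  have sec : b - N ≤ Cg * v := by
    have a1 : v * (b - N) ≤ v * (Cg * v) := by
      have := (abs_le.1 g2).2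
      linarith only [this]
    exact le_of_mul_le_mul_left a1 hv0
  have low : b - N ≤ Cg * θ + T * Cs * θ + Cg * T ^ 2 * θ + Cg * Cn * θ := by
    by_cases h1 : v ≤ θ
    · have := mul_le_mul_of_nonneg_left h1 hCg0.le
      linarith
    · push Not at h1
      by_cases h2 : zt k l ≤ θ ^ 2
      · have a1 := g5 θ hθ.le h1.le
        have a2 : Cg * zt k l * v ≤ Cg * θ ^ 2 * T :=
          mul_le_mul (mul_le_mul_of_nonneg_left h2 hCg0.le) hvT hv0.le (by positivity)
        have a3 : Cs * ι ≤ Cs * θ ^ 2 := mul_le_mul_of_nonneg_left hik2 hCs0.le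
        have a4 : (v - θ) * (N' + Cg * zt k l * v) ≤
            (v - θ) * (b + (Cs * θ ^ 2 + Cg * θ ^ 2 * T)) :=
          mul_le_mul_of_nonneg_left (by linarith) (by linarith)
        have a5 : (v - θ) * (Cs * θ ^ 2 + Cg * θ ^ 2 * T) ≤ T * (Cs * θ ^ 2 + Cg * θ ^ 2 * T) :=
          mul_le_mul_of_nonneg_right (by linarith) (by positivity)
        have a6 : θ * (b - N) ≤ θ * (Cg * θ + T * Cs * θ + Cg * T ^ 2 * θ) := by
          linarith only [a1, a4, a5]
        have := le_of_mul_le_mul_left a6 hθ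
        linarith
      · push Not at h2
        have hl0 : 1 ≤ l := by
          by_contra h0
          have h0' : l = 0 := by omega
          have hzt : zt k l = ι := by
            rw [h0', zt, hι]
            simp
          linarith
        have a1 := hn k r hM l hl0 hlk
        rw [hz l le_rfl, Real.sqrt_zero, zero_add] at a1
        have a2 : (θ ^ 2) ^ 4 * v ^ 6 ≤ zt k l ^ 4 * v ^ 6 :=
          mul_le_mul_of_nonneg_right (pow_le_pow_left₀ (by positivity) h2.le 4) (by positivity)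
        have a3 : Cn * ι ≤ Cn * θ ^ 15 := mul_le_mul_of_nonneg_left hik hCn0.le
        have a4 : θ ^ 8 * v ^ 6 ≤ θ ^ 8 * (Cn * θ ^ 7) := by
          calc θ ^ 8 * v ^ 6 = (θ ^ 2) ^ 4 * v ^ 6 := by ring
            _ ≤ Cn * θ ^ 15 := (a2.trans a1).trans a3
            _ = θ ^ 8 * (Cn * θ ^ 7) := by ring
        have a5 := le_of_mul_le_mul_left a4 (by positivity)
        have a6 : Cn * θ ^ 7 ≤ (Cn * θ) ^ 6 := by
          rw [mul_pow]
          exact mul_le_mul (le_self_pow₀ hCn (by norm_num))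
            (pow_le_pow_of_le_one hθ.le hθ1 (by norm_num)) (by positivity) (by positivity)
        have a7 : v ≤ Cn * θ :=
          le_of_pow_le_pow_left₀ (n := 6) (by norm_num) (by positivity) (a5.trans a6)
        have := mul_le_mul_of_nonneg_left a7 hCg0.le
        linarith only [this, sec, e1, e2, e3]
  rw [abs_le]
  constructor <;> linarith only [up, low, e1, e2, e3, e4, e5, e6]

/-- Let `χ = D2 (Ph k r 0) 0 = 1 - (1 / k) ∑ r l / β ^ 2 ∈ [0, 1]` (`chi_zero`, `IsMz.fo`,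
`Nn_zero`); it suffices to show `|Nn 0 - 1 / β ^ 2| ≤ C θ` for small `θ` since
`|β χ - 1| ≤ |β ^ 2 χ ^ 2 - 1|` (for `θ ≥ θ0` the bound `1 + β` is enough). `r (k - 1) = 0`
contradicts `Nn_top` and `so` for large `k`. So let `l + 1 < k` be the first index with
`r (l + 1) > 0`; `r l = 0`, `Nn l = Nn 0` (first part of `gap`), `v = vv r l > 0`. Upper bound: `so`
at `l` if `l ≥ 1`, and the fourth part of `gap` with `so` at `1` if `l = 0`. Lower bound for
`κ = 1 / β ^ 2 - Nn l`: if `zt k l ≤ θ ^ 2` use the last part of `gap` with `y = min v θ`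
(if `v ≤ θ` the second part suffices); otherwise `l ≥ 1`, `no_gap` gives
`θ ^ 8 v ^ 6 ≤ C θ ^ 15`, so `v ≤ C θ`, and the second part of `gap` gives `κ ≤ C v`. -/
theorem marginal (β : ℝ) (hβ : 1 < β) : ∃ C, 1 ≤ C ∧ ∀ (θ : ℝ) (k : ℕ) (r : ℕ → ℝ), 0 < θ → θ ≤ 1 →
    1 ≤ k * θ ^ 15 → IsMz β k r →
    |1 - β * (1 - (1 / (k : ℝ)) * ∑ l ∈ range k, r l / β ^ 2)| ≤ C * θ := by
  have hβ0 : 0 < β := by linarith
  obtain ⟨K, hK, hkey⟩ := F2_key β hβ
  obtain ⟨Cs, hCs, hs⟩ := so β hβ0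
  obtain ⟨Ct, hCt, ht⟩ := Nn_top (β ^ 2 + 1)
  have hb1 : 1 / β ^ 2 < 1 := by
    rw [div_lt_one (by positivity)]
    nlinarith
  have hb0 : 0 < 1 / β ^ 2 := by positivity
  have hd : 0 < 1 - 1 / β ^ 2 := by linarith
  have hCs0 : 0 < Cs := by linarith
  have hA : 0 ≤ (1 + β) * (Cs / (1 - 1 / β ^ 2)) := by positivity
  have hB : 0 ≤ β ^ 2 * K := by positivity
  refine ⟨1 + (1 + β) * (Cs / (1 - 1 / β ^ 2)) + β ^ 2 * K, by linarith, ?_⟩
  intro θ k r hθ hθ1 hk hM
  have hk0 : (0 : ℝ) < k := by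
    by_contra h
    have : (k : ℝ) * θ ^ 15 ≤ 0 := mul_nonpos_of_nonpos_of_nonneg (not_lt.1 h) (by positivity)
    linarith
  have hkn : 0 < k := by exact_mod_cast hk0
  have h15 : θ ^ 15 ≤ θ := by
    have := pow_le_pow_of_le_one hθ.le hθ1 (show 1 ≤ 15 by norm_num)
    rwa [pow_one] at this
  have hik : 1 / (k : ℝ) ≤ θ := by
    rw [div_le_iff₀ hk0]
    nlinarith
  have hχ : 1 - (1 / (k : ℝ)) * ∑ l ∈ range k, r l / β ^ 2 = D2 (Ph k r 0) 0 := by
    rw [chi_zero hkn hM.adm]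
    congr 2
    refine Finset.sum_congr rfl fun l hl => ?_
    rw [hM.fo hβ0 hkn (mem_range.1 hl)]
    field_simp
  have hχ1 : D2 (Ph k r 0) 0 ≤ 1 := by
    rw [← hχ]
    have : 0 ≤ (1 / (k : ℝ)) * ∑ l ∈ range k, r l / β ^ 2 :=
      mul_nonneg (by positivity) (Finset.sum_nonneg fun l _ =>
        div_nonneg (Ch2_r hM.adm l) (by positivity))
    linarith
  obtain ⟨hN, hχ0, -⟩ := Nn_zero hkn hM.adm
  rw [hχ]
  set χ := D2 (Ph k r 0) 0 with hχdef
  have hβχ : 0 ≤ β * χ := mul_nonneg hβ0.le hχ0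
  rcases (Ch2_r hM.adm (k - 1)).lt_or_eq with hpos | hzero
  · have h1 := hkey θ k r hθ hθ1 hk hM hpos
    rw [hN] at h1
    have h2 : |1 - β * χ| * (1 + β * χ) = β ^ 2 * |1 / β ^ 2 - χ ^ 2| := by
      rw [← abs_of_nonneg (show 0 ≤ 1 + β * χ by linarith), ← abs_mul,
        ← abs_of_nonneg (show 0 ≤ β ^ 2 by positivity), ← abs_mul, abs_of_nonneg
          (show 0 ≤ β ^ 2 by positivity)]
      congr 1
      field_simp
      ring
    have h3 := mul_le_mul_of_nonneg_left h1 (show 0 ≤ β ^ 2 by positivity)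
    have h4 := mul_nonneg (abs_nonneg (1 - β * χ)) hβχ
    have h5 := mul_nonneg hA hθ.le
    nlinarith
  · have h1 : 1 - 1 / β ^ 2 ≤ Cs * θ := by
      rcases Nat.eq_zero_or_pos (k - 1) with h0 | h0
      · have hk1 : k = 1 := by omega
        rw [hk1] at hik
        have : 1 ≤ θ := by simpa using hik
        nlinarith
      · have a1 := ht k r hkn hM.adm (hM.top k le_rfl).le
        rw [← hzero, mul_zero, sub_zero] at a1
        have a2 := hs k r hM (k - 1) h0 (by omega)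
        rw [div_eq_mul_one_div Cs] at a2
        have a3 := mul_le_mul_of_nonneg_left hik hCs0.le
        linarith
    have h2 : 1 ≤ Cs / (1 - 1 / β ^ 2) * θ := by
      rw [div_mul_eq_mul_div, le_div_iff₀ hd]
      linarith
    have h3 : |1 - β * χ| ≤ 1 + β := by
      rw [abs_le]
      constructor <;> nlinarith
    have h4 := mul_le_mul_of_nonneg_left h2 (show 0 ≤ 1 + β by linarith)
    have h5 := mul_nonneg hB hθ.le
    nlinarith

end

end Vale.Agent.P146L
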