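import Vale.Agent.P146L.K2

/-! Semigroup property and change of the exponent. -/

set_option linter.all false

namespace Vale.Agent.P146L

open MeasureTheory ProbabilityTheory Real Finset Filter Topology Vale.Agent.P146M Vale.Agent.P146

noncomputable section

variable {ζ v v' : ℝ} {Φ f : ℝ → ℝ}

theorem K5_int (hf : Gr f) (v x : ℝ) : Integrable (fun z => f (x + √v * z)) γ1 :=
  Sys.Ex.integrable_step (r1_ok one_pos v) (g := f) hf 0 x

theorem K5_exp (h : Lp Φ) (ζ c : ℝ) : Gr fun y => exp (ζ * (Φ y - c)) :=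
  Sys.Lin.ex_exp (r1_ok one_pos 0)
    (((h.lin 1 0).sub (Sys.Lin.const (r1_ok one_pos 0) c)).const_mul ζ)

/-- Hint: `gaussianReal_conv_gaussianReal` as in `rs_law` or `Kh_add`. -/
theorem gauss_conv (hf : Gr f) (hv : 0 ≤ v) (hv' : 0 ≤ v') (x : ℝ) :
    ∫ z, ∫ z', f (x + √v * z + √v' * z') ∂γ1 ∂γ1 = ∫ z, f (x + √(v + v') * z) ∂γ1 := by
  show Kh v (Kh v' f) x = Kh (v + v') f x
  have hm : Measurable fun y => f (x + y) := hf.1.comp (measurable_const_add x)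
  have h := gaussianReal_conv_gaussianReal (m₁ := 0) (m₂ := 0) (v₁ := v.toNNReal)
    (v₂ := v'.toNNReal)
  rw [add_zero, ← Real.toNNReal_add hv hv'] at h
  have h1 : gaussianReal 0 (v + v').toNNReal = γ1.map (√(v + v') * ·) := by
    rw [gaussianReal_map_const_mul]
    congr 1
    · simp
    · ext; simp [sq_sqrt', max_comm]
  have h2 : Integrable (fun y => f (x + y)) (gaussianReal 0 (v + v').toNNReal) := by
    rw [h1]
    exact (integrable_map_measure hm.aestronglyMeasurable (by fun_prop)).2 (K5_int hf _ x)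
  rw [← h, Measure.conv] at h2
  rw [Kh_eq (meas_Kh hf.1 v'), Kh_eq hf.1, ← h, Measure.conv,
    integral_map (by fun_prop) hm.aestronglyMeasurable,
    integral_prod (fun p : ℝ × ℝ => f (x + (p.1 + p.2)))
      ((integrable_map_measure hm.aestronglyMeasurable (by fun_prop)).1 h2)]
  simp only [Kh_eq hf.1, add_assoc]

theorem stp_stp (hζ : 0 < ζ) (h : Lp Φ) (hv : 0 ≤ v) (hv' : 0 ≤ v') :
    stp ζ v (stp ζ v' Φ) = stp ζ (v + v') Φ := by
  funext x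
  have h1 := gauss_conv (K5_exp h ζ 0) hv hv' x
  simp only [sub_zero] at h1
  show ζ⁻¹ * log (∫ z, exp (ζ * stp ζ v' Φ (x + √v * z)) ∂γ1) =
    ζ⁻¹ * log (∫ z, exp (ζ * Φ (x + √(v + v') * z)) ∂γ1)
  simp only [exp_stp hζ h, h1]

theorem Kst_Kst (hζ : 0 < ζ) (h : Lp Φ) (hf : Gr f) (hv : 0 ≤ v) (hv' : 0 ≤ v') :
    Kst ζ v (stp ζ v' Φ) (Kst ζ v' Φ f) = Kst ζ (v + v') Φ f := by
  funext x
  rw [Kst_eq hζ (h.stp hζ v') (hf.K hζ h v').1, Kst_eq hζ h hf.1, stp_stp hζ h hv hv',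
    ← gauss_conv ((K5_exp h ζ (stp ζ (v + v') Φ x)).mul hf) hv hv' x]
  refine integral_congr_ae (ae_of_all _ fun z => ?_)
  simp only [Kst_eq hζ h hf.1]
  rw [← integral_const_mul]
  refine integral_congr_ae (ae_of_all _ fun z' => ?_)
  simp only
  rw [← mul_assoc, ← exp_add]
  congr 2
  ring

/-- the unnormalised expectation as a function of the exponent -/
def K5N (v : ℝ) (Φ f : ℝ → ℝ) (x s : ℝ) : ℝ :=
  ∫ z, exp (s * Φ (x + √v * z)) * f (x + √v * z) ∂γ1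

theorem K5_der (h : Lp Φ) (hf : Gr f) (v x : ℝ) {s : ℝ} (hs : s ∈ Set.Icc (0 : ℝ) 1) :
    HasDerivAt (K5N v Φ f x) (K5N v Φ (fun y => f y * Φ y) x s) s := by
  have hY := r1_ok one_pos v
  obtain ⟨C, h0, hC⟩ := (h.lin 1 v).bd hY
  have hl : ∃ C, ∀ t ∈ Set.Ioo (-2 : ℝ) 2, ∀ y, |t * Φ y| ≤ C * (1 + (R1 1 v).ν y) :=
    ⟨2 * C, fun t ht y => by
      rw [abs_mul, mul_assoc]
      exact mul_le_mul (abs_le.2 ⟨ht.1.le, ht.2.le⟩) (hC y) (abs_nonneg _) two_pos.le⟩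
  have hc := Sys.Fam.const (U := Set.Ioo (-2 : ℝ) 2) hY (g := Φ) h.gr
  have hi : (R1 1 v).Fam (Set.Ioo (-2 : ℝ) 2) (fun t _ => t) fun _ _ => 1 := by
    refine ⟨fun _ _ => measurable_const, fun _ _ => measurable_const,
      fun t _ _ => hasDerivAt_id t, 2, fun t ht y => ?_⟩
    have : 1 ≤ exp (2 * (R1 1 v).ν y) := one_le_exp (mul_nonneg two_pos.le (hY.ν_nonneg y))
    have h2 : |t| ≤ 2 := abs_le.2 ⟨ht.1.le, ht.2.le⟩
    rw [abs_one]
    constructor <;> linarith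
  have hH : (R1 1 v).LFam (Set.Ioo (-2 : ℝ) 2) (fun t y => t * Φ y) fun t y => 1 * Φ y + t * 0 :=
    ⟨hi.mul hY hc, hl⟩
  have hF := (((hH.exp hY 1).mul hY (Sys.Fam.const hY (g := f) hf)).intμ hY isOpen_Ioo 0).der s
    ⟨by linarith [hs.1], by linarith [hs.2]⟩ x
  simp only [one_mul, mul_zero, add_zero] at hF
  refine hF.congr_deriv (integral_congr_ae (ae_of_all _ fun z => ?_))
  show exp (s * Φ (x + √v * z)) * Φ (x + √v * z) * f (x + √v * z) = _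
  simp only
  ring

theorem K5_pos (h : Lp Φ) (v x s : ℝ) : 0 < K5N v Φ (fun _ => 1) x s := by
  have := K5_int (K5_exp h s 0) v x
  simp only [sub_zero] at this
  simp only [K5N, mul_one]
  exact integral_exp_pos this

theorem K5_K (hζ : 0 < ζ) (h : Lp Φ) (hf : Measurable f) (v x : ℝ) :
    Kst ζ v Φ f x = K5N v Φ f x ζ / K5N v Φ (fun _ => 1) x ζ := by
  simp only [K5N, mul_one]
  rw [Kst_eq hζ h hf, ← exp_stp hζ h, ← integral_div]
  refine integral_congr_ae (ae_of_all _ fun z => ?_)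
  simp only
  rw [mul_sub, exp_sub]
  ring

theorem K5_quo (h : Lp Φ) (hf : Gr f) (v x : ℝ) {s : ℝ} (hs : s ∈ Set.Icc (0 : ℝ) 1) :
    ∃ d, HasDerivAt (fun s => K5N v Φ f x s / K5N v Φ (fun _ => 1) x s) d s ∧ (0 < s →
      d = Kst s v Φ (fun y => f y * Φ y) x - Kst s v Φ f x * Kst s v Φ Φ x) := by
  have hp := (K5_pos h v x s).ne'
  refine ⟨_, (K5_der h hf v x hs).div (K5_der h (Gr.const 1) v x hs) hp, fun h0 => ?_⟩
  rw [K5_K h0 h (hf.mul h.gr).1, K5_K h0 h hf.1, K5_K h0 h h.gr.1]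
  simp only [one_mul]
  field_simp

theorem K5_mv {F : ℝ → ℝ} {B a b : ℝ} (ha : a ∈ Set.Ioc (0 : ℝ) 1) (hb : b ∈ Set.Ioc (0 : ℝ) 1)
    (H : ∀ s ∈ Set.Ioc (0 : ℝ) 1, ∃ d, HasDerivAt F d s ∧ |d| ≤ B) : |F a - F b| ≤ B * |a - b| := by
  choose! d h1 h2 using H
  exact (convex_Ioc (0 : ℝ) 1).norm_image_sub_le_of_norm_hasDerivWithin_le
    (fun s hs => (h1 s hs).hasDerivWithinAt) h2 hb ha

theorem K5_stp (h : Lp Φ) {B v x : ℝ}
    (hB : ∀ s ∈ Set.Ioc (0 : ℝ) 1, Kst s v Φ (fun y => (y - x) ^ 2) x ≤ B) {s : ℝ}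
    (hs : s ∈ Set.Ioc (0 : ℝ) 1) :
    ∃ d, HasDerivAt (fun s => s⁻¹ * log (K5N v Φ (fun _ => 1) x s)) d s ∧ |d| ≤ 2 * B := by
  have hL : ∀ t ∈ Set.Icc (0 : ℝ) 1, HasDerivAt (fun s => log (K5N v Φ (fun _ => 1) x s))
      (K5N v Φ Φ x t / K5N v Φ (fun _ => 1) x t) t := fun t ht => by
    have := (K5_der h (Gr.const 1) v x ht).log (K5_pos h v x t).ne'
    simpa only [one_mul] using this
  have hB0 : 0 ≤ B := le_trans (integral_nonneg fun y => sq_nonneg _) (hB s hs)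
  have hg : ∀ t ∈ Set.Icc (0 : ℝ) s, ∃ d, HasDerivAt (fun t => t * (K5N v Φ Φ x t /
      K5N v Φ (fun _ => 1) x t) - log (K5N v Φ (fun _ => 1) x t)) d t ∧ |d| ≤ 2 * B * s := by
    intro t ht
    have ht' : t ∈ Set.Icc (0 : ℝ) 1 := ⟨ht.1, ht.2.trans hs.2⟩
    obtain ⟨d, hd, e⟩ := K5_quo h h.gr v x ht'
    refine ⟨_, ((hasDerivAt_id' t).mul hd).sub (hL t ht'), ?_⟩
    rw [one_mul, add_sub_cancel_left]
    rcases ht.1.eq_or_lt with h0 | h0
    · rw [← h0, zero_mul, abs_zero]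
      exact mul_nonneg (by linarith) hs.1.le
    · have := K_cov (v := v) h0 h h.gr.1 h.gr.1 (L := 1) (L' := 1) (x := x)
        (fun y => by rw [one_mul]; exact h.lip y x) (fun y => by rw [one_mul]; exact h.lip y x)
      rw [← e h0] at this
      rw [abs_mul, abs_of_pos h0, mul_comm]
      exact mul_le_mul (by linarith [hB t ⟨h0, ht'.2⟩]) ht.2 h0.le (by linarith)
  choose! d h1 h2 using hg
  have h3 := (convex_Icc (0 : ℝ) s).norm_image_sub_le_of_norm_hasDerivWithin_le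
    (fun t ht => (h1 t ht).hasDerivWithinAt) h2 (Set.left_mem_Icc.2 hs.1.le)
    (Set.right_mem_Icc.2 hs.1.le)
  have h4 : K5N v Φ (fun _ => 1) x 0 = 1 := by simp [K5N]
  rw [h4, zero_mul, log_one, sub_zero, sub_zero, sub_zero, Real.norm_eq_abs, Real.norm_eq_abs,
    abs_of_pos hs.1] at h3
  refine ⟨_, (hasDerivAt_inv hs.1.ne').mul (hL s ⟨hs.1.le, hs.2⟩), ?_⟩
  generalize K5N v Φ Φ x s / K5N v Φ (fun _ => 1) x s = m at h3 ⊢
  generalize log (K5N v Φ (fun _ => 1) x s) = l at h3 ⊢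
  have h0 := hs.1
  have e : -(s ^ 2)⁻¹ * l + s⁻¹ * m = (s * m - l) / s ^ 2 := by field_simp; ring
  rw [e, abs_div, abs_of_pos (pow_pos h0 2), div_le_iff₀ (pow_pos h0 2)]
  linarith

/-- Fix `x`, put `ψ z = Φ (x + √v z) - Φ x`, `Z s = ∫ exp (s ψ)`, `Λ = log Z`, for real `s`.
`Λ' = ⟨ψ⟩_s`, `Λ'' = Var_s ψ ≤ C v` on `(0, 1]` (`K_mom`), `(Λ s / s)' = (s Λ' - Λ) / s ^ 2` and
`g = s Λ' - Λ` has `g 0 = 0`, `0 ≤ g' = s Λ'' ≤ C v s`. For the second part the derivative of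
`s ↦ Kst s v Φ f x` is the covariance of `f` and `Φ` (`K_cov`). Differentiation under the integral:
`hasDerivAt_integral_of_dominated_loc_of_deriv_le`, or `Sys.T_fam`, `Sys.step_fam` for `R1 1 v`
with the family `s ↦ s * Φ`. -/
theorem K_expo (T : ℝ) : ∃ C, 1 ≤ C ∧ ∀ (ζ ζ' v : ℝ) (Φ : ℝ → ℝ) (x : ℝ), 0 < ζ → ζ ≤ 1 →
    0 < ζ' → ζ' ≤ 1 → 0 ≤ v → v ≤ T → Lp Φ →
    |stp ζ v Φ x - stp ζ' v Φ x| ≤ C * |ζ - ζ'| * v ∧
      ∀ f : ℝ → ℝ, Measurable f → (∀ y, |f y - f x| ≤ 2 * |y - x|) →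
        |Kst ζ v Φ f x - Kst ζ' v Φ f x| ≤ C * |ζ - ζ'| * v := by
  obtain ⟨C, hC, H⟩ := K_mom T
  refine ⟨4 * C, by linarith, fun ζ ζ' v Φ x h1 h2 h3 h4 hv hT h => ?_⟩
  have hB : ∀ s ∈ Set.Ioc (0 : ℝ) 1, Kst s v Φ (fun y => (y - x) ^ 2) x ≤ C * v :=
    fun s hs => (H s v Φ x hs.1 hs.2 hv hT h).2.1
  have hp : 0 ≤ C * v * |ζ - ζ'| := by positivity
  refine ⟨?_, fun f hf hl => ?_⟩
  · have := K5_mv (a := ζ) (b := ζ') ⟨h1, h2⟩ ⟨h3, h4⟩ fun s hs => K5_stp h hB hs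
    simp only [K5N, mul_one] at this
    exact le_trans this (by linarith)
  · have hg : Gr f := Gr.poly hf (C := |f x| + 2 * |x| + 2) (p := 1) fun y => by
      have e1 := abs_sub_abs_le_abs_sub (f y) (f x)
      have e2 := abs_sub y x
      have e3 := hl y
      have e4 : 0 ≤ (|f x| + 2 * |x|) * |y| := by positivity
      nlinarith
    have := K5_mv (F := fun s => K5N v Φ f x s / K5N v Φ (fun _ => 1) x s) (B := 4 * (C * v))
      (a := ζ) (b := ζ') ⟨h1, h2⟩ ⟨h3, h4⟩ fun s hs => by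
        obtain ⟨d, hd, e⟩ := K5_quo h hg v x ⟨hs.1.le, hs.2⟩
        have := K_cov (v := v) hs.1 h hf h.gr.1 (L' := 1) hl
          (fun y => by rw [one_mul]; exact h.lip y x)
        exact ⟨d, hd, by rw [e hs.1]; linarith [hB s hs]⟩
    rw [K5_K h1 h hf, K5_K h3 h hf]
    exact le_trans this (by linarith)

end

end Vale.Agent.P146L
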