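import Vale.Agent.P146L.K2

/-! Infinitesimal increments of the squared derivatives. -/

set_option linter.all false

namespace Vale.Agent.P146L

open MeasureTheory ProbabilityTheory Real Finset Filter Topology Vale.Agent.P146M Vale.Agent.P146

noncomputable section

theorem k6_mv {f : ℝ → ℝ} (hf : Differentiable ℝ f) {x y C : ℝ}
    (h : ∀ t, |t - x| ≤ |y - x| → |deriv f t| ≤ C) : |f y - f x| ≤ C * |y - x| :=
  (convex_closedBall x |y - x|).norm_image_sub_le_of_norm_deriv_le (fun t _ => hf t)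
    (fun t ht => h t ht) (Metric.mem_closedBall_self (abs_nonneg _)) (le_refl |y - x|)

theorem k6_abs {m : Measure ℝ} {f g : ℝ → ℝ} (hg : Integrable g m) (h : ∀ y, |f y| ≤ g y) :
    |∫ y, f y ∂m| ≤ ∫ y, g y ∂m :=
  norm_integral_le_of_norm_le (f := f) hg (ae_of_all _ h)

theorem k6_tay {B μ : ℝ} {Φ : ℝ → ℝ} (h : Gd B B μ Φ) (x y : ℝ) :
    |D1 Φ y - D1 Φ x - D2 Φ x * (y - x)| ≤ B * (y - x) ^ 2 := by
  have B0 : 0 ≤ B := (abs_nonneg _).trans (h.b1 0)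
  have := k6_mv (f := fun t => D1 Φ t - D2 Φ x * t) (h.d1.sub (differentiable_id.const_mul _))
    (x := x) (y := y) (C := B * |y - x|) fun t ht => by
      rw [((h.d1 t).hasDerivAt.fun_sub ((hasDerivAt_id' t).const_mul (D2 Φ x))).deriv, mul_one]
      exact (h.lip2 t x).trans (mul_le_mul_of_nonneg_left ht B0)
  rw [mul_assoc, abs_mul_abs_self, ← sq] at this
  convert this using 2
  ring

theorem k6_a {B μ : ℝ} {Φ : ℝ → ℝ} (h : Gd B B μ Φ) (x y : ℝ) :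
    (D2 Φ y - D2 Φ x) ^ 2 ≤ 2 * B ^ 2 * x ^ 2 * (y - x) ^ 2 + 2 * B ^ 2 * (y - x) ^ 4 := by
  have B0 : 0 ≤ B := (abs_nonneg _).trans (h.b1 0)
  have z : D3 Φ 0 = 0 := by
    have := h.odd3 0
    rw [neg_zero] at this
    linarith
  have h1 := k6_mv h.d2 (x := x) (y := y) (C := B * (|x| + |y - x|)) fun t ht => by
    have := h.lip3 t 0
    rw [z, sub_zero, sub_zero] at this
    refine this.trans (mul_le_mul_of_nonneg_left ?_ B0)
    have := abs_add_le x (t - x)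
    rw [add_sub_cancel] at this
    linarith
  have h2 := pow_le_pow_left₀ (abs_nonneg _) h1 2
  rw [sq_abs, mul_pow, mul_pow, sq_abs] at h2
  have h3 : (|x| + |y - x|) ^ 2 ≤ 2 * x ^ 2 + 2 * (y - x) ^ 2 := by
    nlinarith [sq_nonneg (|x| - |y - x|), sq_abs x, sq_abs (y - x)]
  nlinarith [mul_le_mul_of_nonneg_left h3 (mul_nonneg (sq_nonneg B) (sq_nonneg (y - x)))]

/-- the elementary estimates -/
theorem k6_real {B M S w ζ x a m1 m2 m3 m4 P e Ed A Vu Va n : ℝ} (B0 : 0 ≤ B) (M1 : 1 ≤ M)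
    (w0 : 0 ≤ w) (wS : w ≤ S) (ζ0 : 0 < ζ) (ζ1 : ζ ≤ 1) (a0 : 0 ≤ a) (a1 : a ≤ 1)
    (h1 : m1 ≤ M * w) (h2 : m2 ≤ M * w ^ 2) (h3 : m3 ≤ M * w ^ 3) (h4 : m4 ≤ M * w ^ 4)
    (s1 : |Ed| ≤ w ^ 2) (s2 : |m2 - w ^ 2| ≤ w ^ 2 * m1) (hP : |P - a ^ 2 * m2| ≤ 2 * B * m3)
    (he : |e - a * Ed| ≤ B * m2) (hV : Vu = P - e ^ 2) (V0 : 0 ≤ Vu) (V1 : Vu ≤ 1) (V2 : Vu ≤ m2)
    (A0 : 0 ≤ A) (A1 : A ≤ 1) (hA : |A - a| ≤ B * m1) (W0 : 0 ≤ Va) (W1 : Va ≤ B ^ 2 * m2)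
    (W2 : Va ≤ 2 * B ^ 2 * x ^ 2 * m2 + 2 * B ^ 2 * m4) (hn : n = A + ζ * Vu) {C3 C : ℝ}
    (hC3 : C3 = 2 * B * M + M + (1 + B * M) ^ 2 * S + 3 * (B * M + M * S))
    (hC : C = 1 + 4 * C3 + M ^ 2 * S + 2 * B ^ 2 * M * S + 3 * M + 2 * B ^ 2 * M) :
    |Vu - w ^ 2 * n ^ 2| ≤ C * w ^ 3 ∧ -(C * ζ * w ^ 2) ≤ Va + A ^ 2 - n ^ 2 ∧
    Va + A ^ 2 - n ^ 2 ≤ w ^ 2 * (C * x ^ 2 - 2 * ζ * n ^ 3) + C * w ^ 3 ∧
    |Va + A ^ 2 - n ^ 2| ≤ C * w ^ 2 := by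
  have M0 : 0 ≤ M := by linarith
  have S0 : 0 ≤ S := w0.trans wS
  have w2 : 0 ≤ w ^ 2 := sq_nonneg w
  have w3 : 0 ≤ w ^ 3 := pow_nonneg w0 3
  have w4 : w ^ 4 ≤ S * w ^ 3 := by linarith [mul_le_mul_of_nonneg_right wS w3]
  have C30 : 0 ≤ C3 := by rw [hC3]; positivity
  have c1 : 0 ≤ M ^ 2 * S := by positivity
  have c2 : 0 ≤ B ^ 2 * M * S := by positivity
  have c3 : 0 ≤ B ^ 2 * M := by positivity
  have ζV : 0 ≤ ζ * Vu := mul_nonneg ζ0.le V0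
  have ζV1 : ζ * Vu ≤ Vu := mul_le_of_le_one_left V0 ζ1
  have n0 : 0 ≤ n := by linarith
  have n2 : n ≤ 2 := by linarith
  have e1 : |e| ≤ (1 + B * M) * w ^ 2 := by
    have t1 := abs_add_le (e - a * Ed) (a * Ed)
    have t2 : |a * Ed| ≤ w ^ 2 := by
      rw [abs_mul, abs_of_nonneg a0]
      exact (mul_le_of_le_one_left (abs_nonneg _) a1).trans s1
    rw [sub_add_cancel] at t1
    linarith [mul_le_mul_of_nonneg_left h2 B0]
  have e2 : e ^ 2 ≤ (1 + B * M) ^ 2 * S * w ^ 3 := by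
    have := pow_le_pow_left₀ (abs_nonneg _) e1 2
    rw [sq_abs] at this
    linarith [mul_le_mul_of_nonneg_left w4 (sq_nonneg (1 + B * M))]
  have e3 : |a ^ 2 * m2 - a ^ 2 * w ^ 2| ≤ M * w ^ 3 := by
    rw [← mul_sub, abs_mul, abs_of_nonneg (sq_nonneg a)]
    refine (mul_le_of_le_one_left (abs_nonneg _) (pow_le_one₀ a0 a1)).trans (s2.trans ?_)
    linarith [mul_le_mul_of_nonneg_left h1 w2]
  have e4 : |n - a| ≤ (B * M + M * S) * w := by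
    have t1 := mul_le_mul_of_nonneg_left h1 B0
    have t2 : M * w ^ 2 ≤ M * S * w := by linarith [mul_le_mul_of_nonneg_left wS (mul_nonneg M0 w0)]
    have t3 := abs_le.1 hA
    have t4 : 0 ≤ M * S * w := by positivity
    refine abs_le.2 ⟨?_, ?_⟩ <;> linarith [t3.1, t3.2]
  have e5 : |w ^ 2 * n ^ 2 - a ^ 2 * w ^ 2| ≤ 3 * (B * M + M * S) * w ^ 3 := by
    have : w ^ 2 * n ^ 2 - a ^ 2 * w ^ 2 = w ^ 2 * (n + a) * (n - a) := by ring
    rw [this, abs_mul, abs_of_nonneg (mul_nonneg w2 (add_nonneg n0 a0))]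
    refine (mul_le_mul (mul_le_mul_of_nonneg_left (show n + a ≤ 3 by linarith) w2) e4
      (abs_nonneg _) (by positivity)).trans (le_of_eq (by ring))
  have k1 : |Vu - w ^ 2 * n ^ 2| ≤ C3 * w ^ 3 := by
    have t1 := abs_le.1 hP
    have t2 := abs_le.1 e3
    have t3 := abs_le.1 e5
    have t4 := mul_le_mul_of_nonneg_left h3 B0
    have t5 : 0 ≤ (1 + B * M) ^ 2 * S * w ^ 3 := by positivity
    rw [hC3, hV]
    refine abs_le.2 ⟨?_, ?_⟩ <;> linarith [t1.1, t1.2, t2.1, t2.2, t3.1, t3.2, sq_nonneg e]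
  have V3 : Vu ≤ M * w ^ 2 := V2.trans h2
  have k2 : -(3 * M * ζ * w ^ 2) ≤ Va + A ^ 2 - n ^ 2 := by
    have t1 : ζ * Vu ≤ ζ * (M * w ^ 2) := mul_le_mul_of_nonneg_left V3 ζ0.le
    have t2 : A * (ζ * Vu) ≤ ζ * Vu := mul_le_of_le_one_left ζV A1
    have t3 : ζ * Vu * (ζ * Vu) ≤ ζ * Vu := mul_le_of_le_one_left ζV (ζV1.trans V1)
    rw [hn]
    linarith
  have k4 : Va + A ^ 2 - n ^ 2 ≤ B ^ 2 * M * w ^ 2 := by
    have t1 := mul_le_mul_of_nonneg_left h2 (sq_nonneg B)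
    have t2 : A ^ 2 ≤ n ^ 2 := pow_le_pow_left₀ A0 (by linarith) 2
    linarith
  have ζw : ζ * w ^ 2 ≤ w ^ 2 := mul_le_of_le_one_left w2 ζ1
  have ζw0 : 0 ≤ ζ * w ^ 2 := mul_nonneg ζ0.le w2
  refine ⟨k1.trans (mul_le_mul_of_nonneg_right (by linarith) w3), le_trans ?_ k2, ?_,
    abs_le.2 ⟨le_trans ?_ k2, k4.trans (mul_le_mul_of_nonneg_right (by linarith) w2)⟩⟩
  · have := mul_le_mul_of_nonneg_right (show 3 * M ≤ C by linarith) ζw0
    linarith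
  · have t0 : Va + A ^ 2 - n ^ 2 = Va - 2 * (ζ * n) * Vu + (ζ * Vu) ^ 2 := by rw [hn]; ring
    have t1 : (ζ * Vu) ^ 2 ≤ M ^ 2 * S * w ^ 3 := by
      have := pow_le_pow_left₀ ζV (ζV1.trans V3) 2
      linarith [mul_le_mul_of_nonneg_left w4 (sq_nonneg M)]
    have t2 : 0 ≤ ζ * n := mul_nonneg ζ0.le n0
    have t3 : ζ * n ≤ 2 := (mul_le_of_le_one_left n0 ζ1).trans n2
    have t4 := mul_le_mul_of_nonneg_left (abs_le.1 k1).1 t2
    have t5 := mul_le_mul_of_nonneg_right t3 (mul_nonneg C30 w3)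
    have t6 := mul_le_mul_of_nonneg_left h2 (mul_nonneg (sq_nonneg B) (sq_nonneg x))
    have t7 := mul_le_mul_of_nonneg_left (h4.trans (mul_le_mul_of_nonneg_left w4 M0)) (sq_nonneg B)
    have t8 := mul_le_mul_of_nonneg_right (show 2 * B ^ 2 * M ≤ C by linarith)
      (mul_nonneg w2 (sq_nonneg x))
    have t9 := mul_le_mul_of_nonneg_right
      (show 4 * C3 + M ^ 2 * S + 2 * B ^ 2 * M * S ≤ C by linarith) w3
    rw [t0]
    linarith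
  · have t1 := mul_le_mul_of_nonneg_right (show 3 * M ≤ C by linarith) w2
    have t2 := mul_le_mul_of_nonneg_left ζw M0
    linarith

/-- Notation as in `Gd.step`; `n = D2 (stp ζ v Φ) x = K a + ζ Var u` (`D2_stp`), `m_p` the moments of
`K_mom`. First part: `u y = u x + a x (y - x) + O (B (y - x) ^ 2)`, `Var (y) = v + O (v √v)` by
`K_stein` with `f = y - x` and `f = 1`, `|n - a x| ≤ C √v`. Second and fourth part:
`K a ^ 2 - n ^ 2 = Var a - 2 ζ (K a) (Var u) - ζ ^ 2 (Var u) ^ 2`. Third part: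
`|D3 Φ y| ≤ B |y|` (`Gd.odd3`, `Gd.lip3`) gives `|a y - a x| ≤ B (|x| + |y - x|) |y - x|`, hence
`Var a ≤ 2 B ^ 2 (x ^ 2 m2 + m4)`; `Var u = v n ^ 2 + O (v √v)` and `K a = n + O (v)`. -/
theorem K_incr (T B : ℝ) : ∃ C, 1 ≤ C ∧ ∀ (μ ζ v : ℝ) (Φ : ℝ → ℝ) (x : ℝ), Gd B B μ Φ → 0 < ζ →
    ζ ≤ 1 → 0 ≤ v → v ≤ T →
    |Kst ζ v Φ (fun y => D1 Φ y ^ 2) x - D1 (stp ζ v Φ) x ^ 2 - v * D2 (stp ζ v Φ) x ^ 2| ≤
      C * (v * √v) ∧
    -(C * ζ * v) ≤ Kst ζ v Φ (fun y => D2 Φ y ^ 2) x - D2 (stp ζ v Φ) x ^ 2 ∧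
    Kst ζ v Φ (fun y => D2 Φ y ^ 2) x - D2 (stp ζ v Φ) x ^ 2 ≤
      v * (C * x ^ 2 - 2 * ζ * D2 (stp ζ v Φ) x ^ 3) + C * (v * √v) ∧
    |Kst ζ v Φ (fun y => D2 Φ y ^ 2) x - D2 (stp ζ v Φ) x ^ 2| ≤ C * v := by
  rcases lt_or_ge B 0 with hB | B0
  · exact ⟨1, le_rfl, fun μ ζ v Φ x h => absurd ((abs_nonneg _).trans (h.b1 0)) hB.not_ge⟩
  obtain ⟨M, M1, hM⟩ := K_mom T
  have M0 : 0 ≤ M := by linarith
  obtain ⟨C3, hC3⟩ : ∃ C3, C3 = 2 * B * M + M + (1 + B * M) ^ 2 * √T + 3 * (B * M + M * √T) :=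
    ⟨_, rfl⟩
  obtain ⟨C, hC⟩ : ∃ C,
      C = 1 + 4 * C3 + M ^ 2 * √T + 2 * B ^ 2 * M * √T + 3 * M + 2 * B ^ 2 * M := ⟨_, rfl⟩
  refine ⟨C, ?_, fun μ ζ v Φ x h ζ0 ζ1 v0 vT => ?_⟩
  · have : 0 ≤ 4 * C3 + M ^ 2 * √T + 2 * B ^ 2 * M * √T + 3 * M + 2 * B ^ 2 * M := by
      rw [hC3]; positivity
    linarith
  have hL := h.toLp
  obtain ⟨h1, h2, h3, h4⟩ := hM ζ v Φ x ζ0 ζ1 v0 vT hL
  have pr := Km_prob ζ0 hL v x
  have gd : Gr fun y => y - x := Gr.id.sub (Gr.const x)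
  have gu := hL.gr1
  have ga := h.gr2
  have I : ∀ {f : ℝ → ℝ}, Gr f → Integrable f (Km ζ v Φ x) := fun hf => hf.int ζ0 hL v x
  have s1 := K_stein ζ0 hL v0 (f := fun _ => 1) (f' := fun _ => 0) (fun y => hasDerivAt_const y 1)
    (Gr.const 1) (Gr.const 0) x
  have s2 := K_stein ζ0 hL v0 (f := fun y => y - x) (f' := fun _ => 1)
    (fun y => (hasDerivAt_id' y).sub_const x) gd (Gr.const 1) x
  have b1 := abs_Kst_le ζ0 hL hL.b0 v x
  have b2 := abs_Kst_le ζ0 hL h.a_le v x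
  have b3 := abs_Kst_le ζ0 hL (f := fun y => D1 Φ y ^ 2) (C := 1) (fun y => by
    rw [abs_pow]; exact pow_le_one₀ (abs_nonneg _) (hL.b0 y)) v x
  have V0 := K_var_nonneg ζ0 hL gu v x
  have V2 := K_var_le ζ0 hL gu v x (D1 Φ x)
  have W0 := K_var_nonneg ζ0 hL ga v x
  have W2 := K_var_le ζ0 hL ga v x (D2 Φ x)
  have hn : D2 (stp ζ v Φ) x = _ := (D2_stp ζ0 hL h.d1 ga v x).deriv
  have key := k6_real (x := x) (m1 := Kst ζ v Φ (fun y => |y - x|) x)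
    (m2 := Kst ζ v Φ (fun y => (y - x) ^ 2) x) (m3 := Kst ζ v Φ (fun y => |y - x| ^ 3) x)
    (m4 := Kst ζ v Φ (fun y => (y - x) ^ 4) x) (P := Kst ζ v Φ (fun y => (D1 Φ y - D1 Φ x) ^ 2) x)
    (e := Kst ζ v Φ (D1 Φ) x - D1 Φ x) (Ed := Kst ζ v Φ (fun y => y - x) x)
    (Va := Kst ζ v Φ (fun y => D2 Φ y ^ 2) x - Kst ζ v Φ (D2 Φ) x ^ 2)
    B0 M1 (sqrt_nonneg v) (sqrt_le_sqrt vT) ζ0 ζ1 (h.a_nn x) (le_of_abs_le (h.a_le x)) h1
    (by rwa [sq_sqrt v0]) (by rwa [pow_succ, sq_sqrt v0])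
    (by rwa [show 4 = 2 * 2 from rfl, pow_mul (√v), sq_sqrt v0]) ?_ ?_ ?_ ?_ ?_ (sub_nonneg.2 V0)
    (by linarith [le_of_abs_le b3, sq_nonneg (Kst ζ v Φ (D1 Φ) x)]) (V2.trans ?_) ?_
    (le_of_abs_le b2) ?_ (sub_nonneg.2 W0) (W2.trans ?_) (W2.trans ?_) hn hC3 hC
  · rw [pow_succ (√v) 2, sq_sqrt v0, sub_add_cancel] at key
    rw [D1_stp ζ0 hL]
    exact key
  · simp only [Kst, mul_one, one_mul, integral_zero, zero_add] at s1 b1 ⊢
    rw [s1, sq_sqrt v0, abs_mul, abs_mul, abs_of_nonneg v0, abs_of_pos ζ0]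
    exact mul_le_of_le_one_right v0 (mul_le_one₀ ζ1 (abs_nonneg _) b1)
  · simp only [Kst, ← sq, integral_const, probReal_univ, one_smul] at s2 ⊢
    rw [s2, sq_sqrt v0, mul_add, mul_one, add_sub_cancel_left, abs_mul, abs_mul, abs_of_nonneg v0,
      abs_of_pos ζ0]
    refine mul_le_mul_of_nonneg_left ((mul_le_of_le_one_left (abs_nonneg _) ζ1).trans
      (k6_abs (I gd.abs) fun y => ?_)) v0
    rw [abs_mul]
    exact mul_le_of_le_one_right (abs_nonneg _) (hL.b0 y)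
  · simp only [Kst]
    rw [← integral_const_mul, ← integral_const_mul,
      ← integral_sub (I ((gu.sub (Gr.const _)).pow 2)) ((I (gd.pow 2)).const_mul _)]
    refine k6_abs ((I (gd.abs.pow 3)).const_mul _) fun y => ?_
    have t1 := k6_tay h x y
    have t2 : |D1 Φ y - D1 Φ x + D2 Φ x * (y - x)| ≤ 2 * |y - x| := by
      have t3 := abs_add_le (D1 Φ y - D1 Φ x) (D2 Φ x * (y - x))
      have t4 := mul_le_of_le_one_left (abs_nonneg (y - x)) (h.a_le x)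
      rw [abs_mul] at t3
      linarith [h.lip1 y x]
    rw [← mul_pow, sq_sub_sq, abs_mul]
    refine (mul_le_mul t2 t1 (abs_nonneg _) (by positivity)).trans (le_of_eq ?_)
    rw [← sq_abs (y - x)]
    ring
  · have e : Kst ζ v Φ (D1 Φ) x - D1 Φ x - D2 Φ x * Kst ζ v Φ (fun y => y - x) x =
        ∫ y, (D1 Φ y - D1 Φ x - D2 Φ x * (y - x)) ∂Km ζ v Φ x := by
      rw [integral_sub (I (gu.sub (Gr.const _))) ((I gd).const_mul _),
        integral_sub (I gu) (integrable_const _), integral_const_mul, integral_const, probReal_univ,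
        one_smul, Kst, Kst]
    rw [e, Kst, ← integral_const_mul]
    exact k6_abs ((I (gd.pow 2)).const_mul _) (k6_tay h x)
  · have e : Kst ζ v Φ (fun y => (D1 Φ y - D1 Φ x) ^ 2) x =
        ∫ y, (D1 Φ y ^ 2 - 2 * D1 Φ x * D1 Φ y + D1 Φ x ^ 2) ∂Km ζ v Φ x :=
      integral_congr_ae (ae_of_all _ fun y => by ring)
    rw [e, integral_add (I ((gu.pow 2).sub ((Gr.const _).mul gu))) (integrable_const _),
      integral_sub (I (gu.pow 2)) ((I gu).const_mul _), integral_const_mul, integral_const,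
      probReal_univ, one_smul, Kst, Kst]
    ring
  · refine integral_mono (I ((gu.sub (Gr.const _)).pow 2)) (I (gd.pow 2)) fun y => ?_
    exact sq_le_sq.2 (h.lip1 y x)
  · exact integral_nonneg h.a_nn
  · have e : Kst ζ v Φ (D2 Φ) x - D2 Φ x = ∫ y, (D2 Φ y - D2 Φ x) ∂Km ζ v Φ x := by
      rw [integral_sub (I ga) (integrable_const _), integral_const, probReal_univ, one_smul, Kst]
    rw [e, Kst, ← integral_const_mul]
    exact k6_abs ((I gd.abs).const_mul _) fun y => h.lip2 y x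
  · rw [Kst, Kst, ← integral_const_mul]
    refine integral_mono (I ((ga.sub (Gr.const _)).pow 2)) ((I (gd.pow 2)).const_mul _) fun y => ?_
    have := pow_le_pow_left₀ (abs_nonneg _) (h.lip2 y x) 2
    rwa [sq_abs, mul_pow, sq_abs] at this
  · rw [Kst, Kst, Kst, ← integral_const_mul, ← integral_const_mul,
      ← integral_add ((I (gd.pow 2)).const_mul _) ((I (gd.pow 4)).const_mul _)]
    exact integral_mono (I ((ga.sub (Gr.const _)).pow 2))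
      (((I (gd.pow 2)).const_mul _).add ((I (gd.pow 4)).const_mul _)) (k6_a h x)

end

end Vale.Agent.P146L
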