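import Vale.Agent.P146L.Ch2
import Vale.Agent.P146L.K5
import Vale.Agent.P146L.K6

/-! Increments of the gap functions. -/

set_option linter.all false

namespace Vale.Agent.P146L

open MeasureTheory ProbabilityTheory Real Finset Filter Topology Vale.Agent.P146M Vale.Agent.P146

noncomputable section

variable {k l : ℕ} {r : ℕ → ℝ}

/-- `Pg x = stp ζ (x' - x) (Pg x')` by `stp_stp`. -/
theorem Pg_step (hl : l < k) {x x' : ℝ} (h1 : x ≤ x') (h2 : x' ≤ vv r l) :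
    Pg k r l x = stp (zt k l) (x' - x) (Pg k r l x') := by
  have hk : 0 < k := by omega
  rw [Pg, Pg, stp_stp (zt_pos hk l) (lp_Ph hk r hl) (sub_nonneg.2 h1) (sub_nonneg.2 h2)]
  congr 1
  ring

/-- by `Kst_Kst` -/
theorem Eg_step (hl : l < k) {x x' : ℝ} (h0 : 0 ≤ x) (h1 : x ≤ x') (h2 : x' ≤ vv r l) {f : ℝ → ℝ}
    (hf : Gr f) :
    Eg k r l x' f = Eg k r l x (Kst (zt k l) (x' - x) (Pg k r l x') f) := by
  have hk : 0 < k := by omega
  rw [Eg, Eg, Pg_step hl h1 h2,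
    Kst_Kst (zt_pos hk l) (lp_Pg hl r x') hf h0 (sub_nonneg.2 h1), add_sub_cancel]

theorem gap_ends (hr : AdmR r) (hl : l < k) : gG k r l 0 = Gam k r l ∧
    gG k r l (vv r l) = Gam k r (l + 1) ∧ gN k r l 0 = Nn k r l ∧
    gN k r l (vv r l) = Nn k r (l + 1) := by
  obtain ⟨B, -, hB⟩ := chain_gd (r k)
  have h0 := hB k r l hr le_rfl hl 0 le_rfl (vv_nonneg hr l)
  have h1 := hB k r l hr le_rfl hl _ (vv_nonneg hr l) le_rfl
  refine ⟨?_, ?_, ?_, ?_⟩
  · rw [gG, Eg_zero hl r (h0.toLp.gr1.pow 2), Pg_zero hl, Gam]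
  · rw [gG, Eg_end hl r (h1.toLp.gr1.pow 2), Pg_end hl, Gam]
  · rw [gN, Eg_zero hl r (h0.gr2.pow 2), Pg_zero hl, Nn]
  · rw [gN, Eg_end hl r (h1.gr2.pow 2), Pg_end hl, Nn]

theorem Gap1_int {μ : Measure ℝ} [IsProbabilityMeasure μ] {f g h : ℝ → ℝ} (hf : Integrable f μ)
    (hg : Integrable g μ) (hh : Integrable h μ) (c a b d : ℝ) :
    ∫ y, (c + a * f y + b * g y + d * h y) ∂μ =
      c + a * ∫ y, f y ∂μ + b * ∫ y, g y ∂μ + d * ∫ y, h y ∂μ := by
  have h1 : Integrable (fun y => c + a * f y) μ := (integrable_const c).add (hf.const_mul a)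
  have h2 : Integrable (fun y => c + a * f y + b * g y) μ := h1.add (hg.const_mul b)
  rw [integral_add h2 (hh.const_mul d), integral_add h1 (hg.const_mul b),
    integral_add (integrable_const c) (hf.const_mul a), integral_const_mul, integral_const_mul,
    integral_const_mul]
  simp

theorem Gap1_lin (hl : l < k) (x : ℝ) {f g h : ℝ → ℝ} (hf : Gr f) (hg : Gr g) (hh : Gr h)
    (c a b d : ℝ) (H : ∀ y, 0 ≤ c + a * f y + b * g y + d * h y) :
    0 ≤ c + a * Eg k r l x f + b * Eg k r l x g + d * Eg k r l x h := by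
  have hk : 0 < k := by omega
  have hζ := zt_pos hk l
  have hΦ := lp_Pg hl r x
  have := muL_prob hk r hl.le
  simp only [Eg, EL]
  rw [← Gap1_int ((hf.K hζ hΦ x).intL hk r hl.le) ((hg.K hζ hΦ x).intL hk r hl.le)
    ((hh.K hζ hΦ x).intL hk r hl.le)]
  refine integral_nonneg fun y => ?_
  have := Km_prob hζ hΦ x y
  simp only [Kst, Pi.zero_apply]
  rw [← Gap1_int (hf.int hζ hΦ x y) (hg.int hζ hΦ x y) (hh.int hζ hΦ x y)]
  exact integral_nonneg H

theorem Gap1_tan {a c : ℝ} (ha : 0 ≤ a) (hc : 0 ≤ c) : 3 / 2 * c * a ^ 2 - c ^ 3 / 2 ≤ a ^ 3 := by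
  have h : 0 ≤ (a - c) ^ 2 * (2 * a + c) := by positivity
  nlinarith

/-- Integrate `K_incr` against `Eg k r l x` (a monotone normalised linear functional on `Gr`),
use `chain_sq` and, with `c = √(gN x)`, the tangent inequality
`a ^ 3 ≥ 3 / 2 * c * a ^ 2 - c ^ 3 / 2` for `a ≥ 0`. -/
theorem gap_incr (T : ℝ) : ∃ C, 1 ≤ C ∧ ∀ (k : ℕ) (r : ℕ → ℝ) (l : ℕ), AdmR r → r k ≤ T → l < k →
    ∀ x x', 0 ≤ x → x ≤ x' → x' ≤ vv r l →
    |gG k r l x' - gG k r l x - (x' - x) * gN k r l x| ≤ C * ((x' - x) * √(x' - x)) ∧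
    -(C * zt k l * (x' - x)) ≤ gN k r l x' - gN k r l x ∧
    gN k r l x' - gN k r l x ≤ (x' - x) * (C * (r l + x) -
      2 * zt k l * (gN k r l x * √(gN k r l x))) + C * ((x' - x) * √(x' - x)) ∧
    |gN k r l x' - gN k r l x| ≤ C * (x' - x) := by
  obtain ⟨B, -, hB⟩ := chain_gd T
  obtain ⟨C1, hC1, h1⟩ := chain_sq T
  obtain ⟨C2, hC2, h2⟩ := K_incr T B
  refine ⟨C2 * C1, one_le_mul_of_one_le_of_one_le hC2 hC1, fun k r l hr hT hl x x' h0 hx hx' => ?_⟩
  have hk : 0 < k := by omega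
  have hζ := zt_pos hk l
  have hv : 0 ≤ x' - x := sub_nonneg.2 hx
  have hvT : x' - x ≤ T := by
    have e1 := hr.2 (show l + 1 ≤ k by omega)
    have e2 := hr.2 (Nat.zero_le l)
    have e3 := hr.1
    unfold vv at hx'
    linarith
  have g0 := hB k r l hr hT hl x h0 (hx.trans hx')
  have g1 := hB k r l hr hT hl x' (h0.trans hx) hx'
  have hq := h1 k r l hr hT hl x h0 (hx.trans hx')
  have H := fun y => h2 _ _ _ _ y g1 hζ (zt_le hl) hv hvT
  rw [← Pg_step hl hx hx'] at H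
  have gU := g0.toLp.gr1.pow 2
  have gN0 := g0.gr2.pow 2
  have gA := (g1.toLp.gr1.pow 2).K hζ g1.toLp (x' - x)
  have gB := (g1.gr2.pow 2).K hζ g1.toLp (x' - x)
  have eA := Eg_step hl h0 hx hx' (g1.toLp.gr1.pow 2)
  have eB := Eg_step hl h0 hx hx' (g1.gr2.pow 2)
  have hs : 0 ≤ (x' - x) * √(x' - x) := by positivity
  have m1 : C2 * ((x' - x) * √(x' - x)) ≤ C2 * C1 * ((x' - x) * √(x' - x)) :=
    mul_le_mul_of_nonneg_right (le_mul_of_one_le_right (by linarith) hC1) hs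
  have m2 : C2 * (x' - x) ≤ C2 * C1 * (x' - x) :=
    mul_le_mul_of_nonneg_right (le_mul_of_one_le_right (by linarith) hC1) hv
  have m3 := mul_le_mul_of_nonneg_left m2 hζ.le
  have n0 : 0 ≤ gN k r l x := by
    have := Gap1_lin (r := r) hl x gN0 gN0 gN0 0 1 0 0 fun y => by positivity
    unfold gN
    linarith
  have a1 := Gap1_lin (r := r) hl x gA gU gN0 (C2 * ((x' - x) * √(x' - x))) 1 (-1) (-(x' - x))
    fun y => by linarith [(abs_le.1 (H y).1).1]
  have a2 := Gap1_lin (r := r) hl x gA gU gN0 (C2 * ((x' - x) * √(x' - x))) (-1) 1 (x' - x)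
    fun y => by linarith [(abs_le.1 (H y).1).2]
  have a3 := Gap1_lin (r := r) hl x gB gN0 gN0 (C2 * zt k l * (x' - x)) 1 (-1) 0
    fun y => by linarith [(H y).2.1]
  have a4 := Gap1_lin (r := r) hl x gB gN0 (Gr.id.pow 2) (C2 * ((x' - x) * √(x' - x)) +
      (x' - x) * zt k l * √(gN k r l x) ^ 3) (-1) (1 - 3 * ((x' - x) * zt k l) * √(gN k r l x))
      ((x' - x) * C2) fun y => by
    have := mul_le_mul_of_nonneg_left (Gap1_tan (g0.a_nn y) (Real.sqrt_nonneg (gN k r l x)))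
      (mul_nonneg hv hζ.le)
    linarith [(H y).2.2.1]
  have a5 := Gap1_lin (r := r) hl x gB gN0 gN0 (C2 * (x' - x)) 1 (-1) 0
    fun y => by linarith [(abs_le.1 (H y).2.2.2).1]
  have a6 := Gap1_lin (r := r) hl x gB gN0 gN0 (C2 * (x' - x)) (-1) 1 0
    fun y => by linarith [(abs_le.1 (H y).2.2.2).2]
  rw [← eA] at a1 a2
  rw [← eB] at a3 a4 a5 a6
  have e3 : √(gN k r l x) ^ 3 = gN k r l x * √(gN k r l x) := by
    rw [pow_succ, Real.sq_sqrt n0]
  have a7 := mul_le_mul_of_nonneg_left hq (mul_nonneg hv (by linarith : 0 ≤ C2))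
  rw [e3] at a4
  change 0 ≤ _ + 1 * gG k r l x' + -1 * gG k r l x + _ * gN k r l x at a1
  change 0 ≤ _ + -1 * gG k r l x' + 1 * gG k r l x + _ * gN k r l x at a2
  change 0 ≤ _ + 1 * gN k r l x' + -1 * gN k r l x + _ * gN k r l x at a3 a5
  change 0 ≤ _ + -1 * gN k r l x' + _ * gN k r l x + _ at a4
  change 0 ≤ _ + -1 * gN k r l x' + 1 * gN k r l x + _ * gN k r l x at a6
  exact ⟨abs_le.2 ⟨by linarith, by linarith⟩, by linarith, by linarith,
    abs_le.2 ⟨by linarith, by linarith⟩⟩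

end

end Vale.Agent.P146L
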