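import Vale.Agent.P146L.Gap1

/-! Discrete consequences of the increments. -/

set_option linter.all false

namespace Vale.Agent.P146L

open MeasureTheory ProbabilityTheory Real Finset Filter Topology Vale.Agent.P146M Vale.Agent.P146

noncomputable section

/-- as `mono_of_quad`, with the exponent three halves -/
theorem mono_of_32 {h : ℝ → ℝ} {c a b : ℝ} (hab : a ≤ b)
    (H : ∀ s s', a ≤ s → s ≤ s' → s' ≤ b → h s - h s' ≤ c * ((s' - s) * √(s' - s))) :
    h a ≤ h b := by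
  have hd : 0 ≤ b - a := sub_nonneg.2 hab
  have h1 : ∀ n : ℕ, h a - h b ≤ c * ((b - a) * √((b - a) * (1 / ((n : ℝ) + 1)))) := fun n => by
    have hn : (0 : ℝ) < n + 1 := by positivity
    set δ := (b - a) * (1 / ((n : ℝ) + 1)) with hδ
    have hδ0 : 0 ≤ δ := by positivity
    have hδ1 : ((n : ℝ) + 1) * δ = b - a := by rw [hδ]; field_simp
    have e := sum_range_sub' (fun i : ℕ => h (a + i * δ)) (n + 1)
    have h2 := sum_le_card_nsmul (range (n + 1)) _ (c * (δ * √δ)) fun i hi =>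
      show h (a + i * δ) - h (a + ((i + 1 : ℕ) : ℝ) * δ) ≤ _ from by
        have h3 : ((i + 1 : ℕ) : ℝ) ≤ n + 1 := by exact_mod_cast mem_range.1 hi
        have h4 : a + ((i + 1 : ℕ) : ℝ) * δ - (a + i * δ) = δ := by push_cast; ring
        have h5 := mul_le_mul_of_nonneg_right h3 hδ0
        have h6 : (0 : ℝ) ≤ i * δ := by positivity
        have h7 := H (a + i * δ) (a + ((i + 1 : ℕ) : ℝ) * δ) (by linarith) (by linarith)
          (by linarith)
        rwa [h4] at h7
    rw [e, card_range, nsmul_eq_mul] at h2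
    simp only [Nat.cast_zero, zero_mul, add_zero, Nat.cast_add, Nat.cast_one, hδ1,
      add_sub_cancel] at h2
    refine h2.trans_eq ?_
    rw [← hδ1]
    ring
  have h3 : Tendsto (fun n : ℕ => c * ((b - a) * √((b - a) * (1 / ((n : ℝ) + 1))))) atTop
      (𝓝 (c * ((b - a) * √((b - a) * 0)))) :=
    (((tendsto_one_div_add_atTop_nhds_zero_nat.const_mul (b - a)).sqrt).const_mul _).const_mul c
  have h2 := ge_of_tendsto' h3 h1
  simp only [mul_zero, sqrt_zero] at h2
  linarith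

theorem gap2_up {G N : ℝ → ℝ} {C a b M : ℝ} (hab : a ≤ b)
    (H : ∀ x x', a ≤ x → x ≤ x' → x' ≤ b →
      G x' - G x - (x' - x) * N x ≤ C * ((x' - x) * √(x' - x)))
    (hM : ∀ x, a ≤ x → x ≤ b → N x ≤ M) : G b - G a ≤ (b - a) * M := by
  have h := mono_of_32 (h := fun s => s * M - G s) (c := C) hab fun s s' h1 h2 h3 => by
    have h4 := H s s' h1 h2 h3
    have h5 := mul_le_mul_of_nonneg_left (hM s h1 (h2.trans h3)) (sub_nonneg.2 h2)
    show s * M - G s - (s' * M - G s') ≤ _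
    linarith
  have h' : a * M - G a ≤ b * M - G b := h
  linarith

/-- Pure real analysis. Apply `mono_of_32` to `±(G s - s * N 0) + C s ^ 2 / 2`, to
`-N s - D s`, to `-G s + s * N 0 - D s ^ 2 / 2`, and so on (the quadratic remainders
`(s' - s) ^ 2` are at most `√v * ((s' - s) * √(s' - s))`). For the last part use
`N s ≤ N 0 + C s` on `[0, y]` and `N s ≤ N v + C ζ v` on `[y, v]`. -/
theorem gap_real {G N : ℝ → ℝ} {C ζ ρ v : ℝ} (hC : 1 ≤ C) (hζ : 0 ≤ ζ) (hv : 0 ≤ v)
    (H : ∀ x x', 0 ≤ x → x ≤ x' → x' ≤ v →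
      |G x' - G x - (x' - x) * N x| ≤ C * ((x' - x) * √(x' - x)) ∧
      -(C * ζ * (x' - x)) ≤ N x' - N x ∧
      N x' - N x ≤ (x' - x) * (C * (ρ + x) - 2 * ζ * (N x * √(N x))) +
        C * ((x' - x) * √(x' - x)) ∧
      |N x' - N x| ≤ C * (x' - x)) :
    |N v - N 0| ≤ C * v ∧ |G v - G 0 - v * N 0| ≤ C * v ^ 2 ∧
    (∀ c, 0 ≤ c → c + C * v ≤ N 0 → N v ≤ N 0 - (2 * ζ * (c * √c) - C * (ρ + v)) * v ∧
      G v - G 0 ≤ v * N 0 - (2 * ζ * (c * √c) - C * (ρ + v)) * v ^ 2 / 2) ∧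
    N 0 ≤ N v + C * ζ * v ∧
    ∀ y, 0 ≤ y → y ≤ v → G v - G 0 ≤ y * N 0 + C * y ^ 2 + (v - y) * (N v + C * ζ * v) := by
  have hC0 : 0 ≤ C := by linarith
  have hN : ∀ x, 0 ≤ x → x ≤ v → |N x - N 0| ≤ C * x := fun x h1 h2 => by
    simpa using (H 0 x le_rfl h1 h2).2.2.2
  have hup : ∀ y, 0 ≤ y → y ≤ v → G y - G 0 ≤ y * N 0 + C * y ^ 2 := fun y h1 h2 => by
    have h := gap2_up (G := G) (N := N) (C := C) (M := N 0 + C * y) h1
      (fun x x' h3 h4 h5 => (le_abs_self _).trans (H x x' h3 h4 (h5.trans h2)).1)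
      fun x h3 h4 => by
        have h5 := (abs_le.1 (hN x h3 (h4.trans h2))).2
        have h6 := mul_le_mul_of_nonneg_left h4 hC0
        linarith
    linarith
  refine ⟨hN v hv le_rfl, abs_le.2 ⟨?_, by linarith [hup v hv le_rfl]⟩, fun c hc hcv => ?_, ?_,
    fun y h1 h2 => ?_⟩
  · have h := gap2_up (G := fun s => -G s) (N := fun s => -N s) (C := C) (M := -N 0 + C * v) hv
      (fun x x' h3 h4 h5 => by
        have h6 := (abs_le.1 (H x x' h3 h4 h5).1).1
        show -G x' - -G x - (x' - x) * -N x ≤ _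
        linarith)
      fun x h3 h4 => by
        have h5 := (abs_le.1 (hN x h3 h4)).1
        have h6 := mul_le_mul_of_nonneg_left h4 hC0
        show -N x ≤ _
        linarith
    have h' : -G v - -G 0 ≤ (v - 0) * (-N 0 + C * v) := h
    linarith
  · set D := 2 * ζ * (c * √c) - C * (ρ + v) with hD
    have hdec : ∀ y, 0 ≤ y → y ≤ v → N y ≤ N 0 - D * y := fun y h1 h2 => by
      have h := mono_of_32 (h := fun s => -N s - D * s) (c := C) h1 fun s s' h3 h4 h5 => by
        have h6 := (H s s' h3 h4 (h5.trans h2)).2.2.1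
        have hs : s ≤ v := h4.trans (h5.trans h2)
        have h7 : c ≤ N s := by
          have h8 := (abs_le.1 (hN s h3 hs)).1
          have h9 := mul_le_mul_of_nonneg_left hs hC0
          linarith
        have h8 : c * √c ≤ N s * √(N s) :=
          mul_le_mul h7 (sqrt_le_sqrt h7) (sqrt_nonneg _) (hc.trans h7)
        have h9 : C * (ρ + s) - 2 * ζ * (N s * √(N s)) ≤ -D := by
          have h10 := mul_le_mul_of_nonneg_left h8 (show 0 ≤ 2 * ζ by positivity)
          have h11 := mul_le_mul_of_nonneg_left hs hC0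
          linarith
        have h10 := mul_le_mul_of_nonneg_left h9 (sub_nonneg.2 h4)
        show -N s - D * s - (-N s' - D * s') ≤ _
        linarith
      have h' : -N 0 - D * 0 ≤ -N y - D * y := h
      linarith
    refine ⟨hdec v hv le_rfl, ?_⟩
    have h := mono_of_32 (h := fun s => -G s + s * N 0 - D * s ^ 2 / 2) (c := C + |D| * √v / 2) hv
      fun s s' h3 h4 h5 => by
        have h6 := (abs_le.1 (H s s' h3 h4 h5).1).2
        have h0 : 0 ≤ s' - s := sub_nonneg.2 h4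
        have h7 := mul_le_mul_of_nonneg_left (hdec s h3 (h4.trans h5)) h0
        have h8 : (s' - s) ^ 2 ≤ √v * ((s' - s) * √(s' - s)) := by
          have h9 : √(s' - s) ≤ √v := sqrt_le_sqrt (by linarith)
          have h10 := mul_le_mul_of_nonneg_right h9
            (mul_nonneg h0 (sqrt_nonneg (s' - s)))
          have h11 : √(s' - s) * ((s' - s) * √(s' - s)) = (s' - s) ^ 2 := by
            rw [mul_left_comm, mul_self_sqrt h0, sq]
          linarith
        have h9 := mul_le_mul (le_abs_self D) h8 (sq_nonneg _) (abs_nonneg D)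
        show -G s + s * N 0 - D * s ^ 2 / 2 - (-G s' + s' * N 0 - D * s' ^ 2 / 2) ≤ _
        linarith
    have h' : -G 0 + 0 * N 0 - D * 0 ^ 2 / 2 ≤ -G v + v * N 0 - D * v ^ 2 / 2 := h
    linarith
  · have h := (H 0 v le_rfl hv le_rfl).2.1
    linarith
  · have h := gap2_up (G := G) (N := N) (C := C) (M := N v + C * ζ * v) h2
      (fun x x' h3 h4 h5 => (le_abs_self _).trans (H x x' (h1.trans h3) h4 h5).1)
      fun x h3 h4 => by
        have h5 := (H x v (h1.trans h3) h4 le_rfl).2.1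
        have h6 := mul_nonneg (mul_nonneg hC0 hζ) (h1.trans h3)
        linarith
    linarith [hup y h1 h2]

theorem gap (T : ℝ) : ∃ C, 1 ≤ C ∧ ∀ (k : ℕ) (r : ℕ → ℝ) (l : ℕ), AdmR r → r k ≤ T → l < k →
    |Nn k r (l + 1) - Nn k r l| ≤ C * vv r l ∧
    |Gam k r (l + 1) - Gam k r l - vv r l * Nn k r l| ≤ C * vv r l ^ 2 ∧
    (∀ c, 0 ≤ c → c + C * vv r l ≤ Nn k r l →
      Nn k r (l + 1) ≤ Nn k r l - (2 * zt k l * (c * √c) - C * r (l + 1)) * vv r l ∧
      Gam k r (l + 1) - Gam k r l ≤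
        vv r l * Nn k r l - (2 * zt k l * (c * √c) - C * r (l + 1)) * vv r l ^ 2 / 2) ∧
    Nn k r l ≤ Nn k r (l + 1) + C * zt k l * vv r l ∧
    ∀ y, 0 ≤ y → y ≤ vv r l → Gam k r (l + 1) - Gam k r l ≤
      y * Nn k r l + C * y ^ 2 + (vv r l - y) * (Nn k r (l + 1) + C * zt k l * vv r l) := by
  obtain ⟨C, hC, H⟩ := gap_incr T
  refine ⟨C, hC, fun k r l hr hT hl => ?_⟩
  have h := gap_real hC (zt_pos (Nat.zero_lt_of_lt hl) l).le (vv_nonneg hr l) (H k r l hr hT hl)
  obtain ⟨e1, e2, e3, e4⟩ := gap_ends hr hl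
  have e5 : r l + vv r l = r (l + 1) := by unfold vv; ring
  rwa [e1, e2, e3, e4, e5] at h

end

end Vale.Agent.P146L
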