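import Vale.Agent.P146L.Res

/-! Gaussian integration by parts under a tilted law and the abstract loop equation. -/

set_option linter.all false

namespace Vale.Agent.P146L

open MeasureTheory ProbabilityTheory Real Finset Filter Topology Vale.Agent.P146M Vale.Agent.P146

noncomputable section

theorem Ibp_meas {I F : Type} [Fintype I] [DecidableEq I] [NormedAddCommGroup F]
    [NormedSpace ℝ F] [MeasurableSpace F] [BorelSpace F] {f f' : (I → ℝ) → F} (hf : Continuous f)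
    (i : I) (hd : ∀ g, HasDerivAt (fun t : ℝ => f (g + Pi.single i t)) (f' g) 0) :
    Measurable f' := by
  have h1 : Tendsto (fun n : ℕ => (1 : ℝ) / ((n : ℝ) + 1)) atTop (𝓝[≠] 0) :=
    tendsto_nhdsWithin_iff.2 ⟨tendsto_one_div_add_atTop_nhds_zero_nat,
      Eventually.of_forall fun n => (by positivity : (0 : ℝ) < 1 / ((n : ℝ) + 1)).ne'⟩
  refine measurable_of_tendsto_metrizable (f := fun (n : ℕ) g => ((1 : ℝ) / ((n : ℝ) + 1))⁻¹ •
    (f (g + Pi.single i (0 + 1 / ((n : ℝ) + 1))) - f (g + Pi.single i 0)))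
    (fun n => Continuous.measurable (by fun_prop)) (tendsto_pi_nhds.2 fun g => ?_)
  exact (hd g).tendsto_slope_zero.comp h1

/-- limit of difference quotients along `1 / (n + 1)` -/
theorem meas_dir {I : Type} [Fintype I] [DecidableEq I] {f f' : (I → ℝ) → ℂ} (hf : Continuous f)
    (i : I) (hd : ∀ g, HasDerivAt (fun t : ℝ => f (g + Pi.single i t)) (f' g) 0) :
    Measurable f' := Ibp_meas hf i hd

theorem meas_dir_real {I : Type} [Fintype I] [DecidableEq I] {f f' : (I → ℝ) → ℝ}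
    (hf : Continuous f) (i : I)
    (hd : ∀ g, HasDerivAt (fun t : ℝ => f (g + Pi.single i t)) (f' g) 0) : Measurable f' :=
  Ibp_meas hf i hd

theorem Ibp_int_exp {I : Type} [Fintype I] {W : (I → ℝ) → ℝ} (hW : Measurable W)
    (hW0 : ∀ g, W g ≤ 0) : Integrable (fun g => exp (W g)) (γ I) :=
  Integrable.of_bound (by fun_prop : Measurable fun g => exp (W g)).aestronglyMeasurable 1
    (ae_of_all _ fun g => by rw [Real.norm_eq_abs, abs_exp]; exact exp_le_one_iff.2 (hW0 g))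

theorem tilt_prob {I : Type} [Fintype I] {W : (I → ℝ) → ℝ} (hW : Measurable W)
    (hW0 : ∀ g, W g ≤ 0) : IsProbabilityMeasure ((γ I).tilted W) :=
  isProbabilityMeasure_tilted (Ibp_int_exp hW hW0)

theorem tilt_int_coord {I : Type} [Fintype I] {W : (I → ℝ) → ℝ} (hW : Measurable W)
    (hW0 : ∀ g, W g ≤ 0) (i : I) : Integrable (fun g => g i) ((γ I).tilted W) := by
  rw [integrable_tilted_iff (Ibp_int_exp hW hW0)]
  have h1 : Integrable (fun x : ℝ => x) (gaussianReal 0 1) :=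
    memLp_one_iff_integrable.1 (memLp_id_gaussianReal' 1 (by simp))
  have h2 : Integrable (fun g : I → ℝ => g i) (γ I) :=
    ((measurePreserving_eval (fun _ : I => gaussianReal 0 1) i).integrable_comp
      h1.aestronglyMeasurable).2 h1
  exact h2.bdd_mul (c := 1) (by fun_prop : Measurable fun g => exp (W g)).aestronglyMeasurable
    (ae_of_all _ fun g => by rw [Real.norm_eq_abs, abs_exp]; exact exp_le_one_iff.2 (hW0 g))

/-- integration by parts for `exp W * f` -/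
theorem tilt_ibp_real {I : Type} [Fintype I] [DecidableEq I] {W W' f f' : (I → ℝ) → ℝ} {C : ℝ}
    (i : I) (hW : Continuous W) (hW0 : ∀ g, W g ≤ 0)
    (dW : ∀ g, HasDerivAt (fun t : ℝ => W (g + Pi.single i t)) (W' g) 0) (bW : ∀ g, |W' g| ≤ C)
    (hf : Continuous f) (df : ∀ g, HasDerivAt (fun t : ℝ => f (g + Pi.single i t)) (f' g) 0)
    (bf : ∀ g, |f g| ≤ C) (bf' : ∀ g, |f' g| ≤ C) :
    ∫ g, g i * f g ∂(γ I).tilted W = ∫ g, (f' g + f g * W' g) ∂(γ I).tilted W := by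
  have m1 := meas_dir_real hW i dW
  have m2 := meas_dir_real hf i df
  have m3 := hW.measurable
  have m4 := hf.measurable
  have hC : 0 ≤ C := (abs_nonneg _).trans (bf 0)
  have hb : ∀ (g : I → ℝ) (x : ℝ), |x| ≤ C + C * C →
      |exp (W g) * x| ≤ (C + C * C) * exp ((C + C * C) * ∑ i, |g i|) := fun g x hx => by
    have h1 : exp (W g) ≤ 1 := exp_le_one_iff.2 (hW0 g)
    have h2 : 1 ≤ exp ((C + C * C) * ∑ i, |g i|) := one_le_exp (by positivity)
    rw [abs_mul, abs_exp, mul_comm]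
    exact mul_le_mul hx (h1.trans h2) (exp_pos _).le (by positivity)
  have key := gauss_ibp (Measure.dirac ()) (F := fun w : Unit × (I → ℝ) => exp (W w.2) * f w.2)
    (F' := fun w => exp (W w.2) * (f' w.2 + f w.2 * W' w.2)) (by fun_prop) (by fun_prop) i
    (fun _ v => ((dW v).exp.mul (df v)).congr_deriv (by simp only [Pi.single_zero, add_zero]; ring))
    (C := C + C * C) (fun w => hb _ _ ((bf _).trans (by nlinarith))) fun w => hb _ _
      ((abs_add_le _ _).trans (add_le_add (bf' _) (by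
        rw [abs_mul]; exact mul_le_mul (bf _) (bW _) (abs_nonneg _) hC)))
  rw [integral_fun_snd (f := fun g : I → ℝ => g i * (exp (W g) * f g)),
    integral_fun_snd (f := fun g : I → ℝ => exp (W g) * (f' g + f g * W' g))] at key
  simp only [probReal_univ, one_smul] at key
  rw [integral_tilted, integral_tilted]
  simp only [smul_eq_mul, div_eq_inv_mul, mul_assoc, integral_const_mul]
  rw [← key]
  congr 1
  exact integral_congr_ae (ae_of_all _ fun g => by simp only; ring)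

/-- bounded measurable functions -/
def Ibp_Bm {X : Type} [MeasurableSpace X] (f : X → ℂ) : Prop :=
  Measurable f ∧ ∃ C, ∀ x, ‖f x‖ ≤ C

section Bm

variable {X : Type} [MeasurableSpace X] {f h : X → ℂ}

theorem Ibp_Bm.int (hf : Ibp_Bm f) (μ : Measure X) [IsFiniteMeasure μ] : Integrable f μ := by
  obtain ⟨C, hC⟩ := hf.2
  exact Integrable.of_bound hf.1.aestronglyMeasurable C (ae_of_all _ hC)

theorem Ibp_Bm.const (c : ℂ) : Ibp_Bm fun _ : X => c := ⟨measurable_const, ‖c‖, fun _ => le_rfl⟩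

theorem Ibp_Bm.add (hf : Ibp_Bm f) (hh : Ibp_Bm h) : Ibp_Bm fun x => f x + h x := by
  obtain ⟨C, hC⟩ := hf.2
  obtain ⟨D, hD⟩ := hh.2
  exact ⟨hf.1.add hh.1, C + D, fun x => (norm_add_le _ _).trans (add_le_add (hC x) (hD x))⟩

theorem Ibp_Bm.mul (hf : Ibp_Bm f) (hh : Ibp_Bm h) : Ibp_Bm fun x => f x * h x := by
  obtain ⟨C, hC⟩ := hf.2
  obtain ⟨D, hD⟩ := hh.2
  exact ⟨hf.1.mul hh.1, C * D, fun x => (norm_mul_le _ _).trans
    (mul_le_mul (hC x) (hD x) (norm_nonneg _) ((norm_nonneg _).trans (hC x)))⟩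

theorem Ibp_Bm.div (hf : Ibp_Bm f) (c : ℂ) : Ibp_Bm fun x => f x / c := by
  simpa only [div_eq_mul_inv] using hf.mul (Ibp_Bm.const c⁻¹)

theorem Ibp_Bm.sum {ι : Type} (s : Finset ι) {F : ι → X → ℂ} (hF : ∀ i, Ibp_Bm (F i)) :
    Ibp_Bm fun x => ∑ i ∈ s, F i x := by
  classical
  induction s using Finset.induction_on with
  | empty => simpa using Ibp_Bm.const 0
  | insert a s ha ih => simpa only [sum_insert ha] using (hF a).add ih

theorem Ibp_Bm.ofReal {u : X → ℝ} (hu : Measurable u) {C : ℝ} (hC : ∀ x, |u x| ≤ C) :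
    Ibp_Bm fun x => (u x : ℂ) :=
  ⟨Complex.measurable_ofReal.comp hu, C, fun x => by simpa using hC x⟩

theorem Ibp_Bm.ent {N : ℕ} {R : X → Matrix (Fin N) (Fin N) ℂ} {B : X → Fin N → Fin N → ℝ}
    (hR : ∀ a c, Ibp_Bm fun x => R x a c) (hB : ∀ a c, Ibp_Bm fun x => (B x a c : ℂ)) (p : Pr N) :
    Ibp_Bm fun x => ent (R x) (B x) p :=
  Ibp_Bm.sum _ fun _ => ((hR _ _).mul (hB _ _)).add ((hR _ _).mul (hB _ _))

theorem Ibp_Bm.int_mul {μ : Measure X} {u : X → ℝ} (hu : Integrable u μ) (hf : Ibp_Bm f) :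
    Integrable (fun x => (u x : ℂ) * f x) μ := by
  obtain ⟨C, hC⟩ := hf.2
  exact hu.ofReal.mul_bdd hf.1.aestronglyMeasurable (ae_of_all _ hC)

end Bm

theorem tilt_ibp {I : Type} [Fintype I] [DecidableEq I] {W W' : (I → ℝ) → ℝ}
    {f f' : (I → ℝ) → ℂ} {C : ℝ} (i : I) (hW : Continuous W) (hW0 : ∀ g, W g ≤ 0)
    (dW : ∀ g, HasDerivAt (fun t : ℝ => W (g + Pi.single i t)) (W' g) 0) (bW : ∀ g, |W' g| ≤ C)
    (hf : Continuous f) (df : ∀ g, HasDerivAt (fun t : ℝ => f (g + Pi.single i t)) (f' g) 0)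
    (bf : ∀ g, ‖f g‖ ≤ C) (bf' : ∀ g, ‖f' g‖ ≤ C) :
    ∫ g, g i * f g ∂(γ I).tilted W = ∫ g, (f' g + f g * W' g) ∂(γ I).tilted W := by
  have := tilt_prob hW.measurable hW0
  have b1 : Ibp_Bm f := ⟨hf.measurable, C, bf⟩
  have i1 := b1.int_mul (tilt_int_coord hW.measurable hW0 i)
  have i2 := (Ibp_Bm.add ⟨meas_dir hf i df, C, bf'⟩
    (b1.mul (Ibp_Bm.ofReal (meas_dir_real hW i dW) bW))).int ((γ I).tilted W)
  have key : ∀ L : ℂ →L[ℝ] ℝ, (∀ z, |L z| ≤ ‖z‖) → L (∫ g, g i * f g ∂(γ I).tilted W) =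
      L (∫ g, (f' g + f g * W' g) ∂(γ I).tilted W) := fun L hL => by
    rw [← L.integral_comp_comm i1, ← L.integral_comp_comm i2]
    have h1 := tilt_ibp_real (f := fun g => L (f g)) (f' := fun g => L (f' g)) i hW hW0 dW bW
      (L.continuous.comp hf) (fun g => L.hasFDerivAt.comp_hasDerivAt 0 (df g))
      (fun g => (hL _).trans (bf g)) fun g => (hL _).trans (bf' g)
    have e : ∀ (x : ℝ) (z : ℂ), L (x * z) = x * L z := fun x z => by
      rw [← Complex.real_smul, map_smul, smul_eq_mul]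
    simp only [map_add, mul_comm (f _), e]
    simpa only [mul_comm (L _)] using h1
  exact Complex.ext (key Complex.reCLM Complex.abs_re_le_norm)
    (key Complex.imCLM Complex.abs_im_le_norm)

theorem Ibp_rem {N : ℕ} (X : Fin N → Fin N → ℂ) :
    ‖∑ i, ∑ j, X i j - 2 * ∑ i, X i i‖ ≤ ∑ i, ∑ j, ‖X i j‖ := by
  rw [mul_sum, ← sum_sub_distrib]
  refine (norm_sum_le _ _).trans (sum_le_sum fun i _ => ?_)
  rw [← add_sum_erase _ _ (mem_univ i), ← add_sum_erase _ (fun j => ‖X i j‖) (mem_univ i),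
    show X i i + ∑ j ∈ univ.erase i, X i j - 2 * X i i = -X i i + ∑ j ∈ univ.erase i, X i j by ring]
  exact (norm_add_le _ _).trans (add_le_add (norm_neg _).le (norm_sum_le _ _))

theorem Ibp_cs {N : ℕ} {R : Matrix (Fin N) (Fin N) ℂ} {κ : ℝ} (h : Bil R κ)
    {B : Fin N → Fin N → ℝ} (bB : ∀ a c, |B a c| ≤ 1) :
    ∑ i, ∑ j, ‖R j i * ∑ a, R j a * B a i‖ ≤ κ ^ 2 * (N * √N) := by
  have h1 := h.fro fun a i => (B a i : ℂ)
  have h2 := h.fro_self
  rw [sum_comm] at h2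
  have h3 : ∑ i, ∑ a, ‖(B a i : ℂ)‖ ^ 2 ≤ (N : ℝ) * N := by
    refine (sum_le_sum fun i _ => sum_le_sum fun a _ => (?_ : _ ≤ (1 : ℝ))).trans (by simp)
    rw [Complex.norm_real]
    exact pow_le_one₀ (norm_nonneg _) (bB a i)
  have h4 := sum_mul_sq_le_sq_mul_sq univ (fun q : Fin N × Fin N => ‖R q.2 q.1‖)
    fun q => ‖∑ a, R q.2 a * B a q.1‖
  simp only [Fintype.sum_prod_type] at h4
  simp only [norm_mul]
  refine (pow_le_pow_iff_left₀ (by positivity) (by positivity) two_ne_zero).1 ?_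
  refine h4.trans ((mul_le_mul h2 (h1.trans (mul_le_mul_of_nonneg_left h3 (sq_nonneg κ)))
    (by positivity) (by positivity)).trans (le_of_eq ?_))
  rw [mul_pow, mul_pow, sq_sqrt (Nat.cast_nonneg N)]
  ring

/-- the contribution of the derivative of the resolvent -/
def Ibp_F {N : ℕ} (R : Matrix (Fin N) (Fin N) ℂ) (B : Fin N → Fin N → ℝ) (i j : Fin N) : ℂ :=
  R j i * ∑ a, R j a * B a i + R j j * ∑ a, R i a * B a i

theorem Ibp_sumF {N : ℕ} (hN : 0 < N) (z : ℂ) (g : Pr N → ℝ) (B : Fin N → Fin N → ℝ) :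
    (∑ p : Pr N, (Ibp_F (Rz z g) B p.1.1 p.1.2 + Ibp_F (Rz z g) B p.1.2 p.1.1) / √N) / (N * √N) -
      sz z g * tau (Rz z g) B = (∑ i, ∑ j, Rz z g j i * ∑ a, Rz z g j a * B a i -
        2 * ∑ i, Rz z g i i * ∑ a, Rz z g i a * B a i) / (N * N) := by
  have h0 : (N : ℂ) ≠ 0 := by exact_mod_cast hN.ne'
  have h1 : ((√N : ℝ) : ℂ) * (√N : ℝ) = N := by
    rw [← Complex.ofReal_mul, mul_self_sqrt (Nat.cast_nonneg N), Complex.ofReal_natCast]
  rw [← sum_div, sum_Pr (Ibp_F (Rz z g) B), div_div, mul_left_comm, h1]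
  simp only [Ibp_F, sum_add_distrib, ← sum_mul, sz, tau]
  rw [← mul_sum]
  field_simp
  ring

theorem Ibp_deriv {N : ℕ} {z : ℂ} (hz : 0 < z.im) {B : (Pr N → ℝ) → Fin N → Fin N → ℝ}
    {B' : Fin N → Fin N → ℝ} {p : Pr N} {g : Pr N → ℝ}
    (dB : ∀ a c, HasDerivAt (fun t : ℝ => B (g + Pi.single p t) a c) (B' a c) 0) :
    HasDerivAt (fun t : ℝ => ent (Rz z (g + Pi.single p t)) (B (g + Pi.single p t)) p)
      (ent (Rz z g) B' p +
        (Ibp_F (Rz z g) (B g) p.1.1 p.1.2 + Ibp_F (Rz z g) (B g) p.1.2 p.1.1) / √N) 0 := by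
  refine (HasDerivAt.fun_sum fun a _ => ((Rz_deriv hz g p p.1.2 a).mul (dB a p.1.1).ofReal_comp).add
    ((Rz_deriv hz g p p.1.1 a).mul (dB a p.1.2).ofReal_comp)).congr_deriv ?_
  simp only [Pi.single_zero, add_zero, ent, Ibp_F, mul_sum, ← sum_add_distrib, sum_div]
  exact sum_congr rfl fun a _ => by ring

/-- Integrate `tau_id` and integrate by parts in every coupling. -/
theorem loop_abs {N : ℕ} (hN : 0 < N) {z : ℂ} {η C : ℝ} (hη : 0 < η) (hz : η ≤ z.im)
    {W : (Pr N → ℝ) → ℝ} {W' : Pr N → (Pr N → ℝ) → ℝ} {B : (Pr N → ℝ) → Fin N → Fin N → ℝ}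
    {B' : Pr N → (Pr N → ℝ) → Fin N → Fin N → ℝ} (hW : Continuous W) (hW0 : ∀ g, W g ≤ 0)
    (dW : ∀ p g, HasDerivAt (fun t : ℝ => W (g + Pi.single p t)) (W' p g) 0)
    (bW : ∀ p g, |W' p g| ≤ C) (hB : ∀ a c, Continuous fun g => B g a c)
    (bB : ∀ g a c, |B g a c| ≤ 1)
    (dB : ∀ p g a c, HasDerivAt (fun t : ℝ => B (g + Pi.single p t) a c) (B' p g a c) 0)
    (bB' : ∀ p g a c, |B' p g a c| ≤ C) {A : (Pr N → ℝ) → ℂ} {e : (Pr N → ℝ) → ℝ}
    (hA : Integrable A ((γ (Pr N)).tilted W)) (he : Integrable e ((γ (Pr N)).tilted W))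
    (h : ∀ g, ‖(∑ p, (ent (Rz z g) (B' p g) p + ent (Rz z g) (B g) p * W' p g)) / (N * √N) -
      A g‖ ≤ e g) :
    ‖z * (∫ g, tau (Rz z g) (B g) ∂(γ (Pr N)).tilted W) -
      (∫ g, (∑ a, (B g a a : ℂ)) / N ∂(γ (Pr N)).tilted W) -
      (∫ g, sz z g * tau (Rz z g) (B g) ∂(γ (Pr N)).tilted W) -
      ∫ g, A g ∂(γ (Pr N)).tilted W‖ ≤
      (∫ g, e g ∂(γ (Pr N)).tilted W) + 2 / (η ^ 2 * √N) := by
  have hz0 : 0 < z.im := hη.trans_le hz
  have := tilt_prob hW.measurable hW0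
  set μ := (γ (Pr N)).tilted W
  have bR : ∀ a c, Ibp_Bm fun g : Pr N → ℝ => Rz z g a c := fun a c =>
    ⟨(Rz_cont hz0 a c).measurable, η⁻¹, fun g => (Rz_bil hη hz g).entry (by positivity) a c⟩
  have b1 : ∀ a c, Ibp_Bm fun g => (B g a c : ℂ) := fun a c =>
    Ibp_Bm.ofReal (hB a c).measurable fun g => bB g a c
  have b2 : ∀ p a c, Ibp_Bm fun g => (B' p g a c : ℂ) := fun p a c =>
    Ibp_Bm.ofReal (meas_dir_real (hB a c) p fun g => dB p g a c) fun g => bB' p g a c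
  have b3 : ∀ p, Ibp_Bm fun g => (W' p g : ℂ) := fun p =>
    Ibp_Bm.ofReal (meas_dir_real hW p (dW p)) (bW p)
  have bF : ∀ i j, Ibp_Bm fun g => Ibp_F (Rz z g) (B g) i j := fun i j =>
    ((bR _ _).mul (Ibp_Bm.sum _ fun _ => (bR _ _).mul (b1 _ _))).add
      ((bR _ _).mul (Ibp_Bm.sum _ fun _ => (bR _ _).mul (b1 _ _)))
  set D : Pr N → (Pr N → ℝ) → ℂ := fun p g => ent (Rz z g) (B' p g) p +
    (Ibp_F (Rz z g) (B g) p.1.1 p.1.2 + Ibp_F (Rz z g) (B g) p.1.2 p.1.1) / √N with hD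
  have bD : ∀ p, Ibp_Bm (D p) := fun p =>
    (Ibp_Bm.ent bR (b2 p) p).add (((bF _ _).add (bF _ _)).div _)
  have bE := Ibp_Bm.ent bR b1
  have bT : Ibp_Bm fun g => tau (Rz z g) (B g) :=
    (Ibp_Bm.sum _ fun _ => Ibp_Bm.sum _ fun _ => (bR _ _).mul (b1 _ _)).div _
  have bS : Ibp_Bm fun g : Pr N → ℝ => sz z g := (Ibp_Bm.sum _ fun _ => bR _ _).div _
  have bG := fun p => (bD p).add ((bE p).mul (b3 p))
  have ibp : ∀ p, ∫ g, g p * ent (Rz z g) (B g) p ∂μ =
      ∫ g, (D p g + ent (Rz z g) (B g) p * W' p g) ∂μ := fun p => by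
    obtain ⟨C1, h1⟩ := (bE p).2
    obtain ⟨C2, h2⟩ := (bD p).2
    refine tilt_ibp (C := max C (max C1 C2)) p hW hW0 (dW p)
      (fun g => (bW p g).trans (le_max_left _ _)) ?_ (fun g => Ibp_deriv hz0 (dB p g))
      (fun g => (h1 g).trans ((le_max_left _ _).trans (le_max_right _ _)))
      fun g => (h2 g).trans ((le_max_right _ _).trans (le_max_right _ _))
    exact continuous_finsetSum _ fun a _ =>
      ((Rz_cont hz0 _ _).mul (Complex.continuous_ofReal.comp (hB _ _))).add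
        ((Rz_cont hz0 _ _).mul (Complex.continuous_ofReal.comp (hB _ _)))
  have iE : ∀ p, Integrable (fun g => (g p : ℂ) * ent (Rz z g) (B g) p) μ := fun p =>
    (bE p).int_mul (tilt_int_coord hW.measurable hW0 p)
  have iG := ((Ibp_Bm.sum univ bG).div (N * √N)).int μ
  have e1 : z * ∫ g, tau (Rz z g) (B g) ∂μ = (∫ g, (∑ a, (B g a a : ℂ)) / N ∂μ) +
      ∫ g, (∑ p, (D p g + ent (Rz z g) (B g) p * W' p g)) / (N * √N) ∂μ := by
    rw [← integral_const_mul]
    simp only [tau_id hz0]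
    rw [integral_add (((Ibp_Bm.sum _ fun _ => b1 _ _).div _).int μ)
      ((integrable_finsetSum _ fun p _ => iE p).div_const _), integral_div _ (fun g => ∑ p, _),
      integral_div _ (fun g => ∑ p, _), integral_div _ (fun g => ∑ p, _),
      integral_finsetSum _ fun p _ => iE p, integral_finsetSum _ fun p _ => (bG p).int μ]
    simp only [ibp]
  rw [e1, add_sub_cancel_left, ← integral_sub iG ((bS.mul bT).int μ),
    ← integral_sub (iG.sub' ((bS.mul bT).int μ)) hA]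
  have e2 : (∫ g, e g ∂μ) + 2 / (η ^ 2 * √N) = ∫ g, (e g + 2 / (η ^ 2 * √N)) ∂μ := by
    rw [integral_add he (integrable_const _)]
    simp
  rw [e2]
  refine norm_integral_le_of_norm_le (he.add (integrable_const _)) (ae_of_all _ fun g => ?_)
  have e3 : (∑ p, (D p g + ent (Rz z g) (B g) p * W' p g)) / (N * √N) -
      sz z g * tau (Rz z g) (B g) - A g =
      ((∑ p, (ent (Rz z g) (B' p g) p + ent (Rz z g) (B g) p * W' p g)) / (N * √N) - A g) +
      ((∑ p : Pr N, (Ibp_F (Rz z g) (B g) p.1.1 p.1.2 + Ibp_F (Rz z g) (B g) p.1.2 p.1.1) / √N) /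
        (N * √N) - sz z g * tau (Rz z g) (B g)) := by
    simp only [hD, sum_add_distrib]
    ring
  rw [e3, Ibp_sumF hN]
  refine (norm_add_le _ _).trans (add_le_add (h g) ?_)
  have hN' : (0 : ℝ) < N := by exact_mod_cast hN
  have h1 := (Ibp_rem fun i j => Rz z g j i * ∑ a, Rz z g j a * B g a i).trans
    (Ibp_cs (Rz_bil hη hz g) (bB g))
  have h2 := mul_self_sqrt hN'.le
  have h3 := sqrt_pos.2 hN'
  rw [norm_div, norm_mul, Complex.norm_natCast, div_le_iff₀ (by positivity)]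
  refine h1.trans ?_
  generalize √(N : ℝ) = s at h2 h3 ⊢
  rw [← h2]
  have h4 : 2 / (η ^ 2 * s) * (s * s * (s * s)) = 2 * (η⁻¹ ^ 2 * (s * s * s)) := by
    field_simp
  rw [h4]
  have : 0 ≤ η⁻¹ ^ 2 * (s * s * s) := by positivity
  linarith

end

end Vale.Agent.P146L
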