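import Vale.Agent.P146L.In1
import Vale.Agent.P146L.Ibp

/-! Guerra's interpolation with the disorder at a negative exponent. -/

set_option linter.all false

namespace Vale.Agent.P146L

open MeasureTheory ProbabilityTheory Real Finset Filter Topology Vale.Agent.P146M Vale.Agent.P146

noncomputable section

section Gen

variable {I : Type} [Fintype I]

theorem Gue_int {W : (I → ℝ) → ℝ} (hW : Continuous W) (h0 : ∀ g, W g ≤ 0) :
    Integrable (fun g => exp (W g)) (γ I) :=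
  Integrable.of_bound (continuous_exp.comp hW).aestronglyMeasurable 1 (ae_of_all _ fun g => by
    rw [Real.norm_of_nonneg (exp_pos _).le]
    exact exp_le_one_iff.2 (h0 g))

theorem Gue_pos {W : (I → ℝ) → ℝ} (hW : Continuous W) (h0 : ∀ g, W g ≤ 0) :
    0 < ∫ g, exp (W g) ∂γ I := integral_exp_pos (Gue_int hW h0)

/-- differentiation of the tilted free energy -/
theorem Gue_gen {F F' : ℝ → (I → ℝ) → ℝ} {M t C : ℝ} (hM : 0 < M) {U : Set ℝ} (hU : U ∈ 𝓝 t)
    (hc : ∀ s, Continuous (F s)) (h0 : ∀ s g, 0 ≤ F s g) (hc' : Continuous (F' t))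
    (hd : ∀ g, ∀ s ∈ U, HasDerivAt (fun s => F s g) (F' s g) s) (hC : 0 ≤ C)
    (hb : ∀ g, ∀ s ∈ U, |F' s g| ≤ C * (1 + ∑ i, |g i|)) :
    HasDerivAt (fun s => -M⁻¹ * log (∫ g, exp (-M * F s g) ∂γ I))
      (∫ g, F' t g ∂(γ I).tilted fun g => -M * F t g) t := by
  have hW : ∀ s, Continuous fun g => -M * F s g := fun s => continuous_const.mul (hc s)
  have hW0 : ∀ s g, -M * F s g ≤ 0 := fun s g => by nlinarith [h0 s g]
  have h1 := (hasDerivAt_integral_of_dominated_loc_of_deriv_le (μ := γ I)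
    (F := fun s g => exp (-M * F s g)) (F' := fun s g => exp (-M * F s g) * (-M * F' s g))
    (bound := fun g => M * C * exp (1 * ∑ i, |g i|)) hU
    (Eventually.of_forall fun s => (continuous_exp.comp (hW s)).aestronglyMeasurable)
    (Gue_int (hW t) (hW0 t))
    ((continuous_exp.comp (hW t)).mul (continuous_const.mul hc')).aestronglyMeasurable
    (ae_of_all _ fun g s hs => by
      have e1 : exp (-M * F s g) ≤ 1 := exp_le_one_iff.2 (hW0 s g)
      have e2 := add_one_le_exp (∑ i, |g i|)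
      rw [Real.norm_eq_abs, abs_mul, abs_mul, abs_neg, abs_of_pos hM, abs_of_pos (exp_pos _),
        one_mul]
      calc exp (-M * F s g) * (M * |F' s g|) ≤ 1 * (M * (C * (1 + ∑ i, |g i|))) := by
            gcongr; exact hb g s hs
        _ ≤ 1 * (M * (C * exp (∑ i, |g i|))) := by gcongr; linarith
        _ = _ := by ring)
    ((gsb_int I 1).const_mul _)
    (ae_of_all _ fun g s hs => ((hd g s hs).const_mul (-M)).exp)).2
  have hZ := Gue_pos (hW t) (hW0 t)
  have h2 := (h1.log hZ.ne').const_mul (-M⁻¹)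
  refine h2.congr_deriv ?_
  rw [integral_tilted, ← integral_div, ← integral_const_mul]
  refine integral_congr_ae (ae_of_all _ fun g => ?_)
  simp only [smul_eq_mul]
  field_simp

end Gen

variable {N k : ℕ} {β t M : ℝ} {r : ℕ → ℝ}

theorem Gue_W (hk : 0 < k) : Continuous fun g => -M * Fg k N β r t g :=
  continuous_const.mul (cont_Fg hk)

theorem Gue_W0 (hk : 0 < k) (hM : 0 < M) (g : Pr N → ℝ) : -M * Fg k N β r t g ≤ 0 := by
  nlinarith [Fg_nonneg (β := β) (r := r) (t := t) hk g]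

theorem Qm_prob (hk : 0 < k) (hM : 0 < M) : IsProbabilityMeasure (Qm k N β r t M) :=
  tilt_prob (Gue_W hk).measurable (Gue_W0 hk hM)

theorem VV_nonneg (l : ℕ) : 0 ≤ VV k N β r t M l := integral_nonneg fun _ => vR_nonneg _ _

theorem Gue_intQ (hk : 0 < k) (hM : 0 < M) {f : (Pr N → ℝ) → ℝ} (hf : Continuous f) {C : ℝ}
    (hb : ∀ g, |f g| ≤ C) : Integrable f (Qm k N β r t M) :=
  haveI := Qm_prob (N := N) (β := β) (r := r) (t := t) hk hM
  Integrable.of_bound hf.aestronglyMeasurable C (ae_of_all _ hb)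

theorem Gue_BB (hk : 0 < k) {l : ℕ} (hl : l ≤ k + 1) (a c : Fin N) :
    Continuous fun g => BB k (Hg k N β r t g) l a c :=
  cont_pp hk (fun σ τ => sg σ a * sg τ c) hl

theorem Gue_yF (hk : 0 < k) : Continuous fun g => yF k (Hg k N β r t g) :=
  (continuous_finset_sum _ fun a _ => continuous_finset_sum _ fun c _ =>
    (Gue_BB hk le_rfl a c).pow 2).div_const _

theorem Gue_vR (hk : 0 < k) {l : ℕ} (hl : l ≤ k + 1) (q : ℝ) :
    Continuous fun g => vR k (Hg k N β r t g) l q :=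
  cont_pp hk (fun σ τ => (dot σ τ / N - q) ^ 2) hl

theorem Gue_dBd (hk : 0 < k) (i j : Fin N) :
    Continuous fun g => dBd k (Hg k N β r t g) i j i j := by
  simp only [fun g => dBd_self hk (lin_Hg (N := N) (β := β) (r := r) (t := t) hk g) i j]
  exact continuous_const.sub (continuous_const.mul (continuous_finset_sum _ fun l hl =>
    cont_pp hk (fun σ τ => (sg σ i * sg σ j) * (sg τ i * sg τ j))
      (by have := mem_range.1 hl; omega)))

theorem Gue_int_yF (hk : 0 < k) (hN : 0 < N) (hM : 0 < M) :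
    Integrable (fun g => yF k (Hg k N β r t g)) (Qm k N β r t M) :=
  Gue_intQ hk hM (Gue_yF hk) (C := N) fun g => by
    have h := yF_mem hk hN (lin_Hg (β := β) (r := r) (t := t) hk g)
    rw [abs_of_nonneg (by linarith [h.1])]
    exact h.2

theorem Gue_int_vR (hk : 0 < k) (hM : 0 < M) {l : ℕ} (hl : l ≤ k + 1) (q : ℝ) :
    Integrable (fun g => vR k (Hg k N β r t g) l q) (Qm k N β r t M) :=
  Gue_intQ hk hM (Gue_vR hk hl q) (C := (1 + |q|) ^ 2) fun g => by
    rw [abs_of_nonneg (vR_nonneg _ _)]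
    exact vR_le hk (lin_Hg hk g) l q

theorem one_le_YQ (hk : 0 < k) (hN : 0 < N) (hM : 0 < M) : 1 ≤ YQ k N β r t M := by
  have := Qm_prob (N := N) (β := β) (r := r) (t := t) hk hM
  simpa [YQ] using integral_mono (integrable_const (1 : ℝ)) (Gue_int_yF hk hN hM)
    fun g => (yF_mem hk hN (lin_Hg (β := β) (r := r) (t := t) hk g)).1

/-- the pointwise identity behind the derivative -/
theorem Gue_pt (hβ : 0 < β) (hk : 0 < k) (hN : 0 < N) {H : SN N → ℝ}
    (hH : (GS k (Fin N) (νN N)).Lin H) :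
    β ^ 2 / N / 2 * (∑ p : Pr N, (dBd k H p.1.1 p.1.2 p.1.1 p.1.2 -
        M * BB k H (k + 1) p.1.1 p.1.2 ^ 2)) -
      (N * r (k - 1) - (1 / (k : ℝ)) * ∑ l ∈ range k, r l * ∑ a, BB k H l a a) / 2 =
    N * (β ^ 2 / 4 - r (k - 1) / 2 + (1 / (4 * k * β ^ 2)) * ∑ l ∈ range k, r l ^ 2) -
      (N * β ^ 2 / 4 * ((1 / (k : ℝ)) * ∑ l ∈ range k, vR k H l (r l / β ^ 2)) +
        β ^ 2 * M / 4 * (yF k H - 1)) := by
  have hk' : (0 : ℝ) < k := by exact_mod_cast hk
  have hN' : (0 : ℝ) < N := by exact_mod_cast hN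
  set a1 : ℕ → ℝ := fun l => ∫ p, dot p.1.1 p.2.1 ∂pp k (νN N) H l with ha1
  set a2 : ℕ → ℝ := fun l => ∫ p, dot p.1.1 p.2.1 ^ 2 ∂pp k (νN N) H l with ha2
  have e1 : ∀ l, ∑ a, BB k H l a a = a1 l := fun l => by
    have := pp_prob hk hH l
    simp only [ha1, BB, dot]
    rw [integral_finset_sum _ fun a _ => int2 _ fun σ τ => sg σ a * sg τ a]
  have e2 : ∀ l q, vR k H l q = a2 l / N ^ 2 - 2 * q / N * a1 l + q ^ 2 := fun l q => by
    have := pp_prob hk hH l
    have i1 := (int2 (pp k (νN N) H l) fun σ τ => dot σ τ ^ 2).div_const ((N : ℝ) ^ 2)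
    have i2 := (int2 (pp k (νN N) H l) fun σ τ => dot σ τ).const_mul (2 * q / N)
    have e : ∀ p : SN N × SN N, (dot p.1.1 p.2.1 / N - q) ^ 2 =
        dot p.1.1 p.2.1 ^ 2 / N ^ 2 - 2 * q / N * dot p.1.1 p.2.1 + q ^ 2 := fun p => by ring
    have i3 : Integrable (fun p : SN N × SN N => dot p.1.1 p.2.1 ^ 2 / N ^ 2 -
      2 * q / N * dot p.1.1 p.2.1) (pp k (νN N) H l) := i1.sub i2
    simp only [vR, e]
    rw [integral_add i3 (integrable_const _), integral_sub i1 i2, integral_div,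
      integral_const_mul, integral_const, probReal_univ, one_smul]
  have e3 : ∀ l, ∑ p : Pr N, ∫ q, (sg q.1.1 p.1.1 * sg q.1.1 p.1.2) *
      (sg q.2.1 p.1.1 * sg q.2.1 p.1.2) ∂pp k (νN N) H l = (a2 l - N) / 2 := fun l => by
    have := pp_prob hk hH l
    rw [← integral_finset_sum _ fun p _ =>
      int2 _ fun σ τ => (sg σ p.1.1 * sg σ p.1.2) * (sg τ p.1.1 * sg τ p.1.2)]
    have e : ∀ q : SN N × SN N, ∑ p : Pr N, (sg q.1.1 p.1.1 * sg q.1.1 p.1.2) *
        (sg q.2.1 p.1.1 * sg q.2.1 p.1.2) = (dot q.1.1 q.2.1 ^ 2 - N) / 2 :=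
      fun q => sum_xP q.1.1 q.2.1
    simp only [e]
    rw [integral_div, integral_sub (int2 _ fun σ τ => dot σ τ ^ 2) (integrable_const _),
      integral_const, probReal_univ, one_smul]
  have e4 : ∑ p : Pr N, dBd k H p.1.1 p.1.2 p.1.1 p.1.2 =
      N ^ 2 / 2 - (1 / (k : ℝ)) * (∑ l ∈ range k, a2 l) / 2 := by
    simp only [dBd_self hk hH]
    rw [sum_sub_distrib, ← mul_sum, sum_comm, sum_const, card_univ, nsmul_eq_mul, card_Pr]
    simp only [e3]
    rw [← sum_div, sum_sub_distrib, sum_const, card_range, nsmul_eq_mul]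
    field_simp
    ring
  have e5 : ∑ p : Pr N, BB k H (k + 1) p.1.1 p.1.2 ^ 2 = N * (yF k H - 1) / 2 := by
    have h := sum_Pr (N := N) fun i j => BB k H (k + 1) i j ^ 2
    simp only [BB_diag hk hH, one_pow, sum_const, card_univ, Fintype.card_fin, nsmul_eq_mul,
      mul_one] at h
    have h2 : ∑ p : Pr N, (BB k H (k + 1) p.1.1 p.1.2 ^ 2 + BB k H (k + 1) p.1.2 p.1.1 ^ 2) =
        2 * ∑ p : Pr N, BB k H (k + 1) p.1.1 p.1.2 ^ 2 := by
      rw [mul_sum]
      refine sum_congr rfl fun p _ => ?_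
      rw [BB_symm hk hH (k + 1) p.1.2 p.1.1]
      ring
    rw [yF, mul_sub, mul_div_cancel₀ _ hN'.ne']
    linarith
  have e6 : ∑ l ∈ range k, vR k H l (r l / β ^ 2) = (∑ l ∈ range k, a2 l) / N ^ 2 -
      2 / (β ^ 2 * N) * (∑ l ∈ range k, r l * a1 l) + (∑ l ∈ range k, r l ^ 2) / β ^ 4 := by
    simp only [e2]
    rw [sum_div, mul_sum, sum_div, ← sum_sub_distrib, ← sum_add_distrib]
    refine sum_congr rfl fun l _ => ?_
    field_simp
  rw [sum_sub_distrib, ← mul_sum, e4, e5, e6]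
  simp only [e1]
  field_simp
  ring

theorem Gue_ibp (hk : 0 < k) (hM : 0 < M) (p : Pr N) :
    ∫ g, g p * BB k (Hg k N β r t g) (k + 1) p.1.1 p.1.2 ∂Qm k N β r t M =
      √(t * β ^ 2 / N) * ∫ g, (dBd k (Hg k N β r t g) p.1.1 p.1.2 p.1.1 p.1.2 -
        M * BB k (Hg k N β r t g) (k + 1) p.1.1 p.1.2 ^ 2) ∂Qm k N β r t M := by
  have hb := sqrt_nonneg (t * β ^ 2 / N)
  set b := √(t * β ^ 2 / N) with hbd
  have h := tilt_ibp_real (C := 1 + 8 * b + M * b) p (Gue_W hk) (Gue_W0 hk hM)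
    (fun g => (Fg_dir (β := β) (r := r) (t := t) hk g p).const_mul (-M)) (fun g => by
      have h1 := abs_BB hk (lin_Hg (β := β) (r := r) (t := t) hk g) (k + 1) p.1.1 p.1.2
      rw [abs_mul, abs_mul, abs_neg, abs_of_pos hM, abs_of_nonneg hb]
      have : M * (b * |BB k (Hg k N β r t g) (k + 1) p.1.1 p.1.2|) ≤ M * (b * 1) := by gcongr
      linarith)
    (Gue_BB hk le_rfl p.1.1 p.1.2) (fun g => BBd_dir hk g p p.1.1 p.1.2) (fun g => by
      have h1 := abs_BB hk (lin_Hg (β := β) (r := r) (t := t) hk g) (k + 1) p.1.1 p.1.2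
      have : 0 ≤ M * b := by positivity
      linarith)
    (fun g => by
      have h1 := (abs_dB hk (lin_Hg (β := β) (r := r) (t := t) hk g) hk p.1.1 p.1.2 p.1.1
        p.1.2).2
      rw [abs_mul, abs_of_nonneg hb]
      have : 0 ≤ M * b := by positivity
      have : b * |dBd k (Hg k N β r t g) p.1.1 p.1.2 p.1.1 p.1.2| ≤ b * 8 := by gcongr
      linarith)
  rw [← integral_const_mul]
  refine h.trans (integral_congr_ae (ae_of_all _ fun g => ?_))
  simp only
  ring

theorem Gue_mean (hβ : 0 < β) (hk : 0 < k) (hN : 0 < N) (hM : 0 < M) (h0 : 0 < t) :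
    ∫ g, (β ^ 2 / N / (2 * √(t * β ^ 2 / N)) *
        (∑ p, g p * BB k (Hg k N β r t g) (k + 1) p.1.1 p.1.2) - (N * r (k - 1) -
        (1 / (k : ℝ)) * ∑ l ∈ range k, r l * ∑ a, BB k (Hg k N β r t g) l a a) / 2)
        ∂Qm k N β r t M =
      N * (β ^ 2 / 4 - r (k - 1) / 2 + (1 / (4 * k * β ^ 2)) * ∑ l ∈ range k, r l ^ 2) -
        (N * β ^ 2 / 4 * ((1 / (k : ℝ)) * ∑ l ∈ range k, VV k N β r t M l) +
          β ^ 2 * M / 4 * (YQ k N β r t M - 1)) := by
  have := Qm_prob (N := N) (β := β) (r := r) (t := t) hk hM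
  have hN' : (0 : ℝ) < N := by exact_mod_cast hN
  have hb : 0 < √(t * β ^ 2 / N) := sqrt_pos.2 (by positivity)
  have iB : ∀ l ≤ k + 1, ∀ a c, Integrable (fun g => BB k (Hg k N β r t g) l a c)
      (Qm k N β r t M) := fun l hl a c =>
    Gue_intQ hk hM (Gue_BB hk hl a c) fun g => abs_BB hk (lin_Hg hk g) l a c
  have i1 : ∀ p : Pr N, Integrable (fun g => g p * BB k (Hg k N β r t g) (k + 1) p.1.1 p.1.2)
      (Qm k N β r t M) := fun p =>
    (tilt_int_coord (Gue_W hk).measurable (Gue_W0 hk hM) p).mul_bdd (c := 1)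
      (Gue_BB hk le_rfl _ _).aestronglyMeasurable
      (ae_of_all _ fun g => abs_BB hk (lin_Hg hk g) _ _ _)
  have i2 : ∀ p : Pr N, Integrable (fun g => dBd k (Hg k N β r t g) p.1.1 p.1.2 p.1.1 p.1.2 -
      M * BB k (Hg k N β r t g) (k + 1) p.1.1 p.1.2 ^ 2) (Qm k N β r t M) := fun p =>
    (Gue_intQ hk hM (Gue_dBd hk _ _) fun g => (abs_dB hk (lin_Hg hk g) hk _ _ _ _).2).sub
      ((Gue_intQ hk hM (f := fun g => BB k (Hg k N β r t g) (k + 1) p.1.1 p.1.2 ^ 2)
        ((Gue_BB hk le_rfl _ _).pow 2) (C := 1) fun g => by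
        rw [abs_pow]
        exact pow_le_one₀ (abs_nonneg _) (abs_BB hk (lin_Hg hk g) _ _ _)).const_mul M)
  have i3 : Integrable (fun g => (N * r (k - 1) -
      (1 / (k : ℝ)) * ∑ l ∈ range k, r l * ∑ a, BB k (Hg k N β r t g) l a a) / 2)
      (Qm k N β r t M) :=
    ((integrable_const _).sub ((integrable_finset_sum _ fun l hl => (integrable_finset_sum _
      fun a _ => iB l (by have := mem_range.1 hl; omega) a a).const_mul _).const_mul _)).div_const _
  have i4 : ∀ l ∈ range k, Integrable (fun g => vR k (Hg k N β r t g) l (r l / β ^ 2))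
      (Qm k N β r t M) := fun l hl => Gue_int_vR hk hM (by have := mem_range.1 hl; omega) _
  have i5 := ((integrable_finset_sum _ i4).const_mul (1 / (k : ℝ))).const_mul (N * β ^ 2 / 4)
  have i6 : Integrable (fun g => β ^ 2 * M / 4 * (yF k (Hg k N β r t g) - 1)) (Qm k N β r t M) :=
    ((Gue_int_yF hk hN hM).sub (integrable_const 1)).const_mul _
  have i7 : Integrable (fun g => N * β ^ 2 / 4 * ((1 / (k : ℝ)) *
      ∑ l ∈ range k, vR k (Hg k N β r t g) l (r l / β ^ 2)) +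
      β ^ 2 * M / 4 * (yF k (Hg k N β r t g) - 1)) (Qm k N β r t M) := i5.add i6
  have h := integral_congr_ae (μ := Qm k N β r t M) (ae_of_all _ fun g =>
    Gue_pt (M := M) (r := r) hβ hk hN (lin_Hg (β := β) (r := r) (t := t) hk g))
  rw [integral_sub ((integrable_finset_sum _ fun p _ => i2 p).const_mul _) i3,
    integral_sub (integrable_const _) i7, integral_add i5 i6, integral_const,
    probReal_univ, one_smul, integral_const_mul,
    integral_const_mul, integral_const_mul, integral_const_mul, integral_finset_sum _ i4,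
    integral_finset_sum _ fun p _ => i2 p, integral_sub (Gue_int_yF hk hN hM) (integrable_const 1),
    integral_const, probReal_univ, one_smul] at h
  rw [integral_sub ((integrable_finset_sum _ fun p _ => i1 p).const_mul _) i3, integral_const_mul,
    integral_finset_sum _ fun p _ => i1 p]
  simp only [Gue_ibp hk hM]
  rw [← mul_sum, ← mul_assoc, show β ^ 2 / N / (2 * √(t * β ^ 2 / N)) * √(t * β ^ 2 / N) =
    β ^ 2 / N / 2 by field_simp]
  exact h

/-- Differentiate under the integral (`Fg_t`, `Fg_nonneg`, `abs_BB`), so the derivative is the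
`Qm` mean of the derivative in `Fg_t`. `tilt_ibp_real` with `BBd_dir`, `Fg_dir`, `dBd_self`,
`sum_xP`, `card_Pr`, `pair`-type identity `∑ p, B p ^ 2 = N (yF - 1) / 2` (`sum_Pr`, `BB_diag`,
`BB_symm`), and `β ^ 2 R ^ 2 - 2 r R = β ^ 2 (R - r / β ^ 2) ^ 2 - r ^ 2 / β ^ 2`. -/
theorem phi_deriv (hβ : 0 < β) (hk : 0 < k) (hN : 0 < N) (hr : AdmR r) (hM : 0 < M) (h0 : 0 < t)
    (h1 : t < 1) : HasDerivAt (fun t => phi k N β r t M)
      (N * (β ^ 2 / 4 - r (k - 1) / 2 + (1 / (4 * k * β ^ 2)) * ∑ l ∈ range k, r l ^ 2) -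
        (N * β ^ 2 / 4 * ((1 / (k : ℝ)) * ∑ l ∈ range k, VV k N β r t M l) +
          β ^ 2 * M / 4 * (YQ k N β r t M - 1))) t := by
  have hN' : (0 : ℝ) < N := by exact_mod_cast hN
  rw [← Gue_mean hβ hk hN hM h0]
  set c := β ^ 2 / N / (2 * √(t / 2 * β ^ 2 / N)) with hc
  set D := (N * |r (k - 1)| + (1 / (k : ℝ)) * ∑ l ∈ range k, |r l| * N) / 2 with hD
  have hc0 : 0 ≤ c := by positivity
  have hD0 : 0 ≤ D := by positivity
  refine Gue_gen (F := fun t g => Fg k N β r t g)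
    (F' := fun t g => β ^ 2 / N / (2 * √(t * β ^ 2 / N)) *
        (∑ p, g p * BB k (Hg k N β r t g) (k + 1) p.1.1 p.1.2) - (N * r (k - 1) -
        (1 / (k : ℝ)) * ∑ l ∈ range k, r l * ∑ a, BB k (Hg k N β r t g) l a a) / 2)
    (C := c + D) hM (Ioo_mem_nhds (half_lt_self h0) h1) (fun s => cont_Fg hk)
    (fun s g => Fg_nonneg hk g) ?_
    (fun g s hs => Fg_t hk hN hr ((half_pos h0).trans hs.1) hs.2 hβ g) (by positivity)
    fun g s hs => ?_
  · refine (continuous_const.mul (continuous_finset_sum _ fun p _ =>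
      (continuous_apply p).mul (Gue_BB hk le_rfl _ _))).sub ((continuous_const.sub
      (continuous_const.mul (continuous_finset_sum _ fun l hl => continuous_const.mul
      (continuous_finset_sum _ fun a _ => Gue_BB hk ?_ a a)))).div_const _)
    have := mem_range.1 hl
    omega
  · have hH := lin_Hg (β := β) (r := r) (t := s) hk g
    have hS : 0 ≤ ∑ p, |g p| := sum_nonneg fun p _ => abs_nonneg _
    have b1 : |∑ p, g p * BB k (Hg k N β r s g) (k + 1) p.1.1 p.1.2| ≤ ∑ p, |g p| :=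
      (abs_sum_le_sum_abs _ _).trans (sum_le_sum fun p _ => by
        rw [abs_mul]
        exact mul_le_of_le_one_right (abs_nonneg _) (abs_BB hk hH _ _ _))
    have b2 : β ^ 2 / N / (2 * √(s * β ^ 2 / N)) ≤ c := by
      have : 0 < √(t / 2 * β ^ 2 / N) := sqrt_pos.2 (by positivity)
      rw [hc]
      gcongr
      exact hs.1.le
    have b3 : |∑ l ∈ range k, r l * ∑ a, BB k (Hg k N β r s g) l a a| ≤
        ∑ l ∈ range k, |r l| * N :=
      (abs_sum_le_sum_abs _ _).trans (sum_le_sum fun l _ => by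
        rw [abs_mul]
        gcongr
        refine (abs_sum_le_sum_abs _ _).trans ?_
        simpa using sum_le_sum (s := univ) fun a _ => abs_BB hk hH l a a)
    have b4 : |(N * r (k - 1) -
        (1 / (k : ℝ)) * ∑ l ∈ range k, r l * ∑ a, BB k (Hg k N β r s g) l a a) / 2| ≤ D := by
      rw [abs_div, abs_two, hD]
      gcongr
      refine (abs_sub _ _).trans ?_
      rw [abs_mul, abs_mul, Nat.abs_cast, abs_of_nonneg (by positivity : (0 : ℝ) ≤ 1 / k)]
      gcongr
    refine (abs_sub _ _).trans ?_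
    rw [abs_mul, abs_of_nonneg (by positivity)]
    have b5 : β ^ 2 / N / (2 * √(s * β ^ 2 / N)) *
        |∑ p, g p * BB k (Hg k N β r s g) (k + 1) p.1.1 p.1.2| ≤ c * ∑ p, |g p| := by gcongr
    nlinarith

/-- dominated convergence with `cont_Fg_t`, `Fg_nonneg` -/
theorem phi_cont (hk : 0 < k) (hM : 0 < M) : Continuous fun t => phi k N β r t M := by
  refine continuous_const.mul (Continuous.log ?_ fun t => (Gue_pos (Gue_W hk) (Gue_W0 hk hM)).ne')
  refine continuous_of_dominated (bound := fun _ => 1)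
    (fun t => (continuous_exp.comp (Gue_W hk)).aestronglyMeasurable)
    (fun t => ae_of_all _ fun g => ?_) (integrable_const _)
    (ae_of_all _ fun g => continuous_exp.comp (continuous_const.mul (cont_Fg_t hk g)))
  rw [Real.norm_of_nonneg (exp_pos _).le]
  exact exp_le_one_iff.2 (Gue_W0 hk hM g)

theorem Gue_zero (hk : 0 < k) (hN : 0 < N) (hM : 0 < M) :
    phi k N β r 0 M = N * (XN k νB xB r + r (k - 1) / 2) := by
  simp only [phi, Fg_zero hk hN]
  rw [integral_const, probReal_univ, one_smul, log_exp]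
  field_simp

theorem Gue_one (hk : 0 < k) (hM : 0 < M) :
    phi k N β r 1 M = -(M⁻¹ * log (∫ g, exp (-M * FF N β g) ∂γ (Pr N))) - N * log 2 := by
  have h := Gue_pos (Gue_W (N := N) (β := β) (r := r) (t := 1) (M := M) hk) (Gue_W0 hk hM)
  have e : ∀ g, exp (-M * Fg k N β r 1 g) = exp (M * (N * log 2)) * exp (-M * FF N β g) :=
    fun g => by rw [Fg_one hk, ← exp_add]; congr 1; ring
  simp only [phi, e] at h ⊢
  rw [integral_const_mul] at h ⊢
  rw [log_mul (exp_pos _).ne' ((mul_pos_iff_of_pos_left (exp_pos _)).1 h).ne', log_exp]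
  field_simp
  ring

theorem Gue_anti (hβ : 0 < β) (hk : 0 < k) (hN : 0 < N) (hr : AdmR r) (hM : 0 < M) (h0 : 0 ≤ t)
    (h1 : t ≤ 1) : phi k N β r t M - t * (N * (β ^ 2 / 4 - r (k - 1) / 2 +
      (1 / (4 * k * β ^ 2)) * ∑ l ∈ range k, r l ^ 2)) ≤ phi k N β r 0 M := by
  set A := N * (β ^ 2 / 4 - r (k - 1) / 2 + (1 / (4 * k * β ^ 2)) * ∑ l ∈ range k, r l ^ 2)
    with hA
  have hd : ∀ s ∈ Set.Ioo (0 : ℝ) 1, HasDerivAt (fun s => phi k N β r s M - s * A) _ s :=
    fun s hs => (phi_deriv hβ hk hN hr hM hs.1 hs.2).sub (hasDerivAt_mul_const A)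
  have h := antitoneOn_of_deriv_nonpos (convex_Icc (0 : ℝ) 1)
    (f := fun s => phi k N β r s M - s * A)
    ((phi_cont hk hM).sub (continuous_id.mul continuous_const)).continuousOn
    (fun s hs => (hd s (by simpa using hs)).differentiableAt.differentiableWithinAt)
    (fun s hs => by
      rw [(hd s (by simpa using hs)).deriv]
      have p1 : 0 ≤ ∑ l ∈ range k, VV k N β r s M l := sum_nonneg fun l _ => VV_nonneg l
      have p2 := sub_nonneg.2 (one_le_YQ (β := β) (r := r) (t := s) hk hN hM)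
      have p3 : 0 ≤ N * β ^ 2 / 4 * ((1 / (k : ℝ)) * ∑ l ∈ range k, VV k N β r s M l) +
          β ^ 2 * M / 4 * (YQ k N β r s M - 1) := by positivity
      linarith)
    (⟨le_rfl, zero_le_one⟩ : (0 : ℝ) ∈ Set.Icc (0 : ℝ) 1) ⟨h0, h1⟩ h0
  simpa using h

/-- Mean value theorem on `[1 - δ, 1]`, monotonicity of `phi - t * N * A` on `[0, 1 - δ]`,
`Fg_zero`, `Fg_one`. -/
theorem guerra_neg (hβ : 0 < β) (hk : 0 < k) (hN : 0 < N) (hr : AdmR r) (hM : 0 < M) {δ : ℝ}
    (h0 : 0 < δ) (h1 : δ ≤ 1) : ∃ t ∈ Set.Ioo (1 - δ) 1,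
      δ * (N * β ^ 2 / 4 * ((1 / (k : ℝ)) * ∑ l ∈ range k, VV k N β r t M l) +
        β ^ 2 * M / 4 * (YQ k N β r t M - 1)) ≤
      N * PK β k r + M⁻¹ * log (∫ g, exp (-M * FF N β g) ∂γ (Pr N)) + N * log 2 := by
  obtain ⟨s, hs, e⟩ := exists_hasDerivAt_eq_slope (fun t => phi k N β r t M) _
    (by linarith : 1 - δ < 1) (phi_cont hk hM).continuousOn
    fun s hs => phi_deriv hβ hk hN hr hM (by linarith [hs.1]) hs.2
  refine ⟨s, hs, ?_⟩
  have h2 := Gue_anti hβ hk hN hr hM (t := 1 - δ) (by linarith) (by linarith)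
  rw [sub_sub_cancel, eq_div_iff h0.ne', Gue_one hk hM] at e
  rw [Gue_zero hk hN hM] at h2
  rw [PK]
  linarith

/-- `phi t ≤ phi 0 + t N A ≤ N β ^ 2` by `XN_nonpos` -/
theorem Z_ge (hβ : 0 < β) (hk : 0 < k) (hN : 0 < N) (hr : AdmR r) (hr' : ∀ l < k, r l ≤ β ^ 2)
    (hM : 0 < M) (h0 : 0 < t) (h1 : t < 1) :
    exp (-(M * N * β ^ 2)) ≤ ∫ g, exp (-M * Fg k N β r t g) ∂γ (Pr N) := by
  have hk' : (0 : ℝ) < k := by exact_mod_cast hk
  have hN' : (0 : ℝ) < N := by exact_mod_cast hN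
  have h2 := Gue_anti hβ hk hN hr hM h0.le h1.le
  rw [Gue_zero hk hN hM] at h2
  have h3 := XN_nonpos spin_B hk hr
  have r0 : ∀ l, 0 ≤ r l := fun l => by simpa [hr.1] using hr.2 (Nat.zero_le l)
  have h4 : ∑ l ∈ range k, r l ^ 2 ≤ k * β ^ 4 := by
    have := sum_le_card_nsmul (range k) (fun l => r l ^ 2) (β ^ 4) fun l hl => by
      calc r l ^ 2 ≤ (β ^ 2) ^ 2 := pow_le_pow_left₀ (r0 l) (hr' l (mem_range.1 hl)) 2
        _ = _ := by ring
    simpa using this
  have h5 : (1 / (4 * k * β ^ 2)) * ∑ l ∈ range k, r l ^ 2 ≤ β ^ 2 / 4 := by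
    calc _ ≤ (1 / (4 * k * β ^ 2)) * (k * β ^ 4) := by gcongr
      _ = _ := by field_simp
  have h6 := hr' (k - 1) (by omega)
  have h7 := r0 (k - 1)
  have h8 : XN k νB xB r + r (k - 1) / 2 + t * (β ^ 2 / 4 - r (k - 1) / 2 +
      (1 / (4 * k * β ^ 2)) * ∑ l ∈ range k, r l ^ 2) ≤ β ^ 2 := by
    have : t * (β ^ 2 / 4 - r (k - 1) / 2 + (1 / (4 * k * β ^ 2)) * ∑ l ∈ range k, r l ^ 2) ≤
        t * (β ^ 2 / 2) := by gcongr; linarith
    nlinarith [sq_nonneg β]
  have h9 : phi k N β r t M ≤ N * β ^ 2 := by nlinarith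
  rw [← le_log_iff_exp_le (Gue_pos (Gue_W hk) (Gue_W0 hk hM))]
  rw [phi, neg_mul, neg_le, le_inv_mul_iff₀ hM] at h9
  linarith

end

end Vale.Agent.P146L
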