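import Vale.Agent.P146L.In2

/-! The interpolating free energy as a function of the couplings. -/

set_option linter.all false

namespace Vale.Agent.P146L

open MeasureTheory ProbabilityTheory Real Finset Filter Topology Vale.Agent.P146M Vale.Agent.P146

noncomputable section

variable {N k : ℕ} {β t : ℝ} {r : ℕ → ℝ}

theorem In1_K (c : ℝ) (g : Pr N → ℝ) :
    Tendsto (fun g' : Pr N → ℝ => c * ∑ p, |g' p - g p|) (𝓝 g) (𝓝 0) :=
  Continuous.tendsto' (by fun_prop) _ _ (by simp)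

theorem In1_scale {F : ℝ → ℝ} {d : ℝ} (h : HasDerivAt F d 0) (c : ℝ) :
    HasDerivAt (fun ε => F (c * ε)) (c * d) 0 := by
  rw [mul_comm c d]
  simpa [Function.comp_def] using
    HasDerivAt.comp (0 : ℝ) (by simpa using h) ((hasDerivAt_id' (0 : ℝ)).const_mul c)

theorem In1_int (hk : 0 < k) {H : SN N → ℝ} (hH : (GS k (Fin N) (νN N)).Lin H) (a b : ℝ)
    (g : Pr N → ℝ) (w : ℕ → Fin N → ℝ) :
    ∫ s, a * (∑ p, g p * xP s.1 p) + b * (Sp sg).Hv k w s ∂mm k (νN N) H =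
      a * (∫ s, ∑ p, g p * xP s.1 p ∂mm k (νN N) H) + b * ∫ s, (Sp sg).Hv k w s ∂mm k (νN N) H := by
  rw [integral_add ((integrable_mm hk hH (ex_cf hk fun σ => ∑ p, g p * xP σ p)).const_mul _)
    ((integrable_mm hk hH ((sg_1.lin hk w).ex (gs_ok hk))).const_mul _), integral_const_mul,
    integral_const_mul]

theorem In1_U (hk : 0 < k) {H : SN N → ℝ} (hH : (GS k (Fin N) (νN N)).Lin H) (g : Pr N → ℝ) :
    ∫ s, ∑ p, g p * xP s.1 p ∂mm k (νN N) H = ∑ p, g p * BB k H (k + 1) p.1.1 p.1.2 := by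
  rw [integral_finsetSum _ fun p _ => integrable_mm hk hH (ex_cf hk fun σ => g p * xP σ p)]
  simp only [integral_const_mul, BB_top hk hH, xP]

theorem In1_V (hk : 0 < k) {H : SN N → ℝ} (hH : (GS k (Fin N) (νN N)).Lin H) {c : ℝ}
    {w : ℕ → Fin N → ℝ} (hd : ∀ j < k, ∀ i, DirD j i H fun s => c * √(w j i) * sg s.1 i) :
    ∫ s, (Sp sg).Hv k w s ∂mm k (νN N) H = c * ∑ j ∈ range k, ∑ i, √(w j i) ^ 2 *
      (1 - 1 / (k : ℝ) * ∑ l ∈ Ioo j k, BB k H l i i) := by
  have := mm_prob hk hH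
  have hY := gs_ok (I := Fin N) (ν := νN N) hk
  have hi : ∀ j ∈ range k, ∀ i, Integrable (fun s : SN N => √(w j i) * sg s.1 i * s.2 j i)
      (mm k (νN N) H) := fun j hj i => integrable_mm hk hH
    ((ex_cf hk fun σ => √(w j i) * sg σ i).mul hY ((lin_coord hk (mem_range.1 hj) i).ex hY))
  simp only [GradAux.Hv_Sp, mul_sum (s := range k), mul_sum (s := univ)]
  rw [integral_finsetSum _ fun j hj => integrable_finsetSum _ fun i _ => hi j hj i]
  refine sum_congr rfl fun j hj => ?_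
  rw [integral_finsetSum _ fun i _ => hi j hj i]
  refine sum_congr rfl fun i _ => ?_
  have h := ibp hk (mem_range.1 hj) hH (ex_cf hk fun σ => c * √(w j i) * sg σ i)
    (hd j (mem_range.1 hj) i) (ex_cf hk fun σ => sg σ i) (Sys.Ex.const hY 0)
    (DirD.config fun σ => sg σ i)
  simp only [mul_left_comm (sg _ i), integral_const_mul, ← sq, sg_sq, ← mul_sum] at h
  simp only [mul_assoc, fun s : SN N => mul_comm (sg s.1 i) (s.2 j i), integral_const_mul, h, BB]
  simp
  ring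

theorem In1_flip (hk : 0 < k) {i j : Fin N} (h : i ≠ j) :
    BB k (fun _ : SN N => 0) (k + 1) i j = 0 := by
  have h0 := Sys.Lin.const (gs_ok (I := Fin N) (ν := νN N) hk) 0
  have h3 : νB.map not = νB := Measure.ext_of_singleton fun b => by
    rw [Measure.map_apply Measurable.of_discrete (measurableSet_singleton _), id_νB,
      show not ⁻¹' {b} = {!b} by ext c; cases b <;> cases c <;> simp, id_νB]
  have hφ : MeasurePreserving (fun (σ : Cf N) a => (if a = i then not else id) (σ a)) (νN N)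
      (νN N) := measurePreserving_pi _ _ fun a => by
    split_ifs
    exacts [⟨Measurable.of_discrete, h3⟩, MeasurePreserving.id _]
  have e := BB_top hk h0 i j
  have e' := e
  rw [← mm_pull hk hφ Function.injective_id h0, integral_map (measurable_pull hφ.1).aemeasurable
    (ex_cf hk fun σ => sg σ i * sg σ j).1.aestronglyMeasurable] at e'
  have h4 : ∀ b, xB (!b) () = -xB b () := fun b => by cases b <;> simp [xB]
  simp only [pull, sg, if_true, if_neg h.symm, id, h4, neg_mul, integral_neg] at e e'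
  linarith

theorem In1_der (hk : 0 < k) {U V : SN N → ℝ} (hU : (GS k (Fin N) (νN N)).Lin U)
    (hV : (GS k (Fin N) (νN N)).Lin V) {a a' b b' : ℝ → ℝ}
    (ha : ∀ᶠ x in 𝓝 t, HasDerivAt a (a' x) x) (hb : ∀ᶠ x in 𝓝 t, HasDerivAt b (b' x) x)
    (ca : ContinuousAt a' t) (cb : ContinuousAt b' t) :
    HasDerivAt (fun x => YY k (νN N) fun s => a x * U s + b x * V s)
      (∫ s, a' t * U s + b' t * V s ∂mm k (νN N) fun s => a t * U s + b t * V s) t := by
  have hY := gs_ok (I := Fin N) (ν := νN N) hk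
  obtain ⟨W, hW, h1, h2⟩ := eventually_nhds_iff.1 (ha.and (hb.and
    ((((ha.self_of_nhds.continuousAt.abs.add ca.abs).add hb.self_of_nhds.continuousAt.abs).add
      cb.abs).eventually (gt_mem_nhds (lt_add_one _)))))
  set C := _ + (1 : ℝ)
  have hb : ∀ x ∈ W, |a x| ≤ C ∧ |a' x| ≤ C ∧ |b x| ≤ C ∧ |b' x| ≤ C := fun x hx => by
    have : |a x| + |a' x| + |b x| + |b' x| < C := (hW x hx).2.2
    refine ⟨?_, ?_, ?_, ?_⟩ <;>
      linarith [abs_nonneg (a x), abs_nonneg (a' x), abs_nonneg (b x), abs_nonneg (b' x)]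
  have f : ∀ {a a' : ℝ → ℝ} {U : SN N → ℝ}, (GS k (Fin N) (νN N)).Lin U →
      (∀ x ∈ W, HasDerivAt a (a' x) x ∧ |a x| ≤ C ∧ |a' x| ≤ C) →
      (GS k (Fin N) (νN N)).Fam W (fun x s => a x * U s) fun x s => a' x * U s := fun hU h =>
    ((Sys.Fam.mk' hY (fun _ _ => measurable_const) (fun _ _ => measurable_const)
      (fun x hx _ => (h x hx).1) (Sys.UB.of_bdd hY fun x hx _ => (h x hx).2.1)
      (Sys.UB.of_bdd hY fun x hx _ => (h x hx).2.2)).mul hY (Sys.Fam.const hY (hU.ex hY))).congr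
        (fun _ _ => rfl) fun _ _ _ => by simp
  obtain ⟨A, -, hA⟩ := hU.bd hY
  obtain ⟨B, -, hB⟩ := hV.bd hY
  refine (Sys.X_fam hY h1 ⟨(f hU fun x hx => ⟨(hW x hx).1, (hb x hx).1, (hb x hx).2.1⟩).add hY
    (f hV fun x hx => ⟨(hW x hx).2.1, (hb x hx).2.2⟩), C * (A + B), fun x hx s => ?_⟩
    (k + 1) 0).der t h2 _
  have c0 := (abs_nonneg _).trans (hb x hx).1
  refine (abs_add_le _ _).trans ?_
  rw [abs_mul, abs_mul, mul_assoc, add_mul A, mul_add C]
  exact add_le_add (mul_le_mul (hb x hx).1 (hA s) (abs_nonneg _) c0)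
    (mul_le_mul (hb x hx).2.2.1 (hB s) (abs_nonneg _) c0)

theorem lin_Hg (hk : 0 < k) (g : Pr N → ℝ) : (GS k (Fin N) (νN N)).Lin (Hg k N β r t g) :=
  ((In2_lin hk fun σ => ∑ p, g p * xP σ p).const_mul _).add ((sg_1.lin hk _).const_mul _)

theorem Hg_shift (g : Pr N → ℝ) (p : Pr N) (ε : ℝ) : Hg k N β r t (g + Pi.single p ε) =
    fun s => Hg k N β r t g s + √(t * β ^ 2 / N) * ε * (sg s.1 p.1.1 * sg s.1 p.1.2) := by
  funext s
  simp only [Hg, Pi.add_apply, add_mul, sum_add_distrib, Pi.single_apply, ite_mul, zero_mul,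
    sum_ite_eq', mem_univ, if_true, xP]
  ring

theorem Hg_sub (g g' : Pr N → ℝ) (s : SN N) :
    |Hg k N β r t g s - Hg k N β r t g' s| ≤ √(t * β ^ 2 / N) * ∑ p, |g p - g' p| := by
  rw [Hg, Hg, add_sub_add_right_eq_sub, ← mul_sub, ← sum_sub_distrib, abs_mul,
    abs_of_nonneg (sqrt_nonneg _)]
  refine mul_le_mul_of_nonneg_left ((abs_sum_le_sum_abs _ _).trans_eq
    (sum_congr rfl fun p _ => ?_)) (sqrt_nonneg _)
  rw [← sub_mul, abs_mul, sg_P.abs, mul_one]

/-- `Sys.le_X_sub` with the zero Hamiltonian; under `mm k ν 0` the mean of `Hg` vanishes (for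
instance by `ibp` with `H = 0`, and `D`-free symmetry `σ i ↦ -σ i`; or compare with the `g`-free
part: `Sys.le_X_sub` from `H0 = 0` in two steps, `Yv_nonneg`, `mm_pull` for the spin flip). -/
theorem Fg_nonneg (hk : 0 < k) (g : Pr N → ℝ) : 0 ≤ Fg k N β r t g := by
  have hY := gs_ok (I := Fin N) (ν := νN N) hk
  have h0 := Sys.Lin.const hY 0
  have h := Sys.le_X_sub hY h0 (lin_Hg (β := β) (t := t) (r := r) hk g) (k + 1) 0 (s0 _ _)
  rw [Sys.X_const hY, sub_zero] at h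
  refine le_trans (le_of_eq (Eq.symm ?_)) h
  change ∫ s, _ ∂mm k (νN N) (fun _ => 0) = 0
  simp only [sub_zero, Hg]
  rw [In1_int hk h0, In1_U hk h0, In1_V hk h0 (c := 0) fun _ _ _ => by simpa using DirD.const 0]
  simp [fun p : Pr N => In1_flip hk p.2.ne]

/-- `Sys.dl_abs_le` -/
theorem cont_Fg (hk : 0 < k) : Continuous (Fg k N β r t) :=
  continuous_iff_continuousAt.2 fun g => tendsto_iff_norm_sub_tendsto_zero.2
    (squeeze_zero (fun _ => norm_nonneg _) (fun g' => Sys.dl_abs_le (gs_ok hk) (lin_Hg hk g)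
      (lin_Hg hk g') (Hg_sub g' g) _ _ _) (In1_K _ g))

/-- `Sys.CLpr` (or `ef_close`) with `Hg_sub` -/
theorem cont_pp (hk : 0 < k) (G : Cf N → Cf N → ℝ) {l : ℕ} (hl : l ≤ k + 1) :
    Continuous fun g => ∫ p, G p.1.1 p.2.1 ∂pp k (νN N) (Hg k N β r t g) l := by
  have hY := gs_ok (I := Fin N) (ν := νN N) hk
  set B := 1 + ∑ q : Cf N × Cf N, |G q.1 q.2|
  have hB : 0 < B := by positivity
  have e : ∀ g, ∫ p, G p.1.1 p.2.1 ∂pp k (νN N) (Hg k N β r t g) l =
      B * ∫ p, B⁻¹ * G p.1.1 p.2.1 ∂pp k (νN N) (Hg k N β r t g) l := fun g => by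
    rw [integral_const_mul, mul_inv_cancel_left₀ hB.ne']
  simp only [e]
  refine continuous_const.mul (continuous_iff_continuousAt.2 fun g =>
    tendsto_iff_norm_sub_tendsto_zero.2 (squeeze_zero (fun _ => norm_nonneg _) (fun g' =>
      Sys.CLpr hY gs_mono (lin_Hg hk g) (lin_Hg hk g') ?_ (fun p => ?_) _ _ _ _
        (A := exp (4 * (√(t * β ^ 2 / N) * ∑ p, |g' p - g p|))) ?_) ?_))
  · exact ((Measurable.of_discrete (f := fun q : Cf N × Cf N => G q.1 q.2)).comp
      (measurable_fst.fst.prodMk measurable_snd.fst)).const_mul _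
  · rw [abs_mul, abs_of_pos (inv_pos.2 hB), inv_mul_le_iff₀ hB, mul_one]
    exact le_add_of_nonneg_of_le zero_le_one (single_le_sum
      (f := fun q : Cf N × Cf N => |G q.1 q.2|) (fun _ _ => abs_nonneg _) (mem_univ (p.1.1, p.2.1)))
  · have := Sys.m_prob hY (lin_Hg (β := β) (t := t) (r := r) hk g) (l + (k + 1 - l)) 0 (s0 _ _)
    refine (Sys.dl_P_mono hY (lin_Hg hk g) (Sys.dl_e_ex hY (lin_Hg hk g) (lin_Hg hk g'))
      (Sys.Ex.const hY _) (fun s => exp_le_exp.2 (mul_le_mul_of_nonneg_left (Hg_sub g' g s)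
        (by norm_num))) _ _ _).trans_eq ?_
    simp [Sys.P]
  · exact ((by fun_prop : Continuous fun x : ℝ => 6 * exp (4 * x) * √(exp (4 * x) - 1)).tendsto'
      0 0 (by simp)).comp (In1_K (√(t * β ^ 2 / N)) g)

theorem Fg_dir (hk : 0 < k) (g : Pr N → ℝ) (p : Pr N) :
    HasDerivAt (fun ε : ℝ => Fg k N β r t (g + Pi.single p ε))
      (√(t * β ^ 2 / N) * BB k (Hg k N β r t g) (k + 1) p.1.1 p.1.2) 0 := by
  simpa only [Fg, Hg_shift] using In1_scale (YY_deriv hk (lin_Hg hk g) p.1.1 p.1.2) _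

theorem BB_dir (hk : 0 < k) (g : Pr N → ℝ) (p : Pr N) {l : ℕ} (hl : l < k) (a c : Fin N) :
    HasDerivAt (fun ε : ℝ => BB k (Hg k N β r t (g + Pi.single p ε)) l a c)
      (√(t * β ^ 2 / N) * dB k (Hg k N β r t g) l a c p.1.1 p.1.2) 0 := by
  simpa only [Hg_shift] using In1_scale (BB_deriv hk (lin_Hg hk g) hl a c p.1.1 p.1.2) _

theorem BBd_dir (hk : 0 < k) (g : Pr N → ℝ) (p : Pr N) (a c : Fin N) :
    HasDerivAt (fun ε : ℝ => BB k (Hg k N β r t (g + Pi.single p ε)) (k + 1) a c)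
      (√(t * β ^ 2 / N) * dBd k (Hg k N β r t g) a c p.1.1 p.1.2) 0 := by
  simpa only [Hg_shift] using In1_scale (BBd_deriv hk (lin_Hg hk g) a c p.1.1 p.1.2) _

/-- `Sys.X_tendsto` -/
theorem cont_Fg_t (hk : 0 < k) (g : Pr N → ℝ) : Continuous fun t => Fg k N β r t g := by
  have hY := gs_ok (I := Fin N) (ν := νN N) hk
  obtain ⟨A, -, hA⟩ := (In2_lin hk fun σ => ∑ p, g p * xP σ p).bd hY
  obtain ⟨B, -, hB⟩ := (sg_1.lin hk (wS (Fin N) k r)).bd hY
  refine continuous_iff_continuousAt.2 fun t => Sys.X_tendsto hY gs_mono.2 (lin_Hg hk g)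
    (ω := fun x => |√(x * β ^ 2 / N) - √(t * β ^ 2 / N)| * A + |√(1 - x) - √(1 - t)| * B)
    (Continuous.tendsto' (by fun_prop) _ _ (by simp))
    (.of_forall fun x => ⟨(lin_Hg hk g).1, fun s => ?_⟩) _ _ _
  rw [Hg, Hg, add_sub_add_comm, ← sub_mul, ← sub_mul, add_mul, mul_assoc, mul_assoc]
  refine (abs_add_le _ _).trans ?_
  rw [abs_mul, abs_mul]
  exact add_le_add (mul_le_mul_of_nonneg_left (hA s) (abs_nonneg _))
    (mul_le_mul_of_nonneg_left (hB s) (abs_nonneg _))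

/-- `XN_blk`, `Hv_pull`, `YY_pull` (as in `guerra`, with `Fin N × Unit ≃ Fin N`) -/
theorem Fg_zero (hk : 0 < k) (hN : 0 < N) (g : Pr N → ℝ) :
    Fg k N β r 0 g = N * (XN k νB xB r + r (k - 1) / 2) := by
  have hN' : (0 : ℝ) < N := by exact_mod_cast hN
  have : Nonempty (Fin N) := ⟨⟨0, hN⟩⟩
  have hx : Sg (νN N) (blk (Fin N) xB) := ⟨inferInstance, Measurable.of_discrete, fun σ i => xB_sq _⟩
  have hc : Function.Injective (Prod.fst : Fin N × Unit → Fin N) := fun a b h => Prod.ext h rfl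
  have e1 := XN_blk spin_B hk (Fin N) r
  rw [XN, Fintype.card_prod, Fintype.card_unit, mul_one, Fintype.card_fin, sub_eq_iff_eq_add,
    div_eq_iff hN'.ne'] at e1
  have e : Hg k N β r 0 g = (Sp sg).Hv k (wS (Fin N) k r) := funext fun s => by simp [Hg]
  rw [Fg, e, Hv_pull (x := blk (Fin N) xB) (φ := id) hc (fun _ _ => rfl) (w := wS _ k r)
    (fun _ _ _ => rfl) fun _ _ i h => absurd ⟨(i, ()), rfl⟩ h,
    YY_pull hk (MeasurePreserving.id _) hc (hx.lin hk _), mul_comm]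
  exact e1

/-- `Sys.X_add`, `id_T`, `Sys.X_const`; see `YP_eq` for the sum over configurations -/
theorem Fg_one (hk : 0 < k) (g : Pr N → ℝ) : Fg k N β r 1 g = FF N β g - N * log 2 := by
  have e : (GS k (Fin N) (νN N)).X 1 k (Hg k N β r 1 g) = fun _ => FF N β g - N * log 2 :=
    funext fun s => by
      rw [id_T hk, integral_fintype Integrable.of_finite, FF, FG, lse, ← log_pow,
        ← log_div (Z_pos _).ne' (by positivity), sum_div]
      congr 1
      refine sum_congr rfl fun σ _ => ?_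
      simp [measureReal_def, νN, id_νB, Finset.sum_apply, div_eq_inv_mul, Hg, mul_sum,
        mul_left_comm]
  rw [Fg, YY, Sys.X_add, zero_add, e, Sys.X_const (gs_ok hk)]

/-- `Sys.X_fam` for an `LFam` on a small interval around `t`; then `ibp` for the field part:
`E (s.2 j i * σ i) = √(1 - t) √(w j) (1 - (1 / k) ∑_{j < l < k} pp l (σ i σ' i))`
(`DirD` calculus, `GradAux.Hv_Sp`, `gi_swap`, `GradAux.tele`). -/
theorem Fg_t (hk : 0 < k) (hN : 0 < N) (hr : AdmR r) (h0 : 0 < t) (h1 : t < 1) (hβ : 0 < β)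
    (g : Pr N → ℝ) : HasDerivAt (fun t => Fg k N β r t g)
      (β ^ 2 / N / (2 * √(t * β ^ 2 / N)) *
        (∑ p, g p * BB k (Hg k N β r t g) (k + 1) p.1.1 p.1.2) - (N * r (k - 1) -
        (1 / (k : ℝ)) * ∑ l ∈ range k, r l * ∑ a, BB k (Hg k N β r t g) l a a) / 2) t := by
  have hN' : (0 : ℝ) < N := by exact_mod_cast hN
  have h2 : 0 < 1 - t := sub_pos.2 h1
  have d := In1_der hk (In2_lin hk fun σ => ∑ p, g p * xP σ p) (sg_1.lin hk (wS (Fin N) k r))
    (a := fun x => √(x * β ^ 2 / N)) (a' := fun x => β ^ 2 / N / (2 * √(x * β ^ 2 / N)))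
    (b := fun x => √(1 - x)) (b' := fun x => -1 / (2 * √(1 - x))) (t := t)
    ((lt_mem_nhds h0).mono fun x hx => by
      simpa using (((hasDerivAt_id' x).mul_const (β ^ 2)).div_const (N : ℝ)).sqrt (by positivity))
    ((gt_mem_nhds h1).mono fun x hx => ((hasDerivAt_id' x).const_sub 1).sqrt (sub_pos.2 hx).ne')
    (continuousAt_const.div (by fun_prop) (by positivity))
    (continuousAt_const.div (by fun_prop) (by positivity))
  refine d.congr_deriv ?_
  have hH := lin_Hg (β := β) (t := t) (r := r) hk g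
  change ∫ s, _ ∂mm k (νN N) (Hg k N β r t g) = _
  rw [In1_int hk hH, In1_U hk hH, In1_V hk hH (c := √(1 - t)) fun j hj i =>
    (((DirD.config fun σ => ∑ p, g p * xP σ p).const_mul _).add ((Rg.dirD_H sg_1.ok _ hj i).const_mul
      _)).congr (fun _ => rfl) fun s => by simp [Sp, mul_assoc]]
  have e : ∑ j ∈ range k, ∑ i : Fin N, √(wS (Fin N) k r j i) ^ 2 * (1 - 1 / (k : ℝ) *
      ∑ l ∈ Ioo j k, BB k (Hg k N β r t g) l i i) = N * r (k - 1) -
        (1 / (k : ℝ)) * ∑ l ∈ range k, r l * ∑ a, BB k (Hg k N β r t g) l a a := by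
    simp only [sq_sqrt (GradAux.wS_nonneg hr.2 _ _)]
    simp only [wS, mul_sub, sum_sub_distrib, mul_one, sum_const, card_univ, Fintype.card_fin,
      nsmul_eq_mul, ← mul_sum, GradAux.tele' r hk, hr.1, mul_zero, sub_zero,
      mul_left_comm _ (1 / (k : ℝ)), sum_comm (s := univ)]
    congr 2
    simp only [mul_sum (s := Ioo _ _)]
    rw [gi_swap]
    refine sum_congr rfl fun l hl => ?_
    rw [← sum_mul, GradAux.tele r (mem_range.1 hl), hr.1, sub_zero]
  have h3 : √(1 - t) ≠ 0 := by positivity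
  rw [e]
  field_simp
  ring

end

end Vale.Agent.P146L
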