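import Vale.Agent.P146L.Rep

/-! Derivatives of the overlap matrices in the direction of a coupling. -/

set_option linter.all false

namespace Vale.Agent.P146L

open MeasureTheory ProbabilityTheory Real Finset Filter Topology Vale.Agent.P146M Vale.Agent.P146

noncomputable section

variable {N k : ℕ} {H : SN N → ℝ}

/-! Use the family `H + ε h`, `h = σ i σ j` (an `LFam` on `Ioo (-1) 1`, see `var_contact` in
`P146/Lin.lean`), `Sys.X_fam`, `Sys.P_fam`, `Sys.Fam.mul`, and at `ε = 0` the formulas `D_s0`,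
`integral_DD`, `Sys.D_pull`, `Sys.P_pull`, `integral_pp_mul`, `integral_mul_PP`, `cross`.
For `r < k`, with `BB r a c = E (M^r a M^r c)`: the derivative is
`E (DD r (σ a) h * M^r c) + E (M^r a * DD r (σ c) h) + E (M^r a M^r c h) -
(1 / k) ∑_{l < k} E (PP l (M^r a M^r c) C^l)`;
`E (DD r (σ a) h * M^r c) = tri (k+1) r (k+1) - (r+1)/k tri r r r - (1/k) ∑_{r<l<k} tri l r l`,
`E (M^r a M^r c h) = tri r r r`, and the `l`-th term is `tri r r l`, equal to `tri r r r` if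
`l ≥ r`. The formulas were checked numerically. -/

theorem In2_lin (hk : 0 < k) (f : Cf N → ℝ) : (GS k (Fin N) (νN N)).Lin fun s => f s.1 :=
  Sys.Lin.of_bdd (gs_ok hk) (Measurable.of_discrete.comp measurable_fst) (∑ σ, |f σ|) fun s =>
    single_le_sum (f := fun σ => |f σ|) (fun _ _ => abs_nonneg _) (mem_univ _)

theorem In2_lfam (hk : 0 < k) {h : SN N → ℝ} (hH : (GS k (Fin N) (νN N)).Lin H)
    (hh : (GS k (Fin N) (νN N)).Lin h) :
    (GS k (Fin N) (νN N)).LFam (Set.Ioo (-1) 1) (fun t s => H s + t * h s) fun _ => h := by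
  have hY := gs_ok (I := Fin N) (ν := νN N) hk
  obtain ⟨C1, h1, hC1⟩ := hH.bd hY
  obtain ⟨C2, h2, hC2⟩ := hh.bd hY
  have f0 : (GS k (Fin N) (νN N)).Fam (Set.Ioo (-1) 1) (fun t _ => t) fun _ _ => 1 :=
    Sys.Fam.mk' hY (fun _ _ => measurable_const) (fun _ _ => measurable_const)
      (fun t _ _ => hasDerivAt_id' t)
      (Sys.UB.of_bdd hY (C := 1) fun t ht _ => abs_le.2 ⟨ht.1.le, ht.2.le⟩) (Sys.UB.cst hY 1)
  exact ⟨((Sys.Fam.const hY (hH.ex hY)).add hY (f0.mul hY (Sys.Fam.const hY (hh.ex hY)))).congr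
    (fun _ _ => rfl) fun _ _ _ => by simp, C1 + C2, fun t ht s => by
      have a1 : |t| ≤ 1 := abs_le.2 ⟨ht.1.le, ht.2.le⟩
      refine (abs_add_le _ _).trans ?_
      rw [abs_mul]
      nlinarith [hC1 s, hC2 s, abs_nonneg (h s), abs_nonneg t]⟩

theorem In2_mm (hk : 0 < k) {h : SN N → ℝ} (hH : (GS k (Fin N) (νN N)).Lin H)
    (hh : (GS k (Fin N) (νN N)).Lin h) {g g' : ℝ → SN N → ℝ}
    (hg : (GS k (Fin N) (νN N)).Fam (Set.Ioo (-1) 1) g g') :
    HasDerivAt (fun ε => ∫ s, g ε s ∂mm k (νN N) fun s => H s + ε * h s)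
      ((∫ s, g' 0 s ∂mm k (νN N) H) + ((∫ s, g 0 s * h s ∂mm k (νN N) H) -
        (1 / (k : ℝ)) * ∑ l ∈ range k, ∫ p, g 0 p.1 * h p.2 ∂pp k (νN N) H l)) 0 := by
  have d := (Sys.P_fam (gs_ok hk) isOpen_Ioo (In2_lfam hk hH hh) hg (k + 1) 0).der 0 (by simp)
    (s0 _ _)
  simp only [zero_mul, add_zero] at d
  rw [← D_s0 hk hH (hg.ex (by simp)) (hh.ex (gs_ok hk))]
  exact d

theorem In2_Ml (a : Fin N) : Ml k H (k + 1) a = fun s => sg s.1 a := PP_top fun σ => sg σ a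

theorem In2_Cl (i j : Fin N) : Cl k H (k + 1) i j = fun s => sg s.1 i * sg s.1 j :=
  PP_top fun σ => sg σ i * sg σ j

theorem In2_swap (l1 l2 l3 : ℕ) (a c i j : Fin N) :
    tri k H l1 l2 l3 a c i j = tri k H l2 l1 l3 c a i j := by
  simp only [tri, mul_comm (Ml k H l1 a _)]

theorem In2_inv (hk : 0 < k) (hH : (GS k (Fin N) (νN N)).Lin H) {r l : ℕ} (h1 : r ≤ l)
    (h2 : l ≤ k + 1) (g : SN N → ℝ) :
    (GS k (Fin N) (νN N)).Inv (k + 1 - l) l (PP k (νN N) H r g) :=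
  fun m a b => inv_PP hk hH r m (h1.trans a) (by omega)

theorem In2_tri (hk : 0 < k) (hH : (GS k (Fin N) (νN N)).Lin H) {l1 l2 l3 : ℕ} (h1 : l1 ≤ k + 1)
    (h2 : l2 ≤ k + 1) (h3 : l3 ≤ k + 1) (a c i j : Fin N) : tri k H l1 l2 l3 a c i j =
      ∫ p, Ml k H l1 a p.1 * Ml k H l2 c p.1 * (sg p.2.1 i * sg p.2.1 j) ∂pp k (νN N) H l3 := by
  have e1 := (ex_PP hk hH (ex_cf hk fun σ : Cf N => sg σ a) l1).mul (gs_ok hk)
    (ex_PP hk hH (ex_cf hk fun σ : Cf N => sg σ c) l2)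
  have e2 := ex_cf hk fun σ : Cf N => sg σ i * sg σ j
  refine ((congrArg _ (funext fun s => mul_comm _ _)).trans
    (integral_mul_PP hk hH (ex_PP hk hH e2 l3) e1 h3 (inv_PP hk hH l3))).trans ?_
  exact (congrArg _ (funext fun s => mul_comm _ _)).trans (integral_pp_mul hk hH e1 e2 h3).symm

theorem In2_dBd (hk : 0 < k) (hH : (GS k (Fin N) (νN N)).Lin H) (a c i j : Fin N) :
    dBd k H a c i j = (∫ s, sg s.1 a * sg s.1 c * (sg s.1 i * sg s.1 j) ∂mm k (νN N) H) -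
      (1 / (k : ℝ)) * ∑ l ∈ range k,
        ∫ p, sg p.1.1 a * sg p.1.1 c * (sg p.2.1 i * sg p.2.1 j) ∂pp k (νN N) H l := by
  rw [dBd, sum_congr rfl fun l (hl : l ∈ range k) => In2_tri hk hH le_rfl le_rfl
    ((mem_range.1 hl).le.trans k.le_succ) a c i j]
  simp only [tri, In2_Ml, In2_Cl]

theorem In2_side (hk : 0 < k) (hH : (GS k (Fin N) (νN N)).Lin H) {r : ℕ} (hr : r < k)
    (a c i j : Fin N) : ∫ s, Ml k H r c s * DD k (νN N) H r (fun s => sg s.1 a)
      (fun s => sg s.1 i * sg s.1 j) s ∂mm k (νN N) H = tri k H (k + 1) r (k + 1) a c i j -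
        ((r : ℝ) + 1) / k * tri k H r r r a c i j -
          (1 / (k : ℝ)) * ∑ l ∈ Ioo r k, tri k H l r l a c i j := by
  have hY := gs_ok (I := Fin N) (ν := νN N) hk
  have e0 := ex_cf hk fun σ : Cf N => sg σ a
  have e1 := ex_PP hk hH (ex_cf hk fun σ : Cf N => sg σ c) r
  have e2 := ex_cf hk fun σ : Cf N => sg σ i * sg σ j
  have h := integral_DD hk hH (e1.mul hY e0) e2 hr.le
  have hp : ∀ l, r ≤ l → l ≤ k → ∫ p, PP k (νN N) H r (fun s => sg s.1 c) p.1 * sg p.1.1 a *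
      (sg p.2.1 i * sg p.2.1 j) ∂pp k (νN N) H l = tri k H l r l a c i j := fun l a b => by
    rw [integral_pp_mul hk hH (e1.mul hY e0) e2 (by omega), In2_swap]
    exact congrArg _ (funext fun s => congrArg (· * _)
      (Sys.P_pull hY hH e1.1 (In2_inv hk hH a (by omega) _) _ s))
  rw [hp r le_rfl hr.le, sum_congr rfl fun l hl => hp l (mem_Ioo.1 hl).1.le (mem_Ioo.1 hl).2.le,
    min_eq_right ((div_le_one (by exact_mod_cast hk)).2 (by exact_mod_cast hr))] at h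
  rw [In2_swap (k + 1), tri, In2_Ml, In2_Cl]
  exact (congrArg _ (funext fun s => (Sys.D_pull hY hH e1 (inv_PP hk hH r) e0 e2 s).symm)).trans h

theorem YY_deriv (hk : 0 < k) (hH : (GS k (Fin N) (νN N)).Lin H) (i j : Fin N) :
    HasDerivAt (fun ε : ℝ => YY k (νN N) fun s => H s + ε * (sg s.1 i * sg s.1 j))
      (BB k H (k + 1) i j) 0 := by
  have d := (Sys.X_fam (gs_ok hk) isOpen_Ioo (In2_lfam hk hH (In2_lin hk fun σ => sg σ i * sg σ j))
    (k + 1) 0).der 0 (by simp) (s0 _ _)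
  simp only [zero_mul, add_zero] at d
  rw [BB_top hk hH]
  exact d

theorem BBd_deriv (hk : 0 < k) (hH : (GS k (Fin N) (νN N)).Lin H) (a c i j : Fin N) :
    HasDerivAt (fun ε : ℝ => BB k (fun s => H s + ε * (sg s.1 i * sg s.1 j)) (k + 1) a c)
      (dBd k H a c i j) 0 := by
  have hh := In2_lin hk fun σ : Cf N => sg σ i * sg σ j
  have d := In2_mm hk hH hh (Sys.Fam.const (gs_ok hk) (ex_cf hk fun σ => sg σ a * sg σ c))
  simp only [← BB_top hk (hH.add (hh.const_mul _)), integral_zero, zero_add] at d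
  rwa [In2_dBd hk hH]

theorem BB_deriv (hk : 0 < k) (hH : (GS k (Fin N) (νN N)).Lin H) {r : ℕ} (hr : r < k)
    (a c i j : Fin N) :
    HasDerivAt (fun ε : ℝ => BB k (fun s => H s + ε * (sg s.1 i * sg s.1 j)) r a c)
      (dB k H r a c i j) 0 := by
  have hY := gs_ok (I := Fin N) (ν := νN N) hk
  have hk' : (k : ℝ) ≠ 0 := by positivity
  have hh := In2_lin hk fun σ : Cf N => sg σ i * sg σ j
  have f := fun a => Sys.P_fam hY isOpen_Ioo (In2_lfam hk hH hh)
    (Sys.Fam.const hY (ex_cf hk fun σ => sg σ a)) (k + 1 - r) r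
  have d := In2_mm hk hH hh ((f a).mul hY (f c))
  have hr' : r ≤ k + 1 := by omega
  have eM := fun l a => ex_PP hk hH (ex_cf hk fun σ : Cf N => sg σ a) l
  have eD := fun a => ex_DD hk hH (ex_cf hk fun σ : Cf N => sg σ a) (hh.ex hY) r
  have hi : ∀ l, r ≤ l → l ≤ k + 1 → ∫ s, Ml k H r a s * Ml k H r c s * (sg s.1 i * sg s.1 j)
      ∂mm k (νN N) H = tri k H r r l a c i j := fun l h1 h2 =>
    integral_mul_PP hk hH ((eM r a).mul hY (eM r c)) (hh.ex hY) h2 fun m a b s w =>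
      congrArg₂ (· * ·) (In2_inv hk hH h1 h2 _ m a b s w) (In2_inv hk hH h1 h2 _ m a b s w)
  have p0 : ∀ s, (GS k (Fin N) (νN N)).P (k + 1 - r) r H (fun _ => 0) s = 0 := fun s => by
    simp [Sys.P]
  simp only [zero_mul, add_zero, p0, zero_add] at d
  refine (d.congr_deriv ?_).congr_of_eventuallyEq (.of_forall fun ε => integral_pp_mul hk
    (hH.add (hh.const_mul ε)) (ex_cf hk fun σ => sg σ a) (ex_cf hk fun σ => sg σ c) hr')
  have e1 := integral_add (integrable_mm hk hH ((eD a).mul hY (eM r c)))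
    (integrable_mm hk hH ((eM r a).mul hY (eD c)))
  have e2 := (congrArg (integral _) (funext fun s => mul_comm _ _)).trans (In2_side hk hH hr a c i j)
  have e3 := In2_side hk hH hr c a i j
  have e4 : ∑ l ∈ range k, ∫ p, Ml k H r a p.1 * Ml k H r c p.1 * (sg p.2.1 i * sg p.2.1 j)
      ∂pp k (νN N) H l = ∑ l ∈ range r, tri k H r r l a c i j + (k - r) * tri k H r r r a c i j := by
    rw [sum_congr rfl fun l (hl : l ∈ range k) => (In2_tri hk hH hr' hr'
      ((mem_range.1 hl).le.trans k.le_succ) a c i j).symm, ← sum_range_add_sum_Ico _ hr.le,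
      sum_congr rfl fun l (hl : l ∈ Ico r k) => ((hi l (mem_Ico.1 hl).1
        ((mem_Ico.1 hl).2.le.trans k.le_succ)).symm.trans (hi r le_rfl hr'))]
    simp [Nat.cast_sub hr.le]
  simp only [In2_swap _ _ _ c a] at e3
  refine (congrArg₂ (· + ·) (e1.trans (congrArg₂ (· + ·) e2 e3))
    (congrArg₂ (· - ·) (hi r le_rfl hr') (congrArg _ e4))).trans ?_
  simp only [dB, sum_add_distrib]
  field_simp
  ring

theorem dBd_self (hk : 0 < k) (hH : (GS k (Fin N) (νN N)).Lin H) (i j : Fin N) :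
    dBd k H i j i j = 1 - (1 / (k : ℝ)) * ∑ l ∈ range k,
      ∫ p, (sg p.1.1 i * sg p.1.1 j) * (sg p.2.1 i * sg p.2.1 j) ∂pp k (νN N) H l := by
  have := mm_prob hk hH
  rw [In2_dBd hk hH]
  simp [← sq, mul_pow, sg_sq]

end

end Vale.Agent.P146L
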