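import Vale.Agent.P146L.Defs

/-! The tilted Gaussian step: basic facts and derivatives. -/

set_option linter.all false

namespace Vale.Agent.P146L

open MeasureTheory ProbabilityTheory Real Finset Filter Topology Vale.Agent.P146M Vale.Agent.P146

noncomputable section

variable {ζ v : ℝ} {Φ f : ℝ → ℝ}

/-! `Gr f` is by definition `(R1 ζ v).Ex f` and `(RS k w).Ex f`; `stp ζ v Φ` is `(R1 ζ v).T 0 Φ`;
`(RS k w).stepM j Φ x = Km ((RS k w).ζ j) (w j) Φ x` holds by `rfl`. Use the `Sys` lemmas of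
`P146M/Core1.lean`, `Core2.lean`, `Deriv.lean` (`T_fam`, `step_fam` with the families
`t ↦ Φ (· + t)`, `t ↦ f (· + t)`). -/

theorem r1_ok (hζ : 0 < ζ) (v : ℝ) : (R1 ζ v).OK where
  prob := inferInstanceAs (IsProbabilityMeasure (gaussianReal 0 1))
  meas_a j := by unfold R1; fun_prop
  ζ_pos _ := hζ
  meas_ν := measurable_abs
  ν_nonneg := abs_nonneg
  meas_n j := by unfold R1; fun_prop
  n_nonneg j w := mul_nonneg (sqrt_nonneg _) (abs_nonneg _)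
  ν_a j s w := (abs_add_le _ _).trans_eq (by rw [abs_mul, abs_of_nonneg (sqrt_nonneg _)]; rfl)
  int_n j C := by simpa only [R1, mul_assoc] using int_eabs (C * √v)

theorem k1_lip {g : ℝ → ℝ} (hd : Differentiable ℝ g) {C : ℝ} (hb : ∀ x, |deriv g x| ≤ C)
    (x y : ℝ) : |g x - g y| ≤ C * |x - y| :=
  Convex.norm_image_sub_le_of_norm_deriv_le (𝕜 := ℝ) (s := Set.univ) (fun x _ => hd x)
    (fun x _ => hb x) convex_univ (Set.mem_univ y) (Set.mem_univ x)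

theorem k1_ok : (R1 1 0).OK := r1_ok one_pos 0

theorem Lp.lip (h : Lp Φ) (x y : ℝ) : |Φ x - Φ y| ≤ |x - y| := by
  simpa using k1_lip h.d0 h.b0 x y

theorem Lp.lin (h : Lp Φ) (ζ v : ℝ) : (R1 ζ v).Lin Φ := by
  refine ⟨h.d0.continuous.measurable, 1 + |Φ 0|, fun s => ?_⟩
  have h1 := h.lip s 0
  have h2 := abs_sub_abs_le_abs_sub (Φ s) (Φ 0)
  rw [sub_zero] at h1
  show |Φ s| ≤ (1 + |Φ 0|) * (1 + |s|)
  nlinarith [abs_nonneg s, abs_nonneg (Φ 0), mul_nonneg (abs_nonneg s) (abs_nonneg (Φ 0))]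

theorem Gr.bdd (hf : Measurable f) {C : ℝ} (h : ∀ y, |f y| ≤ C) : Gr f :=
  Sys.Ex.of_bdd k1_ok hf C h

theorem Gr.poly (hf : Measurable f) {C : ℝ} {p : ℕ} (h : ∀ y, |f y| ≤ C * (1 + |y|) ^ p) :
    Gr f := by
  refine ⟨hf, |C| + p, fun y => (h y).trans ?_⟩
  have h1 : (1 + |y|) ^ p ≤ exp ((|C| + p) * |y|) := by
    refine (pow_le_pow_left₀ (by positivity) (by linarith [add_one_le_exp |y|]) p :
      _ ≤ exp |y| ^ p).trans ?_
    rw [← exp_nat_mul, exp_le_exp]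
    nlinarith [mul_nonneg (abs_nonneg C) (abs_nonneg y)]
  exact mul_le_mul ((le_abs_self C).trans (le_add_of_nonneg_right (Nat.cast_nonneg p))) h1
    (by positivity) (by positivity)

theorem Gr.add {g : ℝ → ℝ} (hf : Gr f) (hg : Gr g) : Gr fun y => f y + g y :=
  Sys.Ex.add k1_ok hf hg

theorem Gr.sub {g : ℝ → ℝ} (hf : Gr f) (hg : Gr g) : Gr fun y => f y - g y :=
  Sys.Ex.sub k1_ok hf hg

theorem Gr.mul {g : ℝ → ℝ} (hf : Gr f) (hg : Gr g) : Gr fun y => f y * g y :=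
  Sys.Ex.mul k1_ok hf hg

theorem Gr.pow (hf : Gr f) (p : ℕ) : Gr fun y => f y ^ p := by
  induction p with
  | zero =>
    simp only [pow_zero]
    exact Sys.Ex.const k1_ok 1
  | succ p ih => simpa only [pow_succ] using ih.mul hf

theorem Gr.abs (hf : Gr f) : Gr fun y => |f y| := Sys.Ex.abs (Y := R1 1 0) hf

theorem Gr.const (c : ℝ) : Gr fun _ => c := Sys.Ex.const k1_ok c

theorem Gr.id : Gr fun y => y :=
  Gr.poly measurable_id (C := 1) (p := 1) fun y => by simp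

theorem Lp.gr (h : Lp Φ) : Gr Φ := Sys.Lin.ex k1_ok (h.lin 1 0)

theorem Lp.gr1 (h : Lp Φ) : Gr (D1 Φ) := Gr.bdd (measurable_deriv Φ) h.b0

theorem Km_prob (hζ : 0 < ζ) (h : Lp Φ) (v x : ℝ) : IsProbabilityMeasure (Km ζ v Φ x) :=
  Sys.stepM_prob (r1_ok hζ v) (h.lin ζ v) 0 x

theorem Gr.int (hf : Gr f) (hζ : 0 < ζ) (h : Lp Φ) (v x : ℝ) : Integrable f (Km ζ v Φ x) :=
  Sys.Ex.integrable_stepM (r1_ok hζ v) (h.lin ζ v) hf 0 x

theorem Gr.K (hf : Gr f) (hζ : 0 < ζ) (h : Lp Φ) (v : ℝ) : Gr (Kst ζ v Φ f) :=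
  Sys.ex_stepM (r1_ok hζ v) (h.lin ζ v) hf 0

theorem Kst_eq (hζ : 0 < ζ) (h : Lp Φ) (hf : Measurable f) (v x : ℝ) : Kst ζ v Φ f x =
    ∫ z, exp (ζ * (Φ (x + √v * z) - stp ζ v Φ x)) * f (x + √v * z) ∂γ1 :=
  Sys.integral_stepM (r1_ok hζ v) (h.lin ζ v) 0 x hf

theorem exp_stp (hζ : 0 < ζ) (h : Lp Φ) (v x : ℝ) :
    exp (ζ * stp ζ v Φ x) = ∫ z, exp (ζ * Φ (x + √v * z)) ∂γ1 :=
  Sys.exp_T (r1_ok hζ v) (h.lin ζ v) 0 x

theorem abs_Kst_le (hζ : 0 < ζ) (h : Lp Φ) {C : ℝ} (hC : ∀ y, |f y| ≤ C) (v x : ℝ) :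
    |Kst ζ v Φ f x| ≤ C := by
  have := Km_prob hζ h v x
  simpa [Kst] using norm_integral_le_of_norm_le_const (μ := Km ζ v Φ x) (f := f) (C := C)
    (ae_of_all _ hC)

theorem stp_zero (hζ : 0 < ζ) (Φ : ℝ → ℝ) : stp ζ 0 Φ = Φ := by
  funext x
  simp [stp, hζ.ne']

theorem Kst_zero (hζ : 0 < ζ) (h : Lp Φ) (hf : Measurable f) : Kst ζ 0 Φ f = f := by
  funext x
  rw [Kst_eq hζ h hf, stp_zero hζ]
  simp

theorem stp_add_const (hζ : 0 < ζ) (h : Lp Φ) (c : ℝ) :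
    stp ζ v (fun x => Φ x + c) = fun x => stp ζ v Φ x + c :=
  Sys.core1_T_add (r1_ok hζ v) (h.lin ζ v) c 0

theorem k1_ub (hf : Gr f) (ζ v : ℝ) :
    (R1 ζ v).UB (Set.Ioo (-1) 1) fun t s => f (s + t) := by
  obtain ⟨C, hC, h⟩ := Sys.Ex.bd k1_ok hf
  refine ⟨C * exp C, by positivity, fun t ht s => (h (s + t)).trans ?_⟩
  show C * exp (C * |s + t|) ≤ C * exp C * exp (C * exp C * |s|)
  rw [mul_assoc C (exp C) (exp _), ← exp_add]
  refine mul_le_mul_of_nonneg_left (exp_le_exp.2 ?_) hC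
  have h1 : |s + t| ≤ 1 + |s| := by
    have := abs_add_le s t
    have := abs_le.2 ⟨ht.1.le, ht.2.le⟩
    linarith
  have h2 := mul_le_mul_of_nonneg_left h1 hC
  have h3 := mul_le_mul_of_nonneg_left (one_le_exp hC) (mul_nonneg hC (abs_nonneg s))
  linarith

theorem k1_fam (hζ : 0 < ζ) (v : ℝ) {f' : ℝ → ℝ} (hd : ∀ y, HasDerivAt f (f' y) y) (hf : Gr f)
    (hf' : Gr f') :
    (R1 ζ v).Fam (Set.Ioo (-1) 1) (fun t s => f (s + t)) fun t s => f' (s + t) :=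
  Sys.Fam.mk' (r1_ok hζ v) (fun t _ => hf.1.comp (measurable_add_const t))
    (fun t _ => hf'.1.comp (measurable_add_const t))
    (fun t _ s => HasDerivAt.comp_const_add s t (hd (s + t))) (k1_ub hf ζ v) (k1_ub hf' ζ v)

theorem k1_lfam (hζ : 0 < ζ) (h : Lp Φ) (v : ℝ) :
    (R1 ζ v).LFam (Set.Ioo (-1) 1) (fun t s => Φ (s + t)) fun t s => D1 Φ (s + t) := by
  refine ⟨k1_fam hζ v (fun y => (h.d0 y).hasDerivAt) h.gr h.gr1, 1 + |Φ 0|, fun t ht s => ?_⟩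
  have h1 := h.lip (s + t) 0
  have h2 := abs_sub_abs_le_abs_sub (Φ (s + t)) (Φ 0)
  have h3 := abs_add_le s t
  have h4 := abs_le.2 ⟨ht.1.le, ht.2.le⟩
  rw [sub_zero] at h1
  show |Φ (s + t)| ≤ (1 + |Φ 0|) * (1 + |s|)
  nlinarith [abs_nonneg s, abs_nonneg (Φ 0), mul_nonneg (abs_nonneg s) (abs_nonneg (Φ 0))]

theorem k1_stp_shift (ζ v : ℝ) (Φ : ℝ → ℝ) (t x : ℝ) :
    stp ζ v (fun s => Φ (s + t)) x = stp ζ v Φ (x + t) := by
  simp only [stp, add_right_comm x _ t]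

theorem k1_unshift {g : ℝ → ℝ} {d x : ℝ} (h : HasDerivAt (fun t => g (x + t)) d 0) :
    HasDerivAt g d x := by
  have h1 := HasDerivAt.comp_sub_const x x (by rwa [sub_self])
  simpa using h1

theorem stp_deriv (hζ : 0 < ζ) (h : Lp Φ) (v x : ℝ) :
    HasDerivAt (stp ζ v Φ) (Kst ζ v Φ (D1 Φ) x) x := by
  have h1 := (Sys.T_fam (r1_ok hζ v) isOpen_Ioo (k1_lfam hζ h v) 0).der 0 (by simp) x
  refine k1_unshift ((h1.congr_deriv ?_).congr_of_eventuallyEq (Eventually.of_forall fun t => ?_))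
  · simp only [add_zero]
    rfl
  · exact (k1_stp_shift ζ v Φ t x).symm

theorem D1_stp (hζ : 0 < ζ) (h : Lp Φ) (v : ℝ) : D1 (stp ζ v Φ) = Kst ζ v Φ (D1 Φ) :=
  funext fun x => (stp_deriv hζ h v x).deriv

theorem Lp.stp (h : Lp Φ) (hζ : 0 < ζ) (v : ℝ) : Lp (stp ζ v Φ) :=
  ⟨fun x => (stp_deriv hζ h v x).differentiableAt, fun x => by
    rw [D1_stp hζ h]
    exact abs_Kst_le hζ h h.b0 v x⟩

theorem k1_lp_shift (h : Lp Φ) (t : ℝ) : Lp fun s => Φ (s + t) :=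
  ⟨h.d0.comp (differentiable_id.add_const t), fun x => by
    show |deriv (fun s => Φ (s + t)) x| ≤ 1
    rw [deriv_comp_add_const]
    exact h.b0 _⟩

theorem k1_Kst_shift (hζ : 0 < ζ) (h : Lp Φ) (hf : Measurable f) (v t x : ℝ) :
    Kst ζ v (fun s => Φ (s + t)) (fun s => f (s + t)) x = Kst ζ v Φ f (x + t) := by
  rw [Kst_eq hζ h hf, Kst_eq hζ (k1_lp_shift h t) (f := fun s => f (s + t))
    (hf.comp (measurable_add_const t)), k1_stp_shift]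
  simp only [add_right_comm x _ t]

theorem Kst_deriv (hζ : 0 < ζ) (h : Lp Φ) {f' : ℝ → ℝ} (hd : ∀ y, HasDerivAt f (f' y) y)
    (hf : Gr f) (hf' : Gr f') (v x : ℝ) : HasDerivAt (Kst ζ v Φ f) (Kst ζ v Φ f' x +
      ζ * (Kst ζ v Φ (fun y => f y * D1 Φ y) x - Kst ζ v Φ f x * Kst ζ v Φ (D1 Φ) x)) x := by
  have h1 := (Sys.step_fam (r1_ok hζ v) isOpen_Ioo (k1_lfam hζ h v) (k1_fam hζ v hd hf hf') 0).der
    0 (by simp) x
  refine k1_unshift ((h1.congr_deriv ?_).congr_of_eventuallyEq (Eventually.of_forall fun t => ?_))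
  · simp only [add_zero]
    rfl
  · exact (k1_Kst_shift hζ h hf.1 v t x).symm

/-- `Kst` of a bounded Lipschitz function is Lipschitz -/
theorem Kst_lip (hζ : 0 < ζ) (hζ1 : ζ ≤ 1) (h : Lp Φ) {f' : ℝ → ℝ}
    (hd : ∀ y, HasDerivAt f (f' y) y) (hb : ∀ y, |f y| ≤ 1) {L : ℝ} (hL : ∀ y, |f' y| ≤ L)
    (v x x' : ℝ) : |Kst ζ v Φ f x - Kst ζ v Φ f x'| ≤ (L + 2) * |x - x'| := by
  have hf : Gr f := Gr.bdd (continuous_iff_continuousAt.2 fun y => (hd y).continuousAt).measurable hb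
  have e : f' = deriv f := funext fun y => (hd y).deriv.symm
  have hf' : Gr f' := Gr.bdd (e ▸ measurable_deriv f) hL
  refine k1_lip (fun y => (Kst_deriv hζ h hd hf hf' v y).differentiableAt) (fun y => ?_) x x'
  rw [(Kst_deriv hζ h hd hf hf' v y).deriv]
  have h1 := abs_Kst_le hζ h hL v y
  have h2 := abs_Kst_le hζ h (f := fun y => f y * D1 Φ y) (C := 1) (fun z => by
    rw [abs_mul]
    exact mul_le_one₀ (hb z) (abs_nonneg _) (h.b0 z)) v y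
  have h3 : |Kst ζ v Φ f y * Kst ζ v Φ (D1 Φ) y| ≤ 1 := by
    rw [abs_mul]
    exact mul_le_one₀ (abs_Kst_le hζ h hb v y) (abs_nonneg _) (abs_Kst_le hζ h h.b0 v y)
  refine (abs_add_le _ _).trans (add_le_add h1 ?_)
  rw [abs_mul, abs_of_pos hζ]
  refine (mul_le_of_le_one_left (abs_nonneg _) hζ1).trans ((abs_sub _ _).trans ?_)
  linarith

theorem k1_sym (g : ℝ → ℝ) : ∫ z, g (-z) ∂γ1 = ∫ z, g z ∂γ1 := by
  have h : MeasurePreserving (MeasurableEquiv.neg ℝ) γ1 γ1 :=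
    ⟨measurable_neg, by simpa using gaussianReal_map_neg (μ := 0) (v := 1)⟩
  exact h.integral_comp' g

theorem stp_even (he : ∀ x, Φ (-x) = Φ x) (ζ v x : ℝ) : stp ζ v Φ (-x) = stp ζ v Φ x := by
  unfold stp
  rw [← k1_sym]
  congr 3
  funext z
  rw [← he]
  congr 3
  ring

theorem Kst_neg (hζ : 0 < ζ) (h : Lp Φ) (he : ∀ x, Φ (-x) = Φ x) (hf : Measurable f) (v x : ℝ) :
    Kst ζ v Φ f (-x) = Kst ζ v Φ (fun y => f (-y)) x := by
  rw [Kst_eq hζ h hf, Kst_eq hζ h (f := fun y => f (-y)) (hf.comp measurable_neg), stp_even he,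
    ← k1_sym]
  congr 1
  funext z
  rw [show -x + √v * -z = -(x + √v * z) by ring, he]

theorem D2_stp (hζ : 0 < ζ) (h : Lp Φ) (h1 : Differentiable ℝ (D1 Φ)) (h2 : Gr (D2 Φ)) (v x : ℝ) :
    HasDerivAt (D1 (stp ζ v Φ)) (Kst ζ v Φ (D2 Φ) x +
      ζ * (Kst ζ v Φ (fun y => D1 Φ y ^ 2) x - Kst ζ v Φ (D1 Φ) x ^ 2)) x := by
  rw [D1_stp hζ h]
  simpa only [sq] using Kst_deriv hζ h (fun y => (h1 y).hasDerivAt) h.gr1 h2 v x

variable {B1 B2 μ : ℝ}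

theorem k1_odd {g : ℝ → ℝ} (he : ∀ x, g (-x) = g x) (x : ℝ) : deriv g (-x) = -deriv g x := by
  have h := deriv_comp_neg g x
  simp only [he] at h
  rw [← neg_eq_iff_eq_neg, ← h]

theorem k1_even {g : ℝ → ℝ} (ho : ∀ x, g (-x) = -g x) (x : ℝ) : deriv g (-x) = deriv g x := by
  have h := deriv_comp_neg g x
  simp only [ho, deriv.fun_neg] at h
  exact (neg_inj.1 h).symm

theorem Gd.odd1 (h : Gd B1 B2 μ Φ) (x : ℝ) : D1 Φ (-x) = -D1 Φ x := k1_odd h.even x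

theorem Gd.even2 (h : Gd B1 B2 μ Φ) (x : ℝ) : D2 Φ (-x) = D2 Φ x := k1_even h.odd1 x

theorem Gd.odd3 (h : Gd B1 B2 μ Φ) (x : ℝ) : D3 Φ (-x) = -D3 Φ x := k1_odd h.even2 x

theorem Gd.a_le (h : Gd B1 B2 μ Φ) (x : ℝ) : |D2 Φ x| ≤ 1 := by
  rw [abs_of_nonneg (h.a_nn x)]
  linarith [h.au x, sq_nonneg (D1 Φ x)]

theorem Gd.lip1 (h : Gd B1 B2 μ Φ) (x y : ℝ) : |D1 Φ x - D1 Φ y| ≤ |x - y| := by
  simpa using k1_lip h.d1 h.a_le x y

theorem Gd.lip2 (h : Gd B1 B2 μ Φ) (x y : ℝ) : |D2 Φ x - D2 Φ y| ≤ B1 * |x - y| :=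
  k1_lip h.d2 h.b1 x y

theorem Gd.lip3 (h : Gd B1 B2 μ Φ) (x y : ℝ) : |D3 Φ x - D3 Φ y| ≤ B2 * |x - y| :=
  k1_lip h.d3 h.b2 x y

theorem Gd.gr2 (h : Gd B1 B2 μ Φ) : Gr (D2 Φ) := Gr.bdd (measurable_deriv _) h.a_le

theorem Gd.gr3 (h : Gd B1 B2 μ Φ) : Gr (D3 Φ) := Gr.bdd (measurable_deriv _) h.b1

theorem Gd.gr4 (h : Gd B1 B2 μ Φ) : Gr (D4 Φ) := Gr.bdd (measurable_deriv _) h.b2

/-- weakening: larger bounds, smaller exponent (`D1 Φ ^ 2` is monotone on the half line) -/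
theorem Gd.mono (h : Gd B1 B2 μ Φ) {B1' B2' μ' : ℝ} (h1 : B1 ≤ B1') (h2 : B2 ≤ B2')
    (hμ : μ' ≤ μ) : Gd B1' B2' μ' Φ := by
  refine ⟨h.toLp, h.d1, h.d2, h.d3, h.even, h.a_nn, h.au, fun x => (h.b1 x).trans h1,
    fun x => (h.b2 x).trans h2, fun x hx y hy hxy => ?_⟩
  have m : Monotone (D1 Φ) := monotone_of_deriv_nonneg h.d1 h.a_nn
  have z : D1 Φ 0 = 0 := by
    have := h.odd1 0
    rw [neg_zero] at this
    linarith
  have a1 : 0 ≤ D1 Φ x := z ▸ m hx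
  have a2 := pow_le_pow_left₀ a1 (m hxy) 2
  have a3 := h.anti hx hy hxy
  have a4 := mul_le_mul_of_nonneg_left a2 (sub_nonneg.2 hμ)
  simp only at a3 ⊢
  linarith

end

end Vale.Agent.P146L
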