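import Vale.Agent.P146L.K1

/-! The tilted Gaussian step: moments and the Stein identity. -/

set_option linter.all false

namespace Vale.Agent.P146L

open MeasureTheory ProbabilityTheory Real Finset Filter Topology Vale.Agent.P146M Vale.Agent.P146

noncomputable section

variable {ζ v : ℝ} {Φ f : ℝ → ℝ}

theorem K2_int (hf : Gr f) : Integrable f γ1 := by
  obtain ⟨hm, C, hC⟩ := hf
  exact ((int_eabs C).const_mul C).mono' hm.aestronglyMeasurable (ae_of_all _ hC)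

theorem K2_aff (hf : Gr f) (x s : ℝ) : Gr fun z => f (x + s * z) := by
  obtain ⟨hm, C, hC⟩ := hf
  have h0 : 0 ≤ C := by simpa using (abs_nonneg _).trans (hC 0)
  refine ⟨hm.comp (by fun_prop), max (C * exp (C * |x|)) (C * |s|), fun z => (hC _).trans ?_⟩
  have h1 : C * |x + s * z| ≤ C * |x| + max (C * exp (C * |x|)) (C * |s|) * |z| := by
    have a1 : |x + s * z| ≤ |x| + |s| * |z| := (abs_add_le _ _).trans (by rw [abs_mul])
    have a2 := mul_le_mul_of_nonneg_right (le_max_right (C * exp (C * |x|)) (C * |s|)) (abs_nonneg z)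
    nlinarith
  refine (mul_le_mul_of_nonneg_left (exp_le_exp.2 h1) h0).trans ?_
  rw [exp_add, ← mul_assoc]
  exact mul_le_mul_of_nonneg_right (le_max_left _ _) (exp_pos _).le

theorem K2_exp (hζ : 0 < ζ) (h : Lp Φ) (c : ℝ) : Gr fun y => exp (ζ * (Φ y - c)) := by
  have hc := h.d0.continuous
  refine ⟨by fun_prop, max (exp (ζ * (Φ 0 - c))) ζ, fun y => ?_⟩
  have a1 := (abs_le.1 (h.lip y 0)).2
  rw [sub_zero] at a1
  have a2 := mul_le_mul_of_nonneg_right (le_max_right (exp (ζ * (Φ 0 - c))) ζ) (abs_nonneg y)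
  have h1 : ζ * (Φ y - c) ≤ ζ * (Φ 0 - c) + max (exp (ζ * (Φ 0 - c))) ζ * |y| := by nlinarith
  rw [abs_of_pos (exp_pos _)]
  refine (exp_le_exp.2 h1).trans ?_
  rw [exp_add]
  exact mul_le_mul_of_nonneg_right (le_max_left _ _) (exp_pos _).le

theorem K2_dens {T : ℝ} (hζ : 0 < ζ) (hζ1 : ζ ≤ 1) (hT : v ≤ T) (h : Lp Φ) (x z : ℝ) :
    exp (ζ * (Φ (x + √v * z) - stp ζ v Φ x)) ≤
      (∫ w, exp (-√T * |w|) ∂γ1)⁻¹ * exp (√T * |z|) := by
  have hl : ∀ w, |ζ * Φ (x + √v * w) - ζ * Φ x| ≤ √T * |w| := fun w => by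
    have a1 := h.lip (x + √v * w) x
    rw [add_sub_cancel_left, abs_mul, abs_of_nonneg (sqrt_nonneg v)] at a1
    rw [← mul_sub, abs_mul, abs_of_pos hζ]
    exact (mul_le_of_le_one_left (abs_nonneg _) hζ1).trans
      (a1.trans (mul_le_mul_of_nonneg_right (sqrt_le_sqrt hT) (abs_nonneg w)))
  have hm : 0 < ∫ w, exp (-√T * |w|) ∂γ1 := integral_exp_pos (int_eabs _)
  have h1 : exp (ζ * Φ x) * ∫ w, exp (-√T * |w|) ∂γ1 ≤ exp (ζ * stp ζ v Φ x) := by
    rw [exp_stp hζ h, ← integral_const_mul]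
    refine integral_mono ((int_eabs _).const_mul _) ?_ fun w => ?_
    · simpa using K2_int (K2_aff (K2_exp hζ h 0) x √v)
    · simp only [← exp_add]
      exact exp_le_exp.2 (by linarith [(abs_le.1 (hl w)).1])
  rw [mul_sub, exp_sub, div_le_iff₀ (exp_pos _), mul_assoc, le_inv_mul_iff₀ hm]
  refine le_trans ?_ (mul_le_mul_of_nonneg_left h1 (exp_pos _).le)
  rw [mul_comm, ← mul_assoc, ← exp_add]
  exact mul_le_mul_of_nonneg_right (exp_le_exp.2 (by linarith [(abs_le.1 (hl z)).2])) hm.le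

theorem K2_mom (T : ℝ) : ∃ C, 1 ≤ C ∧ ∀ (ζ v : ℝ) (Φ : ℝ → ℝ) (x : ℝ), 0 < ζ → ζ ≤ 1 →
    v ≤ T → Lp Φ → ∀ p ≤ 4, Kst ζ v Φ (fun y => |y - x| ^ p) x ≤ C * √v ^ p := by
  refine ⟨max 1 ((∫ w, exp (-√T * |w|) ∂γ1)⁻¹ * ∫ z, exp ((√T + 4) * |z|) ∂γ1), le_max_left _ _,
    fun ζ v Φ x hζ hζ1 hT h p hp => ?_⟩
  refine le_trans ?_ (mul_le_mul_of_nonneg_right (le_max_right _ _) (by positivity))
  rw [Kst_eq hζ h (by fun_prop), ← integral_const_mul, ← integral_mul_const]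
  refine integral_mono_of_nonneg (ae_of_all _ fun z => by positivity)
    (((int_eabs _).const_mul _).mul_const _) (ae_of_all _ fun z => ?_)
  have a1 : |z| ^ p ≤ exp (4 * |z|) := by
    have b1 : |z| ≤ exp |z| := by linarith [add_one_le_exp |z|]
    refine (pow_le_pow_left₀ (abs_nonneg z) b1 p).trans ?_
    rw [← exp_nat_mul]
    exact exp_le_exp.2 (mul_le_mul_of_nonneg_right (by exact_mod_cast hp) (abs_nonneg z))
  simp only
  rw [add_sub_cancel_left, abs_mul, abs_of_nonneg (sqrt_nonneg v), mul_pow, add_mul, exp_add,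
    ← mul_assoc _ (exp _) (exp _), mul_comm (√v ^ p), ← mul_assoc]
  exact mul_le_mul_of_nonneg_right (mul_le_mul (K2_dens hζ hζ1 hT h x z) a1 (by positivity)
    ((exp_pos _).le.trans (K2_dens hζ hζ1 hT h x z))) (by positivity)

theorem K2_sq (hζ : 0 < ζ) (h : Lp Φ) (hf : Gr f) (v x c : ℝ) :
    Kst ζ v Φ (fun y => (f y - c) ^ 2) x =
      Kst ζ v Φ (fun y => f y ^ 2) x - 2 * c * Kst ζ v Φ f x + c ^ 2 := by
  have := Km_prob hζ h v x
  have e : (fun y => (f y - c) ^ 2) = fun y => f y ^ 2 - 2 * c * f y + c ^ 2 := by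
    ext y; ring
  have i1 := (hf.pow 2).int hζ h v x
  have i2 := (hf.int hζ h v x).const_mul (2 * c)
  have i3 : Integrable (fun y => f y ^ 2 - 2 * c * f y) (Km ζ v Φ x) := i1.sub i2
  rw [e]
  unfold Kst
  rw [integral_add i3 (integrable_const _), integral_sub i1 i2, integral_const_mul]
  simp

theorem K2_var (hζ : 0 < ζ) (h : Lp Φ) (hf : Gr f) (v x : ℝ) :
    Kst ζ v Φ f x ^ 2 ≤ Kst ζ v Φ (fun y => f y ^ 2) x := by
  have h1 := K2_sq hζ h hf v x (Kst ζ v Φ f x)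
  have h2 : 0 ≤ Kst ζ v Φ (fun y => (f y - Kst ζ v Φ f x) ^ 2) x :=
    integral_nonneg fun y => sq_nonneg _
  nlinarith

theorem K2_gr (hf : Measurable f) {L x : ℝ} (hL : ∀ y, |f y - f x| ≤ L * |y - x|) : Gr f := by
  have h0 : 0 ≤ L := by simpa using (abs_nonneg _).trans (hL (x + 1))
  refine Gr.poly hf (C := |f x| + L * (|x| + 1)) (p := 1) fun y => ?_
  have a1 := abs_sub_abs_le_abs_sub (f y) (f x)
  have a2 := mul_le_mul_of_nonneg_left (abs_sub y x) h0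
  have a3 := hL y
  have a4 := mul_nonneg (abs_nonneg (f x)) (abs_nonneg y)
  have a5 := mul_nonneg h0 (mul_nonneg (abs_nonneg x) (abs_nonneg y))
  nlinarith

/-- Hint: by Jensen `stp ζ v Φ x ≥ Φ x - √v`, so the density in `Kst_eq` is at most
`exp (√T * (|z| + 1))`; take `C` an upper bound of `∫ exp (√T * (|z| + 1)) * (1 + |z|) ^ 4`. -/
theorem K_mom (T : ℝ) : ∃ C, 1 ≤ C ∧ ∀ (ζ v : ℝ) (Φ : ℝ → ℝ) (x : ℝ), 0 < ζ → ζ ≤ 1 → 0 ≤ v →
    v ≤ T → Lp Φ → Kst ζ v Φ (fun y => |y - x|) x ≤ C * √v ∧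
      Kst ζ v Φ (fun y => (y - x) ^ 2) x ≤ C * v ∧
      Kst ζ v Φ (fun y => |y - x| ^ 3) x ≤ C * (v * √v) ∧
      Kst ζ v Φ (fun y => (y - x) ^ 4) x ≤ C * v ^ 2 := by
  obtain ⟨C, hC, H⟩ := K2_mom T
  refine ⟨C, hC, fun ζ v Φ x hζ hζ1 hv hT h => ?_⟩
  have h1 := H ζ v Φ x hζ hζ1 hT h 1 (by norm_num)
  have h2 := H ζ v Φ x hζ hζ1 hT h 2 (by norm_num)
  have h3 := H ζ v Φ x hζ hζ1 hT h 3 (by norm_num)
  have h4 := H ζ v Φ x hζ hζ1 hT h 4 le_rfl
  simp only [pow_one] at h1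
  simp only [sq_abs, sq_sqrt hv] at h2
  rw [pow_succ √v 2, sq_sqrt hv] at h3
  have e : √v ^ 4 = v ^ 2 := by rw [show 4 = 2 * 2 from rfl, pow_mul, sq_sqrt hv]
  simp only [(show Even 4 by decide).pow_abs, e] at h4
  exact ⟨h1, h2, h3, h4⟩

/-- Hint: `ibp_one` for `z ↦ exp (ζ * (Φ (x + √v * z) - c)) * f (x + √v * z)`. -/
theorem K_stein (hζ : 0 < ζ) (h : Lp Φ) (hv : 0 ≤ v) {f' : ℝ → ℝ}
    (hd : ∀ y, HasDerivAt f (f' y) y) (hf : Gr f) (hf' : Gr f') (x : ℝ) :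
    Kst ζ v Φ (fun y => (y - x) * f y) x =
      v * (Kst ζ v Φ f' x + ζ * Kst ζ v Φ (fun y => f y * D1 Φ y) x) := by
  have hE := K2_exp hζ h (stp ζ v Φ x)
  have g1 := K2_aff (hE.mul hf) x √v
  have i2 := K2_int (K2_aff (hE.mul hf') x √v)
  have i3 := K2_int (K2_aff (hE.mul (hf.mul h.gr1)) x √v)
  have hb := ibp_one (f := fun z => exp (ζ * (Φ (x + √v * z) - stp ζ v Φ x)) * f (x + √v * z))
    (f' := fun z => √v * (exp (ζ * (Φ (x + √v * z) - stp ζ v Φ x)) * f' (x + √v * z) +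
      ζ * (exp (ζ * (Φ (x + √v * z) - stp ζ v Φ x)) * (f (x + √v * z) * D1 Φ (x + √v * z)))))
    (fun z => by
      have a0 : HasDerivAt (fun z => x + √v * z) √v z := by
        simpa using ((hasDerivAt_id z).const_mul √v).const_add x
      have a1 := ((((h.d0 (x + √v * z)).hasDerivAt.comp z a0).sub_const
        (stp ζ v Φ x)).const_mul ζ).exp.mul ((hd (x + √v * z)).comp z a0)
      refine HasDerivAt.congr_deriv a1 ?_
      simp only [Function.comp]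
      ring) (K2_int g1) ((i2.add (i3.const_mul ζ)).const_mul _) (K2_int (Gr.id.mul g1))
  rw [integral_const_mul, integral_add i2 (i3.const_mul ζ), integral_const_mul] at hb
  rw [Kst_eq hζ h ((Gr.id.sub (Gr.const x)).mul hf).1, Kst_eq hζ h hf'.1,
    Kst_eq hζ h (hf.mul h.gr1).1]
  refine Eq.trans ?_ ((congrArg (√v * ·) hb).trans (by rw [← mul_assoc, mul_self_sqrt hv]))
  rw [← integral_const_mul]
  exact integral_congr_ae (ae_of_all _ fun z => by ring)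

/-- `y ^ 2 = x ^ 2 + 2 * x * (y - x) + (y - x) ^ 2` and `|K (y - x)| ≤ v` by `K_stein`. -/
theorem K_sq (T : ℝ) : ∃ C, 1 ≤ C ∧ ∀ (ζ v : ℝ) (Φ : ℝ → ℝ) (x : ℝ), 0 < ζ → ζ ≤ 1 → 0 ≤ v →
    v ≤ T → Lp Φ → Kst ζ v Φ (fun y => y ^ 2) x ≤ (1 + v) * x ^ 2 + C * v := by
  obtain ⟨C, hC, H⟩ := K_mom T
  refine ⟨C + 1, by linarith, fun ζ v Φ x hζ hζ1 hv hT h => ?_⟩
  have h1 := (H ζ v Φ x hζ hζ1 hv hT h).2.1
  have h2 := K_stein hζ h hv (fun y => hasDerivAt_const y (1 : ℝ)) (Gr.const 1) (Gr.const 0) x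
  have h3 := K2_sq hζ h (Gr.id.sub (Gr.const x)) v x (-x)
  have h4 := abs_le.1 (abs_Kst_le hζ h h.b0 v x)
  have h5 : Kst ζ v Φ (fun _ => 0) x = 0 := integral_zero _ _
  simp only [mul_one, one_mul, h5, zero_add] at h2
  simp only [sub_neg_eq_add, sub_add_cancel] at h3
  rw [h3, h2]
  set θ := Kst ζ v Φ (D1 Φ) x
  have h6 : (ζ * θ) ^ 2 ≤ 1 := by
    rw [mul_pow]
    exact mul_le_one₀ (pow_le_one₀ hζ.le hζ1) (sq_nonneg _) (by nlinarith)
  have h7 := mul_nonneg hv (sq_nonneg (x - ζ * θ))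
  have h8 := mul_le_mul_of_nonneg_left h6 hv
  nlinarith

/-- covariance of two Lipschitz functions -/
theorem K_cov (hζ : 0 < ζ) (h : Lp Φ) {g : ℝ → ℝ} (hf : Measurable f) (hg : Measurable g)
    {L L' x : ℝ} (hL : ∀ y, |f y - f x| ≤ L * |y - x|) (hL' : ∀ y, |g y - g x| ≤ L' * |y - x|) :
    |Kst ζ v Φ (fun y => f y * g y) x - Kst ζ v Φ f x * Kst ζ v Φ g x| ≤
      2 * L * L' * Kst ζ v Φ (fun y => (y - x) ^ 2) x := by
  have := Km_prob hζ h v x
  have h0 : 0 ≤ L := by simpa using (abs_nonneg _).trans (hL (x + 1))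
  have h0' : 0 ≤ L' := by simpa using (abs_nonneg _).trans (hL' (x + 1))
  have gf := K2_gr hf hL
  have gg := K2_gr hg hL'
  have gx := Gr.id.sub (Gr.const x)
  have i1 := gf.int hζ h v x
  have i2 := gg.int hζ h v x
  have i3 := (gf.mul gg).int hζ h v x
  have i4 := gx.abs.int hζ h v x
  have i5 := (gx.pow 2).int hζ h v x
  have hv := K2_var hζ h gx.abs v x
  simp only [sq_abs] at hv
  unfold Kst at *
  have e1 : ∫ y, (f y - f x) ∂Km ζ v Φ x = ∫ y, f y ∂Km ζ v Φ x - f x := by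
    rw [integral_sub i1 (integrable_const _)]; simp
  have e2 : ∫ y, (g y - g x) ∂Km ζ v Φ x = ∫ y, g y ∂Km ζ v Φ x - g x := by
    rw [integral_sub i2 (integrable_const _)]; simp
  have e3 : ∫ y, (f y - f x) * (g y - g x) ∂Km ζ v Φ x = ∫ y, f y * g y ∂Km ζ v Φ x -
      g x * ∫ y, f y ∂Km ζ v Φ x - f x * ∫ y, g y ∂Km ζ v Φ x + f x * g x := by
    have e : (fun y => (f y - f x) * (g y - g x)) =
        fun y => f y * g y - g x * f y - f x * g y + f x * g x := by ext y; ring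
    have j1 : Integrable (fun y => f y * g y - g x * f y) (Km ζ v Φ x) := i3.sub (i1.const_mul _)
    have j2 : Integrable (fun y => f y * g y - g x * f y - f x * g y) (Km ζ v Φ x) :=
      j1.sub (i2.const_mul _)
    rw [e, integral_add j2 (integrable_const _),
      integral_sub j1 (i2.const_mul _), integral_sub i3 (i1.const_mul _),
      integral_const_mul, integral_const_mul]
    simp
  have b1 : |∫ y, (f y - f x) ∂Km ζ v Φ x| ≤ L * ∫ y, |y - x| ∂Km ζ v Φ x := by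
    rw [← integral_const_mul, ← Real.norm_eq_abs]
    exact norm_integral_le_of_norm_le (i4.const_mul _) (ae_of_all _ hL)
  have b2 : |∫ y, (g y - g x) ∂Km ζ v Φ x| ≤ L' * ∫ y, |y - x| ∂Km ζ v Φ x := by
    rw [← integral_const_mul, ← Real.norm_eq_abs]
    exact norm_integral_le_of_norm_le (i4.const_mul _) (ae_of_all _ hL')
  have b3 : |∫ y, (f y - f x) * (g y - g x) ∂Km ζ v Φ x| ≤
      L * L' * ∫ y, (y - x) ^ 2 ∂Km ζ v Φ x := by
    rw [← integral_const_mul, ← Real.norm_eq_abs]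
    refine norm_integral_le_of_norm_le (i5.const_mul _) (ae_of_all _ fun y => ?_)
    rw [Real.norm_eq_abs, abs_mul, ← sq_abs]
    exact (mul_le_mul (hL y) (hL' y) (abs_nonneg _) (by positivity)).trans_eq (by ring)
  have e4 : ∫ y, f y * g y ∂Km ζ v Φ x - (∫ y, f y ∂Km ζ v Φ x) * ∫ y, g y ∂Km ζ v Φ x =
      ∫ y, (f y - f x) * (g y - g x) ∂Km ζ v Φ x -
        (∫ y, (f y - f x) ∂Km ζ v Φ x) * ∫ y, (g y - g x) ∂Km ζ v Φ x := by
    rw [e1, e2, e3]; ring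
  have b4 := mul_le_mul b1 b2 (abs_nonneg _) ((abs_nonneg _).trans b1)
  have b5 := mul_le_mul_of_nonneg_left hv (mul_nonneg h0 h0')
  rw [e4]
  refine (abs_sub _ _).trans ?_
  rw [abs_mul]
  nlinarith

theorem K_var_nonneg (hζ : 0 < ζ) (h : Lp Φ) (hf : Gr f) (v x : ℝ) :
    Kst ζ v Φ f x ^ 2 ≤ Kst ζ v Φ (fun y => f y ^ 2) x := K2_var hζ h hf v x

/-- the variance is at most the mean square distance to any point -/
theorem K_var_le (hζ : 0 < ζ) (h : Lp Φ) (hf : Gr f) (v x c : ℝ) :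
    Kst ζ v Φ (fun y => f y ^ 2) x - Kst ζ v Φ f x ^ 2 ≤ Kst ζ v Φ (fun y => (f y - c) ^ 2) x := by
  rw [K2_sq hζ h hf]
  nlinarith [sq_nonneg (Kst ζ v Φ f x - c)]

end

end Vale.Agent.P146L
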