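import Vale.Agent.P146L.Gue
import Vale.Agent.P146L.Ctr

/-! The loop equations. -/

set_option linter.all false

namespace Vale.Agent.P146L

open MeasureTheory ProbabilityTheory Real Finset Filter Topology Vale.Agent.P146M Vale.Agent.P146

noncomputable section

variable {N k : ℕ} {β t M η : ℝ} {r : ℕ → ℝ} {z w : ℂ}

/-! `loop_abs` with `W = -M * Fg`, `B g = BB (Hg g) l`, `B' p g = √(t β ^ 2 / N) * dB …`,
`A g = β √t * QT k q (fun l => tau (Rz z g) (BB (Hg g) l)) l`; note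
`√(t β ^ 2 / N) / (N √N) = β √t / N ^ 2`. The pointwise bound is `con_r` (or `con_d`) plus
`con_tilt`. `∫ A = β √t * QT k q TT l` by linearity; `∫ √v ≤ √(∫ v)` (`c2_sq_le`) and
`(1 / k) ∑ √V l ≤ √((1 / k) ∑ V l)`; `tr_BB`, `BB_diag`; `|∫ (s - w) tau| ≤ SS / η` by `tau_le`.
Continuity in `g` (`cont_pp`, `Rz_cont`) and boundedness give all the integrability. -/

section LoopAux

variable {Ω : Type} [MeasurableSpace Ω] {Q : Measure Ω}

/-- integrable with a given integral -/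
def Loop_Li (Q : Measure Ω) (f : Ω → ℂ) (c : ℂ) : Prop := Integrable f Q ∧ ∫ g, f g ∂Q = c

theorem Loop_add {f f' : Ω → ℂ} {c c' : ℂ} (h : Loop_Li Q f c) (h' : Loop_Li Q f' c') :
    Loop_Li Q (fun g => f g + f' g) (c + c') :=
  ⟨h.1.add h'.1, by rw [integral_add h.1 h'.1, h.2, h'.2]⟩

theorem Loop_sub {f f' : Ω → ℂ} {c c' : ℂ} (h : Loop_Li Q f c) (h' : Loop_Li Q f' c') :
    Loop_Li Q (fun g => f g - f' g) (c - c') :=
  ⟨h.1.sub h'.1, by rw [integral_sub h.1 h'.1, h.2, h'.2]⟩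

theorem Loop_cmul {f : Ω → ℂ} {c : ℂ} (a : ℂ) (h : Loop_Li Q f c) :
    Loop_Li Q (fun g => a * f g) (a * c) :=
  ⟨h.1.const_mul a, by rw [integral_const_mul, h.2]⟩

theorem Loop_mulc {f : Ω → ℂ} {c : ℂ} (a : ℂ) (h : Loop_Li Q f c) :
    Loop_Li Q (fun g => f g * a) (c * a) :=
  ⟨h.1.mul_const a, by rw [integral_mul_const, h.2]⟩

theorem Loop_sum {f : ℕ → Ω → ℂ} {c : ℕ → ℂ} (s : Finset ℕ) (h : ∀ l ∈ s, Loop_Li Q (f l) (c l)) :
    Loop_Li Q (fun g => ∑ l ∈ s, f l g) (∑ l ∈ s, c l) :=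
  ⟨integrable_finset_sum _ fun l hl => (h l hl).1, by
    rw [integral_finset_sum _ fun l hl => (h l hl).1]
    exact sum_congr rfl fun l hl => (h l hl).2⟩

theorem Loop_QT {f : ℕ → Ω → ℂ} {c : ℕ → ℂ} (q : ℕ → ℝ) {l : ℕ} (hl : l < k)
    (h : ∀ l ≤ k + 1, Loop_Li Q (f l) (c l)) :
    Loop_Li Q (fun g => QT k q (fun l => f l g) l) (QT k q c l) :=
  Loop_sub (Loop_add (Loop_cmul _ (Loop_sub (h _ le_rfl) (Loop_cmul _ (Loop_sum _ fun j hj =>
    h j (by have := (mem_Ioo.1 hj).2; omega))))) (Loop_mulc _ (h l (by omega))))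
    (Loop_cmul _ (Loop_sum _ fun j hj => Loop_cmul _ (h j (by have := mem_range.1 hj; omega))))

theorem Loop_QTd {f : ℕ → Ω → ℂ} {c : ℕ → ℂ} (q : ℕ → ℝ)
    (h : ∀ l ≤ k + 1, Loop_Li Q (f l) (c l)) :
    Loop_Li Q (fun g => QTd k q (fun l => f l g)) (QTd k q c) :=
  Loop_sub (h _ le_rfl)
    (Loop_cmul _ (Loop_sum _ fun j hj => Loop_cmul _ (h j (by have := mem_range.1 hj; omega))))

theorem Loop_sqrt [IsProbabilityMeasure Q] {f : Ω → ℝ} (h0 : ∀ g, 0 ≤ f g) (hf : Integrable f Q)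
    (hs : Integrable (fun g => √(f g)) Q) : ∫ g, √(f g) ∂Q ≤ √(∫ g, f g ∂Q) := by
  have e : (fun g => √(f g) ^ 2) = f := funext fun g => sq_sqrt (h0 g)
  have h := c2_sq_le hs (by rw [e]; exact hf)
  rw [e] at h
  exact le_sqrt_of_sq_le h

theorem Loop_avg (hk : 0 < k) {V : ℕ → ℝ} (hV : ∀ l, 0 ≤ V l) :
    (1 / (k : ℝ)) * ∑ l ∈ range k, √(V l) ≤ √((1 / (k : ℝ)) * ∑ l ∈ range k, V l) := by
  refine le_sqrt_of_sq_le ?_
  have h := sq_sum_le_card_mul_sum_sq (s := range k) (f := fun l => √(V l))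
  rw [card_range, sum_congr rfl fun l _ => sq_sqrt (hV l)] at h
  have h1 : (0 : ℝ) < k := by positivity
  calc _ = (1 / (k : ℝ)) ^ 2 * (∑ l ∈ range k, √(V l)) ^ 2 := mul_pow _ _ _
    _ ≤ (1 / (k : ℝ)) ^ 2 * (k * ∑ l ∈ range k, V l) := by gcongr
    _ = _ := by field_simp

end LoopAux

theorem Loop_int {E : Type} [NormedAddCommGroup E] [SecondCountableTopology E]
    {Q : Measure (Pr N → ℝ)} [IsProbabilityMeasure Q] {f : (Pr N → ℝ) → E} (hf : Continuous f)
    (C : ℝ) (hb : ∀ g, ‖f g‖ ≤ C) : Integrable f Q :=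
  Integrable.of_bound hf.aestronglyMeasurable C (ae_of_all _ hb)

theorem Loop_cBB (hk : 0 < k) {l : ℕ} (hl : l ≤ k + 1) (a c : Fin N) :
    Continuous fun g => BB k (Hg k N β r t g) l a c :=
  cont_pp hk (fun σ σ' => sg σ a * sg σ' c) hl

theorem Loop_cvR (hk : 0 < k) {l : ℕ} (hl : l ≤ k + 1) (q : ℝ) :
    Continuous fun g => vR k (Hg k N β r t g) l q :=
  cont_pp hk (fun σ σ' => (dot σ σ' / N - q) ^ 2) hl

theorem Loop_cyF (hk : 0 < k) : Continuous fun g => yF k (Hg k N β r t g) :=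
  (continuous_finset_sum _ fun a _ => continuous_finset_sum _ fun c _ =>
    (Loop_cBB hk le_rfl a c).pow 2).div_const _

theorem Loop_ctau (hk : 0 < k) (hz : 0 < z.im) {l : ℕ} (hl : l ≤ k + 1) :
    Continuous fun g => tau (Rz z g) (BB k (Hg k N β r t g) l) :=
  (continuous_finset_sum _ fun j _ => continuous_finset_sum _ fun a _ =>
    (Rz_cont hz j a).mul (Complex.continuous_ofReal.comp (Loop_cBB hk hl a j))).div_const _

theorem Loop_csz (hz : 0 < z.im) : Continuous fun g : Pr N → ℝ => sz z g :=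
  (continuous_finset_sum _ fun a _ => Rz_cont hz a a).div_const _

theorem Loop_btau (hk : 0 < k) (hη : 0 < η) (hz : η ≤ z.im) {l : ℕ} (hl : l ≤ k + 1)
    (g : Pr N → ℝ) : ‖tau (Rz z g) (BB k (Hg k N β r t g) l)‖ ≤ η⁻¹ :=
  tau_le hk (lin_Hg hk g) (Rz_bil hη hz g) (inv_nonneg.2 hη.le) hl

theorem Loop_TT (hk : 0 < k) (hM : 0 < M) (hη : 0 < η) (hz : η ≤ z.im) {l : ℕ} (hl : l ≤ k + 1) :
    Loop_Li (Qm k N β r t M) (fun g => tau (Rz z g) (BB k (Hg k N β r t g) l))
      (TT k N β r t M z l) := by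
  haveI := Qm_prob (N := N) (β := β) (t := t) (r := r) hk hM
  exact ⟨Loop_int (Loop_ctau hk (hη.trans_le hz) hl) _ (Loop_btau hk hη hz hl), rfl⟩

theorem Loop_ivR (hk : 0 < k) (hM : 0 < M) {l : ℕ} (hl : l ≤ k + 1) (q : ℝ) :
    Integrable (fun g => vR k (Hg k N β r t g) l q) (Qm k N β r t M) ∧
      Integrable (fun g => √(vR k (Hg k N β r t g) l q)) (Qm k N β r t M) := by
  haveI := Qm_prob (N := N) (β := β) (t := t) (r := r) hk hM
  refine ⟨Loop_int (Loop_cvR hk hl q) ((1 + |q|) ^ 2) fun g => ?_,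
    Loop_int (Loop_cvR hk hl q).sqrt (√((1 + |q|) ^ 2)) fun g => ?_⟩
  · rw [Real.norm_of_nonneg (vR_nonneg _ _)]
    exact vR_le hk (lin_Hg hk g) l q
  · rw [Real.norm_of_nonneg (sqrt_nonneg _)]
    exact sqrt_le_sqrt (vR_le hk (lin_Hg hk g) l q)

theorem Loop_sV (hk : 0 < k) (hM : 0 < M) {l : ℕ} (hl : l ≤ k + 1) :
    ∫ g, √(vR k (Hg k N β r t g) l (r l / β ^ 2)) ∂Qm k N β r t M ≤ √(VV k N β r t M l) := by
  haveI := Qm_prob (N := N) (β := β) (t := t) (r := r) hk hM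
  exact Loop_sqrt (fun g => vR_nonneg _ _) (Loop_ivR hk hM hl _).1 (Loop_ivR hk hM hl _).2

theorem Loop_iyF (hk : 0 < k) (hN : 0 < N) (hM : 0 < M) :
    Integrable (fun g => yF k (Hg k N β r t g)) (Qm k N β r t M) := by
  haveI := Qm_prob (N := N) (β := β) (t := t) (r := r) hk hM
  refine Loop_int (Loop_cyF hk) N fun g => ?_
  have h := yF_mem hk hN (lin_Hg (β := β) (t := t) (r := r) hk g)
  rw [Real.norm_of_nonneg (zero_le_one.trans h.1)]
  exact h.2

theorem Loop_iS (hk : 0 < k) (hM : 0 < M) (hz : 0 < z.im) :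
    Integrable (fun g => ‖sz z g - w‖) (Qm k N β r t M) := by
  haveI := Qm_prob (N := N) (β := β) (t := t) (r := r) hk hM
  refine Loop_int ((Loop_csz hz).sub continuous_const).norm (z.im⁻¹ + ‖w‖) fun g => ?_
  rw [norm_norm]
  exact (norm_sub_le _ _).trans (add_le_add_left (sz_le hz le_rfl g) _)

theorem Loop_ent (R : Matrix (Fin N) (Fin N) ℂ) (B : Fin N → Fin N → ℝ) (c : ℝ) (p : Pr N) :
    ent R (fun a b => c * B a b) p = c * ent R B p := by
  simp only [ent, mul_sum]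
  refine sum_congr rfl fun a _ => ?_
  push_cast
  ring

theorem Loop_coef (hβ : 0 < β) (hN : 0 < N) (h0 : 0 < t) :
    √(t * β ^ 2 / N) / (N * √N) = β * √t / (N : ℝ) ^ 2 := by
  have h1 : (0 : ℝ) < N := by positivity
  have h2 : 0 < √(N : ℝ) := sqrt_pos.2 h1
  rw [sqrt_div' _ h1.le, sqrt_mul h0.le, sqrt_sq hβ.le, div_div, div_eq_div_iff (by positivity)
    (by positivity)]
  have := mul_self_sqrt h1.le
  linear_combination (-(β * √t * N)) * this

/-- the common part of the two loop equations -/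
theorem Loop_core (hβ : 0 < β) (hk : 0 < k) (hN : 0 < N) (hM : 0 < M) (h0 : 0 < t) (h1 : t < 1)
    (hη : 0 < η) (hz : η ≤ z.im) {l : ℕ} (hl : l ≤ k + 1)
    {D : (Pr N → ℝ) → Pr N → Fin N → Fin N → ℝ} (bD : ∀ g p a c, |D g p a c| ≤ 8)
    (dD : ∀ g p a c, HasDerivAt (fun ε : ℝ => BB k (Hg k N β r t (g + Pi.single p ε)) l a c)
      (√(t * β ^ 2 / N) * D g p a c) 0)
    {P : (Pr N → ℝ) → ℂ} {P0 : ℂ} (hP : Loop_Li (Qm k N β r t M) P P0) {x : (Pr N → ℝ) → ℝ}
    (hx : Integrable x (Qm k N β r t M))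
    (hc : ∀ g, ‖(∑ p, ent (Rz z g) (D g p) p) / (N : ℂ) ^ 2 - P g‖ ≤ η⁻¹ * (x g +
      (1 / (k : ℝ)) * ∑ l ∈ range k, √(vR k (Hg k N β r t g) l (r l / β ^ 2)) + 6 / N)) :
    ‖(z - w) * TT k N β r t M z l -
      (∫ g, (∑ a, (BB k (Hg k N β r t g) l a a : ℂ)) / N ∂Qm k N β r t M) - (β * √t : ℝ) * P0‖ ≤
      β / η * (∫ g, x g ∂Qm k N β r t M) + E0 k N β r t M z w η := by
  haveI := Qm_prob (N := N) (β := β) (t := t) (r := r) hk hM
  have hz0 : 0 < z.im := hη.trans_le hz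
  have hN0 : (0 : ℝ) < N := by positivity
  set c : ℝ := √(t * β ^ 2 / N) with hcdef
  have hc0 : 0 ≤ c := sqrt_nonneg _
  have hb : β * √t ≤ β := mul_le_of_le_one_right hβ.le (sqrt_le_one.2 h1.le)
  have hb0 : 0 ≤ β * √t := by positivity
  have iv : Integrable (fun g => (1 / (k : ℝ)) * ∑ l ∈ range k,
      √(vR k (Hg k N β r t g) l (r l / β ^ 2))) (Qm k N β r t M) :=
    (integrable_finset_sum _ fun j hj =>
      (Loop_ivR hk hM (by have := mem_range.1 hj; omega) _).2).const_mul _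
  have iy := (Loop_iyF (β := β) (t := t) (r := r) hk hN hM).const_mul (M / N)
  have i1 : Integrable (fun g => x g + (1 / (k : ℝ)) * ∑ l ∈ range k,
      √(vR k (Hg k N β r t g) l (r l / β ^ 2))) (Qm k N β r t M) := hx.add iv
  have i2 : Integrable (fun g => x g + (1 / (k : ℝ)) * ∑ l ∈ range k,
      √(vR k (Hg k N β r t g) l (r l / β ^ 2)) + 6 / N) (Qm k N β r t M) :=
    i1.add (integrable_const (6 / (N : ℝ)))
  have key := loop_abs hN (C := (M + 8) * c) hη hz (W := fun g => -M * Fg k N β r t g)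
    (W' := fun p g => -M * (c * BB k (Hg k N β r t g) (k + 1) p.1.1 p.1.2))
    (B := fun g => BB k (Hg k N β r t g) l) (B' := fun p g a b => c * D g p a b)
    (continuous_const.mul (cont_Fg hk))
    (fun g => mul_nonpos_of_nonpos_of_nonneg (neg_nonpos.2 hM.le) (Fg_nonneg hk g))
    (fun p g => (Fg_dir hk g p).const_mul (-M))
    (fun p g => by
      rw [abs_mul, abs_mul, abs_neg, abs_of_pos hM, abs_of_nonneg hc0]
      have := abs_BB hk (lin_Hg (β := β) (t := t) (r := r) hk g) (k + 1) p.1.1 p.1.2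
      have := mul_le_of_le_one_right (mul_nonneg hM.le hc0) this
      nlinarith)
    (fun a b => Loop_cBB hk hl a b) (fun g a b => abs_BB hk (lin_Hg hk g) l a b)
    (fun p g a b => dD g p a b)
    (fun p g a b => by
      rw [abs_mul, abs_of_nonneg hc0]
      have := mul_le_mul_of_nonneg_left (bD g p a b) hc0
      nlinarith [mul_nonneg hM.le hc0])
    (A := fun g => (β * √t : ℝ) * P g)
    (e := fun g => β / η * (x g + (1 / (k : ℝ)) * ∑ l ∈ range k,
      √(vR k (Hg k N β r t g) l (r l / β ^ 2)) + 6 / N + M / N * yF k (Hg k N β r t g)))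
    (hP.1.const_mul _) ((i2.add iy).const_mul _) fun g => by
      have t1 := hc g
      have t2 := con_tilt hk hN (lin_Hg (β := β) (t := t) (r := r) hk g) (Rz_bil hη hz g)
        (inv_nonneg.2 hη.le) hl
      have e1 : ((c : ℂ) / (N * √N)) = (β * √t : ℝ) / (N : ℂ) ^ 2 := by
        exact_mod_cast congrArg Complex.ofReal (Loop_coef hβ hN h0)
      set X := ∑ p, ent (Rz z g) (D g p) p
      set Y := ∑ p : Pr N, ent (Rz z g) (BB k (Hg k N β r t g) l) p *
        BB k (Hg k N β r t g) (k + 1) p.1.1 p.1.2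
      have e2 : (∑ p, (ent (Rz z g) (fun a b => c * D g p a b) p +
          ent (Rz z g) (BB k (Hg k N β r t g) l) p *
          (-M * (c * BB k (Hg k N β r t g) (k + 1) p.1.1 p.1.2) : ℝ))) = c * (X - M * Y) := by
        simp only [X, Y, mul_sum, ← sum_sub_distrib]
        refine sum_congr rfl fun p _ => ?_
        rw [Loop_ent]
        push_cast
        ring
      have e3 : c * (X - M * Y) / (N * √N) - (β * √t : ℝ) * P g =
          (β * √t : ℝ) * ((X / (N : ℂ) ^ 2 - P g) - (M / N ^ 2 : ℝ) * Y) := by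
        rw [mul_div_right_comm, e1]
        push_cast
        ring
      have t3 : ‖((M / N ^ 2 : ℝ) : ℂ) * Y‖ ≤ η⁻¹ * (M / N * yF k (Hg k N β r t g)) := by
        rw [norm_mul, Complex.norm_real, Real.norm_of_nonneg (by positivity)]
        refine (mul_le_mul_of_nonneg_left t2 (by positivity)).trans (le_of_eq ?_)
        field_simp
      have t4 := (norm_sub_le _ _).trans (add_le_add t1 t3)
      rw [e2, e3, norm_mul, Complex.norm_real, Real.norm_of_nonneg hb0]
      refine (mul_le_mul hb t4 (norm_nonneg _) hβ.le).trans (le_of_eq ?_)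
      ring
  change ‖z * TT k N β r t M z l -
      (∫ g, (∑ a, (BB k (Hg k N β r t g) l a a : ℂ)) / N ∂Qm k N β r t M) -
      (∫ g, sz z g * tau (Rz z g) (BB k (Hg k N β r t g) l) ∂Qm k N β r t M) -
      ∫ g, (β * √t : ℝ) * P g ∂Qm k N β r t M‖ ≤ (∫ g, β / η * (x g + (1 / (k : ℝ)) * ∑ l ∈ range k,
      √(vR k (Hg k N β r t g) l (r l / β ^ 2)) + 6 / N + M / N * yF k (Hg k N β r t g))
      ∂Qm k N β r t M) + 2 / (η ^ 2 * √N) at key
  rw [(Loop_cmul _ hP).2, integral_const_mul, integral_add i2 iy, integral_add i1 (integrable_const _),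
    integral_add hx iv, integral_const_mul, integral_const_mul, integral_const, probReal_univ,
    one_smul, integral_finset_sum _ fun j hj =>
      (Loop_ivR hk hM (by have := mem_range.1 hj; omega) _).2] at key
  have s1 : (1 / (k : ℝ)) * ∑ l ∈ range k, ∫ g, √(vR k (Hg k N β r t g) l (r l / β ^ 2))
      ∂Qm k N β r t M ≤ √((1 / (k : ℝ)) * ∑ l ∈ range k, VV k N β r t M l) := by
    refine le_trans ?_ (Loop_avg hk fun l => VV_nonneg l)
    refine mul_le_mul_of_nonneg_left (sum_le_sum fun j hj => ?_) (by positivity)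
    exact Loop_sV hk hM (by have := mem_range.1 hj; omega)
  have hT := Loop_TT (N := N) (β := β) (t := t) (r := r) hk hM hη hz hl
  have i3 : Integrable (fun g => sz z g * tau (Rz z g) (BB k (Hg k N β r t g) l))
      (Qm k N β r t M) := by
    refine Loop_int ((Loop_csz hz0).mul (Loop_ctau hk hz0 hl)) (η⁻¹ * η⁻¹) fun g => ?_
    rw [norm_mul]
    exact mul_le_mul (sz_le hη hz g) (Loop_btau hk hη hz hl g) (norm_nonneg _) (by positivity)
  have s2 : ‖(∫ g, sz z g * tau (Rz z g) (BB k (Hg k N β r t g) l) ∂Qm k N β r t M) -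
      w * TT k N β r t M z l‖ ≤ SS k N β r t M z w / η := by
    rw [← (Loop_cmul w hT).2, ← integral_sub i3 (Loop_cmul w hT).1, SS, ← integral_div]
    refine norm_integral_le_of_norm_le ((Loop_iS hk hM hz0).div_const _) (ae_of_all _ fun g => ?_)
    rw [← sub_mul, norm_mul, div_eq_mul_inv]
    exact mul_le_mul_of_nonneg_left (Loop_btau hk hη hz hl g) (norm_nonneg _)
  have s3 := (norm_add_le _ _).trans (add_le_add key s2)
  have s4 := mul_le_mul_of_nonneg_left s1 (div_pos hβ hη).le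
  refine le_trans (le_of_eq (congrArg _ (by ring))) (s3.trans ?_)
  rw [E0, YQ]
  linarith

theorem loop_r (hβ : 0 < β) (hk : 0 < k) (hN : 0 < N) (hM : 0 < M) (h0 : 0 < t) (h1 : t < 1)
    (hη : 0 < η) (hz : η ≤ z.im) {l : ℕ} (hl : l < k) :
    ‖(z - w) * TT k N β r t M z l - (r l / β ^ 2 : ℝ) - (β * √t : ℝ) *
      QT k (fun l => r l / β ^ 2) (TT k N β r t M z) l‖ ≤
      (1 + 3 * β / η) * √(VV k N β r t M l) + E0 k N β r t M z w η := by
  haveI := Qm_prob (N := N) (β := β) (t := t) (r := r) hk hM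
  have hl' : l ≤ k + 1 := by omega
  have iv := (Loop_ivR (N := N) (β := β) (t := t) (r := r) hk hM hl' (r l / β ^ 2)).2
  have key := Loop_core (w := w) hβ hk hN hM h0 h1 hη hz hl'
    (D := fun g p a c => dB k (Hg k N β r t g) l a c p.1.1 p.1.2)
    (fun g p a c => (abs_dB hk (lin_Hg hk g) hl a c _ _).1) (fun g p a c => BB_dir hk g p hl a c)
    (Loop_QT (fun l => r l / β ^ 2) hl fun j hj => Loop_TT hk hM hη hz hj) (iv.const_mul 3)
    fun g => con_r hk hN (lin_Hg hk g) (Rz_bil hη hz g) (inv_nonneg.2 hη.le) _ hl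
  have i1 : Integrable (fun g => (∑ a, (BB k (Hg k N β r t g) l a a : ℂ)) / N)
      (Qm k N β r t M) := by
    refine (integrable_finset_sum _ fun a _ => Loop_int
      (Complex.continuous_ofReal.comp (Loop_cBB hk hl' a a)) 1 fun g => ?_).div_const _
    exact (Complex.norm_real _).trans_le (abs_BB hk (lin_Hg hk g) l a a)
  have s1 : ‖(∫ g, (∑ a, (BB k (Hg k N β r t g) l a a : ℂ)) / N ∂Qm k N β r t M) -
      (r l / β ^ 2 : ℝ)‖ ≤ √(VV k N β r t M l) := by
    have e : ((r l / β ^ 2 : ℝ) : ℂ) = ∫ g, ((r l / β ^ 2 : ℝ) : ℂ) ∂Qm k N β r t M := by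
      rw [integral_const, probReal_univ, one_smul]
    rw [e, ← integral_sub i1 (integrable_const _)]
    refine (norm_integral_le_of_norm_le iv (ae_of_all _ fun g => ?_)).trans (Loop_sV hk hM hl')
    refine le_trans (le_of_eq ?_) (tr_BB hk (lin_Hg hk g) l (r l / β ^ 2))
    rw [← Real.norm_eq_abs, ← Complex.norm_real]
    push_cast
    rfl
  rw [integral_const_mul] at key
  have s2 := mul_le_mul_of_nonneg_left (Loop_sV (N := N) (β := β) (t := t) (r := r) hk hM hl')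
    (show 0 ≤ 3 * β / η by positivity)
  have s3 := (norm_add_le _ _).trans (add_le_add key s1)
  refine le_trans (le_of_eq (congrArg _ (by ring))) (s3.trans ?_)
  have e : ∀ y : ℝ, β / η * (3 * y) = 3 * β / η * y := fun y => by ring
  rw [e]
  linarith

theorem loop_d (hβ : 0 < β) (hk : 0 < k) (hN : 0 < N) (hM : 0 < M) (h0 : 0 < t) (h1 : t < 1)
    (hη : 0 < η) (hz : η ≤ z.im) :
    ‖(z - w) * TT k N β r t M z (k + 1) - 1 - (β * √t : ℝ) *
      QTd k (fun l => r l / β ^ 2) (TT k N β r t M z)‖ ≤ E0 k N β r t M z w η := by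
  haveI := Qm_prob (N := N) (β := β) (t := t) (r := r) hk hM
  have key := Loop_core (w := w) hβ hk hN hM h0 h1 hη hz le_rfl
    (D := fun g p a c => dBd k (Hg k N β r t g) a c p.1.1 p.1.2)
    (fun g p a c => (abs_dB hk (lin_Hg hk g) hk a c _ _).2) (fun g p a c => BBd_dir hk g p a c)
    (Loop_QTd (fun l => r l / β ^ 2) fun j hj => Loop_TT hk hM hη hz hj) (integrable_zero _ _ _)
    fun g => by
      rw [Pi.zero_apply, zero_add]
      exact con_d hk hN (lin_Hg hk g) (Rz_bil hη hz g) (inv_nonneg.2 hη.le) _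
  have hN0 : (N : ℂ) ≠ 0 := by exact_mod_cast hN.ne'
  have e : ∀ g, (∑ a, (BB k (Hg k N β r t g) (k + 1) a a : ℂ)) / N = 1 := fun g => by
    rw [sum_congr rfl fun a _ => congrArg Complex.ofReal (BB_diag hk (lin_Hg hk g) a)]
    simp [hN0]
  simp only [e, integral_const, probReal_univ, one_smul, Pi.zero_apply, smul_zero, mul_zero,
    zero_add] at key
  exact key

/-- `tau_sq`, `Rz_ward`, Cauchy-Schwarz (`c2_cs`), `-Im s ≤ -Im w + |s - w|` -/
theorem TT_le (hk : 0 < k) (hN : 0 < N) (hM : 0 < M) (hz : 0 < z.im) {l : ℕ} (hl : l ≤ k + 1) :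
    ‖TT k N β r t M z l‖ ^ 2 ≤ YQ k N β r t M * ((-w.im + SS k N β r t M z w) / z.im) := by
  haveI := Qm_prob (N := N) (β := β) (t := t) (r := r) hk hM
  have hN0 : (0 : ℝ) < N := by positivity
  let u : (Pr N → ℝ) → ℝ := fun g => (-w.im + ‖sz z g - w‖) / z.im
  have hu : ∀ g, (∑ i, ∑ j, ‖Rz z g i j‖ ^ 2) / N ≤ u g := fun g => by
    have h1 := Rz_ward hz g
    have h2 := (abs_le.1 (Complex.abs_im_le_norm (sz z g - w))).1
    rw [Complex.sub_im] at h2
    rw [div_le_div_iff₀ hN0 hz]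
    nlinarith
  have u0 : ∀ g, 0 ≤ u g := fun g => le_trans (by positivity) (hu g)
  have y0 : ∀ g, 0 ≤ yF k (Hg k N β r t g) := fun g =>
    zero_le_one.trans (yF_mem hk hN (lin_Hg hk g)).1
  have iu : Integrable u (Qm k N β r t M) :=
    ((integrable_const _).add (Loop_iS hk hM hz)).div_const _
  have iy := Loop_iyF (β := β) (t := t) (r := r) hk hN hM
  have cu : Continuous u :=
    (continuous_const.add ((Loop_csz hz).sub continuous_const).norm).div_const _
  have e1 : (fun g => √(yF k (Hg k N β r t g)) ^ 2) = fun g => yF k (Hg k N β r t g) :=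
    funext fun g => sq_sqrt (y0 g)
  have e2 : (fun g => √(u g) ^ 2) = u := funext fun g => sq_sqrt (u0 g)
  have i3 : Integrable (fun g => √(yF k (Hg k N β r t g)) * √(u g)) (Qm k N β r t M) := by
    refine (iy.add iu).mono' ((Loop_cyF hk).sqrt.mul cu.sqrt).aestronglyMeasurable
      (ae_of_all _ fun g => ?_)
    rw [Real.norm_of_nonneg (by positivity), Pi.add_apply]
    nlinarith [sq_sqrt (y0 g), sq_sqrt (u0 g), sq_nonneg (√(yF k (Hg k N β r t g)) - √(u g)),
      y0 g, u0 g]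
  have h := c2_cs (μ := Qm k N β r t M) (by rw [e1]; exact iy) (by rw [e2]; exact iu) i3
  rw [e1, e2] at h
  have e3 : ∫ g, u g ∂Qm k N β r t M = (-w.im + SS k N β r t M z w) / z.im := by
    rw [integral_div, integral_add (integrable_const _) (Loop_iS hk hM hz), integral_const,
      probReal_univ, one_smul, SS]
  rw [e3] at h
  refine le_trans (pow_le_pow_left₀ (norm_nonneg _) ?_ 2) h
  refine norm_integral_le_of_norm_le i3 (ae_of_all _ fun g => ?_)
  refine (tau_sq hk hN (lin_Hg hk g) hl).trans ?_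
  rw [mul_comm]
  exact mul_le_mul_of_nonneg_left (sqrt_le_sqrt (hu g)) (sqrt_nonneg _)

end

end Vale.Agent.P146L
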