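import Vale.Agent.P146L.Defs

/-! Size of the errors. -/

set_option linter.all false

namespace Vale.Agent.P146L

open MeasureTheory ProbabilityTheory Real Finset Filter Topology Vale.Agent.P146M Vale.Agent.P146

noncomputable section

lemma small0 {β δ ε a b n1 n2 y S : ℝ} (hβ : 1 ≤ β) (d0 : 0 < δ) (d1 : δ ≤ 1 / 2) (e0 : 0 ≤ ε)
    (ha : a ≤ ε) (hb : b ≤ ε) (h1 : n1 ≤ ε) (h2 : n2 ≤ ε) (hy : y ≤ ε)
    (hS : S ≤ 48 * ε / δ ^ 7) :
    (1 + 3 * β / δ ^ 2) * a + (β / δ ^ 2 * (b + 6 * n1 + y) + S / δ ^ 2 + 2 * n2 / δ ^ 4) ≤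
      62 * β * ε / δ ^ 9 ∧ S / δ ^ 2 ≤ 62 * β * ε / δ ^ 9 := by
  have hD : ∀ j ≤ 9, 1 / δ ^ j ≤ 1 / δ ^ 9 := fun j hj =>
    one_div_le_one_div_of_le (by positivity) (pow_le_pow_of_le_one d0.le (by linarith) hj)
  have p0 := hD 0 (by norm_num)
  have p2 := hD 2 (by norm_num)
  have p4 := hD 4 (by norm_num)
  have q1 : S / δ ^ 2 ≤ 48 * ε * (1 / δ ^ 9) :=
    (div_le_div_of_nonneg_right hS (by positivity)).trans (le_of_eq (by field_simp))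
  have q2 : (1 + 3 * β / δ ^ 2) * a ≤ (1 + 3 * β / δ ^ 2) * ε :=
    mul_le_mul_of_nonneg_left ha (by positivity)
  have q3 : β / δ ^ 2 * (b + 6 * n1 + y) ≤ β / δ ^ 2 * (8 * ε) :=
    mul_le_mul_of_nonneg_left (by linarith) (by positivity)
  have q4 : 2 * n2 / δ ^ 4 ≤ 2 * ε / δ ^ 4 := div_le_div_of_nonneg_right (by linarith) (by positivity)
  rw [pow_zero, div_one] at p0
  rw [div_eq_mul_one_div (62 * β * ε)]
  rw [div_eq_mul_one_div (3 * β)] at q2 ⊢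
  rw [div_eq_mul_one_div β] at q3 ⊢
  rw [div_eq_mul_one_div (2 * ε)] at q4
  generalize 1 / δ ^ 9 = D at *
  have r0 := mul_le_mul_of_nonneg_left p0 e0
  have r2 := mul_le_mul_of_nonneg_left p2 (by positivity : 0 ≤ β * ε)
  have r4 := mul_le_mul_of_nonneg_left p4 e0
  have r5 : ε * D ≤ β * (ε * D) := le_mul_of_one_le_left (by nlinarith) hβ
  have r6 : 0 ≤ ε * D := by nlinarith
  constructor <;> nlinarith

lemma small1 {β K u N a : ℝ} (hβ : 1 ≤ β) (hK : β + 1 ≤ K) (u0 : 0 < u) (u1 : u ≤ 1) (N0 : 0 < N)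
    (n1 : 1 / N ≤ u ^ 2) (a1 : a ≤ u ^ 2) : √(a * N * N * β ^ 2 + 1) / N ≤ K * u := by
  rw [div_le_iff₀ N0] at n1 ⊢
  have a2 : 1 ≤ u * N := by nlinarith
  refine (sqrt_le_iff.2 ⟨by positivity, ?_⟩ : _ ≤ β * u * N + 1).trans ?_
  · have := mul_le_mul_of_nonneg_right a1 (by positivity : 0 ≤ N * N * β ^ 2)
    have : 0 ≤ β * u * N := by positivity
    nlinarith
  · nlinarith

lemma small2 {β u a b Y : ℝ} (hβ : 1 ≤ β) (u0 : 0 < u) (a0 : 0 ≤ a) (Y1 : 1 ≤ Y) (a3 : a ≤ u)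
    (a2 : a * (β ^ 2 / 4 * (Y - 1)) ≤ b * u) : a * Y ≤ (4 * b + β + 1) * u := by
  have a5 : a * (Y - 1) ≤ a * (β ^ 2 * (Y - 1)) :=
    mul_le_mul_of_nonneg_left (le_mul_of_one_le_left (by linarith) (one_le_pow₀ hβ)) a0
  have a6 : 0 ≤ β * u := by positivity
  nlinarith

lemma small {β c2 C3 c : ℝ} (hβ : 1 ≤ β) (h2 : 0 < c2) (h3 : 0 ≤ C3) (hc : 0 < c) :
    ∃ x0, 0 < x0 ∧ ∀ x δ N W Va Vj Y S : ℝ, 0 < x → x ≤ x0 → c2 * x ^ 21 ≤ δ → δ ≤ 1 / 2 →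
      1 ≤ N * x ^ 400 → W * x ^ 2 ≤ C3 → 0 ≤ Va → δ * (β ^ 2 / 4 * Va) ≤ x ^ 441 * W →
      x ^ 2 * Vj ≤ Va → 1 ≤ Y → δ * (β ^ 2 / 4 * (Y - 1)) ≤ W →
      S ≤ 24 * (1 / √N + √(x ^ 441 * N * N * β ^ 2 + 1) / N) / δ ^ 7 →
      (1 + 3 * β / δ ^ 2) * √Vj + (β / δ ^ 2 * (√Va + 6 / N + x ^ 441 * Y) + S / δ ^ 2 +
        2 / ((δ ^ 2) ^ 2 * √N)) ≤ c ∧
      (1 + 3 * β / δ ^ 2) * √Va + (β / δ ^ 2 * (√Va + 6 / N + x ^ 441 * Y) + S / δ ^ 2 +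
        2 / ((δ ^ 2) ^ 2 * √N)) ≤ c ∧ S / δ ^ 2 ≤ c := by
  set K := 4 * C3 / c2 + β + 1 with hK
  have K0 : 0 ≤ 4 * C3 / c2 := by positivity
  have K1 : 1 ≤ K := by linarith
  refine ⟨min 1 (c * c2 ^ 9 / (62 * β * K)), by positivity,
    fun x δ N W Va Vj Y S x0 x1 d0 d1 hN hW V0 hV hj Y1 hY hS => ?_⟩
  have x2 : x ≤ 1 := x1.trans (min_le_left _ _)
  have x3 : x ≤ c * c2 ^ 9 / (62 * β * K) := x1.trans (min_le_right _ _)
  have δ0 : 0 < δ := lt_of_lt_of_le (by positivity) d0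
  have pw : ∀ {i j : ℕ}, i ≤ j → x ^ j ≤ x ^ i := fun h => pow_le_pow_of_le_one x0.le x2 h
  have N0 : 0 < N := (mul_pos_iff_of_pos_right (pow_pos x0 400)).1 (one_pos.trans_le hN)
  have b1 : 1 ≤ β ^ 2 := one_le_pow₀ hβ
  set u := x ^ 200 with hu
  have u0 : 0 < u := by positivity
  have u1 : u ≤ 1 := pow_le_one₀ x0.le x2
  have e400 : x ^ 400 = u ^ 2 := by rw [hu, ← pow_mul]
  have W1 : x ^ 441 * W ≤ c2 * x ^ 21 * (C3 / c2 * x ^ 418) := by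
    rw [show x ^ 441 * W = x ^ 439 * (W * x ^ 2) by ring,
      show c2 * x ^ 21 * (C3 / c2 * x ^ 418) = x ^ 439 * C3 by field_simp]
    exact mul_le_mul_of_nonneg_left hW (by positivity)
  have W2 : x ^ 441 * W ≤ δ * (C3 / c2 * x ^ 418) :=
    W1.trans (mul_le_mul_of_nonneg_right d0 (by positivity))
  have V1 : Va ≤ 4 * C3 / c2 * x ^ 418 := by
    have a1 := le_of_mul_le_mul_left (hV.trans W2) δ0
    have a2 := le_mul_of_one_le_left V0 b1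
    rw [mul_div_assoc, mul_assoc]
    linarith
  have V2 : Vj ≤ 4 * C3 / c2 * x ^ 416 := by
    refine le_of_mul_le_mul_left (hj.trans (V1.trans (le_of_eq (by ring)))) (pow_pos x0 2)
  have KK : 4 * C3 / c2 ≤ K ^ 2 := le_trans (by linarith) (le_self_pow₀ K1 two_ne_zero)
  have sq1 : ∀ {V : ℝ} {j : ℕ}, 400 ≤ j → V ≤ 4 * C3 / c2 * x ^ j → √V ≤ K * u := fun h1 h2 =>
    sqrt_le_iff.2 ⟨by positivity, h2.trans (by
      rw [mul_pow, ← e400]; exact mul_le_mul KK (pw h1) (by positivity) (by positivity))⟩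
  have n1 : 1 / N ≤ u ^ 2 := by rw [div_le_iff₀ N0, ← e400]; linarith
  have n2 : 1 / √N ≤ u := by
    rw [one_div, ← sqrt_inv, ← one_div]; exact sqrt_le_iff.2 ⟨u0.le, n1⟩
  have uK : u ≤ K * u := le_mul_of_one_le_left u0.le K1
  have uu : u ^ 2 ≤ u := pow_le_of_le_one u0.le u1 two_ne_zero
  have n3 : √(x ^ 441 * N * N * β ^ 2 + 1) / N ≤ K * u :=
    small1 hβ (by linarith) u0 u1 N0 n1 (e400 ▸ pw (by norm_num))
  have y1 : x ^ 441 * Y ≤ K * u := by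
    have a1 := mul_le_mul_of_nonneg_left hY (pow_pos x0 441).le
    rw [mul_left_comm] at a1
    rw [hK, mul_div_assoc]
    exact small2 hβ u0 (by positivity) Y1 (pw (by norm_num))
      ((le_of_mul_le_mul_left (a1.trans W2) δ0).trans (mul_le_mul_of_nonneg_left (pw (by norm_num))
        (by positivity)))
  have hS' : S ≤ 48 * (K * u) / δ ^ 7 :=
    hS.trans (div_le_div_of_nonneg_right (by linarith) (by positivity))
  have fin : 62 * β * (K * u) / δ ^ 9 ≤ c := by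
    rw [div_le_iff₀ (by positivity)]
    rw [le_div_iff₀ (by positivity)] at x3
    have a1 := pow_le_pow_left₀ (by positivity) d0 9
    rw [mul_pow, ← pow_mul] at a1
    have a2 : u ≤ x * x ^ (21 * 9) := by rw [← pow_succ']; exact pw (by norm_num)
    calc _ = 62 * β * K * u := by ring
      _ ≤ 62 * β * K * (x * x ^ (21 * 9)) := by gcongr
      _ = x * (62 * β * K) * x ^ (21 * 9) := by ring
      _ ≤ c * c2 ^ 9 * x ^ (21 * 9) := by gcongr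
      _ = c * (c2 ^ 9 * x ^ (21 * 9)) := by ring
      _ ≤ _ := by gcongr
  have g1 := small0 hβ δ0 d1 (by positivity) (sq1 (by norm_num) V2) (sq1 (by norm_num) V1)
    (n1.trans (uu.trans uK)) (n2.trans uK) y1 hS'
  have g2 := small0 hβ δ0 d1 (by positivity) (sq1 (by norm_num) V1) (sq1 (by norm_num) V1)
    (n1.trans (uu.trans uK)) (n2.trans uK) y1 hS'
  have e1 : 2 / ((δ ^ 2) ^ 2 * √N) = 2 * (1 / √N) / δ ^ 4 := by field_simp
  rw [e1, div_eq_mul_one_div 6 N]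
  exact ⟨g1.1.trans fin, g2.1.trans fin, g1.2.trans fin⟩

end

end Vale.Agent.P146L
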