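import Vale.Agent.P146L.Ibp
import Vale.Agent.P146L.Conc

/-! The Stieltjes transform under the tilted law. -/

set_option linter.all false

namespace Vale.Agent.P146L

open MeasureTheory ProbabilityTheory Real Finset Filter Topology Vale.Agent.P146M Vale.Agent.P146

noncomputable section

theorem xi_cont {N : ℕ} {z : ℂ} (hz : 0 < z.im) : Continuous fun g : Pr N → ℝ => sz z g :=
  (continuous_finset_sum _ fun a _ => Rz_cont hz a a).div_const _

theorem xi_int {N : ℕ} {μ : Measure (Pr N → ℝ)} [IsProbabilityMeasure μ] {E : Type}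
    [NormedAddCommGroup E] {f : (Pr N → ℝ) → E} (hf : Continuous f) {C : ℝ}
    (hb : ∀ g, ‖f g‖ ≤ C) : Integrable f μ :=
  Integrable.of_bound hf.aestronglyMeasurable C (Eventually.of_forall hb)

theorem xi_mean {N : ℕ} (hN : 0 < N) {z : ℂ} {η : ℝ} (hη : 0 < η) (hz : η ≤ z.im) :
    ‖∫ g, (sz z g ^ 2 - z * sz z g + 1) ∂γ (Pr N)‖ ≤ 2 / (η ^ 2 * √N) := by
  have hP : IsProbabilityMeasure (γ (Pr N)) := inferInstance
  have h := loop_abs hN (z := z) (η := η) (C := 0) hη hz (W := 0) (W' := fun _ _ => 0)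
    (B := fun _ a c => if a = c then 1 else 0) (B' := fun _ _ _ _ => 0) continuous_const
    (fun _ => le_rfl) (fun _ _ => hasDerivAt_const _ _) (fun _ _ => by simp)
    (fun _ _ => continuous_const) (fun _ a c => by split_ifs <;> simp)
    (fun _ _ _ _ => hasDerivAt_const _ _) (fun _ _ _ _ => by simp) (A := fun _ => 0)
    (e := fun _ => 0) (integrable_zero _ _ _) (integrable_zero _ _ _) (fun g => by simp [ent])
  have e : ∀ g : Pr N → ℝ, tau (Rz z g) (fun a c => if a = c then 1 else 0) = sz z g := by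
    intro g
    simp [tau, sz, apply_ite]
  have hN' : (N : ℂ) ≠ 0 := by exact_mod_cast hN.ne'
  simp only [tilted_zero, e, if_true, Complex.ofReal_one, sum_const, card_univ, Fintype.card_fin,
    nsmul_eq_mul, mul_one, div_self hN', integral_zero, sub_zero, zero_add, integral_const,
    probReal_univ, one_smul, smul_zero] at h
  have c1 := xi_cont (N := N) (hη.trans_le hz)
  have i1 : Integrable (fun g => sz z g) (γ (Pr N)) := xi_int c1 (sz_le hη hz)
  have i2 : Integrable (fun g => sz z g ^ 2) (γ (Pr N)) :=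
    xi_int (c1.pow 2) (C := η⁻¹ ^ 2) fun g => by
      rw [norm_pow]
      exact pow_le_pow_left₀ (norm_nonneg _) (sz_le hη hz g) 2
  have i3 : Integrable (fun g => sz z g ^ 2 - z * sz z g) (γ (Pr N)) := i2.sub (i1.const_mul z)
  rw [integral_add i3 (integrable_const _), integral_sub i2 (i1.const_mul z), integral_const_mul,
    integral_const, probReal_univ, one_smul, ← norm_neg]
  simp only [← sq] at h
  refine le_of_eq_of_le ?_ h
  congr 1
  ring

theorem xi_lip {N : ℕ} {z : ℂ} {η : ℝ} (hη : 0 < η) (hη' : η ≤ 1 / 4) (hz : η ≤ z.im)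
    (hz' : ‖z‖ ≤ 3) (x y : Pr N → ℝ) :
    ‖(sz z x ^ 2 - z * sz z x + 1) - (sz z y ^ 2 - z * sz z y + 1)‖ ≤
      6 / (η ^ 3 * N) * √(∑ p, (x p - y p) ^ 2) := by
  have e : (sz z x ^ 2 - z * sz z x + 1) - (sz z y ^ 2 - z * sz z y + 1) =
      (sz z x + sz z y - z) * (sz z x - sz z y) := by ring
  have h1 : ‖sz z x + sz z y - z‖ ≤ 3 * η⁻¹ := by
    have a1 := norm_sub_le (sz z x + sz z y) z
    have a2 := norm_add_le (sz z x) (sz z y)
    have a3 : 4 ≤ η⁻¹ := by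
      rw [le_inv_comm₀ (by norm_num) hη]
      linarith
    linarith [sz_le hη hz x, sz_le hη hz y]
  rw [e, norm_mul]
  refine (mul_le_mul h1 (sz_lip hη hz x y) (norm_nonneg _) (by positivity)).trans (le_of_eq ?_)
  ring

/-- Let `z = zz δ`, `η = δ ^ 2`, `Ξ = s ^ 2 - z s + 1 = (s - ww δ) (s - om δ)` with `s = sz z g`
(`zz_facts`). `|s - om δ| ≥ δ` by `sz_im`. `loop_abs` with `W = 0`, `B = 1`, `A = 0`, `e = 0`
(`tilted_zero`) gives `|E_γ Ξ| ≤ 2 / (η ^ 2 √N)`. `Ξ` is Lipschitz with the constant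
`(2 / η + 3) * 2 / (η ^ 2 N) ≤ 6 / (η ^ 3 N)` (`sz_lip`, `sz_le`, `η ≤ 1 / 4`); `conc_tilt_c`. -/
theorem S_le {N : ℕ} (hN : 0 < N) {δ A : ℝ} (h0 : 0 < δ) (h1 : δ ≤ 1 / 2) (hA : 0 ≤ A)
    {W : (Pr N → ℝ) → ℝ} (hW : Measurable W) (hW0 : ∀ g, W g ≤ 0)
    (hZ : exp (-A) ≤ ∫ g, exp (W g) ∂γ (Pr N)) :
    ∫ g, ‖sz (zz δ) g - ww δ‖ ∂(γ (Pr N)).tilted W ≤ 24 * (1 / √N + √(A + 1) / N) / δ ^ 7 := by
  obtain ⟨f1, f2, -, f4, f5⟩ := zz_facts h0 h1
  have hη : 0 < δ ^ 2 := by positivity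
  have hη' : δ ^ 2 ≤ 1 / 4 := by nlinarith
  have hP := tilt_prob hW hW0
  have hN' : (0 : ℝ) < N := by exact_mod_cast hN
  have c1 := xi_cont (N := N) (hη.trans_le f1)
  set Ξ : (Pr N → ℝ) → ℂ := fun g => sz (zz δ) g ^ 2 - zz δ * sz (zz δ) g + 1 with hΞ
  have c2 : Continuous Ξ := ((c1.pow 2).sub (continuous_const.mul c1)).add continuous_const
  have b2 : ∀ g, ‖Ξ g‖ ≤ (δ ^ 2)⁻¹ ^ 2 + 3 * (δ ^ 2)⁻¹ + 1 := by
    intro g
    refine (norm_add_le _ _).trans (add_le_add ((norm_sub_le _ _).trans (add_le_add ?_ ?_))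
      norm_one.le)
    · rw [norm_pow]
      exact pow_le_pow_left₀ (norm_nonneg _) (sz_le hη f1 g) 2
    · rw [norm_mul]
      exact mul_le_mul f2 (sz_le hη f1 g) (norm_nonneg _) (by norm_num)
  have m1 : ‖∫ g, Ξ g ∂γ (Pr N)‖ ≤ 2 / ((δ ^ 2) ^ 2 * √N) := xi_mean hN hη f1
  have m2 := conc_tilt_c (F := Ξ) (L := 6 / ((δ ^ 2) ^ 3 * N)) (by positivity) hA
    (xi_lip hη hη' f1 f2) hW hW0 hZ
  have i1 : Integrable (fun g => ‖Ξ g - ∫ y, Ξ y ∂γ (Pr N)‖) ((γ (Pr N)).tilted W) :=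
    ((xi_int c2 b2).sub (integrable_const _)).norm
  have pt : ∀ g, ‖sz (zz δ) g - ww δ‖ ≤
      δ⁻¹ * (‖Ξ g - ∫ y, Ξ y ∂γ (Pr N)‖ + 2 / ((δ ^ 2) ^ 2 * √N)) := by
    intro g
    have e : Ξ g = (sz (zz δ) g - om δ) * (sz (zz δ) g - ww δ) := by
      simp only [hΞ]
      linear_combination (sz (zz δ) g) * (-f4) - f5
    have a1 : δ ≤ ‖sz (zz δ) g - om δ‖ := by
      refine le_trans ?_ (Complex.abs_im_le_norm _)
      have a2 := sz_im (hη.trans_le f1) g
      have a3 : (sz (zz δ) g - om δ).im = (sz (zz δ) g).im - δ := rfl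
      rw [a3]
      exact le_trans (by linarith) (neg_le_abs _)
    have a4 : δ * ‖sz (zz δ) g - ww δ‖ ≤ ‖Ξ g‖ := by
      rw [e, norm_mul]
      exact mul_le_mul_of_nonneg_right a1 (norm_nonneg _)
    have a5 := norm_le_norm_sub_add (Ξ g) (∫ y, Ξ y ∂γ (Pr N))
    rw [le_inv_mul_iff₀ h0]
    linarith
  have i2 : Integrable (fun g => ‖Ξ g - ∫ y, Ξ y ∂γ (Pr N)‖ + 2 / ((δ ^ 2) ^ 2 * √N))
      ((γ (Pr N)).tilted W) := i1.add (integrable_const _)
  refine (integral_mono_of_nonneg (Eventually.of_forall fun g => norm_nonneg _)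
    (i2.const_mul δ⁻¹) (Eventually.of_forall pt)).trans ?_
  rw [integral_const_mul, integral_add i1 (integrable_const _), integral_const, probReal_univ,
    one_smul]
  have hs : 0 < √(N : ℝ) := Real.sqrt_pos.2 hN'
  have t1 : 2 / ((δ ^ 2) ^ 2 * √N) ≤ 24 / ((δ ^ 2) ^ 3 * √N) := by
    rw [div_le_div_iff₀ (by positivity) (by positivity)]
    have t2 : 0 < (δ ^ 2) ^ 2 * √(N : ℝ) := by positivity
    nlinarith
  refine (mul_le_mul_of_nonneg_left (add_le_add m2 t1) (by positivity)).trans (le_of_eq ?_)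
  field_simp
  ring

end

end Vale.Agent.P146L
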