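import Vale.Agent.P146L.MainA
import Vale.Agent.P146L.MainB
import Vale.Agent.P146L.Xi
import Vale.Agent.P146L.Loop
import Vale.Agent.P146L.Alg

/-! The polynomial lower bound. -/

set_option linter.all false

namespace Vale.Agent.P146L

open MeasureTheory ProbabilityTheory Real Finset Filter Topology Vale.Agent.P146M Vale.Agent.P146

noncomputable section

lemma core {β : ℝ} (hβ : 1 < β) : ∃ c, 0 < c ∧ ∃ τ0 : ℕ, ∀ n τ : ℕ, τ0 ≤ τ → τ ^ 62181 ≤ n →
    c * (τ : ℝ) ^ 2 ≤ Var[FF n β; γ (Pr n)] := by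
  have β0 : 0 < β := by linarith
  have b1 : 1 ≤ β ^ 2 := one_le_pow₀ hβ.le
  obtain ⟨cA, cA0, hA⟩ := alg_bound β β0
  obtain ⟨cB, cB0, τB, hB⟩ := block hβ
  obtain ⟨CL, CL0, hL⟩ := rate β0
  set W0 := β ^ 4 + CL with hW0
  have W00 : 0 ≤ W0 := by positivity
  obtain ⟨x0, x00, hx⟩ := small (c2 := cB) (C3 := 1 + W0) (c := min cA 1) hβ.le cB0
    (by positivity) (by positivity)
  have e1 : ∀ᶠ τ : ℕ in atTop, 1 / x0 ≤ (τ : ℝ) := tendsto_natCast_atTop_atTop.eventually_ge_atTop _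
  have e2 : ∀ᶠ τ : ℕ in atTop, (2 + 8 * W0) / cA ^ 2 ≤ (τ : ℝ) :=
    tendsto_natCast_atTop_atTop.eventually_ge_atTop _
  obtain ⟨τ0, h0⟩ := eventually_atTop.1 (e1.and (e2.and ((eventually_ge_atTop 2).and
    (eventually_ge_atTop τB))))
  refine ⟨min 1 (cA ^ 2 / 8), by positivity, τ0, fun n τ hτ hn => ?_⟩
  obtain ⟨a1, a2, a3, a4⟩ := h0 τ hτ
  have τ0' : 0 < τ := by omega
  have t2 : (2 : ℝ) ≤ τ := by exact_mod_cast a3
  have t0 : (0 : ℝ) < τ := by linarith
  have n0 : 0 < n := (pow_pos τ0' _).trans_le hn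
  have n1 : (0 : ℝ) < n := by exact_mod_cast n0
  set v := Var[FF n β; γ (Pr n)] with hv
  have v0 : 0 ≤ v := variance_nonneg _ _
  by_cases hc : (τ : ℝ) ^ 2 ≤ v
  · exact (mul_le_of_le_one_left (by positivity) (min_le_left _ _)).trans hc
  refine (mul_le_mul_of_nonneg_right (min_le_right _ _) (by positivity)).trans ?_
  set k := (τ ^ 147) ^ 60 with hk
  have k0 : 0 < k := pow_pos (pow_pos τ0' _) _
  have k1 : (0 : ℝ) < k := by exact_mod_cast k0
  obtain ⟨r, hr⟩ := exists_min β0 k0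
  have hkL : k = τ * τ * τ ^ 8818 := by rw [hk, ← pow_mul, ← sq, ← pow_add]
  obtain ⟨a, s, g1, g2, g3, g4, g5⟩ := hB τ (τ ^ 8818) k r a4 (pow_pos τ0' _) hkL (by
    rw [hk, ← pow_mul]; exact Nat.pow_le_pow_right τ0' (by norm_num)) hr
  have hrate := hL n (τ ^ 147) r (pow_pos τ0' _) (by rw [← pow_mul]; exact hn) hr
  rw [← hk] at hrate
  have L0 : 0 < τ ^ 8818 := pow_pos τ0' _
  generalize τ ^ 8818 = L at *
  set x : ℝ := 1 / τ with hxd
  have x0' : 0 < x := by positivity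
  have x1 : x ≤ 1 / 2 := one_div_le_one_div_of_le two_pos t2
  have xτ : x * τ = 1 := by rw [hxd]; field_simp
  rw [show 1 / ((τ ^ 147 : ℕ) : ℝ) ^ 3 = x ^ 441 by
    rw [hxd, one_div_pow, Nat.cast_pow, ← pow_mul]] at hrate
  have s0 : 0 < s := lt_of_lt_of_le (by positivity) g2
  set δ := x * s with hδ
  have d0 : 0 < δ := by positivity
  have d1 : δ ≤ 1 / 2 := (mul_le_of_le_one_right x0'.le g3).trans x1
  have d2 : cB * x ^ 21 ≤ δ := by
    calc _ = x * (cB * x ^ 20) := by ring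
      _ ≤ _ := mul_le_mul_of_nonneg_left g2 x0'.le
  have α0 : 0 < x ^ 441 := by positivity
  set M := x ^ 441 * n with hM
  have M0 : 0 < M := by positivity
  obtain ⟨t, ⟨t1, t3⟩, hG⟩ := guerra_neg β0 k0 n0 hr.adm M0 d0 (by linarith)
  have t4 : 0 < t := by linarith
  have hN := conv_neg_SK β0 n0 M0
  rw [← hv] at hN
  set Va := (1 / (k : ℝ)) * ∑ l ∈ range k, VV k n β r t M l with hVa
  set Y := YQ k n β r t M with hY
  have Y1 : 1 ≤ Y := one_le_YQ k0 n0 M0
  have Va0 : 0 ≤ Va := mul_nonneg (by positivity) (sum_nonneg fun l _ => VV_nonneg l)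
  have key : δ * (β ^ 2 / 4 * Va) + x ^ 441 * (δ * (β ^ 2 / 4 * (Y - 1))) ≤ x ^ 441 * (v + W0) := by
    refine le_of_mul_le_mul_left ?_ n1
    have e : n * (δ * (β ^ 2 / 4 * Va) + x ^ 441 * (δ * (β ^ 2 / 4 * (Y - 1)))) =
      δ * (n * β ^ 2 / 4 * Va + β ^ 2 * M / 4 * (Y - 1)) := by rw [hM]; ring
    have e' : n * (x ^ 441 * (v + W0)) = M * (v + β ^ 4) + CL * (n * x ^ 441) := by
      rw [hM, hW0]; ring
    linarith
  have p1 : 0 ≤ δ * (β ^ 2 / 4 * Va) := by positivity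
  have p2 : 0 ≤ δ * (β ^ 2 / 4 * (Y - 1)) := mul_nonneg d0.le (mul_nonneg (by positivity)
    (by linarith))
  have k2 : δ * (β ^ 2 / 4 * (Y - 1)) ≤ v + W0 := le_of_mul_le_mul_left (by linarith) α0
  obtain ⟨j, j1, j2, j3⟩ := pigeon (V := VV k n β r t M) (fun l => VV_nonneg l) L0 g1
  have jk : j < k := j2.trans_le g1
  obtain ⟨z1, z2, z3, z4, z5⟩ := zz_facts d0 d1
  have η0 : 0 < δ ^ 2 := by positivity
  have hS := S_le n0 d0 d1 (A := M * n * β ^ 2) (by positivity)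
    (W := fun g => -M * Fg k n β r t g) ((cont_Fg k0).measurable.const_mul _)
    (fun g => by have := mul_nonneg M0.le (Fg_nonneg (β := β) (t := t) (r := r) k0 g); linarith)
    (Z_ge β0 k0 n0 hr.adm (fun l hl => hr.le β0 hl) M0 t4 t3)
  set S := SS k n β r t M (zz δ) (ww δ) with hSd
  have S0 : 0 ≤ S := integral_nonneg fun _ => norm_nonneg _
  obtain ⟨f1, f2, f3⟩ := hx x δ n (v + W0) Va (VV k n β r t M j) Y S x0'
    (by rwa [hxd, one_div_le t0 x00]) d2 d1 (by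
      have h1 : (τ : ℝ) ^ 400 ≤ n := by
        exact_mod_cast (Nat.pow_le_pow_right τ0' (by norm_num)).trans hn
      rwa [hxd, one_div_pow, mul_one_div, one_le_div (by positivity)]) (by
      have h1 : v * x ^ 2 ≤ τ ^ 2 * x ^ 2 := mul_le_mul_of_nonneg_right (not_le.1 hc).le
        (by positivity)
      have h2 : W0 * x ^ 2 ≤ W0 := mul_le_of_le_one_right W00 (pow_le_one₀ x0'.le (by linarith))
      rw [← mul_pow, mul_comm _ x, xτ, one_pow] at h1
      linarith) Va0 (by linarith [mul_nonneg α0.le p2]) (by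
      have L1 : (0 : ℝ) < L := by exact_mod_cast L0
      have h1 : x ^ 2 = 1 / k * L := by rw [hkL, hxd]; push_cast; field_simp
      rw [h1, mul_assoc]
      exact mul_le_mul_of_nonneg_left j3 (by positivity)) Y1 k2 hS
  have hE : E0 k n β r t M (zz δ) (ww δ) (δ ^ 2) = β / δ ^ 2 * (√Va + 6 / n + x ^ 441 * Y) +
      S / δ ^ 2 + 2 / ((δ ^ 2) ^ 2 * √n) := by
    rw [E0, hM, mul_div_cancel_right₀ _ n1.ne']
  have l1 := fun l (hl : l < k) => loop_r (r := r) (w := ww δ) β0 k0 n0 M0 t4 t3 η0 z1 hl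
  have l2 := loop_d (r := r) (w := ww δ) β0 k0 n0 M0 t4 t3 η0 z1
  rw [z4, hE] at l2
  simp only [z4, hE] at l1
  rw [← hE] at f1 f2 l1 l2
  have c0 : 0 ≤ 1 + 3 * β / δ ^ 2 := by positivity
  have st : t ≤ √t := le_sqrt_of_sq_le (pow_le_of_le_one t4.le t3.le two_ne_zero)
  have fin := hA k j (fun l => r l / β ^ 2) (TT k n β r t M (zz δ)) (β * √t) x s (√(Y / δ)) jk x0'
    (by linarith) s0 (g4 j j1 j2).1 (g4 j j1 j2).2.1 (fun l hl => ⟨div_nonneg (adm_nonneg hr.adm l)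
      (by positivity), (div_le_one (by positivity)).2 (hr.le β0 hl)⟩)
    (fun l hl => div_le_div_of_nonneg_right (hr.adm.2 hl) (by positivity)) (g4 j j1 j2).2.2 g5
    (by positivity) (mul_le_of_le_one_right β0.le (sqrt_le_one.2 t3.le))
    (by rw [← mul_one_sub]; exact mul_le_mul_of_nonneg_left (by linarith) β0.le)
    (fun l hl => le_sqrt_of_sq_le ((TT_le (w := ww δ) k0 n0 M0 (η0.trans_le z1) (by omega)).trans
      (by
        rw [div_eq_mul_one_div Y]
        refine mul_le_mul_of_nonneg_left ?_ (by linarith)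
        have h1 : -(ww δ).im / (zz δ).im ≤ 1 / (2 * δ) := by
          rw [div_le_iff₀ (η0.trans_le z1), one_div_mul_eq_div]; exact z3
        have h2 : S / (zz δ).im ≤ S / δ ^ 2 := div_le_div_of_nonneg_left S0 η0 z1
        have h3 : 1 ≤ 1 / (2 * δ) := by rw [one_le_div (by positivity)]; linarith
        have h4 : 1 / δ = 1 / (2 * δ) + 1 / (2 * δ) := by field_simp; ring
        rw [add_div]
        linarith [min_le_right cA 1])))
    ((l1 j jk).trans (f1.trans (min_le_left _ _)))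
    (l2.trans (le_trans (by linarith [mul_nonneg c0 (sqrt_nonneg Va)]) (min_le_left cA 1)))
    (by
      have h1 := mul_le_mul_of_nonneg_left (sum_le_sum fun l hl => l1 l (mem_range.1 hl))
        (by positivity : 0 ≤ 1 / (k : ℝ))
      refine h1.trans (le_trans ?_ (f2.trans (min_le_left _ _)))
      rw [sum_add_distrib, ← mul_sum, sum_const, card_range, nsmul_eq_mul, mul_add, mul_left_comm,
        ← mul_assoc (1 / (k : ℝ)) k, one_div_mul_cancel k1.ne', one_mul]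
      exact add_le_add_left (mul_le_mul_of_nonneg_left (avg_sqrt (fun l => VV_nonneg l) k0) c0) _)
  have h1 := pow_le_pow_left₀ cA0.le fin 2
  rw [mul_pow, sq_sqrt (by positivity), show (x * δ) ^ 2 * (Y / δ) = x ^ 2 * (δ * Y) by
    field_simp] at h1
  have h2 : δ * (Y - 1) ≤ δ * (β ^ 2 * (Y - 1)) :=
    mul_le_mul_of_nonneg_left (le_mul_of_one_le_left (by linarith) b1) d0.le
  have h3 : cA ^ 2 * τ ^ 2 ≤ δ * Y := by
    refine (mul_le_mul_of_nonneg_right h1 (by positivity)).trans (le_of_eq ?_)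
    rw [mul_right_comm, ← mul_pow, xτ, one_pow, one_mul]
  rw [div_le_iff₀ (by positivity)] at a2
  have h4 : τ * cA ^ 2 ≤ cA ^ 2 * τ ^ 2 := by
    rw [mul_comm]
    exact mul_le_mul_of_nonneg_left (le_self_pow₀ (by linarith) two_ne_zero) (by positivity)
  linarith

theorem main {β : ℝ} (hβ : 1 < β) : ∃ n0 : ℕ, ∀ n : ℕ, n0 ≤ n →
    (n : ℝ) ^ (1 / 62181 : ℝ) ≤ Var[freeEn n β; disorder n] := by
  obtain ⟨c, c0, τ0, h⟩ := core hβ
  have e1 : Tendsto (fun n : ℕ => (n : ℝ) ^ (1 / 62181 : ℝ)) atTop atTop :=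
    (tendsto_rpow_atTop (by norm_num)).comp tendsto_natCast_atTop_atTop
  obtain ⟨n0, h0⟩ := eventually_atTop.1 ((e1.eventually_ge_atTop τ0).and
    ((e1.eventually_ge_atTop (4 / c)).and (e1.eventually_ge_atTop 1)))
  refine ⟨n0, fun n hn => ?_⟩
  obtain ⟨a1, a2, a3⟩ := h0 n hn
  rw [freeEn_eq (by linarith)]
  set x := (n : ℝ) ^ (1 / 62181 : ℝ) with hx
  have h1 := h n ⌊x⌋₊ (Nat.le_floor a1) (by
    have h1 := pow_le_pow_left₀ (Nat.cast_nonneg _) (Nat.floor_le (zero_le_one.trans a3)) 62181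
    rw [show x ^ 62181 = n by
      rw [hx, one_div]
      exact_mod_cast rpow_inv_natCast_pow (Nat.cast_nonneg n) (by norm_num)] at h1
    exact_mod_cast h1)
  refine le_trans ?_ h1
  have t1 : (1 : ℝ) ≤ ⌊x⌋₊ := by exact_mod_cast Nat.le_floor (by simpa using a3)
  have t2 : x ≤ 2 * ⌊x⌋₊ := by linarith [Nat.lt_floor_add_one x]
  have t3 := pow_le_pow_left₀ (by linarith) t2 2
  rw [div_le_iff₀ c0] at a2
  nlinarith

end

end Vale.Agent.P146L
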