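import Vale.Agent.P146L.F1
import Vale.Agent.P146L.F2

/-! Choice of the block of levels and the rate in the lower bound for the free energy. -/

set_option linter.all false

namespace Vale.Agent.P146L

open MeasureTheory ProbabilityTheory Real Finset Filter Topology Vale.Agent.P146M Vale.Agent.P146

noncomputable section

lemma dyadic {q : ℕ → ℝ} {a L τ : ℕ} (h1 : q (a + τ * L) < 2 ^ τ * q a) :
    ∃ i < τ, q (a + (i + 1) * L) ≤ 2 * q (a + i * L) := by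
  by_contra hn
  push Not at hn
  have key : ∀ i ≤ τ, 2 ^ i * q a ≤ q (a + i * L) := fun i hi => by
    induction i with
    | zero => simp
    | succ i ih =>
      have h2 := hn i (by omega)
      have h3 := ih (by omega)
      rw [pow_succ]
      linarith
  linarith [key τ le_rfl]

lemma pigeon {V : ℕ → ℝ} (hV : ∀ l, 0 ≤ V l) {a L k : ℕ} (hL : 0 < L) (h : a + L ≤ k) :
    ∃ j, a ≤ j ∧ j < a + L ∧ L * V j ≤ ∑ l ∈ range k, V l := by
  obtain ⟨j, hj, hm⟩ := exists_min_image (Ico a (a + L)) V ⟨a, mem_Ico.2 ⟨le_rfl, by omega⟩⟩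
  refine ⟨j, (mem_Ico.1 hj).1, (mem_Ico.1 hj).2, ?_⟩
  have h1 := card_nsmul_le_sum (Ico a (a + L)) V (V j) hm
  rw [Nat.card_Ico, Nat.add_sub_cancel_left, nsmul_eq_mul] at h1
  exact h1.trans (sum_le_sum_of_subset_of_nonneg (fun l hl => mem_range.2
    ((mem_Ico.1 hl).2.trans_le h)) fun l _ _ => hV l)

lemma avg_sqrt {V : ℕ → ℝ} (hV : ∀ l, 0 ≤ V l) {k : ℕ} (hk : 0 < k) :
    (1 / (k : ℝ)) * ∑ l ∈ range k, √(V l) ≤ √((1 / (k : ℝ)) * ∑ l ∈ range k, V l) := by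
  have hk' : (0 : ℝ) < k := by exact_mod_cast hk
  refine le_sqrt_of_sq_le ?_
  have h := sq_sum_le_card_mul_sum_sq (s := range k) (f := fun l => √(V l))
  simp only [card_range, sq_sqrt (hV _)] at h
  rw [mul_pow]
  calc _ ≤ (1 / (k : ℝ)) ^ 2 * (k * ∑ l ∈ range k, V l) := by gcongr
    _ = _ := by field_simp

lemma IsMz.le {β : ℝ} {k : ℕ} {r : ℕ → ℝ} (h : IsMz β k r) (hβ : 0 < β) {l : ℕ} (hl : l < k) :
    r l ≤ β ^ 2 := by
  rw [h.fo hβ (by omega) hl]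
  exact mul_le_of_le_one_right (sq_nonneg _) (Gam_mem h.adm hl).2

lemma block {β : ℝ} (hβ : 1 < β) : ∃ c, 0 < c ∧ ∃ τ0 : ℕ, ∀ (τ L k : ℕ) (r : ℕ → ℝ), τ0 ≤ τ →
    0 < L → k = τ * τ * L → τ ^ 316 ≤ k → IsMz β k r → ∃ (a : ℕ) (s : ℝ), a + L ≤ k ∧
      c * (1 / τ) ^ 20 ≤ s ∧ s ≤ 1 ∧ (∀ j, a ≤ j → j < a + L → s ≤ r j / β ^ 2 ∧
        r j / β ^ 2 ≤ 2 * s ∧ zt k j ≤ 2 * (1 / τ)) ∧
      |1 - β * (1 - (1 / (k : ℝ)) * ∑ l ∈ range k, r l / β ^ 2)| ≤ 1 / τ * s := by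
  obtain ⟨c, c0, hc⟩ := no_atom β hβ
  obtain ⟨C, C1, hC⟩ := marginal β hβ
  have β0 : 0 < β := by linarith
  have b0 : 0 < β ^ 2 := by positivity
  have c1 : 0 < c / β ^ 2 := by positivity
  have e1 : ∀ᶠ τ : ℕ in atTop, (τ : ℝ) ^ 20 / 2 ^ τ < c / β ^ 2 :=
    (tendsto_pow_const_div_const_pow_of_one_lt 20 one_lt_two).eventually (gt_mem_nhds c1)
  have e2 : ∀ᶠ τ : ℕ in atTop, 1 / c ≤ (τ : ℝ) :=
    tendsto_natCast_atTop_atTop.eventually_ge_atTop _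
  have e3 : ∀ᶠ τ : ℕ in atTop, (C / (c / β ^ 2)) ^ 15 ≤ (τ : ℝ) :=
    tendsto_natCast_atTop_atTop.eventually_ge_atTop _
  obtain ⟨τ0, h0⟩ := eventually_atTop.1 (e1.and (e2.and (e3.and (eventually_ge_atTop 2))))
  refine ⟨c / β ^ 2, c1, τ0, fun τ L k r hτ hL hk hk2 hr => ?_⟩
  obtain ⟨a1, a2, a3, a4⟩ := h0 τ hτ
  have t0 : (2 : ℝ) ≤ τ := by exact_mod_cast a4
  have t1 : (0 : ℝ) < τ := by linarith
  have L0 : (0 : ℝ) < L := by exact_mod_cast hL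
  have hk3 : (τ : ℝ) ^ 316 ≤ k := by exact_mod_cast hk2
  have hk4 : (k : ℝ) = τ * τ * L := by rw [hk]; push_cast; ring
  obtain ⟨a, ha⟩ : ∃ a, τ * L = a + 1 := ⟨τ * L - 1, by
    have := Nat.mul_pos (by omega : 0 < τ) hL
    omega⟩
  have hak : a + τ * L < k := by
    have : 2 * (τ * L) ≤ k := by rw [hk, mul_assoc]; exact Nat.mul_le_mul_right _ a4
    omega
  have ha' : (a : ℝ) + 1 = τ * L := by exact_mod_cast ha.symm
  have m0 : 0 < 1 / (τ : ℝ) := by positivity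
  have q0 := hc (1 / τ) k r m0 (by rwa [one_div_le t1 c0]) (by
    rw [one_div, inv_pow, ← div_eq_mul_inv, one_le_div (by positivity)]
    exact (pow_le_pow_right₀ (by linarith) (by norm_num)).trans hk3) hr a (by omega)
    (by rw [zt, ha', hk4]; exact le_of_eq (by field_simp))
  have q1 : c / β ^ 2 * (1 / τ) ^ 20 ≤ r a / β ^ 2 := by
    rw [div_mul_eq_mul_div]; exact div_le_div_of_nonneg_right q0 b0.le
  have mo : ∀ {i j}, i ≤ j → r i / β ^ 2 ≤ r j / β ^ 2 := fun h =>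
    div_le_div_of_nonneg_right (hr.adm.2 h) b0.le
  have u1 : ∀ l < k, r l / β ^ 2 ≤ 1 := fun l hl => (div_le_one b0).2 (hr.le β0 hl)
  obtain ⟨i, hi, hq⟩ := dyadic (q := fun l => r l / β ^ 2) (a := a) (L := L) (τ := τ) (by
    refine (u1 _ hak).trans_lt (lt_of_lt_of_le ?_ (mul_le_mul_of_nonneg_left q1 (by positivity)))
    rw [div_lt_iff₀ (by positivity)] at a1
    rw [one_div, inv_pow, ← mul_assoc, ← div_eq_mul_inv, one_lt_div (by positivity)]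
    linarith)
  have hiL : (i + 1) * L ≤ τ * L := Nat.mul_le_mul_right _ hi
  have hs : c / β ^ 2 * (1 / τ) ^ 20 ≤ r (a + i * L) / β ^ 2 := q1.trans (mo (by omega))
  have hs1 : r (a + i * L) / β ^ 2 ≤ 1 := u1 _ (by rw [add_mul] at hiL; omega)
  refine ⟨a + i * L, _, by rw [add_mul] at hiL; omega, hs, hs1, fun j h1 h2 =>
    ⟨mo h1, (mo (by rw [add_mul]; omega)).trans hq, ?_⟩, ?_⟩
  · have : j + 1 ≤ 2 * (τ * L) := by rw [add_mul] at hiL; omega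
    have h3 : (j : ℝ) + 1 ≤ 2 * (τ * L) := by exact_mod_cast this
    rw [zt, hk4, div_le_iff₀ (by positivity)]
    exact h3.trans (le_of_eq (by field_simp))
  · set s := r (a + i * L) / β ^ 2
    have s0 : 0 < s := lt_of_lt_of_le (by positivity) hs
    have C0 : 0 < C := by linarith
    have h := hC (1 / τ * s / C) k r (by positivity) (by
      rw [div_le_one C0]
      have : 1 / (τ : ℝ) ≤ 1 := by rw [div_le_one t1]; linarith
      nlinarith) (by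
      have h1 : c / β ^ 2 / C * (1 / τ) ^ 21 ≤ 1 / τ * s / C := by
        rw [div_mul_eq_mul_div _ C]
        refine div_le_div_of_nonneg_right ?_ C0.le
        calc _ = 1 / τ * (c / β ^ 2 * (1 / τ) ^ 20) := by ring
          _ ≤ _ := by gcongr
      have h2 := pow_le_pow_left₀ (by positivity) h1 15
      refine le_trans ?_ (mul_le_mul hk3 h2 (by positivity) (by positivity))
      rw [mul_pow, ← pow_mul, show (τ : ℝ) ^ 316 = τ * τ ^ (21 * 15) by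
        rw [← pow_succ'], one_div (τ : ℝ), inv_pow]
      rw [show τ * (τ : ℝ) ^ (21 * 15) * ((c / β ^ 2 / C) ^ 15 * ((τ : ℝ) ^ (21 * 15))⁻¹) =
        τ * (c / β ^ 2 / C) ^ 15 * ((τ : ℝ) ^ (21 * 15) * ((τ : ℝ) ^ (21 * 15))⁻¹) by ring,
        mul_inv_cancel₀ (by positivity), mul_one]
      rw [← inv_div C, inv_pow, ← div_eq_mul_inv, one_le_div (by positivity)]
      exact a3) hr
    exact h.trans (le_of_eq (by field_simp))

/-- the lower bound for the mean free energy with a rate -/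
lemma rate {β : ℝ} (hβ : 0 < β) : ∃ C, 0 ≤ C ∧ ∀ (n t : ℕ) (r : ℕ → ℝ), 0 < t → t ^ 423 ≤ n →
    IsMz β (t ^ 60) r → n * PK β (t ^ 60) r + n * log 2 ≤
      (∫ g, FF n β g ∂γ (Pr n)) + C * (n * (1 / (t : ℝ) ^ 3)) := by
  set E := exp (8 * β ^ 2)
  have := Kc_nonneg β
  refine ⟨(β ^ 2 + 3) + β ^ 2 * (4 * E * (114 + 2 * E)) + β ^ 2 / 4 + 5 + Kc β * β ^ 2,
    by positivity, fun n t r ht hn hr => ?_⟩
  have n0 : 0 < n := (pow_pos ht _).trans_le hn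
  have n1 : (0 : ℝ) < n := by exact_mod_cast n0
  have t1 : (1 : ℝ) ≤ t := by exact_mod_cast ht
  have hk : 0 < t ^ 60 := pow_pos ht _
  have l := lowerA hβ hk (θ := 1 / t ^ 3) (θ' := 1 / t ^ 30) (L := t ^ 6) (by positivity)
    (by positivity) (one_le_pow₀ t1) (V := PK β (t ^ 60) r)
    (fun r' b1 b2 => hr.min r' b1 fun l => (b2 l).trans (by linarith))
    (n := n) (le_trans (by rw [← pow_mul]; exact Nat.pow_le_pow_right ht (by norm_num)) hn)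
  have p0 := hr.min 0 ⟨rfl, monotone_const⟩ fun _ => by simp only [Pi.zero_apply]; positivity
  rw [show PK β (t ^ 60) 0 = β ^ 2 / 4 by simp [PK, XN_zero spin_B hk]] at p0
  rw [YP_eq hk, Nat.cast_zero, zero_add] at l
  have k1 : 1 / ((t ^ 60 : ℕ) : ℝ) ≤ 1 / t ^ 3 := one_div_le_one_div_of_le (by positivity)
    (by push_cast; exact pow_le_pow_right₀ t1 (by norm_num))
  have k3 : 1 / (t : ℝ) ^ 3 ≤ 1 := by rw [div_le_one (by positivity)]; exact one_le_pow₀ t1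
  obtain ⟨-, -, c2⟩ := conv_SK hβ n0 (m := 1 / (t ^ 60 : ℕ)) (by positivity) (k1.trans k3)
  rw [show 4 * E * (1 / (t : ℝ) ^ 3 + ((t ^ 6) ^ 4 * (112 / (t ^ 60 : ℕ) / (1 / t ^ 30) +
    1 / t ^ 30) + 2 * E / t ^ 6) / (1 / t ^ 3)) = 4 * E * (114 + 2 * E) * (1 / t ^ 3) by
      push_cast; field_simp; ring, div_eq_mul_one_div (β ^ 2 + 3), div_eq_mul_one_div (5 * _)] at l
  have k4 : ((t ^ 60 : ℕ) : ℝ) ^ 7 ≤ n * (1 / t ^ 3) := by
    rw [mul_one_div, le_div_iff₀ (by positivity)]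
    push_cast
    rw [← pow_mul, ← pow_add]
    exact_mod_cast hn
  have k5 : 0 ≤ ((t ^ 60 : ℕ) : ℝ) ^ 7 := by positivity
  generalize ((t ^ 60 : ℕ) : ℝ) ^ 7 = M at *
  have k0 : 0 ≤ 1 / ((t ^ 60 : ℕ) : ℝ) := by positivity
  generalize 1 / ((t ^ 60 : ℕ) : ℝ) = x at *
  have s0 : 0 ≤ 1 / (t : ℝ) ^ 3 := by positivity
  generalize 1 / (t : ℝ) ^ 3 = s at *
  have f1 : M * (PK β (t ^ 60) r - (β ^ 2 + 3) * x - β ^ 2 * (4 * E * (114 + 2 * E) * s))
      ≤ n * s * (β ^ 2 / 4) := by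
    refine (mul_le_mul_of_nonneg_left ?_ k5).trans (mul_le_mul_of_nonneg_right k4 (by positivity))
    have : 0 ≤ (β ^ 2 + 3) * x + β ^ 2 * (4 * E * (114 + 2 * E) * s) := by positivity
    linarith
  have f2 := mul_le_mul_of_nonneg_left k1
    (by positivity : 0 ≤ n * (β ^ 2 + 3 + 5 + Kc β * β ^ 2))
  linarith

end

end Vale.Agent.P146L
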