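import Vale.Agent.P146L.Gap2

/-! Minimisers of the k level functional and the first order condition. -/

set_option linter.all false

namespace Vale.Agent.P146L

open MeasureTheory ProbabilityTheory Real Finset Filter Topology Vale.Agent.P146M Vale.Agent.P146

noncomputable section

variable {β : ℝ} {k : ℕ} {r : ℕ → ℝ}

theorem PK_congr {r' : ℕ → ℝ} (hk : 0 < k) (h : ∀ l < k, r' l = r l) : PK β k r' = PK β k r := by
  have e : wS Unit k r' = wS Unit k r := by
    funext j i
    unfold wS
    split_ifs with h'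
    · rw [h _ h', h j (by omega)]
    · rfl
  rw [PK, PK, XN, XN, e, h (k - 1) (by omega), sum_congr rfl fun l hl => by rw [h l (mem_range.1 hl)]]

/-- compactness of the closed subset of `Set.pi univ (Icc 0 (β ^ 2 + 1))`, `XN_cont` -/
theorem exists_min (hβ : 0 < β) (hk : 0 < k) : ∃ r, IsMz β k r := by
  have hc : Continuous (PK β k) := by
    refine (continuous_const.add (continuous_iff_continuousAt.2 fun r => ?_)).add
      (continuous_const.mul (continuous_finsetSum _ fun l _ => (continuous_apply l).pow 2))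
    exact XN_cont spin_B hk (rt := fun r => r) fun l _ => (continuous_apply l).continuousAt
  have hK : IsCompact ((Set.pi Set.univ fun _ : ℕ => Set.Icc (0 : ℝ) (β ^ 2 + 1)) ∩
      ({r | r 0 = 0} ∩ {r | Monotone r})) :=
    (isCompact_univ_pi fun _ => isCompact_Icc).inter_right
      ((isClosed_eq (continuous_apply 0) continuous_const).inter isClosed_monotone)
  obtain ⟨r0, ⟨h1, h2, h3⟩, h4⟩ := hK.exists_isMinOn
    ⟨0, fun _ _ => ⟨le_rfl, by simp only [Pi.zero_apply]; positivity⟩, rfl, monotone_const⟩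
    hc.continuousOn
  refine ⟨fun l => if l < k then r0 l else β ^ 2 + 1, ⟨(if_pos hk).trans h2, fun a b hab => ?_⟩,
    fun l hl => if_neg (by omega), fun r' a b => ?_⟩
  · simp only
    split_ifs
    exacts [h3 hab, (h1 a trivial).2, by omega, le_rfl]
  · rw [PK_congr (r := r0) hk fun l hl => if_pos hl]
    exact h4 ⟨fun l _ => ⟨adm_nonneg a l, b l⟩, a⟩

theorem min_H (k : ℕ) (q r : ℕ → ℝ) (s : St Unit Bool) :
    |(Sp xB).Hv k (wS Unit k q) s - (Sp xB).Hv k (wS Unit k r) s| ≤
      (∑ j ∈ range k, |√(wS Unit k q j ()) - √(wS Unit k r j ())|) * (GS k Unit νB).ν s := by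
  rw [GradAux.Hv_Sp, GradAux.Hv_Sp, ← sum_sub_distrib, sum_mul]
  refine (abs_sum_le_sum_abs _ _).trans (sum_le_sum fun j hj => ?_)
  have h1 : |xB s.1 ()| = 1 := by
    unfold xB
    split_ifs <;> simp
  have h2 : |s.2 j ()| ≤ (GS k Unit νB).ν s := by
    have := single_le_sum (f := fun j => ∑ i, |s.2 j i|)
      (fun _ _ => sum_nonneg fun _ _ => abs_nonneg _) hj
    simpa [GS] using this
  simp only [univ_unique, PUnit.default_eq_unit, sum_singleton]
  rw [← sub_mul, ← sub_mul, abs_mul, abs_mul, h1, mul_one]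
  exact mul_le_mul_of_nonneg_left h2 (abs_nonneg _)

/-- Hint: `ef_close` (or `Sys.CLpr`), `|H1 - H0| ≤ ω * ν` with `ω → 0` and dominated convergence
(`Sys.ex_exp_ν`, `tendsto_integral_filter_of_dominated_convergence`); or `hasDerivAt` at zero of
`ω ↦ ∫ exp (ω ν)`; or the convexity bound `c2_exp_mul_le`. -/
theorem pS_cont (hk : 0 < k) {τ : Type*} {F : Filter τ} {rt : τ → ℕ → ℝ}
    (h : ∀ l < k, Tendsto (fun t => rt t l) F (𝓝 (r l))) {l : ℕ} (hl : l < k) :
    Tendsto (fun t => pS k νB xB (rt t) l) F (𝓝 (pS k νB xB r l)) := by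
  have := spin_B.prob
  have hY : (GS k Unit νB).OK := gs_ok hk
  have hH := fun q : ℕ → ℝ => Rg.lin_Hv (ν := νB) (sp_ok spin_B le_rfl) hk (wS Unit k q)
  have hω : Tendsto (fun t => ∑ j ∈ range k, |√(wS Unit k (rt t) j ()) - √(wS Unit k r j ())|) F
      (𝓝 0) := by
    have h1 : Tendsto (fun t => ∑ j ∈ range k, |√(wS Unit k (rt t) j ()) - √(wS Unit k r j ())|) F
        (𝓝 (∑ j ∈ range k, |√(wS Unit k r j ()) - √(wS Unit k r j ())|)) := by
      refine tendsto_finsetSum _ fun j hj => (Tendsto.sqrt ?_ |>.sub_const _).abs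
      unfold wS
      split_ifs with h'
      · exact (h _ h').sub (h _ (mem_range.1 hj))
      · exact tendsto_const_nhds
    simpa using h1
  have hA : Integrable (fun s => exp (4 * (GS k Unit νB).ν s))
      (mm k νB ((Sp xB).Hv k (wS Unit k r))) :=
    (Sys.ex_exp_ν hY 4).integrable_m hY (hH r) (k + 1) 0 (s0 Unit Bool)
  have hp := mm_prob hk (hH r)
  refine Metric.tendsto_nhds.2 fun ε hε => ?_
  have hδ : 0 < min 1 ((ε / 2 / 12) ^ 2) := lt_min one_pos (by positivity)
  have hω2 := hω.mul_const (∫ s, exp (4 * (GS k Unit νB).ν s) ∂mm k νB ((Sp xB).Hv k (wS Unit k r)))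
  rw [zero_mul] at hω2
  filter_upwards [hω.eventually (ge_mem_nhds one_pos), hω2.eventually (ge_mem_nhds hδ)] with t h1 h2
  have h0 : 0 ≤ ∑ j ∈ range k, |√(wS Unit k (rt t) j ()) - √(wS Unit k r j ())| :=
    sum_nonneg fun _ _ => abs_nonneg _
  have h3 := min_H k (rt t) r
  generalize ∑ j ∈ range k, |√(wS Unit k (rt t) j ()) - √(wS Unit k r j ())| = θ at h0 h1 h2 h3
  have h4 := ef_close hk (hH r) (hH (rt t)) (half_pos hε) (B := 1) (l := l) ?_
    (spin_B.measurable_ov.comp (by fun_prop : Measurable fun p : St Unit Bool × St Unit Bool =>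
      (p.1.1, p.2.1))) (fun p => spin_B.abs_ov_le _ _) (by omega)
  · rw [Real.dist_eq]
    exact lt_of_le_of_lt h4 (by linarith)
  · refine (integral_mono_of_nonneg (ae_of_all _ fun s => (exp_pos _).le)
      ((Integrable.const_mul hA θ).add (integrable_const 1)) (ae_of_all _ fun s => ?_)).trans ?_
    · have a1 := c2_exp_mul_le h0 h1 (4 * (GS k Unit νB).ν s)
      have a2 := exp_le_exp.2 (show 4 * |(Sp xB).Hv k (wS Unit k (rt t)) s -
        (Sp xB).Hv k (wS Unit k r) s| ≤ θ * (4 * (GS k Unit νB).ν s) by linarith [h3 s])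
      simp only [Pi.add_apply]
      linarith
    · simp only [Pi.add_apply]
      rw [integral_add (Integrable.const_mul hA θ) (integrable_const _), integral_const_mul]
      simp only [integral_const, probReal_univ, one_smul]
      linarith

theorem min_le (h : IsMz β k r) (l : ℕ) : r l ≤ β ^ 2 + 1 :=
  (h.adm.2 (le_max_left l k)).trans (h.top _ (le_max_right l k)).le

theorem min_adm (hr : AdmR r) {l : ℕ} (hl : 0 < l) {c : ℝ} (h1 : r (l - 1) ≤ c)
    (h2 : c ≤ r (l + 1)) : AdmR (Function.update r l c) := by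
  refine ⟨by rw [Function.update_of_ne hl.ne, hr.1], monotone_nat_of_le_succ fun n => ?_⟩
  by_cases e : n = l
  · subst e
    rwa [Function.update_self, Function.update_of_ne (Nat.succ_ne_self n)]
  by_cases e' : n + 1 = l
  · subst e'
    rwa [Function.update_self, Function.update_of_ne e]
  · rw [Function.update_of_ne e, Function.update_of_ne e']
    exact hr.2 (Nat.le_succ n)

theorem min_move (h : IsMz β k r) (hβ : 0 < β) (hk : 0 < k) {l : ℕ} (hl : l < k) (s : ℝ) {δ : ℝ}
    (hδ : 0 < δ) (H : ∀ u ∈ Set.Ioo 0 δ, AdmR (Function.update r l (r l + u * s)) ∧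
      r l + u * s ≤ β ^ 2 + 1) : 0 ≤ s * (r l / β ^ 2 - pS k νB xB r l) := by
  have hk' : (0 : ℝ) < k := by exact_mod_cast hk
  have key : ∀ u : ℝ, ∃ t ∈ Set.Icc (0 : ℝ) 1, u ∈ Set.Ioo 0 δ →
      0 ≤ s * ((r l + u * s + r l) / (2 * β ^ 2) -
        pS k νB xB (fun j => r j + t * (Function.update r l (r l + u * s) j - r j)) l) := by
    intro u
    by_cases hu : u ∈ Set.Ioo 0 δ
    swap
    · exact ⟨0, ⟨le_rfl, zero_le_one⟩, fun h => absurd h hu⟩
    obtain ⟨t, ht, e⟩ := PK_sub hβ hk h.adm (H u hu).1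
    refine ⟨t, ⟨ht.1.le, ht.2.le⟩, fun _ => ?_⟩
    have h1 := h.min _ (H u hu).1 fun j => by
      by_cases e : j = l
      · rw [e, Function.update_self]
        exact (H u hu).2
      · rw [Function.update_of_ne e]
        exact min_le h j
    rw [sum_eq_single l (fun j _ e => by rw [Function.update_of_ne e, sub_self, zero_mul])
      (fun h => absurd (mem_range.2 hl) h), Function.update_self, add_sub_cancel_left,
      mul_assoc u s, ← mul_assoc] at e
    rw [← sub_nonneg, e] at h1
    exact nonneg_of_mul_nonneg_right h1 (mul_pos (by positivity) hu.1)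
  choose t ht H2 using key
  have t0 : Tendsto (fun u : ℝ => u * s) (𝓝[>] 0) (𝓝 0) := by
    simpa using ((tendsto_id (x := 𝓝 (0 : ℝ))).mul_const s).mono_left nhdsWithin_le_nhds
  have t1 := pS_cont (r := r) hk (F := 𝓝[>] (0 : ℝ)) (rt := fun u j =>
      r j + t u * (Function.update r l (r l + u * s) j - r j)) (fun j _ => by
    by_cases e : j = l
    · subst e
      simp only [Function.update_self, add_sub_cancel_left]
      have : Tendsto (fun u : ℝ => t u * (u * s)) (𝓝[>] 0) (𝓝 0) := by
        refine squeeze_zero_norm (fun u => ?_) (tendsto_zero_iff_norm_tendsto_zero.1 t0)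
        rw [norm_mul, Real.norm_of_nonneg (ht u).1]
        exact mul_le_of_le_one_left (norm_nonneg _) (ht u).2
      simpa using this.const_add (r j)
    · simp only [Function.update_of_ne e, sub_self, mul_zero, add_zero]
      exact tendsto_const_nhds) hl
  have t2 := ((((t0.const_add (r l)).add_const (r l)).div_const (2 * β ^ 2)).sub t1).const_mul s
  rw [show (r l + 0 + r l) / (2 * β ^ 2) = r l / β ^ 2 by field_simp; ring] at t2
  refine ge_of_tendsto t2 ?_
  filter_upwards [Ioo_mem_nhdsGT hδ] with u hu using H2 u hu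

/-- Put `f l = r l / β ^ 2 - Gam k r l`. If `1 ≤ l < k` and `r l < r (l + 1)`, moving `r l` up by a
small `ε` is allowed, and `PK_sub`, `pS_cont`, `pS_Gam` give `f l ≥ 0`. If `r (l - 1) < r l`,
moving down gives `f l ≤ 0`. `f` is constant on clusters of equal values (`gap`, second part, with
`vv r l = 0`). The cluster of `0` has `f = 0` (`Nn_zero`); if the cluster of `l` reaches the value
`β ^ 2 + 1` then `f > 0` by `Gam_mem`, contradicting the move down. -/
theorem IsMz.fo (h : IsMz β k r) (hβ : 0 < β) (hk : 0 < k) {l : ℕ} (hl : l < k) :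
    r l = β ^ 2 * Gam k r l := by
  have hb : 0 < β ^ 2 := by positivity
  obtain ⟨C, -, hC⟩ := gap (β ^ 2 + 1)
  have cl : ∀ j < k, r (j + 1) = r j → Gam k r (j + 1) = Gam k r j := fun j hj e => by
    have h1 := (hC k r j h.adm (h.top k le_rfl).le hj).2.1
    rw [vv, e, sub_self] at h1
    simp only [zero_mul, sub_zero, ne_eq, OfNat.ofNat_ne_zero, not_false_eq_true, zero_pow,
      mul_zero, abs_nonpos_iff] at h1
    exact sub_eq_zero.1 h1
  have z : r 0 / β ^ 2 = Gam k r 0 := by rw [h.adm.1, (Nn_zero hk h.adm).2.2, zero_div]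
  have h1 : ∀ j < k, r j / β ^ 2 ≤ Gam k r j := by
    intro j hj
    induction j with
    | zero => exact z.le
    | succ j ih =>
      rcases (h.adm.2 (Nat.le_succ j)).eq_or_lt with e | e
      · rw [cl j (by omega) e.symm, ← e]
        exact ih (by omega)
      · have := min_move h hβ hk hj (-1) (sub_pos.2 e) fun u hu =>
          ⟨min_adm h.adm (by omega) (by simp only [Nat.add_sub_cancel]; linarith [hu.2])
            (by linarith [hu.1, h.adm.2 (Nat.le_succ (j + 1))]), by linarith [hu.1, min_le h (j + 1)]⟩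
        rw [pS_Gam h.adm hj] at this
        linarith
  have h2 : ∀ j < k, (j + 1 < k → Gam k r (j + 1) ≤ r (j + 1) / β ^ 2) →
      Gam k r j ≤ r j / β ^ 2 := by
    intro j hj ih
    rcases Nat.eq_zero_or_pos j with rfl | j0
    · exact z.ge
    rcases (h.adm.2 (Nat.le_succ j)).eq_or_lt with e | e
    · by_cases hj' : j + 1 < k
      · rw [← cl j hj e.symm, e]
        exact ih hj'
      · rw [e, h.top _ (by omega), le_div_iff₀ hb]
        nlinarith [(Gam_mem h.adm hj).2]
    · have := min_move h hβ hk hj 1 (sub_pos.2 e) fun u hu =>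
        ⟨min_adm h.adm j0 (by linarith [hu.1, h.adm.2 (Nat.sub_le j 1)]) (by linarith [hu.2]),
          by linarith [hu.2, min_le h (j + 1)]⟩
      rw [pS_Gam h.adm hj] at this
      linarith
  have h3 : ∀ d j, j + d + 1 = k → Gam k r j ≤ r j / β ^ 2 := by
    intro d
    induction d with
    | zero => exact fun j e => h2 j (by omega) fun h' => by omega
    | succ d ih => exact fun j e => h2 j (by omega) fun _ => ih _ (by omega)
  rw [le_antisymm (h3 (k - l - 1) l (by omega)) (h1 l hl)]
  field_simp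

end

end Vale.Agent.P146L
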