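import Vale.Agent.P146L.Gap1

/-! Moving one level of the path. -/

set_option linter.all false

namespace Vale.Agent.P146L

open MeasureTheory ProbabilityTheory Real Finset Filter Topology Vale.Agent.P146M Vale.Agent.P146

noncomputable section

theorem Move_X {k n j : ℕ} {v v' : ℕ → ℝ} (h : ∀ i, j ≤ i → i < j + n → v' i = v i) (H : ℝ → ℝ) :
    (RS k v').X n j H = (RS k v).X n j H :=
  id_X_congr (Y := RS k v) (Y' := RS k v') rfl (fun i h1 h2 => ⟨rfl, by simp only [RS, h i h1 h2]⟩) H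

theorem Move_m {k n j : ℕ} {v v' : ℕ → ℝ} (h : ∀ i, j ≤ i → i < j + n → v' i = v i) (H : ℝ → ℝ) :
    (RS k v').m n j H = (RS k v).m n j H := by
  induction n generalizing j with
  | zero => rfl
  | succ n ih =>
    funext s
    have h' : ∀ i, j + 1 ≤ i → i < j + 1 + n → v' i = v i := fun i h1 h2 =>
      h i (by omega) (by omega)
    rw [Sys.m, Sys.m, ih h', Move_X h']
    change (Km _ (v' j) _ s).bind _ = (Km _ (v j) _ s).bind _
    rw [h j le_rfl (by omega)]

theorem Move_P {k j : ℕ} (hj : j < k) (v : ℕ → ℝ) {Θ g : ℝ → ℝ} (hΘ : Lp Θ) (hg : Gr g) (s : ℝ) :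
    (RS k v).P (j + 1) 0 Θ g s =
      (RS k v).P j 0 (stp (zt k j) (v j) Θ) (Kst (zt k j) (v j) Θ g) s := by
  have hY := rs_ok (j.zero_le.trans_lt hj) v
  have hL : (RS k v).Lin Θ := hΘ.lin 1 1
  have e : (RS k v).ζ j = zt k j := min_eq_right (zt_le hj)
  rw [Sys.P_add hY hL hg j 1 0 s, Nat.zero_add, ← e]
  congr 1
  funext x
  rw [Sys.P_succ hY hL hg 0 j x, Sys.P_zero hg.1]
  rfl

/-- Moving the level `l` up by `ε` changes only the exponent on a time interval of length `ε`. -/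
theorem Gam_move (T : ℝ) : ∃ C, 1 ≤ C ∧ ∀ (k : ℕ) (r : ℕ → ℝ) (l : ℕ), AdmR r → r k ≤ T → 1 ≤ l →
    l < k → ∀ ε, 0 ≤ ε → ε ≤ vv r l →
    |Gam k (Function.update r l (r l + ε)) l - gG k r l ε| ≤ C * ε / k := by
  obtain ⟨C, hC, hK⟩ := K_expo T
  obtain ⟨B, -, hB⟩ := chain_gd T
  refine ⟨2 * C, by linarith, fun k r l hr hT hl hlk ε h0 h1 => ?_⟩
  obtain ⟨j, rfl⟩ : ∃ j, l = j + 1 := ⟨l - 1, by omega⟩
  have hk : 0 < k := by omega
  have hjk : j < k := by omega
  set r' := Function.update r (j + 1) (r (j + 1) + ε) with hr'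
  have hG := hB k r _ hr hT hlk ε h0 h1
  set Ψ := Pg k r (j + 1) ε with hΨ
  have hL : Lp Ψ := hG.toLp
  set f : ℝ → ℝ := fun y => D1 Ψ y ^ 2 with hf
  have fg : Gr f := hL.gr1.pow 2
  have f1 : ∀ y, |f y| ≤ 1 := fun y => by
    rw [hf, abs_pow]
    exact pow_le_one₀ (abs_nonneg _) (hL.b0 y)
  have f2 : ∀ x y, |f y - f x| ≤ 2 * |y - x| := fun x y => by
    rw [hf, sq_sub_sq, abs_mul]
    exact mul_le_mul ((abs_add_le _ _).trans (by linarith [hL.b0 x, hL.b0 y])) (hG.lip1 y x)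
      (abs_nonneg _) zero_le_two
  have v1 : ∀ i, i ≠ j → i ≠ j + 1 → vv r' i = vv r i := fun i a b => by
    simp only [vv, hr', Function.update_of_ne b, Function.update_of_ne (by omega : i + 1 ≠ j + 1)]
  have v2 : vv r' j = vv r j + ε := by
    simp only [vv, hr', Function.update_self, Function.update_of_ne (by omega : j ≠ j + 1)]
    ring
  have v3 : vv r' (j + 1) = vv r (j + 1) - ε := by
    simp only [vv, hr', Function.update_self,
      Function.update_of_ne (by omega : j + 1 + 1 ≠ j + 1)]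
    ring
  have p1 : Ph k r' (j + 1) = Ψ := by
    rw [Ph_succ hlk, v3, show Ph k r' (j + 1 + 1) = Ph k r (j + 1 + 1) from
      Move_X (fun i a b => v1 i (by omega) (by omega)) _]
    rfl
  have z0 := zt_pos hk j
  have z1 := zt_pos hk (j + 1)
  have e1 : Gam k r' (j + 1) =
      (RS k (vv r)).P (j + 1) 0 (stp (zt k j) ε Ψ) (Kst (zt k j) ε Ψ f) 0 := by
    rw [Move_P hjk _ (hL.stp z0 ε) (fg.K z0 hL ε), stp_stp z0 hL (vv_nonneg hr j) h0,
      Kst_Kst z0 hL fg (vv_nonneg hr j) h0, ← v2, Sys.P,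
      ← Move_m (v' := vv r') fun i _ b => v1 i (by omega) (by omega), ← Sys.P,
      ← Move_P hjk _ hL fg, Gam, EL, muL, p1]
    rfl
  have p2 : Ph k r (j + 1) = stp (zt k (j + 1)) ε Ψ := by
    rw [← Pg_zero hlk, Pg_step hlk h0 h1, sub_zero]
  have e2 : gG k r (j + 1) ε = EL k r (j + 1) (Kst (zt k (j + 1)) ε Ψ f) := rfl
  have hεT : ε ≤ T := by
    have a1 := hr.2 (show j + 1 + 1 ≤ k from hlk)
    have a2 := hr.2 (Nat.zero_le (j + 1))
    have a3 := hr.1
    unfold vv at h1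
    linarith
  have ez : |zt k j - zt k (j + 1)| = 1 / k := by
    have : zt k j - zt k (j + 1) = -(1 / k) := by
      unfold zt
      push_cast
      ring
    rw [this, abs_neg, abs_of_nonneg (by positivity)]
  have key := fun x => hK (zt k j) (zt k (j + 1)) ε Ψ x z0 (zt_le hjk) z1 (zt_le hlk) h0 hεT hL
  simp only [ez] at key
  have a1 := P_lip (rs_ok hk (vv r)) (fun i => min_le_left _ _) ((hL.stp z1 ε).lin 1 1)
    ((hL.stp z0 ε).lin 1 1) (fg.K z0 hL ε).1 (fun x => (key x).1) (abs_Kst_le z0 hL f1 ε)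
    (j + 1) 0 0
  rw [← e1, ← p2] at a1
  have a2 : |EL k r (j + 1) (Kst (zt k j) ε Ψ f) - EL k r (j + 1) (Kst (zt k (j + 1)) ε Ψ f)| ≤
      C * (1 / k) * ε := by
    haveI := muL_prob hk r hlk.le
    rw [EL, EL, ← integral_sub ((fg.K z0 hL ε).intL hk r hlk.le) ((fg.K z1 hL ε).intL hk r hlk.le)]
    simpa using norm_integral_le_of_norm_le_const (μ := muL k r (j + 1))
      (f := fun x => Kst (zt k j) ε Ψ f x - Kst (zt k (j + 1)) ε Ψ f x) (C := C * (1 / k) * ε)
      (ae_of_all _ fun x => (key x).2 f fg.1 (f2 x))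
  rw [e2]
  refine (abs_sub_le _ (EL k r (j + 1) (Kst (zt k j) ε Ψ f)) _).trans
    ((add_le_add a1 a2).trans_eq ?_)
  ring

end

end Vale.Agent.P146L
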