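import Vale.Agent.P146L.Defs

/-! Negative exponential moments of log-sum-exp functionals versus the variance. -/

set_option linter.all false

namespace Vale.Agent.P146L

open MeasureTheory ProbabilityTheory Real Finset Filter Topology Vale.Agent.P146M Vale.Agent.P146

noncomputable section

theorem Neg_density (I : Type) [Fintype I] : γ I =
    volume.withDensity fun x => ENNReal.ofReal (∏ i, gaussianPDFReal 0 1 (x i)) := by
  refine Measure.pi_eq fun s hs => ?_
  have hi : ∀ i, Integrable (gaussianPDFReal 0 1) (volume.restrict (s i)) := fun i =>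
    (integrable_gaussianPDFReal 0 1).integrableOn
  rw [withDensity_apply _ (MeasurableSet.univ_pi hs), volume_pi, Measure.restrict_pi_pi,
    ← ofReal_integral_eq_lintegral_ofReal (Integrable.fintype_prod hi)
      (ae_of_all _ fun x => prod_nonneg fun i _ => gaussianPDFReal_nonneg _ _ _),
    integral_fintype_prod_eq_prod, ENNReal.ofReal_prod_of_nonneg
      fun i _ => integral_nonneg fun x => gaussianPDFReal_nonneg _ _ _]
  exact prod_congr rfl fun i _ => (gaussianReal_apply_eq_integral 0 one_ne_zero _).symm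

theorem Neg_pdf {I : Type} [Fintype I] (x : I → ℝ) : ∏ i, gaussianPDFReal 0 1 (x i) =
    (√(2 * π))⁻¹ ^ Fintype.card I * exp (-(∑ i, x i ^ 2) / 2) := by
  simp only [gaussianPDFReal, NNReal.coe_one, mul_one, sub_zero]
  rw [prod_mul_distrib, prod_const, card_univ, ← exp_sum, ← sum_div, sum_neg_distrib]

/-- Maurey's property (τ) in any dimension. Hint: `Vale.Agent.Lib.PL.prekopa_leindler` with
`a = b = 1 / 2` for Lebesgue measure on `I → ℝ`, `f = exp u * φ`, `g = exp (-v) * φ`, `h = φ`,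
`φ x = ∏ i, gaussianPDF 0 1 (x i)`; `γ I = volume.withDensity φ` (`Measure.pi_eq`, or Tonelli
`lintegral_fintype_prod_eq_prod`-type lemmas), and
`|(x + y) / 2| ^ 2 / 2 = (|x| ^ 2 + |y| ^ 2) / 4 - |x - y| ^ 2 / 8`. -/
theorem maurey {I : Type} [Fintype I] {u v : (I → ℝ) → ℝ} (hu : Measurable u) (hv : Measurable v)
    (h : ∀ x y, u x - v y ≤ (∑ i, (x i - y i) ^ 2) / 4) :
    (∫⁻ x, ENNReal.ofReal (exp (u x)) ∂γ I) * ∫⁻ y, ENNReal.ofReal (exp (-v y)) ∂γ I ≤ 1 := by
  have hφ : Measurable fun x : I → ℝ => ENNReal.ofReal (∏ i, gaussianPDFReal 0 1 (x i)) := by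
    simp only [Neg_pdf]
    fun_prop
  have h1 : ∫⁻ x, ENNReal.ofReal (∏ i, gaussianPDFReal 0 1 (x i)) ∂(volume : Measure (I → ℝ)) =
      1 := by
    rw [← setLIntegral_univ, ← withDensity_apply _ MeasurableSet.univ, ← Neg_density, measure_univ]
  have mu : Measurable fun x => ENNReal.ofReal (exp (u x)) := hu.exp.ennreal_ofReal
  have mv : Measurable fun x => ENNReal.ofReal (exp (-v x)) := hv.neg.exp.ennreal_ofReal
  have key := Vale.Agent.Lib.PL.prekopa_leindler (volume : Measure (I → ℝ)) (a := 1 / 2)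
    (b := 1 / 2) (by norm_num) (by norm_num) (by norm_num) (hφ.mul mu) (hφ.mul mv) hφ
    fun x y => by
      simp only [Neg_pdf, Pi.mul_apply]
      rw [← ENNReal.mul_rpow_of_nonneg _ _ (by norm_num), ← ENNReal.ofReal_mul (by positivity),
        ← ENNReal.ofReal_mul (by positivity), ← ENNReal.ofReal_mul (by positivity),
        ENNReal.ofReal_rpow_of_nonneg (by positivity) (by norm_num), ← Real.sqrt_eq_rpow]
      refine ENNReal.ofReal_le_ofReal (Real.sqrt_le_iff.2 ⟨by positivity, ?_⟩)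
      have e : ∑ i, ((1 / 2 : ℝ) • x + (1 / 2 : ℝ) • y) i ^ 2 =
          (∑ i, x i ^ 2) / 2 + (∑ i, y i ^ 2) / 2 - (∑ i, (x i - y i) ^ 2) / 4 := by
        simp only [sum_div, ← sum_add_distrib, ← sum_sub_distrib, Pi.add_apply, Pi.smul_apply,
          smul_eq_mul]
        exact sum_congr rfl fun i _ => by ring
      have e' : ∀ A a b c d : ℝ, A * exp a * exp b * (A * exp c * exp d) =
          A ^ 2 * exp (a + b + c + d) := fun A a b c d => by
        simp only [exp_add]
        ring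
      rw [e, mul_pow, e', ← exp_nat_mul]
      refine mul_le_mul_of_nonneg_left (exp_le_exp.2 ?_) (by positivity)
      push_cast
      linarith [h x y]
  rw [h1, ← ENNReal.mul_rpow_of_nonneg _ _ (by norm_num)] at key
  rw [Neg_density, lintegral_withDensity_eq_lintegral_mul _ hφ mu,
    lintegral_withDensity_eq_lintegral_mul _ hφ mv]
  by_contra hc
  exact absurd key (not_le.2 (ENNReal.one_lt_rpow (not_le.1 hc) (by norm_num)))

/-- one dimensional form with Jensen's inequality (transfer `maurey` along `Unit → ℝ`, or repeat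
the proof on the line) -/
theorem maurey_one {u v : ℝ → ℝ} (iu : Integrable u γ1) (hu : Measurable u) (hv : Measurable v)
    (iv : Integrable (fun y => exp (-v y)) γ1) (h : ∀ x y, u x - v y ≤ (x - y) ^ 2 / 4) :
    (∫ x, u x ∂γ1) + log (∫ y, exp (-v y) ∂γ1) ≤ 0 := by
  have hp := measurePreserving_eval (fun _ : Unit => γ1) ()
  have mu : Measurable fun x => ENNReal.ofReal (exp (u x)) := hu.exp.ennreal_ofReal
  have mv : Measurable fun x => ENNReal.ofReal (exp (-v x)) := hv.neg.exp.ennreal_ofReal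
  have key := maurey (I := Unit) (u := fun x => u (x ())) (v := fun x => v (x ()))
    (hu.comp (measurable_pi_apply _)) (hv.comp (measurable_pi_apply _))
    fun x y => by simpa using h (x ()) (y ())
  have e1 := hp.lintegral_comp mu
  have e2 := hp.lintegral_comp mv
  simp only [Function.eval] at e1 e2
  rw [e1, e2, ← ofReal_integral_eq_lintegral_ofReal iv (ae_of_all _ fun y => (exp_pos _).le)]
    at key
  have hb := integral_exp_pos iv
  have ie : Integrable (fun x => exp (u x)) γ1 := by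
    refine ⟨hu.exp.aestronglyMeasurable, ?_⟩
    rw [hasFiniteIntegral_iff_ofReal (ae_of_all _ fun y => (exp_pos _).le), lt_top_iff_ne_top]
    intro h0
    rw [h0, ENNReal.top_mul (ENNReal.ofReal_pos.2 hb).ne'] at key
    exact absurd key (by simp)
  rw [← ofReal_integral_eq_lintegral_ofReal ie (ae_of_all _ fun y => (exp_pos _).le),
    ← ENNReal.ofReal_mul (integral_exp_pos ie).le, ENNReal.ofReal_le_one] at key
  have h2 := (mul_le_mul_of_nonneg_right (c2_jensen iu ie) hb.le).trans key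
  have h3 := log_nonpos (by positivity) h2
  rwa [log_mul (exp_pos _).ne' hb.ne', log_exp] at h3

theorem Neg_deriv {G : ℝ → ℝ} {D K x : ℝ} (h : ∀ w, |G (x + w) - G x - w * D| ≤ K * |w| ^ 2) :
    HasDerivAt G D x := by
  rw [hasDerivAt_iff_isLittleO_nhds_zero]
  refine Asymptotics.IsBigO.trans_isLittleO (Asymptotics.IsBigO.of_bound K
    (Eventually.of_forall fun w => ?_)) (Asymptotics.isLittleO_pow_id (𝕜 := ℝ) one_lt_two)
  simpa using h w

theorem Neg_var {G d : ℝ → ℝ} {L : ℝ} (hd : ∀ x, HasDerivAt G (d x) x) (iG : Integrable G γ1)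
    (iG2 : Integrable (fun x => G x ^ 2) γ1) (id1 : Integrable d γ1)
    (id2 : Integrable (fun x => d x ^ 2) γ1) (h : ∀ w, |d w - d 0| ≤ L * |w|) :
    ∫ x, d x ^ 2 ∂γ1 ≤ (∫ x, G x ^ 2 ∂γ1) - (∫ x, G x ∂γ1) ^ 2 + L ^ 2 := by
  have var : ∀ {f : ℝ → ℝ}, Integrable f γ1 → Integrable (fun x => f x ^ 2) γ1 → ∀ c : ℝ,
      Integrable (fun x => (f x - c) ^ 2) γ1 ∧
      ∫ x, (f x - c) ^ 2 ∂γ1 = (∫ x, f x ^ 2 ∂γ1) - 2 * c * (∫ x, f x ∂γ1) + c ^ 2 := by
    intro f i1 i2 c
    have e : (fun x => (f x - c) ^ 2) = fun x => f x ^ 2 - 2 * c * f x + c ^ 2 :=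
      funext fun x => by ring
    have i3 : Integrable (fun x => f x ^ 2 - 2 * c * f x) γ1 := i2.sub (i1.const_mul _)
    rw [e]
    refine ⟨i3.add (integrable_const _), ?_⟩
    rw [integral_add i3 (integrable_const _), integral_sub i2 (i1.const_mul _), integral_const_mul]
    simp
  have ix : Integrable (fun x : ℝ => x ^ 2) γ1 := by simpa using int_pow 2
  have ex : ∫ x : ℝ, x ^ 2 ∂γ1 = 1 := by simpa using int_sq
  obtain ⟨i1, e1⟩ := var iG iG2 (∫ x, G x ∂γ1)
  obtain ⟨i2, e2⟩ := var id1 id2 (d 0)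
  have i3 : Integrable (fun x => x * (G x - ∫ x, G x ∂γ1)) γ1 :=
    (ix.add i1).mono' (measurable_id.aestronglyMeasurable.mul
      (iG.sub (integrable_const _)).aestronglyMeasurable) (ae_of_all _ fun x => by
        rw [Real.norm_eq_abs, abs_le]
        simp only [Pi.add_apply]
        constructor <;> nlinarith [sq_nonneg (x + (G x - ∫ x, G x ∂γ1)),
          sq_nonneg (x - (G x - ∫ x, G x ∂γ1))])
  have e3 := ibp_one (fun x => (hd x).sub_const (∫ x, G x ∂γ1)) (iG.sub (integrable_const _)) id1 i3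
  have e4 := c2_cs ix i1 i3
  rw [e3, ex, one_mul, e1] at e4
  have e5 : ∫ x, (d x - d 0) ^ 2 ∂γ1 ≤ ∫ x : ℝ, L ^ 2 * x ^ 2 ∂γ1 :=
    integral_mono i2 (ix.const_mul _) fun x => by
      have := pow_le_pow_left₀ (abs_nonneg _) (h x) 2
      rwa [sq_abs, mul_pow, sq_abs] at this
  rw [integral_const_mul, ex, e2] at e5
  nlinarith [sq_nonneg (d 0 - ∫ x, d x ∂γ1)]

theorem Neg_step {m : ℝ} (hm : 0 < m) {Φ G G2 B d : ℝ → ℝ} (mΦ : Measurable Φ)
    (i0 : Integrable (fun y => exp (m * Φ y)) γ1) (iG : Integrable G γ1) (iG2 : Integrable G2 γ1)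
    (iG3 : Integrable (fun x => G x ^ 2) γ1) (ib : Integrable B γ1)
    (id2 : Integrable (fun x => d x ^ 2) γ1) (mG : Measurable G) (mG2 : Measurable G2)
    (mb : Measurable B) (md : Measurable d) (K : ℝ)
    (h : ∀ x y, Φ y ≤ -(G x + (B x + (y - x) * d x)) + m * (G2 x - G x ^ 2 + K)) :
    log (∫ y, exp (m * Φ y) ∂γ1) ≤ -(m * ((∫ x, G x ∂γ1) + ∫ x, B x ∂γ1)) +
      m ^ 2 * ((∫ x, G2 x ∂γ1) - (∫ x, G x ^ 2 ∂γ1) + K) + m ^ 2 * ∫ x, d x ^ 2 ∂γ1 := by
  have j1 : Integrable (fun x => G x + B x) γ1 := iG.add ib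
  have j2 : Integrable (fun x => G2 x - G x ^ 2) γ1 := iG2.sub iG3
  have j3 : Integrable (fun x => G2 x - G x ^ 2 + K) γ1 := j2.add (integrable_const _)
  have j4 : Integrable (fun x => m * (G x + B x) - m ^ 2 * (G2 x - G x ^ 2 + K)) γ1 :=
    (j1.const_mul _).sub (j3.const_mul _)
  have key := maurey_one (u := fun x => m * (G x + B x) - m ^ 2 * (G2 x - G x ^ 2 + K) -
    m ^ 2 * d x ^ 2) (v := fun y => -(m * Φ y)) (j4.sub (id2.const_mul _)) (by fun_prop)
    (by fun_prop) (by simpa using i0) fun x y => by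
      have h1 := mul_le_mul_of_nonneg_left (h x y) hm.le
      nlinarith [sq_nonneg ((y - x) / 2 + m * d x)]
  rw [integral_sub j4 (id2.const_mul _), integral_sub (j1.const_mul _) (j3.const_mul _),
    integral_const_mul, integral_const_mul, integral_const_mul, integral_add iG ib,
    integral_add j2 (integrable_const _), integral_sub iG2 iG3] at key
  simp only [neg_neg, integral_const, probReal_univ, one_smul] at key
  linarith

theorem Neg_aux {S : Type} [Fintype S] [Nonempty S] {c : ℕ → S → ℝ} {m : ℝ} (hm : 0 < m) {κ : ℝ}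
    (hc : ∀ j σ, |c j σ| ≤ κ) (n j : ℕ) (a b : S → ℝ) :
    (LS c m).X n j (fun s => -lse s) (a + b) ≤
      -(P146.E0 c m n j lse a + P146.E0 c m n j (gib b) a) + m * (V0 c m n j a + n * κ ^ 4) := by
  have hY := LS_ok (c := c) hm
  have hl := lin_lse c m
  have hl' : (LS c m).Lin fun s => -lse s := by simpa using hl.const_mul (-1)
  have hL := hl.ex hY
  have h0 := Sys.Lin.const hY (0 : ℝ)
  induction n generalizing j a b with
  | zero =>
    simp only [V0, P146.E0, Sys.P_zero hL.1, Sys.P_zero (meas_gib b), Sys.P_zero (hL.sq hY).1]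
    simpa [Sys.X] using lse_add_ge a b
  | succ n ih =>
    have hX := Sys.lin_X hY hl' n (j + 1)
    have i0 := Sys.integrable_exp_step hY hX j m (a + b)
    have e1 : (LS c m).X (n + 1) j (fun s => -lse s) (a + b) = m⁻¹ * log (∫ w,
        exp (m * (LS c m).X n (j + 1) (fun s => -lse s) (a + b + w • c j)) ∂γ1) := rfl
    have mX := hX.1
    set Φ := (LS c m).X n (j + 1) fun s => -lse s
    have iP : ∀ f, (LS c m).Ex f →
        Integrable (fun w : ℝ => P146.E0 c m n (j + 1) f (a + w • c j)) γ1 :=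
      fun f hf => Sys.Ex.integrable_step hY (Sys.ex_P hY h0 (g := f) hf n (j + 1)) j a
    have iP2 : ∀ f, (LS c m).Ex f →
        Integrable (fun w : ℝ => P146.E0 c m n (j + 1) f (a + w • c j) ^ 2) γ1 :=
      fun f hf => Sys.Ex.integrable_step hY ((Sys.ex_P hY h0 (g := f) hf n (j + 1)).sq hY) j a
    have mP : ∀ f, Measurable f → Measurable fun w : ℝ => P146.E0 c m n (j + 1) f (a + w • c j) :=
      fun f hf => (Sys.measurable_P hY h0 hf _ _).comp (by fun_prop)
    have hv := Neg_var (G := fun w => P146.E0 c m n (j + 1) lse (a + w • c j))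
      (d := fun w => P146.E0 c m n (j + 1) (gib (c j)) (a + w • c j)) (L := κ ^ 2) (fun x => by
        refine Neg_deriv (K := κ ^ 2) fun w => ?_
        have h1 := E0_bd (c := c) hm (fun x => lse_slope (hc j) x w) n (j + 1) (a + x • c j)
        have h2 := E0_sub hm (ex_shift hm hL (w • c j)) hL 1 n (j + 1) (a + x • c j)
        simp only [one_mul] at h2
        rw [← E0_sub hm ((ex_shift hm hL (w • c j)).sub hY hL) (ex_gib hm _), ← h2,
          ← E0_shift hm meas_lse] at h1
        rwa [add_smul, ← add_assoc]) (iP _ hL) (iP2 _ hL) (iP _ (ex_gib hm _))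
      (iP2 _ (ex_gib hm _)) fun w => by
        simp only [zero_smul, add_zero]
        have h2 := E0_sub (c := c) hm (ex_shift hm (ex_gib hm (c j)) (w • c j)) (ex_gib hm (c j))
          1 n (j + 1) a
        simp only [one_mul] at h2
        rw [E0_shift hm (meas_gib _), h2]
        exact E0_bd hm (fun x => gib_lip (hc j) x w) n (j + 1) a
    have iG := iP _ hL
    have iG2 := iP _ (hL.sq hY)
    have iG3 := iP2 _ hL
    have ib := iP _ (ex_gib hm b)
    have id2 := iP2 _ (ex_gib hm (c j))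
    have mG := mP _ meas_lse
    have mG2 := mP _ (meas_lse.pow_const 2)
    have mb := mP _ (meas_gib b)
    have md := mP _ (meas_gib (c j))
    have step : ∀ x y : ℝ, Φ (a + b + y • c j) ≤ -(P146.E0 c m n (j + 1) lse (a + x • c j) +
        (P146.E0 c m n (j + 1) (gib b) (a + x • c j) +
          (y - x) * P146.E0 c m n (j + 1) (gib (c j)) (a + x • c j))) +
        m * (P146.E0 c m n (j + 1) (fun x => lse x ^ 2) (a + x • c j) -
          P146.E0 c m n (j + 1) lse (a + x • c j) ^ 2 + n * κ ^ 4) := fun x y => by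
      have h1 := ih (j + 1) (a + x • c j) (b + (y - x) • c j)
      have h2 := E0_sub (c := c) hm (ex_gib hm b) (ex_gib hm (c j)) (-(y - x)) n (j + 1)
        (a + x • c j)
      simp only [neg_mul, sub_neg_eq_add, ← gib_lin] at h2
      rw [← h2, V0] at h1
      have e : a + x • c j + (b + (y - x) • c j) = a + b + y • c j := by
        rw [sub_smul]
        abel
      rwa [e] at h1
    rw [e1, inv_mul_le_iff₀ hm, V0, E0_succ hm hL, E0_succ hm (ex_gib hm b),
      E0_succ hm (hL.sq hY)]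
    have key := Neg_step hm (Φ := fun y => Φ (a + b + y • c j)) (mX.comp (by fun_prop)) i0 iG iG2
      iG3 ib id2 mG mG2 mb md (n * κ ^ 4) step
    push_cast
    have h4 := mul_le_mul_of_nonneg_left hv (sq_nonneg m)
    linarith

/-- Follow `lower_aux` and `conv_main` in `P146/Conv.lean`. Induction claim, for all `a b`:
`(LS c M).X n j (fun s => -lse s) (a + b) ≤ -(P146.E0 lse a + P146.E0 (gib b) a) + M * (V0 a + n * κ ^ 4)`.
Step: `maurey_one` with `v y = -M * X n (j + 1) (-lse) (a + b + y • c j)`, the claim at the base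
point `a + x • c j` with the shift `b + (y - x) • c j`, `d x = P146.E0 (gib (c j)) (a + x • c j)`,
`M (y - x) d + (y - x) ^ 2 / 4 ≥ -M ^ 2 d ^ 2`. With `G x = P146.E0 lse (a + x • c j)` one has `G' = d`
(`lse_slope`), `|d x - d 0| ≤ κ ^ 2 |x|` (`gib_lip`), `∫ d = ∫ x G` (`ibp_one`), so
`∫ d ^ 2 = (∫ d) ^ 2 + Var d ≤ Var G + κ ^ 4`. -/
theorem conv_neg {S I : Type} [Fintype S] [Nonempty S] [Fintype I] {e : I → S → ℝ} {κ M : ℝ}
    (hM : 0 < M) (he : ∀ i σ, |e i σ| ≤ κ) (hκ : 0 ≤ κ) :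
    (∫ g, FG e g ∂γ I) + M⁻¹ * log (∫ g, exp (-M * FG e g) ∂γ I) ≤
      M * (Var[FG e; γ I] + Fintype.card I * κ ^ 4) := by
  set d := Fintype.card I
  set φ : Fin d ≃ I := (Fintype.equivFin I).symm
  set c : ℕ → S → ℝ := fun j => if h : j < d then e (φ ⟨j, h⟩) else 0
  have hc : ∀ j σ, |c j σ| ≤ κ := fun j σ => by
    simp only [c]; split_ifs
    · exact he _ _
    · simpa
  have hl' : (LS c M).Lin fun s => -lse s := by simpa using (lin_lse c M).const_mul (-1)
  have mS : Measurable fun g : I → ℝ => ∑ i, g i • e i := by fun_prop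
  have law : (LS c M).m d 0 (fun _ => 0) 0 = (γ I).map fun g => ∑ i, g i • e i := by
    have hφ : γ I = (γ (Fin d)).map (MeasurableEquiv.piCongrLeft (fun _ => ℝ) φ) :=
      (measurePreserving_piCongrLeft (fun _ : I => γ1) φ).map_eq.symm
    rw [m0_eq hM, hφ, Measure.map_map mS (MeasurableEquiv.measurable _)]
    congr 1
    funext g
    simp only [Function.comp_apply, zero_add]
    rw [← φ.sum_comp]
    refine sum_congr rfl fun i _ => ?_
    simp [c, MeasurableEquiv.piCongrLeft_apply_apply]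
  have hE : ∀ f : (S → ℝ) → ℝ, Measurable f →
      P146.E0 c M d 0 f 0 = ∫ g, f (∑ i, g i • e i) ∂γ I := fun f hf => by
    rw [P146.E0, Sys.P, law, integral_map mS.aemeasurable hf.aestronglyMeasurable]
  have h2 := (conv_main hM he hκ le_rfl).1
  have hX : (LS c M).X d 0 (fun s => -lse s) 0 = M⁻¹ * log (∫ g, exp (-M * FG e g) ∂γ I) := by
    have := expX hM hl' d 0 0
    rw [hE (fun x => exp (M * -lse x)) (meas_lse.neg.const_mul M).exp] at this
    simp only [FG, neg_mul]
    simp only [mul_neg] at this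
    rw [← this, log_exp, inv_mul_cancel_left₀ hM.ne']
  have h := Neg_aux hM hc d 0 0 0
  have h0 : P146.E0 c M d 0 (gib 0) 0 = 0 := by simp [hE _ (meas_gib _), gib]
  rw [add_zero, hX, h0, V0, hE _ meas_lse, hE _ (meas_lse.pow_const 2)] at h
  rw [variance_eq_sub h2]
  simp only [FG, Pi.pow_apply] at h ⊢
  linarith

theorem conv_neg_SK {n : ℕ} {β M : ℝ} (hβ : 0 < β) (hn : 0 < n) (hM : 0 < M) :
    (∫ g, FF n β g ∂γ (Pr n)) + M⁻¹ * log (∫ g, exp (-M * FF n β g) ∂γ (Pr n)) ≤
      M * (Var[FF n β; γ (Pr n)] + β ^ 4) := by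
  have hn' : (1 : ℝ) ≤ n := by exact_mod_cast hn
  have h := conv_neg (e := fun p σ => √(β ^ 2 / n) * xP (N := n) σ p)
    (κ := √(β ^ 2 / n)) hM (fun p σ => by
      rw [abs_mul, sg_P.abs, mul_one, abs_of_nonneg (sqrt_nonneg _)]) (sqrt_nonneg _)
  rw [card_Pr, show √(β ^ 2 / n) ^ 4 = (√(β ^ 2 / n) ^ 2) ^ 2 by ring, sq_sqrt (by positivity),
    show ((n : ℝ) ^ 2 - n) / 2 * (β ^ 2 / n) ^ 2 = β ^ 4 * ((1 - 1 / n) / 2) by field_simp] at h
  refine h.trans ?_
  gcongr
  exact mul_le_of_le_one_right (by positivity) (by linarith [one_div_pos.2 (one_pos.trans_le hn')])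

end

end Vale.Agent.P146L
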