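import Vale.Agent.P146L.Defs

/-! Cascade observables: basic facts and the replacement lemma. -/

set_option linter.all false

namespace Vale.Agent.P146L

open MeasureTheory ProbabilityTheory Real Finset Filter Topology Vale.Agent.P146M Vale.Agent.P146

noncomputable section

variable {N k : ℕ} {H : SN N → ℝ}

theorem rep_meas (f : Cf N → ℝ) : Measurable fun s : SN N => f s.1 :=
  (Measurable.of_discrete (f := f)).comp measurable_fst

theorem rep_int (μ : Measure (SN N)) [IsFiniteMeasure μ] (f : Cf N → ℝ) :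
    Integrable (fun s : SN N => f s.1) μ :=
  Integrable.of_bound (rep_meas f).aestronglyMeasurable _ (ae_of_all _ fun s => single_le_sum
    (f := fun σ => ‖f σ‖) (fun _ _ => norm_nonneg _) (mem_univ s.1))

theorem rep_abs {α : Type*} [MeasurableSpace α] (μ : Measure α) [IsProbabilityMeasure μ]
    {f : α → ℝ} {C : ℝ} (h : ∀ x, |f x| ≤ C) : |∫ x, f x ∂μ| ≤ C := by
  have h1 := norm_integral_le_of_norm_le_const (μ := μ) (f := f) (ae_of_all _ h)
  rwa [probReal_univ, mul_one] at h1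

theorem rep_sum2 {α : Type*} [MeasurableSpace α] {μ : Measure α} {F : Fin N → Fin N → α → ℝ}
    (hF : ∀ i j, Integrable (F i j) μ) :
    ∫ x, ∑ i, ∑ j, F i j x ∂μ = ∑ i, ∑ j, ∫ x, F i j x ∂μ := by
  rw [integral_finset_sum _ fun i _ => integrable_finset_sum _ fun j _ => hF i j]
  exact sum_congr rfl fun i _ => integral_finset_sum _ fun j _ => hF i j

theorem rep_sum {α : Type*} [MeasurableSpace α] {μ : Measure α} [IsProbabilityMeasure μ]
    {F : Fin N → Fin N → α → ℝ} {G : Fin N → α → ℝ} (hF : ∀ i j, Integrable (F i j) μ)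
    (hG : ∀ i, Integrable (G i) μ) (d c : ℝ) :
    ∫ x, (∑ i, ∑ j, F i j x - d * ∑ i, G i x + c) ∂μ =
      ∑ i, ∑ j, ∫ x, F i j x ∂μ - d * ∑ i, ∫ x, G i x ∂μ + c := by
  have h1 : Integrable (fun x => ∑ i, ∑ j, F i j x) μ :=
    integrable_finset_sum _ fun i _ => integrable_finset_sum _ fun j _ => hF i j
  have h2 : Integrable (fun x => d * ∑ i, G i x) μ :=
    (integrable_finset_sum _ fun i _ => hG i).const_mul d
  have h3 : Integrable (fun x => ∑ i, ∑ j, F i j x - d * ∑ i, G i x) μ := h1.sub h2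
  rw [integral_add h3 (integrable_const c), integral_sub h1 h2, rep_sum2 hF,
    integral_const_mul, integral_finset_sum _ fun i _ => hG i]
  simp

theorem rep_sq (x y : Fin N → ℝ) (c : ℝ) : (∑ i, x i * y i - c) ^ 2 =
    ∑ i, ∑ j, x i * x j * (y i * y j) - 2 * c * ∑ i, x i * y i + c ^ 2 := by
  have h : (∑ i, x i * y i) ^ 2 = ∑ i, ∑ j, x i * x j * (y i * y j) := by
    rw [sq, sum_mul_sum]
    exact sum_congr rfl fun i _ => sum_congr rfl fun j _ => by ring
  rw [← h]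
  ring

theorem rep_sg (σ : Cf N) (i : Fin N) : |sg σ i| ≤ 1 := (sg_1.abs σ i).le

theorem rep_mul {x y : ℝ} (hx : |x| ≤ 1) (hy : |y| ≤ 1) : |x * y| ≤ 1 := by
  rw [abs_mul]
  exact mul_le_one₀ hx (abs_nonneg y) hy

theorem rep_avg (hk : 0 < k) (s : Finset ℕ) (hs : s.card ≤ k) {F : ℕ → ℝ} {C : ℝ} (hC : 0 ≤ C)
    (h : ∀ l, |F l| ≤ C) : |(1 / (k : ℝ)) * ∑ l ∈ s, F l| ≤ C := by
  have hk' : (0 : ℝ) < k := by exact_mod_cast hk
  have h1 : |∑ l ∈ s, F l| ≤ k * C := by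
    refine (abs_sum_le_sum_abs _ _).trans ((sum_le_card_nsmul s _ C fun l _ => h l).trans ?_)
    rw [nsmul_eq_mul]
    exact mul_le_mul_of_nonneg_right (by exact_mod_cast hs) hC
  rwa [abs_mul, abs_of_pos (one_div_pos.2 hk'), one_div, inv_mul_le_iff₀ hk']

theorem ex_cf (hk : 0 < k) (f : Cf N → ℝ) : (GS k (Fin N) (νN N)).Ex fun s => f s.1 :=
  Sys.Ex.of_bdd (gs_ok hk) (rep_meas f) _ fun s =>
    single_le_sum (f := fun σ => |f σ|) (fun _ _ => abs_nonneg _) (mem_univ s.1)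

theorem PP_top (f : Cf N → ℝ) : PP k (νN N) H (k + 1) (fun s => f s.1) = fun s => f s.1 := by
  unfold PP
  rw [Nat.sub_self]
  exact Sys.P_zero (rep_meas f) _

/-- tower property (`integral_mul_PP`, `PP_PP`, `inv_PP`, `integral_pp_mul`) -/
theorem cross (hk : 0 < k) (hH : (GS k (Fin N) (νN N)).Lin H) {f g : SN N → ℝ}
    (hf : (GS k (Fin N) (νN N)).Ex f) (hg : (GS k (Fin N) (νN N)).Ex g) {l l' : ℕ}
    (hl : l ≤ k + 1) (hl' : l' ≤ k + 1) :
    ∫ s, PP k (νN N) H l f s * PP k (νN N) H l' g s ∂mm k (νN N) H =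
      ∫ p, f p.1 * g p.2 ∂pp k (νN N) H (min l l') := by
  have key : ∀ {f g : SN N → ℝ}, (GS k (Fin N) (νN N)).Ex f → (GS k (Fin N) (νN N)).Ex g →
      ∀ {l l' : ℕ}, l ≤ l' → l' ≤ k + 1 →
      ∫ s, PP k (νN N) H l f s * PP k (νN N) H l' g s ∂mm k (νN N) H =
        ∫ s, PP k (νN N) H l f s * PP k (νN N) H l g s ∂mm k (νN N) H := by
    intro f g hf hg l l' h1 h2
    rw [integral_mul_PP hk hH (ex_PP hk hH hf l) (ex_PP hk hH hg l') (h1.trans h2)
      (inv_PP hk hH l), PP_PP hk hH hg h1 h2]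
  rcases le_total l l' with h | h
  · rw [min_eq_left h, key hf hg h hl', integral_pp_mul hk hH hf hg hl]
  · rw [min_eq_right h, integral_pp_mul hk hH hf hg hl']
    simp only [mul_comm (PP k (νN N) H _ f _)]
    exact key hg hf h hl

theorem abs_Ml (hk : 0 < k) (hH : (GS k (Fin N) (νN N)).Lin H) (l : ℕ) (a : Fin N) (s : SN N) :
    |Ml k H l a s| ≤ 1 := abs_PP_le hk hH (fun s => rep_sg s.1 a) l s

theorem abs_Cl (hk : 0 < k) (hH : (GS k (Fin N) (νN N)).Lin H) (l : ℕ) (i j : Fin N) (s : SN N) :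
    |Cl k H l i j s| ≤ 1 :=
  abs_PP_le hk hH (fun s => rep_mul (rep_sg s.1 i) (rep_sg s.1 j)) l s

theorem abs_BB (hk : 0 < k) (hH : (GS k (Fin N) (νN N)).Lin H) (l : ℕ) (a c : Fin N) :
    |BB k H l a c| ≤ 1 := by
  haveI := pp_prob hk hH l
  exact rep_abs _ fun p => rep_mul (rep_sg _ _) (rep_sg _ _)

theorem abs_tri (hk : 0 < k) (hH : (GS k (Fin N) (νN N)).Lin H) (l1 l2 l3 : ℕ) (a c i j : Fin N) :
    |tri k H l1 l2 l3 a c i j| ≤ 1 := by
  haveI := mm_prob hk hH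
  exact rep_abs _ fun s =>
    rep_mul (rep_mul (abs_Ml hk hH _ _ _) (abs_Ml hk hH _ _ _)) (abs_Cl hk hH _ _ _ _)

theorem abs_dB (hk : 0 < k) (hH : (GS k (Fin N) (νN N)).Lin H) {r : ℕ} (hr : r < k)
    (a c i j : Fin N) : |dB k H r a c i j| ≤ 8 ∧ |dBd k H a c i j| ≤ 8 := by
  have t := fun l1 l2 l3 => abs_tri hk hH l1 l2 l3 a c i j
  have hk' : (1 : ℝ) ≤ k := by exact_mod_cast hk
  constructor
  · have h1 := abs_le.1 (t (k + 1) r (k + 1))
    have h2 := abs_le.1 (t r (k + 1) (k + 1))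
    have h3 : |((r : ℝ) + 2) / k * tri k H r r r a c i j| ≤ 2 * 1 := by
      have hr' : (r : ℝ) + 1 ≤ k := by exact_mod_cast hr
      rw [abs_mul, abs_of_nonneg (by positivity)]
      refine mul_le_mul ?_ (t r r r) (abs_nonneg _) zero_le_two
      rw [div_le_iff₀ (by linarith)]
      linarith
    have h4 := abs_le.1 (rep_avg hk (Ioo r k) (by rw [Nat.card_Ioo]; omega)
      (F := fun l => tri k H l r l a c i j + tri k H r l l a c i j) zero_le_two
      fun l => (abs_add_le _ _).trans (by linarith [t l r l, t r l l]))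
    have h5 := abs_le.1 (rep_avg hk (range r) (by rw [card_range]; omega) zero_le_one
      fun l => t r r l)
    have h6 := abs_le.1 h3
    unfold dB
    exact abs_le.2 ⟨by linarith, by linarith⟩
  · have h1 := abs_le.1 (t (k + 1) (k + 1) (k + 1))
    have h5 := abs_le.1 (rep_avg hk (range k) (card_range k).le zero_le_one
      fun l => t (k + 1) (k + 1) l)
    unfold dBd
    exact abs_le.2 ⟨by linarith, by linarith⟩

theorem tri_symm (l1 l2 l3 : ℕ) (a c i j : Fin N) :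
    tri k H l1 l2 l3 a c i j = tri k H l1 l2 l3 a c j i := by
  simp only [tri, Cl, mul_comm (sg _ i)]

theorem BB_top (hk : 0 < k) (hH : (GS k (Fin N) (νN N)).Lin H) (a c : Fin N) :
    BB k H (k + 1) a c = ∫ s, sg s.1 a * sg s.1 c ∂mm k (νN N) H := by
  rw [BB, integral_pp_mul hk hH (ex_cf hk fun σ => sg σ a) (ex_cf hk fun σ => sg σ c) le_rfl,
    PP_top fun σ => sg σ a, PP_top fun σ => sg σ c]

theorem BB_symm (hk : 0 < k) (hH : (GS k (Fin N) (νN N)).Lin H) (l : ℕ) (a c : Fin N) :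
    BB k H l a c = BB k H l c a := by
  rw [BB, BB, gsb_pp hk hH (ex_cf hk fun σ => sg σ a) (ex_cf hk fun σ => sg σ c),
    gsb_pp hk hH (ex_cf hk fun σ => sg σ c) (ex_cf hk fun σ => sg σ a)]
  simp only [mul_comm]

theorem BB_diag (hk : 0 < k) (hH : (GS k (Fin N) (νN N)).Lin H) (a : Fin N) :
    BB k H (k + 1) a a = 1 := by
  haveI := mm_prob hk hH
  rw [BB_top hk hH]
  simp [← sq, sg_sq]

theorem yF_mem (hk : 0 < k) (hN : 0 < N) (hH : (GS k (Fin N) (νN N)).Lin H) :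
    1 ≤ yF k H ∧ yF k H ≤ N := by
  have hN' : (0 : ℝ) < N := by exact_mod_cast hN
  unfold yF
  rw [le_div_iff₀ hN', div_le_iff₀ hN']
  constructor
  · refine le_trans (le_of_eq ?_) (sum_le_sum fun a _ => single_le_sum
      (f := fun c => BB k H (k + 1) a c ^ 2) (fun _ _ => sq_nonneg _) (mem_univ a))
    simp [BB_diag hk hH]
  · refine (sum_le_sum fun a _ => sum_le_sum fun c _ =>
      (sq_le_one_iff_abs_le_one _).2 (abs_BB hk hH (k + 1) a c)).trans (le_of_eq ?_)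
    simp

theorem rep_form (hk : 0 < k) (hH : (GS k (Fin N) (νN N)).Lin H) {l : ℕ} (hl : l ≤ k + 1)
    (x : Fin N → ℝ) : ∑ a, ∑ c, BB k H l a c * (x a * x c) ≤
      ∑ a, ∑ c, BB k H (k + 1) a c * (x a * x c) := by
  have h : ∀ l, ∑ a, ∑ c, BB k H l a c * (x a * x c) =
      ∫ p, (∑ a, sg p.1.1 a * x a) * (∑ a, sg p.2.1 a * x a) ∂pp k (νN N) H l := by
    intro l
    haveI := pp_prob hk hH l
    simp only [BB, ← integral_mul_const]
    rw [← rep_sum2 fun a c => int2 _ fun σ τ => sg σ a * sg τ c * (x a * x c)]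
    refine integral_congr_ae (ae_of_all _ fun p => ?_)
    simp only [sum_mul_sum]
    exact sum_congr rfl fun a _ => sum_congr rfl fun c _ => by ring
  rw [h, h]
  exact pp_mono hk hH (ex_cf hk fun σ => ∑ a, sg σ a * x a) hl le_rfl

theorem rep_exM (hk : 0 < k) (hH : (GS k (Fin N) (νN N)).Lin H) (l : ℕ) (a : Fin N) :
    (GS k (Fin N) (νN N)).Ex (Ml k H l a) := ex_PP hk hH (ex_cf hk fun σ => sg σ a) l

theorem rep_exC (hk : 0 < k) (hH : (GS k (Fin N) (νN N)).Lin H) (l : ℕ) (a c : Fin N) :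
    (GS k (Fin N) (νN N)).Ex (Cl k H l a c) := ex_PP hk hH (ex_cf hk fun σ => sg σ a * sg σ c) l

theorem rep_step (hk : 0 < k) (hH : (GS k (Fin N) (νN N)).Lin H) {l l' : ℕ} (hl : l ≤ k + 1)
    (hl' : l' ≤ k + 1) : ∑ a, ∑ c, BB k H l a c * BB k H l' a c ≤
      ∑ a, ∑ c, BB k H (k + 1) a c * BB k H l' a c := by
  have hi : ∀ l a c, Integrable (fun s => BB k H l a c * (Ml k H l' a s * Ml k H l' c s))
      (mm k (νN N) H) := fun l a c =>
    (integrable_mm hk hH ((rep_exM hk hH l' a).mul (gs_ok hk) (rep_exM hk hH l' c))).const_mul _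
  have h : ∀ l, ∑ a, ∑ c, BB k H l a c * BB k H l' a c =
      ∫ s, ∑ a, ∑ c, BB k H l a c * (Ml k H l' a s * Ml k H l' c s) ∂mm k (νN N) H := by
    intro l
    rw [rep_sum2 (hi l)]
    refine sum_congr rfl fun a _ => sum_congr rfl fun c _ => ?_
    rw [integral_const_mul]
    exact congrArg _
      (integral_pp_mul hk hH (ex_cf hk fun σ => sg σ a) (ex_cf hk fun σ => sg σ c) hl')
  rw [h, h]
  exact integral_mono (integrable_finset_sum _ fun a _ => integrable_finset_sum _ fun c _ => hi _ a c)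
    (integrable_finset_sum _ fun a _ => integrable_finset_sum _ fun c _ => hi _ a c)
    fun s => rep_form hk hH hl _

/-- For every real vector `x`, `x B^l x ≤ x B^(k+1) x` by `pp_mono` for `∑ x a * sg a`. Use it twice:
`∑ B^l B^l = E (M B^l M) ≤ E (M B^(k+1) M) = ∑ B^l B^(k+1) = E (σ B^l σ) ≤ ∑ B^(k+1) B^(k+1)`. -/
theorem fro_le (hk : 0 < k) (hN : 0 < N) (hH : (GS k (Fin N) (νN N)).Lin H) {l : ℕ}
    (hl : l ≤ k + 1) : ∑ a, ∑ c, BB k H l a c ^ 2 ≤ N * yF k H := by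
  have hN' : (N : ℝ) ≠ 0 := by exact_mod_cast hN.ne'
  have h1 := rep_step hk hH hl hl
  have h2 := rep_step hk hH hl le_rfl
  simp only [mul_comm (BB k H l _ _) (BB k H (k + 1) _ _)] at h2
  rw [yF, mul_div_cancel₀ _ hN']
  simp only [sq]
  exact h1.trans h2

theorem vR_nonneg (l : ℕ) (q : ℝ) : 0 ≤ vR k H l q := integral_nonneg fun _ => sq_nonneg _

theorem vR_le (hk : 0 < k) (hH : (GS k (Fin N) (νN N)).Lin H) (l : ℕ) (q : ℝ) :
    vR k H l q ≤ (1 + |q|) ^ 2 := by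
  haveI := pp_prob hk hH l
  refine (le_abs_self _).trans (rep_abs _ fun p => ?_)
  rw [abs_pow]
  exact pow_le_pow_left₀ (abs_nonneg _) ((abs_sub _ _).trans (add_le_add_left (abs_R _ _) _)) 2

theorem rep_vR (hk : 0 < k) (hN : 0 < N) (hH : (GS k (Fin N) (νN N)).Lin H) {l2 l3 : ℕ}
    (h2 : l2 ≤ k + 1) (h3 : l3 ≤ k + 1) (q : ℝ) : (N : ℝ) ^ 2 * vR k H (min l2 l3) q =
      ∫ s, (∑ i, ∑ j, Cl k H l2 i j s * Cl k H l3 i j s -
        2 * (N * q) * ∑ i, Ml k H l2 i s * Ml k H l3 i s + (N * q) ^ 2) ∂mm k (νN N) H := by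
  haveI := mm_prob hk hH
  haveI := pp_prob hk hH (min l2 l3)
  have hN' : (N : ℝ) ≠ 0 := by exact_mod_cast hN.ne'
  rw [rep_sum
    (fun i j => integrable_mm hk hH ((rep_exC hk hH l2 i j).mul (gs_ok hk) (rep_exC hk hH l3 i j)))
    (fun i => integrable_mm hk hH ((rep_exM hk hH l2 i).mul (gs_ok hk) (rep_exM hk hH l3 i)))]
  have a1 := fun i j => cross hk hH (ex_cf hk fun σ => sg σ i * sg σ j)
    (ex_cf hk fun σ => sg σ i * sg σ j) h2 h3
  have a2 := fun i => cross hk hH (ex_cf hk fun σ => sg σ i) (ex_cf hk fun σ => sg σ i) h2 h3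
  simp only [Cl, Ml, a1, a2]
  rw [← rep_sum (fun i j => int2 _ fun σ τ => sg σ i * sg σ j * (sg τ i * sg τ j))
    (fun i => int2 _ fun σ τ => sg σ i * sg τ i), vR, ← integral_const_mul]
  refine integral_congr_ae (ae_of_all _ fun p => ?_)
  simp only
  rw [← rep_sq, ← mul_pow, mul_sub, mul_div_cancel₀ _ hN', dot]

/-- expand the square and use `cross`, `PP_top` -/
theorem vR_top (hk : 0 < k) (hN : 0 < N) (hH : (GS k (Fin N) (νN N)).Lin H) :
    vR k H (k + 1) 1 = 0 := by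
  haveI := mm_prob hk hH
  have hN' : (N : ℝ) ≠ 0 := by exact_mod_cast hN.ne'
  have h := rep_vR hk hN hH (l2 := k + 1) (l3 := k + 1) le_rfl le_rfl 1
  have h1 : ∀ a, Ml k H (k + 1) a = fun s => sg s.1 a := fun a => PP_top fun σ => sg σ a
  have h2 : ∀ a c, Cl k H (k + 1) a c = fun s => sg s.1 a * sg s.1 c := fun a c =>
    PP_top fun σ => sg σ a * sg σ c
  simp only [h1, h2, ← sq, mul_pow, sg_sq, min_self, sum_const, card_univ, Fintype.card_fin,
    nsmul_eq_mul, integral_const, probReal_univ, smul_eq_mul] at h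
  refine (mul_eq_zero.1 (h.trans ?_)).resolve_left (pow_ne_zero 2 hN')
  ring

theorem tr_BB (hk : 0 < k) (hH : (GS k (Fin N) (νN N)).Lin H) (l : ℕ) (q : ℝ) :
    |(∑ a, BB k H l a a) / N - q| ≤ √(vR k H l q) := by
  haveI := pp_prob hk hH l
  have h : (∑ a, BB k H l a a) / N - q = ∫ p, (dot p.1.1 p.2.1 / N - q) ∂pp k (νN N) H l := by
    rw [integral_sub (int2 _ fun σ τ => dot σ τ / N) (integrable_const q), integral_div]
    simp only [dot]
    rw [integral_finset_sum _ fun a _ => int2 _ fun σ τ => sg σ a * sg τ a]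
    simp [BB]
  rw [h]
  exact abs_le_sqrt (c2_sq_le (int2 _ fun σ τ => dot σ τ / N - q)
    (int2 _ fun σ τ => (dot σ τ / N - q) ^ 2))

theorem rep_one (μ : Measure (SN N)) [IsProbabilityMeasure μ] (c : ℝ) (x : Fin N → ℝ) :
    (∑ i, (∫ t, sg t.1 i ∂μ) * x i - c) ^ 2 ≤
      ∑ i, ∑ j, (∫ t, sg t.1 i * sg t.1 j ∂μ) * (x i * x j) -
        2 * c * ∑ i, (∫ t, sg t.1 i ∂μ) * x i + c ^ 2 := by
  have h := c2_sq_le (rep_int μ fun σ => ∑ i, sg σ i * x i - c)
    (rep_int μ fun σ => (∑ i, sg σ i * x i - c) ^ 2)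
  simp only [rep_sq] at h
  rw [rep_sum (fun i j => rep_int μ fun σ => sg σ i * sg σ j * (x i * x j))
      (fun i => rep_int μ fun σ => sg σ i * x i),
    integral_sub (rep_int μ fun σ => ∑ i, sg σ i * x i) (integrable_const c),
    integral_finset_sum _ fun i _ => rep_int μ fun σ => sg σ i * x i] at h
  simpa only [integral_mul_const, integral_const, probReal_univ, one_smul] using h

theorem rep_two (μ μ' : Measure (SN N)) [IsProbabilityMeasure μ] [IsProbabilityMeasure μ'] (c : ℝ)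
    (j : Fin N) : (∑ i, (∫ t, sg t.1 i ∂μ) * (∫ t, sg t.1 i * sg t.1 j ∂μ') -
      c * ∫ t, sg t.1 j ∂μ') ^ 2 ≤
      ∑ i, ∑ j, (∫ t, sg t.1 i * sg t.1 j ∂μ) * (∫ t, sg t.1 i * sg t.1 j ∂μ') -
        2 * c * ∑ i, (∫ t, sg t.1 i ∂μ) * (∫ t, sg t.1 i ∂μ') + c ^ 2 := by
  have h := c2_sq_le (rep_int μ' fun σ => (∑ i, (∫ t, sg t.1 i ∂μ) * sg σ i - c) * sg σ j)
    (rep_int μ' fun σ => ((∑ i, (∫ t, sg t.1 i ∂μ) * sg σ i - c) * sg σ j) ^ 2)
  simp only [mul_pow, sg_sq, mul_one] at h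
  have h1 := integral_mono (rep_int μ' fun σ => (∑ i, (∫ t, sg t.1 i ∂μ) * sg σ i - c) ^ 2)
    (rep_int μ' fun σ => ∑ i, ∑ j, (∫ t, sg t.1 i * sg t.1 j ∂μ) * (sg σ i * sg σ j) -
      2 * c * ∑ i, (∫ t, sg t.1 i ∂μ) * sg σ i + c ^ 2) fun s => rep_one μ c (sg s.1)
  rw [rep_sum (fun i j => rep_int μ' fun σ => (∫ t, sg t.1 i * sg t.1 j ∂μ) * (sg σ i * sg σ j))
    (fun i => rep_int μ' fun σ => (∫ t, sg t.1 i ∂μ) * sg σ i)] at h1
  simp only [integral_const_mul] at h1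
  refine le_trans (le_of_eq ?_) (h.trans h1)
  simp only [sub_mul, sum_mul, mul_assoc]
  rw [integral_sub (rep_int μ' fun σ => ∑ i, (∫ t, sg t.1 i ∂μ) * (sg σ i * sg σ j))
      (rep_int μ' fun σ => c * sg σ j),
    integral_finset_sum _ fun i _ => rep_int μ' fun σ => (∫ t, sg t.1 i ∂μ) * (sg σ i * sg σ j)]
  simp only [integral_const_mul]

/-- Fix `s`, `y i = Ml l2 i s`. The bracket is the mean of `σ j * (σ · y - N q)` under the law
`(GS …).m (k + 1 - l3) l3 H s`, so its square is at most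
`∑ C^l3 i i' y i y i' - 2 N q ∑ M^l3 i y i + N ^ 2 q ^ 2`. Next
`∑ C^l3 i i' (C^l2 i i' - y i y i') ≥ 0`: it is the mean over `σ` of the variance of `σ · σ'`.
Integrate and use `cross`. -/
theorem repl (hk : 0 < k) (hN : 0 < N) (hH : (GS k (Fin N) (νN N)).Lin H) {l2 l3 : ℕ}
    (h2 : l2 ≤ k + 1) (h3 : l3 ≤ k + 1) (q : ℝ) :
    ∫ s, ∑ j, (∑ i, Ml k H l2 i s * Cl k H l3 i j s - N * q * Ml k H l3 j s) ^ 2
      ∂mm k (νN N) H ≤ N ^ 3 * vR k H (min l2 l3) q := by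
  have hY : (GS k (Fin N) (νN N)).OK := gs_ok hk
  rw [pow_succ', mul_assoc, rep_vR hk hN hH h2 h3, ← integral_const_mul]
  refine integral_mono_of_nonneg (ae_of_all _ fun s => by positivity) ?_ (ae_of_all _ fun s => ?_)
  · refine Integrable.const_mul (integrable_mm hk hH ?_) _
    exact ((Sys.Ex.sum hY _ fun i _ => Sys.Ex.sum hY _ fun j _ =>
      (rep_exC hk hH l2 i j).mul hY (rep_exC hk hH l3 i j)).sub hY
        ((Sys.Ex.sum hY _ fun i _ =>
          (rep_exM hk hH l2 i).mul hY (rep_exM hk hH l3 i)).const_mul hY _)).add hY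
      (Sys.Ex.const hY _)
  · haveI := Sys.m_prob hY hH (k + 1 - l2) l2 s
    haveI := Sys.m_prob hY hH (k + 1 - l3) l3 s
    refine (sum_le_card_nsmul _ _ _ fun j _ => rep_two ((GS k (Fin N) (νN N)).m (k + 1 - l2) l2 H s)
      ((GS k (Fin N) (νN N)).m (k + 1 - l3) l3 H s) (N * q) j).trans (le_of_eq ?_)
    rw [card_univ, Fintype.card_fin, nsmul_eq_mul]
    rfl

end

end Vale.Agent.P146L
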