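import Vale.Agent.P146L.Min
import Vale.Agent.P146L.Move

/-! The second order condition. -/

set_option linter.all false

namespace Vale.Agent.P146L

open MeasureTheory ProbabilityTheory Real Finset Filter Topology Vale.Agent.P146M Vale.Agent.P146

noncomputable section

theorem SO_adm {r : ℕ → ℝ} (hr : AdmR r) {l : ℕ} (hl : 1 ≤ l) {ε : ℝ} (h0 : 0 ≤ ε)
    (h1 : ε ≤ vv r l) : AdmR (Function.update r l (r l + ε)) := by
  refine ⟨by rw [Function.update_of_ne (by omega), hr.1], monotone_nat_of_le_succ fun j => ?_⟩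
  have := hr.2 (Nat.le_succ j)
  simp only [vv] at h1
  rcases eq_or_ne j l with rfl | h
  · rw [Function.update_self, Function.update_of_ne (by omega)]; linarith
  rw [Function.update_of_ne h]
  rcases eq_or_ne (j + 1) l with rfl | h'
  · rw [Function.update_self]; linarith
  · rwa [Function.update_of_ne h']

theorem SO_le {β : ℝ} {k : ℕ} {r : ℕ → ℝ} (h : IsMz β k r) (j : ℕ) : r j ≤ β ^ 2 + 1 :=
  (h.adm.2 (le_max_left j k)).trans_eq (h.top _ (le_max_right j k))

theorem SO_core {β κ ε : ℝ} {k l : ℕ} {r : ℕ → ℝ} (hβ : 0 < β) (h : IsMz β k r) (hl : 1 ≤ l)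
    (hlk : l < k) (hκ : 0 < κ) (hε : 0 < ε) (hv : ε ≤ vv r l)
    (hp : ∀ u, 0 ≤ u → u ≤ ε →
      (r l + u) / β ^ 2 + κ * u ≤ Gam k (Function.update r l (r l + u)) l) : False := by
  have hk : 0 < k := by omega
  have hk' : (0 : ℝ) < k := by exact_mod_cast hk
  have hb : 0 < β ^ 2 := by positivity
  set ρ : ℝ → ℕ → ℝ := fun u => Function.update r l (r l + u) with hρ
  have aρ : ∀ u, 0 ≤ u → u ≤ ε → AdmR (ρ u) := fun u h0 h1 => SO_adm h.adm hl h0 (h1.trans hv)
  have st : ∀ s s', 0 ≤ s → s ≤ s' → s' ≤ ε → PK β k (ρ s') - PK β k (ρ s) ≤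
      (1 / (2 * (k : ℝ))) * ((s' - s) * ((s' - s) / (2 * β ^ 2) - κ * s)) := fun s s' h0 h1 h2 => by
    obtain ⟨t, ht, e⟩ := PK_sub hβ hk (aρ s h0 (h1.trans h2)) (aρ s' (h0.trans h1) h2)
    have d0 := sub_nonneg.2 h1
    have u0 : s ≤ s + t * (s' - s) := by nlinarith [ht.1]
    have u1 : s + t * (s' - s) ≤ s' := by nlinarith [ht.2]
    rw [show (fun j => ρ s j + t * (ρ s' j - ρ s j)) = ρ (s + t * (s' - s)) from
      funext fun j => by
        rcases eq_or_ne j l with rfl | hj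
        · simp only [ρ, Function.update_self]; ring
        · simp only [ρ, Function.update_of_ne hj]; ring,
      sum_eq_single_of_mem l (mem_range.2 hlk) fun j _ hj => by
        simp only [ρ, Function.update_of_ne hj, sub_self, zero_mul],
      pS_Gam (aρ _ (h0.trans u0) (u1.trans h2)) hlk] at e
    have c1 := hp _ (h0.trans u0) (u1.trans h2)
    have c2 : (r l + s) / β ^ 2 ≤ (r l + (s + t * (s' - s))) / β ^ 2 :=
      div_le_div_of_nonneg_right (by linarith) hb.le
    have c3 := mul_le_mul_of_nonneg_left u0 hκ.le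
    have c4 : (r l + s' + (r l + s)) / (2 * β ^ 2) = (r l + s) / β ^ 2 + (s' - s) / (2 * β ^ 2) := by
      field_simp; ring
    rw [e]
    refine mul_le_mul_of_nonneg_left ?_ (by positivity)
    simp only [ρ, Function.update_self] at c1 ⊢
    rw [show r l + s' - (r l + s) = s' - s by ring, c4]
    exact mul_le_mul_of_nonneg_left (by linarith) d0
  have m := mono_of_quad (h := fun s => -PK β k (ρ (s * ε)) - κ * (s * ε) ^ 2 / (4 * k))
    (c := (1 / β ^ 2 + κ) / (4 * k) * ε ^ 2) fun s s' h0 h1 h2 => by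
      have := st (s * ε) (s' * ε) (by positivity) (mul_le_mul_of_nonneg_right h1 hε.le)
        (mul_le_of_le_one_left hε.le h2)
      have e : (1 / (2 * (k : ℝ))) * ((s' * ε - s * ε) * ((s' * ε - s * ε) / (2 * β ^ 2) -
          κ * (s * ε))) + κ * (s' * ε) ^ 2 / (4 * k) - κ * (s * ε) ^ 2 / (4 * k) =
          (1 / β ^ 2 + κ) / (4 * k) * ε ^ 2 * (s' - s) ^ 2 := by
        field_simp; ring
      linarith
  have e0 : ρ 0 = r := by simp [ρ]
  have m2 := h.min (ρ ε) (aρ ε hε.le le_rfl) fun j => by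
    rcases eq_or_ne j l with rfl | hj
    · have := SO_le h (j + 1)
      simp only [vv] at hv
      simp only [ρ, Function.update_self]; linarith
    · simp only [ρ, Function.update_of_ne hj]; exact SO_le h j
  have m3 : 0 < κ * ε ^ 2 / (4 * k) := by positivity
  simp only [zero_mul, one_mul, e0] at m
  norm_num at m
  linarith

/-- By `gap` (first part) `Nn` is constant on clusters, and `r (k - 1) ≤ β ^ 2 < r k`, so assume
`r l < r (l + 1)`. Let `F ε = PK β k (update r l (r l + ε))`, `p ε = Gam k (update …) l`. If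
`Nn l > 1 / β ^ 2 + (C + 1) / k` then by `Gam_move`, `gap_incr`, `gap_ends`, `IsMz.fo`
`p ε ≥ (r l + ε) / β ^ 2 + κ ε` for small `ε`, with `κ > 0`. `PK_sub` between `s` and `s'` gives
`F s' - F s ≤ (s' - s) / (2 k) * ((s' - s) / (2 β ^ 2) - κ s)`, so that
`G s = -F s - κ s ^ 2 / (4 k)` satisfies the hypothesis of `mono_of_32` (or of `mono_of_quad`),
and `F ε < F 0`, a contradiction. -/
theorem so (β : ℝ) (hβ : 0 < β) : ∃ C, 1 ≤ C ∧ ∀ (k : ℕ) (r : ℕ → ℝ), IsMz β k r → ∀ l, 1 ≤ l →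
    l < k → Nn k r l ≤ 1 / β ^ 2 + C / k := by
  obtain ⟨C1, hC1, H1⟩ := Gam_move (β ^ 2 + 1)
  obtain ⟨C2, hC2, H2⟩ := gap_incr (β ^ 2 + 1)
  obtain ⟨C3, hC3, H3⟩ := gap (β ^ 2 + 1)
  have hb : 0 < β ^ 2 := by positivity
  refine ⟨C1, hC1, fun k r h => ?_⟩
  have A : ∀ l, 1 ≤ l → l < k → 0 < vv r l → Nn k r l ≤ 1 / β ^ 2 + C1 / k := fun l hl hlk hv => by
    by_contra hc
    have hk : 0 < k := by omega
    set κ := (Nn k r l - (1 / β ^ 2 + C1 / k)) / 2 with hκ
    have κ0 : 0 < κ := half_pos (sub_pos.2 (not_le.1 hc))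
    have C0 : 0 < C2 := by linarith
    refine SO_core hβ h hl hlk κ0 (lt_min hv (by positivity : 0 < (κ / C2) ^ 2)) (min_le_left _ _)
      fun u h0 h1 => ?_
    have u1 := h1.trans (min_le_left _ _)
    have a1 := abs_le.1 (H1 k r l h.adm (SO_le h k) hl hlk u h0 u1)
    have a2 := abs_le.1 (H2 k r l h.adm (SO_le h k) hlk 0 u le_rfl h0 u1).1
    obtain ⟨e1, -, e2, -⟩ := gap_ends h.adm hlk
    have a3 : √u ≤ κ / C2 := sqrt_le_iff.2 ⟨by positivity, h1.trans (min_le_right _ _)⟩
    have a4 : C2 * (u * √u) ≤ κ * u := by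
      rw [le_div_iff₀ C0] at a3
      nlinarith
    have a5 : (r l + u) / β ^ 2 = Gam k r l + u * (1 / β ^ 2) := by
      rw [h.fo hβ hk hlk]; field_simp
    have a6 : u * Nn k r l = u * (1 / β ^ 2) + C1 * u / k + 2 * (κ * u) := by rw [hκ]; ring
    rw [sub_zero, e1, e2] at a2
    linarith [a1.1, a2.1]
  intro l hl hlk
  induction hn : k - l generalizing l with
  | zero => omega
  | succ n ih =>
    rcases (vv_nonneg h.adm l).eq_or_lt with hv | hv
    · have b1 := (H3 k r l h.adm (SO_le h k) hlk).1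
      rw [← hv, mul_zero, abs_nonpos_iff, sub_eq_zero] at b1
      rw [← b1]
      refine ih (l + 1) (by omega) (lt_of_le_of_ne hlk fun e => ?_) (by omega)
      have b2 := h.top (l + 1) e.ge
      have b3 := h.fo hβ (by omega) hlk
      have b4 := mul_le_of_le_one_right hb.le (Gam_mem h.adm hlk).2
      simp only [vv] at hv
      linarith
    · exact A l hl hlk hv

end

end Vale.Agent.P146L
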