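import Vale.Agent.P146L.Defs

/-! Static inequality: the weight, integration by parts, moments. -/

set_option linter.all false

namespace Vale.Agent.P146L

open MeasureTheory ProbabilityTheory Real Finset Filter Topology Vale.Agent.P146M Vale.Agent.P146

noncomputable section

variable {ψ u a : ℝ → ℝ} {A : ℝ}

theorem St1_A (h : SH ψ u a A) : 0 ≤ A := (h.a_nn 0).trans (h.a_le 0)

theorem St1_cont (h : SH ψ u a A) : Continuous ψ :=
  continuous_iff_continuousAt.2 fun y => (h.d0 y).continuousAt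

theorem St1_contu (h : SH ψ u a A) : Continuous u :=
  continuous_iff_continuousAt.2 fun y => (h.d1 y).continuousAt

theorem St1_psi (h : SH ψ u a A) {y : ℝ} (hy : 0 ≤ y) : ψ y ≤ ψ 0 + A * y := by
  have h1 : Monotone fun y => A * y - ψ y :=
    monotone_of_hasDerivAt_nonneg (f' := fun y => A * 1 - u y)
      (fun y => ((hasDerivAt_id y).const_mul A).sub (h.d0 y)) fun y => by
        have := (abs_le.1 (h.u_le y)).2
        simp only [Pi.zero_apply]
        linarith
  have := h1 hy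
  simp only at this
  linarith

theorem St1_intw (h : SH ψ u a A) {f : ℝ → ℝ} (hf : Measurable f) {C : ℝ}
    (hb : ∀ y, 0 < y → |f y| ≤ C * (1 + y) ^ 4) :
    IntegrableOn (fun y => f y * exp (-y ^ 2 / 2 + ψ y)) (Set.Ioi 0) := by
  have hc := St1_cont h
  have hg := ((integrable_exp_neg_mul_sq (b := 1 / 4) (by norm_num)).const_mul
    (|C| * 24 * exp (1 + ψ 0 + (A + 1) ^ 2))).integrableOn (s := Set.Ioi 0)
  refine hg.mono' (hf.mul (by fun_prop)).aestronglyMeasurable
    ((ae_restrict_iff' measurableSet_Ioi).2 (Eventually.of_forall fun y hy => ?_))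
  have hy0 : 0 < y := hy
  have h1 : (1 + y) ^ 4 ≤ 24 * exp (1 + y) := by
    have := Real.pow_div_factorial_le_exp (1 + y) (by linarith) 4
    rw [div_le_iff₀ (by positivity)] at this
    norm_num [Nat.factorial] at this
    linarith
  have h2 : |f y| ≤ |C| * (24 * exp (1 + y)) :=
    (hb y hy0).trans (mul_le_mul (le_abs_self C) h1 (by positivity) (abs_nonneg C))
  have h3 : exp (1 + y) * exp (-y ^ 2 / 2 + ψ y) ≤
      exp (1 + ψ 0 + (A + 1) ^ 2) * exp (-(1 / 4) * y ^ 2) := by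
    rw [← exp_add, ← exp_add, exp_le_exp]
    nlinarith [St1_psi h hy0.le, sq_nonneg (y / 2 - (A + 1))]
  rw [norm_mul, Real.norm_eq_abs, Real.norm_of_nonneg (exp_pos _).le]
  calc |f y| * exp (-y ^ 2 / 2 + ψ y) ≤ |C| * (24 * exp (1 + y)) * exp (-y ^ 2 / 2 + ψ y) :=
        mul_le_mul_of_nonneg_right h2 (exp_pos _).le
    _ = |C| * 24 * (exp (1 + y) * exp (-y ^ 2 / 2 + ψ y)) := by ring
    _ ≤ |C| * 24 * (exp (1 + ψ 0 + (A + 1) ^ 2) * exp (-(1 / 4) * y ^ 2)) := by gcongr
    _ = _ := by ring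

theorem St1_one {y : ℝ} (hy : 0 < y) (k : ℕ) : 1 ≤ (1 + y) ^ k := one_le_pow₀ (by linarith)

theorem St1_w (h : SH ψ u a A) :
    Integrable (fun y => exp (-y ^ 2 / 2 + ψ y)) (volume.restrict (Set.Ioi (0 : ℝ))) := by
  have := St1_intw h (f := fun _ => 1) measurable_const (C := 1) fun y hy => by
    simpa using St1_one hy 4
  simpa [IntegrableOn] using this

theorem St1_ne : NeZero (volume.restrict (Set.Ioi (0 : ℝ))) :=
  ⟨by simp⟩

/-- Hint: `|ψ y - ψ 0| ≤ A * |y|` by the mean value inequality, compare with a Gaussian integral;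
`isProbabilityMeasure_tilted`. -/
theorem SH.prob (h : SH ψ u a A) : IsProbabilityMeasure (rho ψ) := by
  have := St1_ne
  exact isProbabilityMeasure_tilted (St1_w h)

/-- Hint: `integrable_tilted_iff`; `(1 + y) ^ 4 ≤ 24 * exp (1 + y)`. -/
theorem SH.int (h : SH ψ u a A) {f : ℝ → ℝ} (hf : Measurable f) {C : ℝ}
    (hb : ∀ y, 0 < y → |f y| ≤ C * (1 + y) ^ 4) : Integrable f (rho ψ) := by
  rw [rho, integrable_tilted_iff (St1_w h)]
  simpa only [smul_eq_mul, mul_comm, IntegrableOn] using St1_intw h hf hb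

/-- set integrals against `rho` (`setIntegral_tilted` or `integral_tilted` on an indicator) -/
theorem SH.setInt (h : SH ψ u a A) {s : Set ℝ} (hs : MeasurableSet s) (hs0 : s ⊆ Set.Ioi 0)
    (f : ℝ → ℝ) : ∫ y in s, f y ∂rho ψ = (∫ y in s, f y * exp (-y ^ 2 / 2 + ψ y)) /
      ∫ y in Set.Ioi (0 : ℝ), exp (-y ^ 2 / 2 + ψ y) := by
  rw [rho, setIntegral_tilted' _ _ hs, Measure.restrict_restrict hs, Set.inter_eq_left.2 hs0,
    ← integral_div]
  refine integral_congr_ae (Eventually.of_forall fun y => ?_)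
  simp only [smul_eq_mul]
  ring

theorem SH.Z_pos (h : SH ψ u a A) : 0 < ∫ y in Set.Ioi (0 : ℝ), exp (-y ^ 2 / 2 + ψ y) := by
  have := St1_ne
  exact integral_exp_pos (St1_w h)

theorem SH.int_w (h : SH ψ u a A) {f : ℝ → ℝ} (hf : Measurable f) {C : ℝ}
    (hb : ∀ y, 0 < y → |f y| ≤ C * (1 + y) ^ 4) :
    IntegrableOn (fun y => f y * exp (-y ^ 2 / 2 + ψ y)) (Set.Ioi 0) :=
  St1_intw h hf hb

theorem SH.ae_pos (h : SH ψ u a A) : ∀ᵐ y ∂rho ψ, 0 < y :=
  (tilted_absolutelyContinuous _ _).ae_le (ae_restrict_mem measurableSet_Ioi)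

theorem St1_Es (ψ f : ℝ → ℝ) : Es ψ f = (∫ y in Set.Ioi (0 : ℝ), f y * exp (-y ^ 2 / 2 + ψ y)) /
    ∫ y in Set.Ioi (0 : ℝ), exp (-y ^ 2 / 2 + ψ y) := by
  rw [Es, rho, integral_tilted, ← integral_div]
  refine integral_congr_ae (Eventually.of_forall fun y => ?_)
  simp only [smul_eq_mul]
  ring

/-- Integration by parts on the half line.
Hint: `integral_Ioi_of_hasDerivAt_of_tendsto` for `f y * exp (-y ^ 2 / 2 + ψ y)`. -/
theorem SH.ibp (h : SH ψ u a A) {f f' : ℝ → ℝ} (hd : ∀ y, HasDerivAt f (f' y) y) (h0 : f 0 = 0)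
    {C : ℝ} (hb : ∀ y, 0 < y → |f y| ≤ C * (1 + y) ^ 3)
    (hb' : ∀ y, 0 < y → |f' y| ≤ C * (1 + y) ^ 4) :
    Es ψ f' = Es ψ fun y => f y * (y - u y) := by
  have hA := St1_A h
  have hC : 0 ≤ C := by
    have := (abs_nonneg _).trans (hb 1 one_pos)
    nlinarith
  have mf : Measurable f := (continuous_iff_continuousAt.2 fun y => (hd y).continuousAt).measurable
  have mf' : Measurable f' := by
    have : f' = deriv f := funext fun y => (hd y).deriv.symm
    rw [this]
    exact measurable_deriv f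
  have i0 := St1_intw h mf (C := C) fun y hy => (hb y hy).trans
    (mul_le_mul_of_nonneg_left (pow_le_pow_right₀ (by linarith) (by norm_num)) hC)
  have i1 := St1_intw h mf' hb'
  have i2 := St1_intw h (f := fun y => f y * (y - u y))
    (mf.mul (measurable_id.sub (St1_contu h).measurable)) (C := C * (1 + A)) fun y hy => by
      have h1 : |y - u y| ≤ (1 + A) * (1 + y) := by
        have := abs_le.1 (h.u_le y)
        rw [abs_le]
        constructor <;> nlinarith [mul_nonneg hA hy.le]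
      rw [abs_mul]
      calc |f y| * |y - u y| ≤ C * (1 + y) ^ 3 * ((1 + A) * (1 + y)) :=
            mul_le_mul (hb y hy) h1 (abs_nonneg _) (by positivity)
        _ = _ := by ring
  have hD : ∀ y, HasDerivAt (fun y => f y * exp (-y ^ 2 / 2 + ψ y))
      (f' y * exp (-y ^ 2 / 2 + ψ y) - f y * (y - u y) * exp (-y ^ 2 / 2 + ψ y)) y := fun y => by
    have h1 := (hd y).mul (((((hasDerivAt_pow 2 y).neg).div_const 2).add (h.d0 y)).exp)
    refine h1.congr_deriv ?_
    simp only [Pi.add_apply, Pi.neg_apply]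
    push_cast
    ring
  have h1 := integral_Ioi_of_hasDerivAt_of_tendsto' (fun y _ => hD y) (i1.sub i2)
    (tendsto_zero_of_hasDerivAt_of_integrableOn_Ioi (fun y _ => hD y) (i1.sub i2) i0)
  rw [integral_sub i1 i2, h0, zero_mul, sub_zero, sub_eq_zero] at h1
  rw [St1_Es, St1_Es, h1]

/-- `u` is nondecreasing and concave on the half line. -/
theorem SH.mono (h : SH ψ u a A) {y y' : ℝ} (h0 : 0 ≤ y) (h1 : y ≤ y') :
    0 ≤ u y ∧ u y ≤ u y' ∧ u y' * y ≤ u y * y' ∧ u y ≤ A * y := by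
  have h2 : Monotone u := monotone_of_hasDerivAt_nonneg h.d1 h.a_nn
  have h3 : Monotone fun y => A * y - u y :=
    monotone_of_hasDerivAt_nonneg (f' := fun y => A * 1 - a y)
      (fun y => ((hasDerivAt_id y).const_mul A).sub (h.d1 y)) fun y => by
        have := h.a_le y
        simp only [Pi.zero_apply]
        linarith
  have h4 : ConcaveOn ℝ (Set.Ici 0) u := by
    refine AntitoneOn.concaveOn_of_deriv (convex_Ici 0) (St1_contu h).continuousOn
      (fun y _ => (h.d1 y).differentiableAt.differentiableWithinAt) ?_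
    have : deriv u = a := funext fun y => (h.d1 y).deriv
    rw [this]
    exact h.anti.mono interior_subset
  refine ⟨h.u0 ▸ h2 h0, h2 h1, ?_, ?_⟩
  · rcases (h0.trans h1).eq_or_lt with h5 | h5
    · obtain rfl : y = 0 := le_antisymm (h5 ▸ h1) h0
      rw [← h5]
    · have h6 := h4.2 (Set.self_mem_Ici (a := (0 : ℝ))) (show y' ∈ Set.Ici (0 : ℝ) from h5.le)
        (sub_nonneg.2 ((div_le_one h5).2 h1)) (div_nonneg h0 h5.le) (by ring)
      simp only [smul_eq_mul, h.u0, mul_zero, zero_add, div_mul_cancel₀ _ h5.ne'] at h6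
      rw [div_mul_eq_mul_div, div_le_iff₀ h5] at h6
      linarith
  · have := h3 h0
    simp only [h.u0] at this
    linarith

theorem St1_pow {y : ℝ} (hy : 0 < y) {k n : ℕ} (hk : k ≤ n) : |y ^ k| ≤ (1 + y) ^ n := by
  rw [abs_of_pos (pow_pos hy k)]
  exact (pow_le_pow_left₀ hy.le (by linarith) k).trans (pow_le_pow_right₀ (by linarith) hk)

theorem St1_ip (h : SH ψ u a A) {k : ℕ} (hk : k ≤ 4) : Integrable (fun y => y ^ k) (rho ψ) :=
  h.int (by fun_prop) (C := 1) fun y hy => by simpa only [one_mul] using St1_pow hy hk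

theorem St1_iu (h : SH ψ u a A) {k : ℕ} (hk : k ≤ 4) :
    Integrable (fun y => y ^ k * u y) (rho ψ) :=
  h.int ((measurable_id.pow_const k).mul (St1_contu h).measurable) (C := A) fun y hy => by
    rw [abs_mul, mul_comm]
    exact mul_le_mul (h.u_le y) (St1_pow hy hk) (abs_nonneg _) (St1_A h)

theorem St1_iuu (h : SH ψ u a A) : Integrable (fun y => u y ^ 2) (rho ψ) :=
  h.int ((St1_contu h).measurable.pow_const 2) (C := A ^ 2) fun y hy => by
    rw [abs_pow]
    exact (pow_le_pow_left₀ (abs_nonneg _) (h.u_le y) 2).trans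
      (le_mul_of_one_le_right (sq_nonneg A) (St1_one hy 4))

theorem St1_lin (h : SH ψ u a A) {f1 f2 f3 f4 : ℝ → ℝ} (i1 : Integrable f1 (rho ψ))
    (i2 : Integrable f2 (rho ψ)) (i3 : Integrable f3 (rho ψ)) (i4 : Integrable f4 (rho ψ))
    (c1 c2 c3 c4 : ℝ) (hp : ∀ y, 0 < y → c1 * f1 y + c2 * f2 y + c3 * f3 y + c4 * f4 y ≤ 0) :
    c1 * Es ψ f1 + c2 * Es ψ f2 + c3 * Es ψ f3 + c4 * Es ψ f4 ≤ 0 := by
  have h1 : ∫ y, (c1 * f1 y + c2 * f2 y + c3 * f3 y + c4 * f4 y) ∂rho ψ ≤ 0 :=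
    integral_nonpos_of_ae (h.ae_pos.mono hp)
  have j2 : Integrable (fun y => c1 * f1 y + c2 * f2 y) (rho ψ) :=
    (i1.const_mul c1).add (i2.const_mul c2)
  have j3 : Integrable (fun y => c1 * f1 y + c2 * f2 y + c3 * f3 y) (rho ψ) :=
    j2.add (i3.const_mul c3)
  rwa [integral_add j3 (i4.const_mul c4), integral_add j2 (i3.const_mul c3),
    integral_add (i1.const_mul c1) (i2.const_mul c2), integral_const_mul, integral_const_mul,
    integral_const_mul, integral_const_mul] at h1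

theorem St1_ibp_pow (h : SH ψ u a A) {k : ℕ} (hk : k ≤ 2) :
    (k + 1) * Es ψ (fun y => y ^ k) =
      Es ψ (fun y => y ^ (k + 2)) - Es ψ fun y => y ^ (k + 1) * u y := by
  have hk' : (k : ℝ) ≤ 2 := by exact_mod_cast hk
  have h1 := h.ibp (f := fun y => y ^ (k + 1)) (f' := fun y => (k + 1) * y ^ k)
    (fun y => by simpa using hasDerivAt_pow (k + 1) y) (by simp) (C := 3)
    (fun y hy => (St1_pow hy (by omega : k + 1 ≤ 3)).trans
      (le_mul_of_one_le_left (by positivity) (by norm_num)))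
    (fun y hy => by
      rw [abs_mul, abs_of_nonneg (by positivity : (0 : ℝ) ≤ k + 1)]
      exact mul_le_mul (by linarith) (St1_pow hy (by omega)) (abs_nonneg _) (by norm_num))
  unfold Es at h1 ⊢
  rw [← integral_const_mul, h1, ← integral_sub (St1_ip h (by omega)) (St1_iu h (by omega))]
  exact integral_congr_ae (Eventually.of_forall fun y => by ring)

theorem St1_cheb (h : SH ψ u a A) {k : ℕ} (hk : k ≤ 2) {t : ℝ} (ht : 0 < t)
    (he : t ^ k * Es ψ (fun y => y ^ 2) = Es ψ fun y => y ^ (k + 2)) :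
    Es ψ (fun y => y ^ (k + 1) * u y) ≤ t ^ k * Es ψ fun y => y ^ 1 * u y := by
  have h1 := St1_lin h (St1_iu h (by omega : k + 1 ≤ 4)) (St1_ip h (by omega : k + 2 ≤ 4))
    (St1_iu h (by omega : 1 ≤ 4)) (St1_ip h (by omega : 2 ≤ 4)) t (-u t) (-(t ^ k * t))
    (t ^ k * u t) fun y hy => by
      have e : t * (y ^ (k + 1) * u y) + -u t * y ^ (k + 2) + -(t ^ k * t) * (y ^ 1 * u y) +
          t ^ k * u t * y ^ 2 = y * ((y ^ k - t ^ k) * (u y * t - u t * y)) := by ring
      rw [e]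
      refine mul_nonpos_of_nonneg_of_nonpos hy.le ?_
      rcases le_total y t with h2 | h2
      · exact mul_nonpos_of_nonpos_of_nonneg (sub_nonpos.2 (pow_le_pow_left₀ hy.le h2 k))
          (sub_nonneg.2 (h.mono hy.le h2).2.2.1)
      · exact mul_nonpos_of_nonneg_of_nonpos (sub_nonneg.2 (pow_le_pow_left₀ ht.le h2 k))
          (sub_nonpos.2 (h.mono ht.le h2).2.2.1)
  rw [← he] at h1
  exact le_of_mul_le_mul_left (by linarith) ht

theorem St1_nn (h : SH ψ u a A) {f : ℝ → ℝ} (hf : ∀ y, 0 < y → 0 ≤ f y) : 0 ≤ Es ψ f :=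
  integral_nonneg_of_ae (h.ae_pos.mono hf)

/-- The moment identities and inequalities. Hints: `SH.ibp` with `f = y, u, y ^ 2, y ^ 3`.
With `N = E y ^ 2`, `c = E y ^ 4 / N`, `t = √c`: pointwise
`(y ^ 2 - c) * y * (u y - y * u t / t) ≤ 0`, so `E y ^ 3 u ≤ c * P`, and `N - P = 1`.
Same for the third moment with `c = E y ^ 3 / N`: `(y - c) * y * (u y - y * u c / c) ≤ 0`.
Last: with `m = E y`, `c = u m`: `(u y - c) * (u y - c * y / m) ≤ 0` and `(u y - c) * (y - m) ≥ 0`
give `U ≤ 2 * c * P / m - c ^ 2 ≤ P ^ 2 / m ^ 2`. -/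
theorem SH.mom (h : SH ψ u a A) {N P U m : ℝ} (hN : N = Es ψ fun y => y ^ 2)
    (hP : P = Es ψ fun y => y * u y) (hU : U = Es ψ fun y => u y ^ 2) (hm : m = Es ψ fun y => y) :
    N = 1 + P ∧ Es ψ a = P - U ∧ 0 ≤ U ∧ U ≤ P ∧ 0 < m ∧ Es ψ (fun y => y ^ 4) ≤ 3 * N ^ 2 ∧
      Es ψ (fun y => y ^ 3) ≤ 2 * N * m ∧ U * m ^ 2 ≤ P ^ 2 := by
  have := h.prob
  have hA := St1_A h
  have e1 : Es ψ (fun y => y ^ 0) = 1 := by simp [Es]
  have hP' : P = Es ψ fun y => y ^ 1 * u y := by simp only [hP, pow_one]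
  have hm' : m = Es ψ fun y => y ^ 1 := by simp only [hm, pow_one]
  have b0 := St1_ibp_pow h (k := 0) (by norm_num)
  have b1 := St1_ibp_pow h (k := 1) (by norm_num)
  have b2 := St1_ibp_pow h (k := 2) (by norm_num)
  simp only [zero_add, Nat.reduceAdd, Nat.cast_zero, Nat.cast_one, Nat.cast_ofNat] at b0 b1 b2
  rw [e1, ← hN, ← hP'] at b0
  rw [← hm'] at b1
  rw [← hN] at b2
  have hP0 : 0 ≤ P := hP ▸ St1_nn h fun y hy => mul_nonneg hy.le (h.mono hy.le le_rfl).1
  have hN0 : 0 < N := by linarith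
  have ba : Es ψ a = P - U := by
    rw [h.ibp h.d1 h.u0 (C := A)
      (fun y hy => (h.u_le y).trans (le_mul_of_one_le_right hA (St1_one hy 3)))
      (fun y hy => by
        rw [abs_of_nonneg (h.a_nn y)]
        exact (h.a_le y).trans (le_mul_of_one_le_right hA (St1_one hy 4))), hP', hU]
    unfold Es
    rw [← integral_sub (St1_iu h (by norm_num)) (St1_iuu h)]
    exact integral_congr_ae (Eventually.of_forall fun y => by ring)
  have ha0 : 0 ≤ Es ψ a := St1_nn h fun y _ => h.a_nn y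
  have hm0 : 0 < m := by
    rw [hm']
    refine (St1_nn h fun y hy => (pow_pos hy 1).le).lt_of_ne' fun h0 => ?_
    have h1 := (integral_eq_zero_iff_of_nonneg_ae
      (h.ae_pos.mono fun y hy => (pow_pos hy 1).le) (St1_ip h (by norm_num))).1 h0
    obtain ⟨y, h2, h3⟩ := (h.ae_pos.and h1).exists
    exact (pow_pos h2 1).ne' h3
  have hNP : N = 1 + P := by linarith
  refine ⟨hNP, ba, hU ▸ St1_nn h fun y _ => sq_nonneg _, by linarith, hm0, ?_, ?_, ?_⟩
  · rcases le_or_gt (Es ψ fun y => y ^ 4) 0 with h4 | h4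
    · exact h4.trans (by positivity)
    have h5 : √((Es ψ fun y => y ^ 4) / N) ^ 2 * N = Es ψ fun y => y ^ 4 := by
      rw [Real.sq_sqrt (by positivity), div_mul_cancel₀ _ hN0.ne']
    have h6 := St1_cheb h (k := 2) le_rfl (Real.sqrt_pos.2 (div_pos h4 hN0)) (hN ▸ h5)
    rw [← hP'] at h6
    simp only [Nat.reduceAdd] at h6
    generalize √((Es ψ fun y => y ^ 4) / N) ^ 2 = c at h5 h6
    have h7 : c ≤ 3 * N := by nlinarith
    nlinarith
  · rcases le_or_gt (Es ψ fun y => y ^ 3) 0 with h4 | h4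
    · exact h4.trans (by positivity)
    have h5 : ((Es ψ fun y => y ^ 3) / N) ^ 1 * N = Es ψ fun y => y ^ 3 := by
      rw [pow_one, div_mul_cancel₀ _ hN0.ne']
    have h6 := St1_cheb h (k := 1) (by norm_num) (div_pos h4 hN0) (hN ▸ h5)
    rw [← hP'] at h6
    simp only [Nat.reduceAdd] at h6
    generalize ((Es ψ fun y => y ^ 3) / N) ^ 1 = c at h5 h6
    have h7 : c ≤ 2 * m := by nlinarith
    nlinarith
  · have hc := (h.mono hm0.le le_rfl).1
    have h1 := St1_lin h (St1_iuu h) (St1_iu h (by omega : 1 ≤ 4)) (St1_iu h (by omega : 0 ≤ 4))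
      (St1_ip h (by omega : 1 ≤ 4)) m (-u m) (-(u m * m)) (u m * u m) fun y hy => by
        have e : m * u y ^ 2 + -u m * (y ^ 1 * u y) + -(u m * m) * (y ^ 0 * u y) +
            u m * u m * y ^ 1 = (u y - u m) * (u y * m - u m * y) := by ring
        rw [e]
        rcases le_total y m with h2 | h2
        · exact mul_nonpos_of_nonpos_of_nonneg (sub_nonpos.2 (h.mono hy.le h2).2.1)
            (sub_nonneg.2 (h.mono hy.le h2).2.2.1)
        · exact mul_nonpos_of_nonneg_of_nonpos (sub_nonneg.2 (h.mono hm0.le h2).2.1)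
            (sub_nonpos.2 (h.mono hm0.le h2).2.2.1)
    have h2 := St1_lin h (St1_iu h (by omega : 1 ≤ 4)) (St1_iu h (by omega : 0 ≤ 4))
      (St1_ip h (by omega : 1 ≤ 4)) (St1_ip h (by omega : 0 ≤ 4)) (-1) m (u m) (-(u m * m))
      fun y hy => by
        have e : -1 * (y ^ 1 * u y) + m * (y ^ 0 * u y) + u m * y ^ 1 + -(u m * m) * y ^ 0 =
            (u y - u m) * (m - y) := by ring
        rw [e]
        rcases le_total y m with h2 | h2
        · exact mul_nonpos_of_nonpos_of_nonneg (sub_nonpos.2 (h.mono hy.le h2).2.1)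
            (sub_nonneg.2 h2)
        · exact mul_nonpos_of_nonneg_of_nonpos (sub_nonneg.2 (h.mono hm0.le h2).2.1)
            (sub_nonpos.2 h2)
    rw [← hU, ← hP', ← hm'] at h1
    rw [← hP', ← hm', e1] at h2
    generalize (Es ψ fun y => y ^ 0 * u y) = V at h1 h2
    have h3 : m * U ≤ 2 * u m * P - u m * u m * m := by
      nlinarith [mul_le_mul_of_nonneg_left (show m * V ≤ P by linarith) hc]
    nlinarith [mul_le_mul_of_nonneg_left h3 hm0.le, sq_nonneg (P - u m * m)]

end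

end Vale.Agent.P146L
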