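import Vale.Agent.P146L.St1

/-! Static inequality: Dirichlet lower bounds on both sides of the zero of the test function. -/

set_option linter.all false

namespace Vale.Agent.P146L

open MeasureTheory ProbabilityTheory Real Finset Filter Topology Vale.Agent.P146M Vale.Agent.P146

noncomputable section

variable {ψ u a : ℝ → ℝ} {A : ℝ}

/-! Let `f y = u y - hh * y`, `f' = a - hh`, `w y = exp (-y ^ 2 / 2 + ψ y)`, `Y = ys ^ 2` and
`ω y = -(1 - s) / y + 2 * y / (Y - y ^ 2)`. Then `ω' - ω ^ 2 + ω * (u - y) = Pot s Y y (u y / y)` and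
`(f' ^ 2 - Pot * f ^ 2) * w = (f' + ω * f) ^ 2 * w - (ω * f ^ 2 * w)'`.
The function `G = ω * f ^ 2 * w` tends to zero at `0`, at `ys` (`|f y| ≤ C * y`,
`|f y| ≤ C * |y - ys|` by the mean value inequality) and at infinity. So
`g = (f' ^ 2 - Λ * f ^ 2) * w` is integrable and `g ≥ -G'` on the open interval. One may avoid the
integrability of `G'`: on `[x, x']` inside the interval `∫ g ≥ G x - G x'`
(`intervalIntegral.integral_le_sub_of_hasDeriv_right_of_le` or `sub_le_integral_of_hasDeriv_right_of_le`),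
then pass to the limit; or show that `G'` is bounded by `C * (1 + y) ^ 4 * w`. -/

/-- the boundary function -/
def St2G (ψ u : ℝ → ℝ) (ys s hh y : ℝ) : ℝ :=
  (-(1 - s) / y + 2 * y / (ys ^ 2 - y ^ 2)) * (u y - hh * y) ^ 2 * exp (-y ^ 2 / 2 + ψ y)

/-- the integrand -/
def St2g (ψ u a : ℝ → ℝ) (hh Λ y : ℝ) : ℝ :=
  (a y - hh) ^ 2 * exp (-y ^ 2 / 2 + ψ y) - Λ * ((u y - hh * y) ^ 2 * exp (-y ^ 2 / 2 + ψ y))

theorem St2_dslope {f : ℝ → ℝ} (hf : Differentiable ℝ f) (c : ℝ) : Continuous (dslope f c) := by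
  refine continuous_iff_continuousAt.2 fun y => ?_
  by_cases hy : y = c
  · rw [hy]
    exact continuousAt_dslope_same.2 (hf c)
  · exact (continuousAt_dslope_of_ne hy).2 (hf y).continuousAt

theorem St2_cont (h : SH ψ u a A) {ys s hh : ℝ} (hy : 0 < ys) (hu : u ys = hh * ys) :
    ContinuousOn (St2G ψ u ys s hh) (Set.Ici 0) := by
  have hf : Differentiable ℝ fun y => u y - hh * y := fun y =>
    ((h.d1 y).sub ((hasDerivAt_id y).const_mul hh)).differentiableAt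
  have hψ : Continuous ψ := continuous_iff_continuousAt.2 fun y => (h.d0 y).continuousAt
  have c0 := St2_dslope hf 0
  have c1 := St2_dslope hf ys
  have c2 := hf.continuous
  have c3 : ContinuousOn (fun y : ℝ => 2 * y / (ys + y)) (Set.Ici 0) :=
    ContinuousOn.div (by fun_prop) (by fun_prop) fun y hy' => by
      have : (0 : ℝ) ≤ y := hy'
      positivity
  have c4 : Continuous fun y : ℝ => exp (-y ^ 2 / 2 + ψ y) := by fun_prop
  refine ((((continuous_const (y := -(1 - s))).mul c0).continuousOn.sub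
    (c3.mul c1.continuousOn)).mul (c2.mul c4).continuousOn).congr fun y hy' => ?_
  have y0 : (0 : ℝ) ≤ y := hy'
  simp only [St2G, Pi.mul_apply, Pi.sub_apply]
  by_cases e0 : y = 0
  · simp [e0, h.u0]
  by_cases e1 : y = ys
  · simp [e1, hu]
  have n1 : ys + y ≠ 0 := by positivity
  have n2 : ys - y ≠ 0 := sub_ne_zero.2 (Ne.symm e1)
  have n3 : y - ys ≠ 0 := sub_ne_zero.2 e1
  rw [dslope_of_ne _ e0, dslope_of_ne _ e1, slope_def_field, slope_def_field, h.u0, hu,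
    show ys ^ 2 - y ^ 2 = (ys + y) * (ys - y) by ring]
  field_simp
  ring

theorem St2_deriv (h : SH ψ u a A) {ys s hh Λ y : ℝ} (hy : 0 < ys) (y0 : 0 < y) (y1 : y ≠ ys)
    (hΛ : Λ ≤ Pot s (ys ^ 2) y (u y / y)) :
    ∃ G', HasDerivAt (St2G ψ u ys s hh) G' y ∧ -G' ≤ St2g ψ u a hh Λ y := by
  have n1 : ys ^ 2 - y ^ 2 ≠ 0 := by
    rw [show ys ^ 2 - y ^ 2 = (ys + y) * (ys - y) by ring]
    exact mul_ne_zero (by positivity) (sub_ne_zero.2 y1.symm)
  have d1 : HasDerivAt (fun y : ℝ => -(1 - s) / y + 2 * y / (ys ^ 2 - y ^ 2))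
      ((1 - s) / y ^ 2 + (2 / (ys ^ 2 - y ^ 2) + 4 * y ^ 2 / (ys ^ 2 - y ^ 2) ^ 2)) y := by
    have e1 := (hasDerivAt_const y (-(1 - s))).div (hasDerivAt_id y) y0.ne'
    have e2 := ((hasDerivAt_id y).const_mul 2).div
      ((hasDerivAt_const y (ys ^ 2)).sub (hasDerivAt_pow 2 y)) n1
    refine (e1.add e2).congr_deriv ?_
    simp only [id, Pi.sub_apply]
    field_simp
    ring
  have d2 : HasDerivAt (fun y => (u y - hh * y) ^ 2) (2 * (u y - hh * y) * (a y - hh)) y := by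
    refine (((h.d1 y).sub ((hasDerivAt_id y).const_mul hh)).pow 2).congr_deriv ?_
    simp
  have d3 : HasDerivAt (fun y => exp (-y ^ 2 / 2 + ψ y))
      (exp (-y ^ 2 / 2 + ψ y) * (u y - y)) y := by
    refine ((((hasDerivAt_pow 2 y).neg.div_const 2).add (h.d0 y)).exp).congr_deriv ?_
    simp only [Pi.add_apply, Pi.neg_apply]
    norm_num
    ring
  refine ⟨_, (d1.mul d2).mul d3, ?_⟩
  simp only [St2g, Pi.mul_apply]
  obtain ⟨w, hw⟩ : ∃ w, w = exp (-y ^ 2 / 2 + ψ y) := ⟨_, rfl⟩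
  obtain ⟨f, hf⟩ : ∃ f, f = u y - hh * y := ⟨_, rfl⟩
  obtain ⟨o, ho⟩ : ∃ o, o = -(1 - s) / y + 2 * y / (ys ^ 2 - y ^ 2) := ⟨_, rfl⟩
  obtain ⟨o', ho'⟩ : ∃ o', o' = (1 - s) / y ^ 2 + (2 / (ys ^ 2 - y ^ 2) +
    4 * y ^ 2 / (ys ^ 2 - y ^ 2) ^ 2) := ⟨_, rfl⟩
  have e : Pot s (ys ^ 2) y (u y / y) = o' - o ^ 2 + o * (u y - y) := by
    rw [ho, ho', Pot]
    field_simp
    ring
  rw [← hw, ← hf, ← ho, ← ho']
  have w0 : 0 < w := hw ▸ exp_pos _
  have p1 : 0 ≤ (a y - hh + o * f) ^ 2 * w := by positivity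
  have p2 : Λ * (f ^ 2 * w) ≤ (o' - o ^ 2 + o * (u y - y)) * (f ^ 2 * w) :=
    mul_le_mul_of_nonneg_right (e ▸ hΛ) (by positivity)
  nlinarith

theorem St2_int1 (h : SH ψ u a A) (hh : ℝ) :
    IntegrableOn (fun y => (a y - hh) ^ 2 * exp (-y ^ 2 / 2 + ψ y)) (Set.Ioi 0) := by
  have ma : Measurable a := by
    rw [show a = deriv u from funext fun y => (h.d1 y).deriv.symm]
    exact measurable_deriv u
  refine h.int_w (f := fun y => (a y - hh) ^ 2) (by fun_prop) (C := (A + |hh|) ^ 2) fun y hy => ?_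
  have h1 : |a y - hh| ≤ A + |hh| :=
    (abs_sub _ _).trans (by rw [abs_of_nonneg (h.a_nn y)]; linarith [h.a_le y])
  rw [abs_pow]
  exact (pow_le_pow_left₀ (abs_nonneg _) h1 2).trans
    (le_mul_of_one_le_right (sq_nonneg _) (one_le_pow₀ (by linarith)))

theorem St2_int2 (h : SH ψ u a A) (hh : ℝ) :
    IntegrableOn (fun y => (u y - hh * y) ^ 2 * exp (-y ^ 2 / 2 + ψ y)) (Set.Ioi 0) := by
  have mu : Measurable u :=
    (continuous_iff_continuousAt.2 fun y => (h.d1 y).continuousAt).measurable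
  refine h.int_w (f := fun y => (u y - hh * y) ^ 2) (by fun_prop) (C := (A + |hh|) ^ 2)
    fun y hy => ?_
  have A0 : 0 ≤ A := (h.a_nn 0).trans (h.a_le 0)
  have h1 : |u y - hh * y| ≤ (A + |hh|) * (1 + y) := by
    refine (abs_sub _ _).trans ?_
    rw [abs_mul, abs_of_pos hy]
    nlinarith [h.u_le y, abs_nonneg hh]
  rw [abs_pow]
  refine (pow_le_pow_left₀ (abs_nonneg _) h1 2).trans ?_
  rw [mul_pow]
  exact mul_le_mul_of_nonneg_left (pow_le_pow_right₀ (by linarith) (by norm_num)) (sq_nonneg _)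

theorem St2_int (h : SH ψ u a A) (hh Λ : ℝ) : IntegrableOn (St2g ψ u a hh Λ) (Set.Ioi 0) :=
  (St2_int1 h hh).sub ((St2_int2 h hh).const_mul Λ)

theorem St2_key (h : SH ψ u a A) {ys s hh Λ x x' : ℝ} (hy : 0 < ys) (hu : u ys = hh * ys)
    (x0 : 0 ≤ x) (hx : x ≤ x')
    (hΛ : ∀ y ∈ Set.Ioo x x', y ≠ ys ∧ Λ ≤ Pot s (ys ^ 2) y (u y / y)) :
    St2G ψ u ys s hh x - St2G ψ u ys s hh x' ≤ ∫ y in x..x', St2g ψ u a hh Λ y := by
  have H : ∀ y, ∃ G', y ∈ Set.Ioo x x' →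
      HasDerivAt (St2G ψ u ys s hh) G' y ∧ -G' ≤ St2g ψ u a hh Λ y := fun y => by
    by_cases c : y ∈ Set.Ioo x x'
    · obtain ⟨G', hG⟩ := St2_deriv (hh := hh) h hy (x0.trans_lt c.1) (hΛ y c).1 (hΛ y c).2
      exact ⟨G', fun _ => hG⟩
    · exact ⟨0, fun c' => absurd c' c⟩
  choose G' hG using H
  have := intervalIntegral.sub_le_integral_of_hasDeriv_right_of_le
    (g := fun y => -St2G ψ u ys s hh y) (g' := fun y => -G' y) (φ := St2g ψ u a hh Λ) hx
    ((St2_cont h hy hu).mono fun y hy' => x0.trans hy'.1).neg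
    (fun y hy' => (hG y hy').1.neg.hasDerivWithinAt)
    ((integrableOn_Icc_iff_integrableOn_Ioc).2
      ((St2_int h hh Λ).mono_set fun y hy' => x0.trans_lt hy'.1))
    fun y hy' => (hG y hy').2
  linarith

theorem St2_fin (h : SH ψ u a A) {hh Λ : ℝ} {S : Set ℝ} (hS : MeasurableSet S)
    (hS0 : S ⊆ Set.Ioi 0) (hp : 0 ≤ ∫ y in S, St2g ψ u a hh Λ y) :
    Λ * ∫ y in S, (u y - hh * y) ^ 2 ∂rho ψ ≤ ∫ y in S, (a y - hh) ^ 2 ∂rho ψ := by
  rw [h.setInt hS hS0, h.setInt hS hS0, ← mul_div_assoc]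
  refine div_le_div_of_nonneg_right ?_ h.Z_pos.le
  simp only [St2g] at hp
  rw [integral_sub ((St2_int1 h hh).mono_set hS0) (((St2_int2 h hh).mono_set hS0).const_mul Λ),
    integral_const_mul] at hp
  linarith

theorem SH.dir_in (h : SH ψ u a A) {ys s hh Λ : ℝ} (hy : 0 < ys) (hu : u ys = hh * ys)
    (hΛ : ∀ y, 0 < y → y < ys → Λ ≤ Pot s (ys ^ 2) y (u y / y)) :
    Λ * ∫ y in Set.Ioo 0 ys, (u y - hh * y) ^ 2 ∂rho ψ ≤
      ∫ y in Set.Ioo 0 ys, (a y - hh) ^ 2 ∂rho ψ := by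
  refine St2_fin h measurableSet_Ioo (fun y hy' => hy'.1) ?_
  have := St2_key (s := s) (Λ := Λ) h hy hu le_rfl hy.le fun y hy' =>
    ⟨hy'.2.ne, hΛ y hy'.1 hy'.2⟩
  rw [intervalIntegral.integral_of_le hy.le, integral_Ioc_eq_integral_Ioo] at this
  simpa [St2G, h.u0, hu] using this

theorem SH.dir_out (h : SH ψ u a A) {ys s hh Λ : ℝ} (hy : 0 < ys) (hu : u ys = hh * ys)
    (hΛ : ∀ y, ys < y → Λ ≤ Pot s (ys ^ 2) y (u y / y)) :
    Λ * ∫ y in Set.Ioi ys, (u y - hh * y) ^ 2 ∂rho ψ ≤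
      ∫ y in Set.Ioi ys, (a y - hh) ^ 2 ∂rho ψ := by
  have sub : Set.Ioi ys ⊆ Set.Ioi 0 := Set.Ioi_subset_Ioi hy.le
  refine St2_fin h measurableSet_Ioi sub ?_
  by_contra hc
  obtain ⟨c, c1, c2⟩ := exists_between (not_le.1 hc)
  have t := intervalIntegral_tendsto_integral_Ioi ys ((St2_int h hh Λ).mono_set sub) tendsto_id
  obtain ⟨b, hb⟩ := eventually_atTop.1 ((t.eventually (gt_mem_nhds c1)).and
    ((eventually_ge_atTop ys).and (eventually_ge_atTop 1)))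
  have b0 : 1 ≤ b := (hb b le_rfl).2.2
  have i1 : IntegrableOn (fun _ : ℝ => -c) (Set.Ioi b) := by
    refine Integrable.mono' (((St2_int2 h hh).mono_set
      (Set.Ioi_subset_Ioi (by linarith : 0 ≤ b))).const_mul |1 - s|) aestronglyMeasurable_const ?_
    filter_upwards [ae_restrict_mem measurableSet_Ioi] with y hy'
    obtain ⟨k1, k2, k3⟩ := hb y (le_of_lt hy')
    have k4 := St2_key (s := s) (Λ := Λ) h hy hu hy.le k2 fun z hz => ⟨hz.1.ne', hΛ z hz.1⟩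
    have k5 : St2G ψ u ys s hh ys = 0 := by simp [St2G, hu]
    have k6 : -(1 - s) / y + 2 * y / (ys ^ 2 - y ^ 2) ≤ |1 - s| := by
      have k7 : 2 * y / (ys ^ 2 - y ^ 2) ≤ 0 :=
        div_nonpos_of_nonneg_of_nonpos (by linarith) (by nlinarith)
      have k8 : -(1 - s) / y ≤ |1 - s| := by
        rw [div_le_iff₀ (by linarith)]
        nlinarith [neg_abs_le (1 - s), abs_nonneg (1 - s)]
      linarith
    have k9 : St2G ψ u ys s hh y ≤ |1 - s| * ((u y - hh * y) ^ 2 * exp (-y ^ 2 / 2 + ψ y)) := by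
      rw [St2G, mul_assoc]
      exact mul_le_mul_of_nonneg_right k6 (by positivity)
    rw [Real.norm_eq_abs, abs_of_pos (by linarith)]
    simp only [id] at k1
    linarith
  rw [integrableOn_const_iff] at i1
  rcases i1 with i1 | i1
  · rw [enorm_eq_zero] at i1
    linarith
  · simp at i1

end

end Vale.Agent.P146L
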